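import Crest.Agent.R214.T6

/-! Block D1: from the torus to the down-set.
`field_double`: add the reflected field `x ↦ flip i (φ (flip i x))`; `E` is invariant under `flip i`.
`field_periodize`: `Φ x = φ (x - round x)` (coordinatewise `round`); near a point with a half-integer
coordinate `Φ` vanishes, elsewhere `round` is locally constant; `Per.integral_add` moves the cell to
`[-1/2, 1/2)³`.
`div_le_of_PLe`: rescale `φ (2 x)`, apply `field_double` three times and `field_periodize`.
`vol3_toD`, `ae_Mod_of_toD`: for `x` with no coordinate in `ℤ/2`, `x ∈ E ↔ (2 tau (x j))ⱼ ∈ toD E`; the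
map `x ↦ (2 tau (x j))ⱼ` sends `volume` on the cell to `volume` on the cube (product of the 1-d statement
`map_two_tau`). -/

set_option autoImplicit false
set_option linter.unusedVariables false
open MeasureTheory Set Filter Metric
open scoped Topology ENNReal NNReal
open Crest.GeometryTopology.PeriodicPerimeter

noncomputable section
namespace Crest.Agent.R214

/-- compactly supported `C¹` fields of norm at most one with support in `U` -/
def Loc (U : Set E3) (φ : E3 → E3) : Prop :=
  ContDiff ℝ 1 φ ∧ HasCompactSupport φ ∧ tsupport φ ⊆ U ∧ ∀ x, ‖φ x‖ ≤ 1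

theorem Mono.flip_iff {i : Fin 3} {E : Set E3} (h : Mono i E) (x : E3) : flip i x ∈ E ↔ x ∈ E := by
  have h1 : ∀ j, j ≠ i → flip i x j = x j := fun j hj => by rw [flip_apply, if_neg hj]
  have h2 : tau (flip i x i) = tau (x i) := by rw [flip_apply, if_pos rfl, tau_neg]
  exact ⟨h _ _ (fun j hj => (h1 j hj).symm) h2.ge, h _ _ h1 h2.le⟩

theorem d1a_flip_flip (i : Fin 3) (x : E3) : flip i (flip i x) = x := by
  ext j; simp only [flip_apply]; split_ifs <;> simp

/-- the reflection as a linear isometry -/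
def d1a_flipL (i : Fin 3) : E3 ≃ₗᵢ[ℝ] E3 where
  toFun := flip i
  invFun := flip i
  map_add' x y := by ext j; simp only [flip_apply, PiLp.add_apply]; split_ifs <;> ring
  map_smul' c x := by
    ext j; simp only [flip_apply, PiLp.smul_apply, smul_eq_mul, RingHom.id_apply]
    split_ifs <;> ring
  left_inv := d1a_flip_flip i
  right_inv := d1a_flip_flip i
  norm_map' := norm_flip i

theorem d1a_div_eq_zero {φ : E3 → E3} {x : E3} (hx : x ∉ tsupport φ) : divergence φ x = 0 := by
  unfold divergence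
  rw [fderiv_of_notMem_tsupport ℝ hx]
  simp

theorem d1a_div_cont {φ : E3 → E3} (hC : ContDiff ℝ 1 φ) : Continuous (divergence φ) := by
  unfold divergence
  have := hC.continuous_fderiv one_ne_zero
  fun_prop

theorem d1a_integrable {φ : E3 → E3} (hC : ContDiff ℝ 1 φ) (hK : HasCompactSupport φ) :
    Integrable (divergence φ) :=
  (d1a_div_cont hC).integrable_of_hasCompactSupport
    (HasCompactSupport.intro hK fun x hx => d1a_div_eq_zero hx)

theorem field_double {E : Set E3} (hE : MeasurableSet E) {i : Fin 3} (h : Mono i E) {U : Set E3}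
    (hU : ∀ x ∈ U, 0 < x i) {φ : E3 → E3} (hφ : Loc U φ) :
    ∃ ψ : E3 → E3, Loc (U ∪ flip i ⁻¹' U) ψ ∧
      ∫ x in E, divergence ψ x = 2 * ∫ x in E, divergence φ x := by
  obtain ⟨hC, hK, hS, hN⟩ := hφ
  set F := d1a_flipL i with hF
  have hFa : ∀ x, F x = flip i x := fun x => rfl
  have hC' : ContDiff ℝ 1 (fun x => F (φ (F x))) :=
    F.contDiff.comp (hC.comp F.contDiff)
  have hS' : tsupport (fun x => F (φ (F x))) ⊆ F ⁻¹' tsupport φ := by
    refine closure_minimal ?_ ((isClosed_tsupport φ).preimage F.continuous)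
    intro x hx
    refine subset_tsupport φ ?_
    intro h0
    exact hx (by simp only [h0, map_zero])
  have hK' : HasCompactSupport (fun x => F (φ (F x))) :=
    (F.toHomeomorph.isCompact_preimage.2 hK).of_isClosed_subset (isClosed_tsupport _) hS'
  have hdiv : ∀ x, divergence (fun x => F (φ (F x))) x = divergence φ (F x) := by
    intro x
    have hd : HasFDerivAt (fun x => F (φ (F x)))
        ((F.toContinuousLinearEquiv : E3 →L[ℝ] E3).comp ((fderiv ℝ φ (F x)).comp
          (F.toContinuousLinearEquiv : E3 →L[ℝ] E3))) x :=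
      F.toContinuousLinearEquiv.hasFDerivAt.comp x
        (((hC.differentiable one_ne_zero) (F x)).hasFDerivAt.comp x
          F.toContinuousLinearEquiv.hasFDerivAt)
    unfold divergence
    rw [hd.fderiv]
    refine Finset.sum_congr rfl fun j _ => ?_
    change flip i (fderiv ℝ φ (F x) (flip i (EuclideanSpace.single j 1))) j = _
    by_cases hj : j = i
    · have : flip i (EuclideanSpace.single j (1 : ℝ)) = -EuclideanSpace.single j (1 : ℝ) := by
        ext k
        rw [flip_apply]
        by_cases hk : k = i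
        · simp [hk]
        · have : k ≠ j := fun e => hk (e.trans hj)
          simp [hk, this]
      rw [this, map_neg, flip_apply, if_pos hj]; simp
    · have : flip i (EuclideanSpace.single j (1 : ℝ)) = EuclideanSpace.single j (1 : ℝ) := by
        ext k
        rw [flip_apply]
        by_cases hk : k = i
        · simp [hk, Ne.symm hj]
        · simp [hk]
      rw [this, flip_apply, if_neg hj]
  refine ⟨fun x => φ x + F (φ (F x)), ⟨hC.add hC', hK.add hK', ?_, fun x => ?_⟩, ?_⟩
  · refine (tsupport_add φ _).trans (union_subset_union hS (hS'.trans fun x hx => hS hx))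
  · by_cases h0 : φ x = 0
    · simp only [h0, zero_add, LinearIsometryEquiv.norm_map]; exact hN _
    · have h1 : φ (F x) = 0 := by
        by_contra h1
        have a1 := hU _ (hS (subset_tsupport φ h0))
        have a2 := hU _ (hS (subset_tsupport φ h1))
        rw [hFa, flip_apply, if_pos rfl] at a2
        linarith
      simp only [h1, map_zero, add_zero]; exact hN _
  · have hadd : ∀ x, divergence (fun x => φ x + F (φ (F x))) x =
        divergence φ x + divergence φ (F x) := by
      intro x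
      rw [← hdiv]
      unfold divergence
      rw [fderiv_fun_add ((hC.differentiable one_ne_zero) x) ((hC'.differentiable one_ne_zero) x),
        ← Finset.sum_add_distrib]
      rfl
    have hI : Integrable (divergence φ) := d1a_integrable hC hK
    have hmp : MeasurePreserving F volume volume := F.measurePreserving
    have hI' : Integrable (fun x => divergence φ (F x)) := hmp.integrable_comp_of_integrable hI
    simp_rw [hadd]
    rw [integral_add hI.integrableOn hI'.integrableOn]
    have hpre : F ⁻¹' E = E := by ext x; exact h.flip_iff x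
    have := hmp.setIntegral_preimage_emb F.toHomeomorph.measurableEmbedding (divergence φ) E
    rw [hpre] at this
    rw [this]; ring

/-- coordinatewise rounding -/
def d1a_rd (x : E3) : E3 := WithLp.toLp 2 fun j => (round (x j) : ℝ)

theorem d1a_rd_apply (x : E3) (j : Fin 3) : d1a_rd x j = (round (x j) : ℝ) := rfl

theorem field_periodize {E : Set E3} (hE : PS E) {φ : E3 → E3}
    (hφ : Loc {x | ∀ j, |x j| < 1 / 2} φ) :
    ∃ Φ : E3 → E3, IsAdmissibleField Φ ∧
      ∫ x in E ∩ cell, divergence Φ x = ∫ x in E, divergence φ x := by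
  obtain ⟨hC, hK, hS, hN⟩ := hφ
  have hev : ∀ x : E3, (fun y => φ (y - d1a_rd y)) =ᶠ[𝓝 x] fun y => φ (y - d1a_rd x) := by
    intro x
    by_cases hx : ∀ j, tau (x j) < 1 / 2
    · have : ∀ᶠ y : E3 in 𝓝 x, ∀ j, |y j - (round (x j) : ℝ)| < 1 / 2 := by
        rw [eventually_all]
        intro j
        have hc : Continuous fun y : E3 => |y j - (round (x j) : ℝ)| := by fun_prop
        exact hc.continuousAt.eventually (gt_mem_nhds (hx j))
      filter_upwards [this] with y hy
      have : d1a_rd y = d1a_rd x := by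
        ext j
        simp only [d1a_rd_apply]
        congr 1
        have h1 := abs_lt.1 (hy j)
        rw [round_eq, Int.floor_eq_iff]
        constructor <;> linarith [h1.1, h1.2]
      rw [this]
    · push Not at hx
      obtain ⟨j, hj⟩ := hx
      obtain ⟨r, hr, hr'⟩ : ∃ r : ℝ, r < 1 / 2 ∧ ∀ y ∈ tsupport φ, |y j| ≤ r := by
        rcases (tsupport φ).eq_empty_or_nonempty with h0 | hne
        · exact ⟨0, by norm_num, by simp [h0]⟩
        · have hc : Continuous fun y : E3 => |y j| := by fun_prop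
          obtain ⟨z, hz, hz'⟩ := hK.isCompact.exists_isMaxOn hne hc.continuousOn
          exact ⟨|z j|, hS hz j, fun y hy => hz' hy⟩
      have hc : Continuous fun y : E3 => tau (y j) := tau_lip.continuous.comp (by fun_prop)
      have h1 : ∀ᶠ y : E3 in 𝓝 x, r < tau (y j) :=
        hc.continuousAt.eventually (lt_mem_nhds (hr.trans_le hj))
      filter_upwards [h1] with y hy
      have z : ∀ w : E3, φ (y - d1a_rd w) = 0 := by
        intro w
        by_contra h0
        have h2 := hr' _ (subset_tsupport φ h0)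
        have h3 := tau_le_int (y j) (round (w j))
        simp only [PiLp.sub_apply, d1a_rd_apply] at h2
        linarith
      rw [z, z]
  have hsh : ∀ v : E3, ContDiff ℝ 1 fun y => φ (y - v) := fun v => hC.comp (contDiff_id.sub contDiff_const)
  have hper : ∀ v, HasIntegerCoords v → ∀ x : E3, x + v - d1a_rd (x + v) = x - d1a_rd x := by
    intro v hv x
    ext j
    obtain ⟨m, hm⟩ := hv j
    simp only [PiLp.sub_apply, PiLp.add_apply, d1a_rd_apply, hm, round_add_intCast]
    push_cast; ring
  have hdiv : ∀ x, divergence (fun y => φ (y - d1a_rd y)) x = divergence φ (x - d1a_rd x) := by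
    intro x
    unfold divergence
    rw [(hev x).fderiv_eq, fderiv_comp_sub]
  refine ⟨fun y => φ (y - d1a_rd y), ⟨?_, fun v hv x => by simp only [hper v hv], fun x => hN _⟩, ?_⟩
  · rw [contDiff_iff_contDiffAt]
    exact fun x => (hsh _).contDiffAt.congr_of_eventuallyEq (hev x)
  · simp_rw [hdiv]
    rw [← integral_ind_mul hE.meas]
    have hP : Per fun x => ind E x * divergence φ (x - d1a_rd x) := by
      intro v hv x
      simp only [hper v hv, hE.ind_per v hv x]
    let v : E3 := WithLp.toLp 2 fun _ => -(1 / 2 : ℝ)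
    have hv : ∀ j, v j = -(1 / 2 : ℝ) := fun j => rfl
    rw [← hP.integral_add v]
    have e1 : ∫ x in cell, ind E (x + v) * divergence φ (x + v - d1a_rd (x + v)) =
        ∫ x in cell, ind E (x + v) * divergence φ (x + v) := by
      refine setIntegral_congr_fun measurableSet_cell fun x hx => ?_
      have : d1a_rd (x + v) = 0 := by
        ext j
        have := hx j
        simp only [d1a_rd_apply, PiLp.add_apply, hv, PiLp.zero_apply, Int.cast_eq_zero]
        rw [round_eq, Int.floor_eq_iff]
        constructor <;> push_cast <;> linarith [this.1, this.2]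
      simp only [this, sub_zero]
    rw [e1, setIntegral_eq_integral_of_forall_compl_eq_zero,
      integral_add_right_eq_self (fun y => ind E y * divergence φ y) v,
      ← integral_indicator hE.meas]
    · refine integral_congr_ae (Eventually.of_forall fun x => ?_)
      by_cases hx : x ∈ E <;> simp [ind, hx]
    · intro x hx
      rw [d1a_div_eq_zero, mul_zero]
      intro hx'
      apply hx
      intro j
      have := abs_lt.1 (hS hx' j)
      simp only [PiLp.add_apply, hv] at this
      constructor <;> linarith [this.1, this.2]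

/-- the coordinates as a measurable equivalence -/
def d1b_e : (Fin 3 → ℝ) ≃ᵐ P3 :=
  (MeasurableEquiv.piFinSuccAbove (fun _ : Fin 3 => ℝ) 0).trans
    ((MeasurableEquiv.refl ℝ).prodCongr MeasurableEquiv.finTwoArrow)

theorem d1b_co : co = d1b_e.symm := by
  funext p
  apply d1b_e.injective
  rw [MeasurableEquiv.apply_symm_apply]
  rfl

theorem d1b_mp : MeasurePreserving d1b_e volume volume :=
  ((MeasurePreserving.id (volume : Measure ℝ)).prod (volume_preserving_finTwoArrow ℝ)).comp
    (volume_preserving_piFinSuccAbove (fun _ : Fin 3 => ℝ) 0)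

theorem measurePreserving_pt : MeasurePreserving pt volume volume := by
  have h := (PiLp.volume_preserving_toLp (Fin 3)).comp (d1b_mp.symm d1b_e)
  rw [← d1b_co] at h
  exact h

theorem measurableEmbedding_pt : MeasurableEmbedding pt := by
  have h := (MeasurableEquiv.toLp 2 (Fin 3 → ℝ)).measurableEmbedding.comp
    d1b_e.symm.measurableEmbedding
  rw [← d1b_co] at h
  exact h

theorem d1b_tau {a b : ℝ} (ha : 0 < a) (hab : a ≤ b) (hb : b < 1) :
    tau (1 / 2 * a) ≤ tau (1 / 2 * b) := by
  rw [tau_of_abs_le (by rw [abs_of_pos (by linarith)]; linarith),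
    tau_of_abs_le (by rw [abs_of_pos (by linarith)]; linarith),
    abs_of_pos (by linarith), abs_of_pos (by linarith)]
  linarith

theorem down_toD {E : Set E3} (hE : PS E) (h : ∀ i, Mono i E) : Down (toD E) := by
  refine ⟨?_, fun p hp => hp.1, ?_⟩
  · have h1 : MeasurableSet cube :=
      measurableSet_Ioo.prod (measurableSet_Ioo.prod measurableSet_Ioo)
    have h2 : Measurable fun p : P3 => (1 / 2 : ℝ) • pt p :=
      measurePreserving_pt.measurable.const_smul (1 / 2 : ℝ)
    exact h1.inter (h2 hE.meas)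
  · rintro ⟨p1, p2, p3⟩ ⟨⟨hp1, hp2, hp3⟩, hp⟩ ⟨q1, q2, q3⟩ ⟨hq1, hq2, hq3⟩ l1 l2 l3
    refine ⟨⟨hq1, hq2, hq3⟩, ?_⟩
    have s1 : (1 / 2 : ℝ) • pt (q1, p2, p3) ∈ E := by
      refine h 0 _ _ (fun j hj => ?_) ?_ hp
      · fin_cases j
        · exact absurd rfl hj
        · rfl
        · rfl
      · exact d1b_tau hq1.1 l1 hp1.2
    have s2 : (1 / 2 : ℝ) • pt (q1, q2, p3) ∈ E := by
      refine h 1 _ _ (fun j hj => ?_) ?_ s1
      · fin_cases j
        · rfl
        · exact absurd rfl hj
        · rfl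
      · exact d1b_tau hq2.1 l2 hp2.2
    refine h 2 _ _ (fun j hj => ?_) ?_ s2
    · fin_cases j
      · rfl
      · rfl
      · exact absurd rfl hj
    · exact d1b_tau hq3.1 l3 hp3.2

theorem d1b_mono {U V : Set E3} {φ : E3 → E3} (h : Loc U φ) (hUV : U ⊆ V) : Loc V φ :=
  ⟨h.1, h.2.1, h.2.2.1.trans hUV, h.2.2.2⟩

theorem d1b_scale {U : Set E3} {φ : E3 → E3} (h : Loc U φ) :
    Loc ((fun x : E3 => (2 : ℝ) • x) ⁻¹' U) (fun x => φ ((2 : ℝ) • x)) ∧
      ∀ x, divergence (fun x => φ ((2 : ℝ) • x)) x = 2 * divergence φ ((2 : ℝ) • x) := by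
  obtain ⟨h1, h2, h3, h4⟩ := h
  let e : E3 ≃ₜ E3 := Homeomorph.smulOfNeZero (2 : ℝ) two_ne_zero
  refine ⟨⟨h1.comp (contDiff_id.const_smul _), h2.comp_homeomorph e, ?_, fun x => h4 _⟩,
    fun x => ?_⟩
  · refine Subset.trans ?_ (preimage_mono h3)
    exact closure_minimal (fun x hx => subset_tsupport φ hx)
      ((isClosed_tsupport φ).preimage (continuous_const_smul (2 : ℝ)))
  · have d1 : HasFDerivAt (fun x : E3 => (2 : ℝ) • x) ((2 : ℝ) • ContinuousLinearMap.id ℝ E3) x :=
      (hasFDerivAt_id x).const_smul (2 : ℝ)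
    have d2 := ((h1.differentiable one_ne_zero ((2 : ℝ) • x)).hasFDerivAt.comp x d1).fderiv
    have d3 : fderiv ℝ (fun x => φ ((2 : ℝ) • x)) x = _ := d2
    simp only [divergence, d3, Finset.mul_sum, ContinuousLinearMap.comp_apply, smul_apply,
      ContinuousLinearMap.id_apply, map_smul, PiLp.smul_apply, smul_eq_mul]

theorem d1b_div_zero {φ : E3 → E3} {x : E3} (hx : x ∉ tsupport φ) : divergence φ x = 0 := by
  have : fderiv ℝ φ x = 0 := by
    by_contra h0
    exact hx (support_fderiv_subset ℝ h0)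
  simp [divergence, this]

open scoped Pointwise in
theorem div_le_of_PLe {E : Set E3} (hE : PS E) (h : ∀ i, Mono i E) {p : ℝ} (hp : PLe E p)
    {φ : E3 → E3} (hφ : Loc {x | ∀ j, 0 < x j ∧ x j < 1} φ) :
    ∫ q in toD E, divergence φ (pt q) ≤ p / 2 := by
  obtain ⟨l0, hd0⟩ := d1b_scale hφ
  have l0' : Loc {x : E3 | (∀ j, |x j| < 1 / 2) ∧ 0 < x 0 ∧ 0 < x 1 ∧ 0 < x 2}
      (fun x => φ ((2 : ℝ) • x)) := by
    refine d1b_mono l0 fun x hx => ?_
    have hx' : ∀ j, 0 < x j ∧ x j < 1 / 2 := fun j => by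
      have := hx j
      simp only [PiLp.smul_apply, smul_eq_mul] at this
      constructor <;> linarith [this.1, this.2]
    exact ⟨fun j => by rw [abs_of_pos (hx' j).1]; exact (hx' j).2, (hx' 0).1, (hx' 1).1, (hx' 2).1⟩
  have hab : ∀ (i j : Fin 3) (x : E3), |flip i x j| = |x j| := by
    intro i j x
    rw [flip_apply]
    split_ifs <;> simp
  obtain ⟨ψ1, l1, e1⟩ := field_double hE.meas (h 0) (fun x hx => hx.2.1) l0'
  have l1' : Loc {x : E3 | (∀ j, |x j| < 1 / 2) ∧ 0 < x 1 ∧ 0 < x 2} ψ1 := by
    refine d1b_mono l1 ?_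
    rintro x (hx | hx)
    · exact ⟨hx.1, hx.2.2⟩
    · obtain ⟨a, -, b, c⟩ := hx
      rw [flip_apply, if_neg (by decide)] at b c
      exact ⟨fun j => hab 0 j x ▸ a j, b, c⟩
  obtain ⟨ψ2, l2, e2⟩ := field_double hE.meas (h 1) (fun x hx => hx.2.1) l1'
  have l2' : Loc {x : E3 | (∀ j, |x j| < 1 / 2) ∧ 0 < x 2} ψ2 := by
    refine d1b_mono l2 ?_
    rintro x (hx | hx)
    · exact ⟨hx.1, hx.2.2⟩
    · obtain ⟨a, -, c⟩ := hx
      rw [flip_apply, if_neg (by decide)] at c
      exact ⟨fun j => hab 1 j x ▸ a j, c⟩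
  obtain ⟨ψ3, l3, e3⟩ := field_double hE.meas (h 2) (fun x hx => hx.2) l2'
  have l3' : Loc {x : E3 | ∀ j, |x j| < 1 / 2} ψ3 := by
    refine d1b_mono l3 ?_
    rintro x (hx | hx)
    · exact hx.1
    · exact fun j => hab 2 j x ▸ hx.1 j
  obtain ⟨Φ, hΦ, e4⟩ := field_periodize hE l3'
  have hle := hp Φ hΦ
  rw [e4, e3, e2, e1] at hle
  simp only [hd0] at hle
  rw [integral_const_mul,
    Measure.setIntegral_comp_smul_of_pos volume (divergence φ) E (by norm_num : (0 : ℝ) < 2)] at hle
  have hmem : ∀ y : E3, y ∈ (2 : ℝ) • E ↔ (1 / 2 : ℝ) • y ∈ E := fun y => by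
    rw [mem_smul_set_iff_inv_smul_mem₀ two_ne_zero, one_div]
  have e5 : ∫ y in (2 : ℝ) • E, divergence φ y =
      ∫ y in {y : E3 | (∀ j, 0 < y j ∧ y j < 1) ∧ (1 / 2 : ℝ) • y ∈ E}, divergence φ y := by
    refine setIntegral_eq_of_subset_of_forall_sdiff_eq_zero (hE.meas.const_smul₀ 2)
      (fun y hy => (hmem y).2 hy.2) fun y hy => d1b_div_zero fun hs => ?_
    exact hy.2 ⟨hφ.2.2.1 hs, (hmem y).1 hy.1⟩
  have e6 : toD E = pt ⁻¹' {y : E3 | (∀ j, 0 < y j ∧ y j < 1) ∧ (1 / 2 : ℝ) • y ∈ E} := by
    ext q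
    constructor
    · rintro ⟨⟨a, b, c⟩, d⟩
      refine ⟨fun j => ?_, d⟩
      fin_cases j
      · exact a
      · exact b
      · exact c
    · rintro ⟨a, d⟩
      exact ⟨⟨a 0, a 1, a 2⟩, d⟩
  rw [e6, measurePreserving_pt.setIntegral_preimage_emb measurableEmbedding_pt, ← e5]
  simp only [finrank_euclideanSpace, Fintype.card_fin, smul_eq_mul] at hle
  linarith

theorem d1c_meas : Measurable fun s : ℝ => 2 * tau s :=
  tau_lip.continuous.measurable.const_mul 2

theorem d1c_measF :
    Measurable fun x : E3 => ((2 * tau (x 0), 2 * tau (x 1), 2 * tau (x 2)) : P3) :=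
  (d1c_meas.comp (by fun_prop)).prodMk
    ((d1c_meas.comp (by fun_prop)).prodMk (d1c_meas.comp (by fun_prop)))

theorem map_two_tau : Measure.map (fun s : ℝ => 2 * tau s) (volume.restrict (Ico (0 : ℝ) 1)) =
    volume.restrict (Ioo (0 : ℝ) 1) := by
  have key : ∀ S : Set ℝ, MeasurableSet S →
      Measure.map (fun s : ℝ => 2 * tau s) (volume.restrict (Ico (0 : ℝ) 1)) S =
        volume ((fun s : ℝ => 2 * tau s) ⁻¹' S ∩ Ico 0 1) := fun S hS => by
    rw [Measure.map_apply d1c_meas hS, Measure.restrict_apply (d1c_meas hS)]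
  refine Measure.ext_of_Ici _ _ fun a => ?_
  rw [← compl_Iio, measure_compl measurableSet_Iio (measure_ne_top _ _),
    measure_compl measurableSet_Iio (measure_ne_top _ _), key _ MeasurableSet.univ,
    key _ measurableSet_Iio, Measure.restrict_apply measurableSet_Iio]
  congr 1
  · simp
  have e : (fun s : ℝ => 2 * tau s) ⁻¹' Iio a = arc 0 a := by
    ext s; simp only [arc, mem_preimage, mem_Iio, mem_ofPred_eq, sub_zero]
    constructor <;> intro h <;> linarith
  rw [e, inter_comm (Iio a), Ioo_inter_Iio, Real.volume_Ioo, sub_zero]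
  rcases le_total a 0 with h0 | h0
  · have : arc 0 a = ∅ := eq_empty_of_forall_notMem fun s hs => by
      have := tau_nonneg (s - 0)
      have h2 : tau (s - 0) < a / 2 := hs
      linarith
    rw [this, empty_inter, measure_empty, ENNReal.ofReal_of_nonpos ((min_le_right _ _).trans h0)]
  rcases le_or_gt a 1 with h1 | h1
  · rw [min_eq_right h1, ← ENNReal.ofReal_toReal (t4b_fin (arc 0 a))]
    exact congrArg ENNReal.ofReal (len_arc 0 h0 h1)
  · have : arc 0 a = univ := eq_univ_of_forall fun s => by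
      have := tau_le_half (s - 0)
      change tau (s - 0) < a / 2
      linarith
    rw [this, min_eq_left h1.le]; simp

theorem map_cell_cube : Measure.map (fun x : E3 => ((2 * tau (x 0), 2 * tau (x 1), 2 * tau (x 2)) : P3))
    (volume.restrict cell) = volume.restrict cube := by
  have hg : MeasurePreserving (fun s : ℝ => 2 * tau s) (volume.restrict (Ico (0 : ℝ) 1))
      (volume.restrict (Ioo (0 : ℝ) 1)) := ⟨d1c_meas, map_two_tau⟩
  have h1 := hg.prod (hg.prod hg)
  simp only [Measure.prod_restrict] at h1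
  have h2 := measurePreserving_pt.restrict_preimage measurableSet_cell
  have e : pt ⁻¹' cell = Ico (0 : ℝ) 1 ×ˢ Ico (0 : ℝ) 1 ×ˢ Ico (0 : ℝ) 1 := by
    ext p
    simp [cell, unitCell, pt, co, Fin.forall_fin_succ, and_assoc]
  rw [← h2.map_eq, Measure.map_map d1c_measF h2.measurable, e]
  exact h1.map_eq

theorem d1c_mp : MeasurePreserving
    (fun x : E3 => ((2 * tau (x 0), 2 * tau (x 1), 2 * tau (x 2)) : P3))
    (volume.restrict cell) (volume.restrict cube) := ⟨d1c_measF, map_cell_cube⟩

theorem d1c_ae : ∀ᵐ x ∂(volume.restrict cell),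
    ((2 * tau (x 0), 2 * tau (x 1), 2 * tau (x 2)) : P3) ∈ cube :=
  d1c_mp.quasiMeasurePreserving.ae (ae_restrict_mem
    (measurableSet_Ioo.prod (measurableSet_Ioo.prod measurableSet_Ioo)))

theorem d1c_mem {E : Set E3} (h : ∀ i, Mono i E) {x y : E3} (e : ∀ j, tau (y j) = tau (x j))
    (hx : x ∈ E) : y ∈ E := by
  have h1 : (!₂[y 0, x 1, x 2] : E3) ∈ E :=
    h 0 x _ (fun j hj => by fin_cases j <;> simp_all) (e 0).le hx
  have h2 : (!₂[y 0, y 1, x 2] : E3) ∈ E :=
    h 1 (!₂[y 0, x 1, x 2] : E3) _ (fun j hj => by fin_cases j <;> simp_all) (e 1).le h1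
  exact h 2 (!₂[y 0, y 1, x 2] : E3) _ (fun j hj => by fin_cases j <;> simp_all) (e 2).le h2

theorem mem_iff_toD {E : Set E3} (h : ∀ i, Mono i E) {x : E3}
    (hx : ((2 * tau (x 0), 2 * tau (x 1), 2 * tau (x 2)) : P3) ∈ cube) :
    x ∈ E ↔ ((2 * tau (x 0), 2 * tau (x 1), 2 * tau (x 2)) : P3) ∈ toD E := by
  have e : ∀ j, tau (((1 / 2 : ℝ) • pt (2 * tau (x 0), 2 * tau (x 1), 2 * tau (x 2))) j) =
      tau (x j) := fun j => by
    have h1 : ((1 / 2 : ℝ) • pt (2 * tau (x 0), 2 * tau (x 1), 2 * tau (x 2))) j = tau (x j) := by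
      fin_cases j <;> simp [pt, co]
    rw [h1, tau_of_abs_le (by rw [abs_of_nonneg (tau_nonneg _)]; exact tau_le_half _),
      abs_of_nonneg (tau_nonneg _)]
  exact ⟨fun hE => ⟨hx, d1c_mem h e hE⟩, fun hE => d1c_mem h (fun j => (e j).symm) hE.2⟩

theorem vol3_toD {E : Set E3} (hE : PS E) (h : ∀ i, Mono i E) : vol3 (toD E) = periodicVolume E := by
  have hD := down_toD hE h
  rw [vol3, periodicVolume, ← inter_eq_self_of_subset_left hD.sub, ← Measure.restrict_apply hD.meas,
    ← d1c_mp.measure_preimage hD.meas.nullMeasurableSet, ← Measure.restrict_apply hE.meas]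
  refine congrArg ENNReal.toReal (measure_congr ?_)
  filter_upwards [d1c_ae] with x hx
  exact propext (mem_iff_toD h hx).symm

theorem ae_Mod_of_toD {E : Set E3} (hE : PS E) (h : ∀ i, Mono i E) {J : Finset (Fin 3)} {ρ : ℝ}
    (hD : toD E =ᵐ[volume] Oct J ρ) : E =ᵐ[volume] Mod J 0 (ρ / 2) := by
  have hp : Per fun x : E3 => (x ∈ E ↔ x ∈ Mod J 0 (ρ / 2)) := fun v hv x => by
    have e : ∀ j, tau ((x + v) j - (0 : E3) j) = tau (x j - (0 : E3) j) := fun j => by
      obtain ⟨m, hm⟩ := hv j
      simp [hm, tau_add_int]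
    simp only [hE.per v hv x, Mod, mem_ofPred_eq, e]
  refine eventuallyEq_set.2 (hp.ae ?_)
  filter_upwards [d1c_ae, d1c_mp.quasiMeasurePreserving.ae (ae_restrict_of_ae
    (eventuallyEq_set.1 hD))] with x hx h2
  rw [mem_iff_toD h hx, h2]
  have e : ∀ j, co (2 * tau (x 0), 2 * tau (x 1), 2 * tau (x 2)) j ^ 2 =
      4 * tau (x j - (0 : E3) j) ^ 2 := fun j => by
    fin_cases j <;> simp [co] <;> ring
  simp only [Oct, Mod, mem_ofPred_eq, hx, true_and, e, ← Finset.mul_sum]
  constructor <;> intro h3 <;> linarith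

end Crest.Agent.R214
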