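import Crest.Agent.R214.D1

/-! Block D2: heights, swaps, and calibrations.
`div_eq_I`: Fubini and the fundamental theorem of calculus in each coordinate (the sections of `D` are
intervals `(0, h)` up to the end point; `φ` vanishes near the boundary of the cube, so the points with
`h ∈ {0, 1}` contribute nothing).
`cal_of_div`: the three graph measures `μ₁, μ₂, μ₃` (images of `volume.restrict (Gr h)`) are finite and
carried by the open cube.  For `μ = μ₁ + μ₂ + μ₃` pushed to `E3` by `pt`, approximate the bounded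
measurable field `ψ` in `L¹(μ)` by a continuous field with compact support in the open cube
(`MemLp.exists_hasCompactSupport_eLpNorm_sub_le` or bounded continuous approximation times a cutoff),
retract to the unit ball (`v ↦ (max 1 ‖v‖)⁻¹ • v`), smooth it (`exists_smooth_field`). -/

set_option autoImplicit false
set_option linter.unusedVariables false
open MeasureTheory Set Filter Metric
open scoped Topology ENNReal NNReal
open Crest.GeometryTopology.PeriodicPerimeter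

noncomputable section
namespace Crest.Agent.R214

theorem d2a_le {S S' : Set ℝ} (h : S ⊆ S') (h' : S' ⊆ Ioo 0 1) :
    (volume S).toReal ≤ (volume S').toReal :=
  ENNReal.toReal_mono ((measure_mono h').trans_lt (by simp)).ne (measure_mono h)

theorem d2a_range {S : Set ℝ} (h : S ⊆ Ioo 0 1) : 0 ≤ (volume S).toReal ∧ (volume S).toReal ≤ 1 :=
  ⟨ENNReal.toReal_nonneg, by simpa using d2a_le h subset_rfl⟩

theorem d2a_mem {S : Set ℝ} (h : S ⊆ Ioo 0 1) (hd : ∀ a ∈ S, ∀ a', 0 < a' → a' ≤ a → a' ∈ S) {x : ℝ} :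
    (0 < x → x < (volume S).toReal → x ∈ S) ∧ (x ∈ S → x ≤ (volume S).toReal) := by
  refine ⟨fun h0 h1 => by_contra fun hx => h1.not_ge ?_, fun hx => ?_⟩
  · have : S ⊆ Ioo 0 x := fun a ha => ⟨(h ha).1, not_le.1 fun h2 => hx (hd a ha x h0 h2)⟩
    exact ENNReal.toReal_le_of_le_ofReal h0.le ((measure_mono this).trans (by simp))
  · have := d2a_le (S := Ioc 0 x) (fun a ha => hd x hx a ha.1 ha.2) h
    simpa [(h hx).1.le] using this

theorem d2a_ne {S : Set ℝ} (h : 0 < (volume S).toReal) : S.Nonempty :=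
  nonempty_of_measure_ne_zero (μ := volume) fun h0 => by simp [h0] at h

theorem Down.d2a_sub1 {D : Set P3} (h : Down D) (y t : ℝ) : {x : ℝ | (x, y, t) ∈ D} ⊆ Ioo 0 1 :=
  fun _ hx => (h.sub hx).1

theorem Down.d2a_sub2 {D : Set P3} (h : Down D) (x t : ℝ) : {y : ℝ | (x, y, t) ∈ D} ⊆ Ioo 0 1 :=
  fun _ hx => (h.sub hx).2.1

theorem Down.d2a_sub3 {D : Set P3} (h : Down D) (x y : ℝ) : {t : ℝ | (x, y, t) ∈ D} ⊆ Ioo 0 1 :=
  fun _ hx => (h.sub hx).2.2

theorem Down.mem1 {D : Set P3} (h : Down D) {x y t : ℝ} :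
    (0 < x → x < h1 D y t → (x, y, t) ∈ D) ∧ ((x, y, t) ∈ D → x ≤ h1 D y t) := by
  exact d2a_mem (h.d2a_sub1 y t) fun a ha a' h0 h1 =>
    h.down _ ha (a', y, t) ⟨⟨h0, h1.trans_lt (h.sub ha).1.2⟩, (h.sub ha).2⟩ h1 le_rfl le_rfl

theorem Down.mem2 {D : Set P3} (h : Down D) {x y t : ℝ} :
    (0 < y → y < h2 D x t → (x, y, t) ∈ D) ∧ ((x, y, t) ∈ D → y ≤ h2 D x t) := by
  exact d2a_mem (h.d2a_sub2 x t) fun a ha a' h0 h1 => h.down _ ha (x, a', t)
    ⟨(h.sub ha).1, ⟨h0, h1.trans_lt (h.sub ha).2.1.2⟩, (h.sub ha).2.2⟩ le_rfl h1 le_rfl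

theorem Down.mem3 {D : Set P3} (h : Down D) {x y t : ℝ} :
    (0 < t → t < h3 D x y → (x, y, t) ∈ D) ∧ ((x, y, t) ∈ D → t ≤ h3 D x y) := by
  exact d2a_mem (h.d2a_sub3 x y) fun a ha a' h0 h1 => h.down _ ha (x, y, a')
    ⟨(h.sub ha).1, (h.sub ha).2.1, h0, h1.trans_lt (h.sub ha).2.2.2⟩ le_rfl le_rfl h1

theorem Down.h_range {D : Set P3} (h : Down D) (a b : ℝ) :
    (0 ≤ h1 D a b ∧ h1 D a b ≤ 1) ∧ (0 ≤ h2 D a b ∧ h2 D a b ≤ 1) ∧ (0 ≤ h3 D a b ∧ h3 D a b ≤ 1) := by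
  exact ⟨d2a_range (h.d2a_sub1 a b), d2a_range (h.d2a_sub2 a b), d2a_range (h.d2a_sub3 a b)⟩

theorem Down.h_pos {D : Set P3} (h : Down D) {a b : ℝ}
    (hp : 0 < h1 D a b ∨ 0 < h2 D a b ∨ 0 < h3 D a b) : a ∈ Ioo (0 : ℝ) 1 ∧ b ∈ Ioo (0 : ℝ) 1 := by
  rcases hp with hp | hp | hp <;> obtain ⟨x, hx⟩ := d2a_ne hp
  · exact (h.sub hx).2
  · exact ⟨(h.sub hx).1, (h.sub hx).2.2⟩
  · exact ⟨(h.sub hx).1, (h.sub hx).2.1⟩

theorem Down.h_meas {D : Set P3} (h : Down D) :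
    Measurable (fun q : ℝ × ℝ => h1 D q.1 q.2) ∧ Measurable (fun q : ℝ × ℝ => h2 D q.1 q.2) ∧
      Measurable (fun q : ℝ × ℝ => h3 D q.1 q.2) := by
  refine ⟨?_, ?_, ?_⟩
  · exact (measurable_measure_prodMk_left (ν := volume)
      (s := {p : (ℝ × ℝ) × ℝ | (p.2, p.1.1, p.1.2) ∈ D})
      (h.meas.preimage (by fun_prop))).ennreal_toReal
  · exact (measurable_measure_prodMk_left (ν := volume)
      (s := {p : (ℝ × ℝ) × ℝ | (p.1.1, p.2, p.1.2) ∈ D})
      (h.meas.preimage (by fun_prop))).ennreal_toReal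
  · exact (measurable_measure_prodMk_left (ν := volume)
      (s := {p : (ℝ × ℝ) × ℝ | (p.1.1, p.1.2, p.2) ∈ D})
      (h.meas.preimage (by fun_prop))).ennreal_toReal

theorem Down.h_anti {D : Set P3} (h : Down D) {a b a' b' : ℝ} (ha : 0 < a') (hb : 0 < b')
    (haa : a' ≤ a) (hbb : b' ≤ b) :
    h1 D a b ≤ h1 D a' b' ∧ h2 D a b ≤ h2 D a' b' ∧ h3 D a b ≤ h3 D a' b' := by
  refine ⟨d2a_le (fun x hx => ?_) (h.d2a_sub1 _ _), d2a_le (fun x hx => ?_) (h.d2a_sub2 _ _),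
    d2a_le (fun x hx => ?_) (h.d2a_sub3 _ _)⟩ <;> obtain ⟨h1, h2, h3⟩ := h.sub hx
  · exact h.down _ hx (x, a', b') ⟨h1, ⟨ha, haa.trans_lt h2.2⟩, hb, hbb.trans_lt h3.2⟩ le_rfl haa hbb
  · exact h.down _ hx (a', x, b') ⟨⟨ha, haa.trans_lt h1.2⟩, h2, hb, hbb.trans_lt h3.2⟩ haa le_rfl hbb
  · exact h.down _ hx (a', b', x) ⟨⟨ha, haa.trans_lt h1.2⟩, ⟨hb, hbb.trans_lt h2.2⟩, h3⟩ haa hbb le_rfl

theorem Down.sw12 {D : Set P3} (h : Down D) : Down (sw12 D) := by
  exact ⟨h.meas.preimage (f := fun p : P3 => (p.2.1, p.1, p.2.2)) (by fun_prop),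
    fun p hp => ⟨(h.sub hp).2.1, (h.sub hp).1, (h.sub hp).2.2⟩,
    fun p hp q hq h1 h2 h3 => h.down _ hp (q.2.1, q.1, q.2.2) ⟨hq.2.1, hq.1, hq.2.2⟩ h2 h1 h3⟩

theorem Down.sw23 {D : Set P3} (h : Down D) : Down (sw23 D) := by
  exact ⟨h.meas.preimage (f := fun p : P3 => (p.1, p.2.2, p.2.1)) (by fun_prop),
    fun p hp => ⟨(h.sub hp).1, (h.sub hp).2.2, (h.sub hp).2.1⟩,
    fun p hp q hq h1 h2 h3 => h.down _ hp (q.1, q.2.2, q.2.1) ⟨hq.1, hq.2.2, hq.2.1⟩ h1 h3 h2⟩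

theorem h_sw12 (D : Set P3) : h1 (sw12 D) = h2 D ∧ h2 (sw12 D) = h1 D ∧
    h3 (sw12 D) = fun x y => h3 D y x := by
  exact ⟨rfl, rfl, rfl⟩

theorem h_sw23 (D : Set P3) : (h1 (sw23 D) = fun y t => h1 D t y) ∧ h2 (sw23 D) = h3 D ∧
    h3 (sw23 D) = h2 D := by
  exact ⟨rfl, rfl, rfl⟩

theorem d2a_mp23 : MeasurePreserving (fun p : P3 => ((p.1, p.2.2, p.2.1) : P3)) volume volume :=
  (MeasurePreserving.id (volume : Measure ℝ)).prod
    (Measure.measurePreserving_swap (μ := (volume : Measure ℝ)) (ν := (volume : Measure ℝ)))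

theorem d2a_mp12 : MeasurePreserving (fun p : P3 => ((p.2.1, p.1, p.2.2) : P3)) volume volume :=
  (measurePreserving_prodAssoc (volume : Measure ℝ) (volume : Measure ℝ) (volume : Measure ℝ)).comp
    (((Measure.measurePreserving_swap (μ := (volume : Measure ℝ)) (ν := (volume : Measure ℝ))).prod
      (MeasurePreserving.id (volume : Measure ℝ))).comp
      ((measurePreserving_prodAssoc (volume : Measure ℝ) (volume : Measure ℝ)
        (volume : Measure ℝ)).symm _))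

theorem vol3_sw {D : Set P3} (h : Down D) : vol3 (sw12 D) = vol3 D ∧ vol3 (sw23 D) = vol3 D := by
  exact ⟨congrArg ENNReal.toReal (d2a_mp12.measure_preimage h.meas.nullMeasurableSet),
    congrArg ENNReal.toReal (d2a_mp23.measure_preimage h.meas.nullMeasurableSet)⟩

theorem d2b_swap (k : ℝ → ℝ → ℝ) (F : ℝ × ℝ → ℝ) :
    ∫ q in Gr fun x y => k y x, F q = ∫ q in Gr k, F q.swap :=
  (Measure.measurePreserving_swap.setIntegral_preimage_emb MeasurableEquiv.prodComm.measurableEmbedding F _).symm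

theorem Cal.sw12 {D : Set P3} (h : Down D) {P : ℝ} (hc : Cal D P) : Cal (sw12 D) P := fun ψ1 ψ2 ψ3 m1 m2 m3 hψ => by
  have m : Measurable fun p : P3 => ((p.2.1, p.1, p.2.2) : P3) := by fun_prop
  have := hc _ _ _ (m2.comp m) (m1.comp m) (m3.comp m) fun p =>
    (congrArg (· + _) (add_comm _ _)).trans_le (hψ _)
  simp only [I1, I2, I3, h_sw12 D, d2b_swap (h3 D)]
  rw [add_comm (I1 D _)] at this
  exact this

theorem Cal.sw23 {D : Set P3} (h : Down D) {P : ℝ} (hc : Cal D P) : Cal (sw23 D) P := fun ψ1 ψ2 ψ3 m1 m2 m3 hψ => by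
  have m : Measurable fun p : P3 => ((p.1, p.2.2, p.2.1) : P3) := by fun_prop
  have := hc _ _ _ (m1.comp m) (m3.comp m) (m2.comp m) fun p => (add_right_comm _ _ _).trans_le (hψ _)
  simp only [I1, I2, I3, h_sw23 D, d2b_swap (h1 D)]
  rw [add_right_comm] at this
  exact this

theorem d2b_cls {σ : P3 → P3} (hσ : MeasurePreserving σ volume volume) (e : Equiv.Perm (Fin 3))
    (h1 : ∀ p, σ p ∈ cube ↔ p ∈ cube) (h2 : ∀ p j, co (σ p) j = co p (e j)) {D : Set P3} {V : ℝ} (h : Cls D V) :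
    Cls (σ ⁻¹' D) V := by
  obtain ⟨J, ρ, h3, h4⟩ := h
  refine ⟨J.map e.toEmbedding, ρ, (hσ.quasiMeasurePreserving.preimage_ae_eq h3).trans (Eq.eventuallyEq ?_),
    by rwa [Finset.card_map]⟩
  ext p
  change σ p ∈ cube ∧ _ ↔ p ∈ cube ∧ _
  simp only [h1, h2, Finset.sum_map, Equiv.coe_toEmbedding]

theorem Cls.of_sw12 {D : Set P3} {V : ℝ} (h : Cls (sw12 D) V) : Cls D V :=
  d2b_cls ((volume_preserving_prodAssoc.comp ((Measure.measurePreserving_swap (μ := volume) (ν := volume)).prod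
    (MeasurePreserving.id volume))).comp (volume_preserving_prodAssoc (α₁ := ℝ) (β₁ := ℝ) (γ₁ := ℝ)).symm)
    (Equiv.swap 0 1) (fun _ => ⟨fun h => ⟨h.2.1, h.1, h.2.2⟩, fun h => ⟨h.2.1, h.1, h.2.2⟩⟩)
    (fun p j => by fin_cases j <;> rfl) h

theorem Cls.of_sw23 {D : Set P3} {V : ℝ} (h : Cls (sw23 D) V) : Cls D V :=
  d2b_cls ((MeasurePreserving.id volume).prod (Measure.measurePreserving_swap (μ := volume) (ν := volume)))
    (Equiv.swap 1 2) (fun _ => ⟨fun h => ⟨h.1, h.2.2, h.2.1⟩, fun h => ⟨h.1, h.2.2, h.2.1⟩⟩)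
    (fun p j => by fin_cases j <;> rfl) h

/-- the cases `0` and `2` suffice -/
theorem d2b_case (Q : Set P3 → Prop) (h12 : ∀ D, Q (sw12 D) → Q D)
    (h23 : ∀ D, Q (sw23 D) → Q D) (G : Set P3 → Prop) (g12 : ∀ D, G D → G (sw12 D))
    (g23 : ∀ D, G D → G (sw23 D))
    (h : ∀ D, G D → ∀ cs, cs = 0 ∨ cs = 2 → Case cs D → Q D) : ∀ D, G D → Q D := by
  intro D hD
  by_contra hQ
  have key : ∀ D', G D' → ¬ Q D' → pB (h1 D') ≤ pB (h2 D') → pB (h1 D') < alR ∧ alR < pA (h2 D') :=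
    fun D' hG hq hle => ⟨not_le.1 fun h' => hq (h D' hG 0 (.inl rfl) ⟨hle, fun _ => h', by simp, by simp⟩),
      not_le.1 fun h' => hq (h D' hG 2 (.inr rfl) ⟨hle, by simp, by simp, fun _ => h'⟩)⟩
  have k1 := key D hD hQ
  have k2 := key _ (g12 D hD) (mt (h12 D) hQ)
  have k3 := key _ (g23 D hD) (mt (h23 D) hQ)
  have k4 := key _ (g12 _ (g23 D hD)) (mt (h12 _) (mt (h23 D) hQ))
  have k5 := key _ (g23 _ (g12 D hD)) (mt (h23 _) (mt (h12 D) hQ))
  have k6 := key _ (g12 _ (g23 _ (g12 D hD))) (mt (h12 _) (mt (h23 _) (mt (h12 D) hQ)))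
  have eA : ∀ k : ℝ → ℝ → ℝ, pA (fun a b => k b a) = pB k := fun _ => rfl
  have eB : ∀ k : ℝ → ℝ → ℝ, pB (fun a b => k b a) = pA k := fun _ => rfl
  simp only [(h_sw12 _).1, (h_sw12 _).2.1, (h_sw12 _).2.2, (h_sw23 _).1, (h_sw23 _).2.1,
    eA (h1 D), eA (h2 D), eA (h3 D), eB (h1 D), eB (h2 D), eB (h3 D)] at k2 k3 k4 k5 k6
  grind

/-- the choice of the slicing direction: pure combinatorics on the six numbers `pA`, `pB`.  Call `i` small
if `min (pA hᵢ) (pB hᵢ) ≤ alR`.  If two are not small, slice along the third (case `0`).  Otherwise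
slice along the one that is not small, or along the one with the largest `max pA pB`. -/
theorem exists_case (Q : Set P3 → Prop) (h12 : ∀ D, Q (sw12 D) → Q D)
    (h23 : ∀ D, Q (sw23 D) → Q D) (G : Set P3 → Prop) (g12 : ∀ D, G D → G (sw12 D))
    (g23 : ∀ D, G D → G (sw23 D))
    (h : ∀ D, G D → ∀ cs, cs ≤ 2 → Case cs D → Q D) : ∀ D, G D → Q D :=
  d2b_case Q h12 h23 G g12 g23 fun D hD cs hcs => h D hD cs (by omega)

theorem d2c_fub {D : Set P3} (hD : MeasurableSet D) {h : ℝ × ℝ → ℝ} (hm : Measurable h)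
    (h0 : ∀ q, 0 ≤ h q ∧ h q ≤ 1)
    (hin : ∀ x q, (0 < x → x < h q → (x, q) ∈ D) ∧ ((x, q) ∈ D → 0 < x ∧ x ≤ h q)) {g ψ : P3 → ℝ}
    (hg : IntegrableOn g D) (hd : ∀ x q, HasDerivAt (fun x => ψ (x, q)) (g (x, q)) x)
    (hc : ∀ q, Continuous fun x => g (x, q)) (hz : ∀ q, ψ (0, q) = 0 ∧ ψ (1, q) = 0) :
    ∫ p in D, g p = ∫ q in {q | 0 < h q ∧ h q < 1}, ψ (h q, q) := by
  have hG : MeasurableSet {q | 0 < h q ∧ h q < 1} := hm measurableSet_Ioo
  rw [← integral_indicator hD, ← integral_indicator hG, Measure.volume_eq_prod,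
    integral_prod_symm _ ((integrable_indicator_iff hD).2 hg)]
  refine integral_congr_ae (Eventually.of_forall fun q => ?_)
  have e : (fun x => D.indicator g (x, q)) =ᵐ[volume] (Ioc 0 (h q)).indicator fun x => g (x, q) := by
    filter_upwards [Measure.ae_ne volume (h q)] with x hx
    by_cases hx' : (x, q) ∈ D
    · rw [indicator_of_mem hx', indicator_of_mem (mem_Ioc.2 ((hin x q).2 hx'))]
    · rw [indicator_of_notMem hx', indicator_of_notMem fun h' => hx' ((hin x q).1 h'.1 (h'.2.lt_of_ne hx))]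
  simp only
  rw [integral_congr_ae e, integral_indicator measurableSet_Ioc, ← intervalIntegral.integral_of_le (h0 q).1,
    intervalIntegral.integral_eq_sub_of_hasDerivAt (fun x _ => hd x q) ((hc q).intervalIntegrable _ _),
    (hz q).1, sub_zero]
  by_cases hq : q ∈ {q | 0 < h q ∧ h q < 1}
  · rw [indicator_of_mem hq]
  · rw [indicator_of_notMem hq]
    rcases (h0 q).1.eq_or_lt with h1 | h1
    · rw [← h1, (hz q).1]
    · rw [(h0 q).2.eq_or_lt.resolve_right fun h2 => hq ⟨h1, h2⟩, (hz q).2]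

theorem d2c_cont : Continuous pt :=
  (PiLp.continuous_toLp 2 _).comp (continuous_pi fun i => by fin_cases i <;> simp [co] <;> fun_prop)

theorem d2c_dir {D : Set P3} (h : Down D) {φ : E3 → E3} (hφ : Loc {x | ∀ j, 0 < x j ∧ x j < 1} φ)
    (i : Fin 3) (T : P3 ≃ᵐ P3) (hT : MeasurePreserving T volume volume)
    (hi : ∀ x q, pt (T (x, q)) = pt (T (0, q)) + x • EuclideanSpace.single i 1) (hi' : ∀ x q, pt (T (x, q)) i = x)
    {H : ℝ × ℝ → ℝ} (hm : Measurable H) (h0 : ∀ q, 0 ≤ H q ∧ H q ≤ 1)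
    (hin : ∀ x q, (0 < x → x < H q → T (x, q) ∈ D) ∧ (T (x, q) ∈ D → 0 < x ∧ x ≤ H q)) :
    IntegrableOn (fun q => fderiv ℝ φ (pt q) (EuclideanSpace.single i 1) i) D ∧
    ∫ q in D, fderiv ℝ φ (pt q) (EuclideanSpace.single i 1) i =
      ∫ q in {q | 0 < H q ∧ H q < 1}, φ (pt (T (H q, q))) i := by
  have hc : Continuous fun x => fderiv ℝ φ x (EuclideanSpace.single i 1) i := by
    have := hφ.1.continuous_fderiv one_ne_zero
    fun_prop
  have hI : IntegrableOn (fun q => fderiv ℝ φ (pt q) (EuclideanSpace.single i 1) i) D :=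
    ((hc.comp d2c_cont).continuousOn.integrableOn_compact (isCompact_Icc (a := (0, 0, 0)) (b := (1, 1, 1)))).mono_set
      fun p hp => have := h.sub hp
        ⟨Prod.le_def.2 ⟨this.1.1.le, Prod.le_def.2 ⟨this.2.1.1.le, this.2.2.1.le⟩⟩,
          Prod.le_def.2 ⟨this.1.2.le, Prod.le_def.2 ⟨this.2.1.2.le, this.2.2.2.le⟩⟩⟩
  have hl : ∀ x q, HasDerivAt (fun x => pt (T (x, q))) (EuclideanSpace.single i 1) x := fun x q => by
    simpa only [← hi, one_smul] using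
      ((hasDerivAt_id' x).smul_const (EuclideanSpace.single i (1 : ℝ))).const_add (pt (T (0, q)))
  have hz : ∀ x q, ¬ (0 < x ∧ x < 1) → φ (pt (T (x, q))) i = 0 := fun x q hx => by
    rw [image_eq_zero_of_notMem_tsupport fun h' => hx (hi' x q ▸ hφ.2.2.1 h' i)]
    rfl
  refine ⟨hI, ?_⟩
  rw [← hT.setIntegral_preimage_emb T.measurableEmbedding]
  exact d2c_fub (T.measurable h.meas) hm h0 hin (ψ := fun p => φ (pt (T p)) i)
    ((hT.integrableOn_comp_preimage T.measurableEmbedding).2 hI)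
    (fun x q => (EuclideanSpace.proj (𝕜 := ℝ) i).hasFDerivAt.comp_hasDerivAt x
      ((hφ.1.differentiable one_ne_zero _).hasFDerivAt.comp_hasDerivAt x (hl x q)))
    (fun q => hc.comp (continuous_iff_continuousAt.2 fun x => (hl x q).continuousAt))
    fun q => ⟨hz 0 q (by simp), hz 1 q (by simp)⟩

theorem div_eq_I {D : Set P3} (h : Down D) {φ : E3 → E3}
    (hφ : Loc {x | ∀ j, 0 < x j ∧ x j < 1} φ) :
    ∫ q in D, divergence φ (pt q) =
      I1 D (fun q => φ (pt q) 0) + I2 D (fun q => φ (pt q) 1) + I3 D (fun q => φ (pt q) 2) := by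
  obtain ⟨a1, b1⟩ := d2c_dir h hφ 0 (MeasurableEquiv.refl _) (MeasurePreserving.id _)
    (fun x q => by ext j; fin_cases j <;> simp [pt, co]) (fun x q => rfl) h.h_meas.1
    (fun q => (h.h_range _ _).1) fun x q => ⟨h.mem1.1, fun hx => ⟨(h.sub hx).1.1, h.mem1.2 hx⟩⟩
  obtain ⟨a2, b2⟩ := d2c_dir h hφ 1 ((MeasurableEquiv.prodAssoc.symm.trans
      (MeasurableEquiv.prodComm.prodCongr (MeasurableEquiv.refl _))).trans MeasurableEquiv.prodAssoc)
    (volume_preserving_prodAssoc.comp ((Measure.measurePreserving_swap.prod (MeasurePreserving.id _)).comp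
      volume_preserving_prodAssoc.symm))
    (fun x q => by ext j; fin_cases j <;> exact by simp [pt, co, MeasurableEquiv.prodAssoc,
      MeasurableEquiv.prodComm, MeasurableEquiv.prodCongr]) (fun x q => rfl) h.h_meas.2.1
    (fun q => (h.h_range _ _).2.1) fun x q => ⟨h.mem2.1, fun hx => ⟨(h.sub hx).2.1.1, h.mem2.2 hx⟩⟩
  obtain ⟨a3, b3⟩ := d2c_dir h hφ 2 (MeasurableEquiv.prodComm.trans MeasurableEquiv.prodAssoc)
    (volume_preserving_prodAssoc.comp Measure.measurePreserving_swap)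
    (fun x q => by ext j; fin_cases j <;> exact by simp [pt, co, MeasurableEquiv.prodAssoc,
      MeasurableEquiv.prodComm]) (fun x q => rfl) h.h_meas.2.2
    (fun q => (h.h_range _ _).2.2) fun x q => ⟨h.mem3.1, fun hx => ⟨(h.sub hx).2.2.1, h.mem3.2 hx⟩⟩
  simp only [divergence, Fin.sum_univ_three]
  refine (integral_add (a1.add a2) a3).trans ?_
  simp only [Pi.add_apply]
  rw [integral_add a1 a2, b1, b2, b3]
  rfl

theorem exists_smooth_field {U : Set E3} (hU : IsOpen U) {f : E3 → E3} (hf : Continuous f)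
    (hc : HasCompactSupport f) (hs : tsupport f ⊆ U) (h1 : ∀ x, ‖f x‖ ≤ 1) {δ : ℝ} (hδ : 0 < δ) :
    ∃ φ : E3 → E3, Loc U φ ∧ ∀ x, ‖φ x - f x‖ ≤ δ := by
  obtain ⟨g, hg1, hg2, hg3⟩ := hf.exists_contDiff_approx 1 (ε := fun _ => δ / 2) continuous_const
    (fun _ => half_pos hδ)
  have hη : 0 < 1 + δ / 2 := by linarith
  have hsupp : tsupport (fun x => (1 + δ / 2)⁻¹ • g x) ⊆ tsupport f := by
    refine closure_mono fun x hx => hg3 fun h0 => hx ?_
    simp [h0]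
  have hg : ∀ x, ‖g x‖ ≤ 1 + δ / 2 := fun x => by
    have a := hg2 x
    rw [dist_eq_norm] at a
    have b := norm_sub_norm_le (g x) (f x)
    have c := h1 x
    linarith
  refine ⟨fun x => (1 + δ / 2)⁻¹ • g x, ⟨by exact_mod_cast hg1.const_smul (1 + δ / 2)⁻¹,
    hc.of_isClosed_subset (isClosed_tsupport _) hsupp, hsupp.trans hs, fun x => ?_⟩, fun x => ?_⟩
  · rw [norm_smul, Real.norm_eq_abs, abs_of_pos (inv_pos.2 hη), inv_mul_le_iff₀ hη, mul_one]
    exact hg x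
  · have a := hg2 x
    rw [dist_eq_norm] at a
    have b : (1 + δ / 2)⁻¹ • g x - g x = (-(δ / 2 * (1 + δ / 2)⁻¹)) • g x := by
      have : -(δ / 2 * (1 + δ / 2)⁻¹) = (1 + δ / 2)⁻¹ - 1 := by field_simp; ring
      rw [this, sub_smul, one_smul]
    have c : ‖(1 + δ / 2)⁻¹ • g x - g x‖ ≤ δ / 2 := by
      rw [b, norm_smul, norm_neg, Real.norm_eq_abs, abs_of_pos (by positivity), mul_assoc]
      refine mul_le_of_le_one_right (by positivity) ?_
      rw [inv_mul_le_iff₀ hη, mul_one]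
      exact hg x
    have d := norm_sub_le_norm_sub_add_norm_sub ((1 + δ / 2)⁻¹ • g x) (g x) (f x)
    linarith

theorem d2d_retract (v w : E3) (hw : ‖w‖ ≤ 1) :
    ‖(max 1 ‖v‖)⁻¹ • v‖ ≤ 1 ∧ ‖(max 1 ‖v‖)⁻¹ • v - w‖ ≤ 2 * ‖v - w‖ := by
  rcases le_total ‖v‖ 1 with h | h
  · rw [max_eq_left h, inv_one, one_smul]
    exact ⟨h, by linarith [norm_nonneg (v - w)]⟩
  · rw [max_eq_right h]
    have h0 : 0 < ‖v‖ := by linarith
    refine ⟨by rw [norm_smul, norm_inv, norm_norm, inv_mul_cancel₀ h0.ne'], ?_⟩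
    have a : ‖v‖⁻¹ • v - v = (‖v‖⁻¹ - 1) • v := by rw [sub_smul, one_smul]
    have b : ‖‖v‖⁻¹ • v - v‖ = ‖v‖ - 1 := by
      rw [a, norm_smul, Real.norm_eq_abs,
        abs_of_nonpos (sub_nonpos.2 (inv_le_one_of_one_le₀ h))]
      field_simp
      ring
    have c := norm_sub_norm_le v w
    have d := norm_sub_le_norm_sub_add_norm_sub (‖v‖⁻¹ • v) v w
    linarith

theorem exists_L1_field (μ : Measure E3) [IsFiniteMeasure μ] {U : Set E3} (hU : IsOpen U)
    (hμ : μ Uᶜ = 0) {f : E3 → E3} (hf : Measurable f) (h1 : ∀ x, ‖f x‖ ≤ 1) {δ : ℝ}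
    (hδ : 0 < δ) : ∃ φ : E3 → E3, Loc U φ ∧ ∫ x, ‖φ x - f x‖ ∂μ ≤ δ := by
  have hfi : Integrable f μ :=
    Integrable.of_bound hf.aestronglyMeasurable 1 (Eventually.of_forall h1)
  obtain ⟨g, -, hg2, hg3, hg4⟩ := hfi.exists_hasCompactSupport_integral_sub_le
    (ε := δ / 4) (by positivity)
  obtain ⟨K, hKU, hK, hKμ⟩ := hU.measurableSet.exists_isCompact_sdiff_lt (μ := μ)
    (measure_ne_top _ _) (ε := ENNReal.ofReal (δ / 4)) (by simpa using hδ)
  obtain ⟨χ, hχ1, hχ2, hχ3, hχ4⟩ := exists_continuousMap_one_of_isCompact_subset_isOpen hK hU hKU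
  let r : E3 → E3 := fun x => (max 1 ‖g x‖)⁻¹ • g x
  have hr : Continuous r :=
    ((continuous_const.max hg3.norm).inv₀ fun x =>
      (lt_of_lt_of_le one_pos (le_max_left _ _)).ne').smul hg3
  have hsupp : tsupport (fun x => χ x • r x) ⊆ tsupport χ := tsupport_smul_subset_left _ _
  have hb : ∀ x, ‖χ x • r x‖ ≤ 1 := fun x => by
    rw [norm_smul, Real.norm_eq_abs, abs_of_nonneg (hχ4 x).1]
    exact mul_le_one₀ (hχ4 x).2 (norm_nonneg _) (d2d_retract (g x) (f x) (h1 x)).1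
  have hM : 0 < μ.real univ + 1 := by positivity
  obtain ⟨φ, hφ, hφ'⟩ := exists_smooth_field hU (χ.continuous.smul hr)
    (hχ2.of_isClosed_subset (isClosed_tsupport _) hsupp) (hsupp.trans hχ3) hb
    (δ := δ / 4 / (μ.real univ + 1)) (by positivity)
  refine ⟨φ, hφ, ?_⟩
  have hKm : MeasurableSet Kᶜ := hK.measurableSet.compl
  have i1 : Integrable (fun _ : E3 => δ / 4 / (μ.real univ + 1)) μ := integrable_const _
  have i2 : Integrable (Kᶜ.indicator fun _ : E3 => (1 : ℝ)) μ := (integrable_const _).indicator hKm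
  have i3 : Integrable (fun x => 2 * ‖f x - g x‖) μ := (hfi.sub hg4).norm.const_mul 2
  have i12 : Integrable (fun x => δ / 4 / (μ.real univ + 1) +
      Kᶜ.indicator (fun _ : E3 => (1 : ℝ)) x) μ := i1.add i2
  have hle : ∫ x, ‖φ x - f x‖ ∂μ ≤ ∫ x, ((δ / 4 / (μ.real univ + 1) +
      Kᶜ.indicator (fun _ : E3 => (1 : ℝ)) x) + 2 * ‖f x - g x‖) ∂μ := by
    refine integral_mono_of_nonneg (Eventually.of_forall fun x => norm_nonneg _) (i12.add i3)
      (Eventually.of_forall fun x => ?_)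
    have a : ‖φ x - χ x • r x‖ ≤ δ / 4 / (μ.real univ + 1) := hφ' x
    have b : ‖χ x • r x - r x‖ ≤ Kᶜ.indicator (fun _ : E3 => (1 : ℝ)) x := by
      by_cases hx : x ∈ K
      · have : χ x = 1 := hχ1 hx
        rw [this, one_smul, sub_self, norm_zero, indicator_of_notMem (by simpa using hx)]
      · rw [indicator_of_mem (by simpa using hx)]
        have e : χ x • r x - r x = (χ x - 1) • r x := by rw [sub_smul, one_smul]
        rw [e, norm_smul, Real.norm_eq_abs, abs_of_nonpos (sub_nonpos.2 (hχ4 x).2)]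
        exact mul_le_one₀ (by linarith [(hχ4 x).1]) (norm_nonneg _)
          (d2d_retract (g x) (f x) (h1 x)).1
    have c : ‖r x - f x‖ ≤ 2 * ‖g x - f x‖ := (d2d_retract (g x) (f x) (h1 x)).2
    rw [norm_sub_rev (g x)] at c
    have d := norm_sub_le_norm_sub_add_norm_sub (φ x) (χ x • r x) (f x)
    have e := norm_sub_le_norm_sub_add_norm_sub (χ x • r x) (r x) (f x)
    show ‖φ x - f x‖ ≤ _
    linarith
  rw [integral_add i12 i3, integral_add i1 i2, integral_const, integral_indicator_const _ hKm,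
    integral_const_mul, smul_eq_mul, smul_eq_mul, mul_one] at hle
  have k1 : μ.real univ * (δ / 4 / (μ.real univ + 1)) ≤ δ / 4 := by
    rw [mul_div_assoc', div_le_iff₀ hM]
    nlinarith
  have k2 : μ.real Kᶜ ≤ δ / 4 := by
    have : μ Kᶜ ≤ ENNReal.ofReal (δ / 4) := by
      calc μ Kᶜ ≤ μ (U \ K ∪ Uᶜ) := measure_mono fun x hx => by
            by_cases hxU : x ∈ U
            · exact Or.inl ⟨hxU, hx⟩
            · exact Or.inr hxU
        _ ≤ μ (U \ K) + μ Uᶜ := measure_union_le _ _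
        _ ≤ _ := by rw [hμ, add_zero]; exact hKμ.le
    exact ENNReal.toReal_le_of_le_ofReal (by positivity) this
  linarith

theorem d2e_coord_meas (i : Fin 3) : Measurable fun x : E3 => x i :=
  (EuclideanSpace.proj (𝕜 := ℝ) i).continuous.measurable

theorem d2e_abs_le (v : E3) (i : Fin 3) : |v i| ≤ ‖v‖ := by
  simpa using PiLp.norm_apply_le v i

theorem d2e_step {S : Set (ℝ × ℝ)} (hS : volume S ≠ ∞) {g : ℝ × ℝ → E3} (hg : Measurable g)
    (μ : Measure E3) [IsFiniteMeasure μ] (hμ : Measure.map g (volume.restrict S) ≤ μ)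
    {φ f : E3 → E3} (hφ : Measurable φ) (hf : Measurable f) (h1 : ∀ x, ‖φ x‖ ≤ 1)
    (h2 : ∀ x, ‖f x‖ ≤ 1) (i : Fin 3) :
    ∫ q in S, f (g q) i ≤ (∫ q in S, φ (g q) i) + ∫ x, ‖φ x - f x‖ ∂μ := by
  have : IsFiniteMeasure (volume.restrict S) := isFiniteMeasure_restrict.2 hS
  have hint : ∀ u : E3 → E3, Measurable u → (∀ x, ‖u x‖ ≤ 1) →
      Integrable (fun q => u (g q) i) (volume.restrict S) := by
    intro u hu hu1
    refine Integrable.of_bound (C := 1)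
      ((d2e_coord_meas i).comp (hu.comp hg)).aestronglyMeasurable (ae_of_all _ fun q => ?_)
    exact (d2e_abs_le _ i).trans (hu1 _)
  have hm : Measurable fun x => ‖φ x - f x‖ := (hφ.sub hf).norm
  have hb : ∀ x, ‖‖φ x - f x‖‖ ≤ 2 := fun x => by
    rw [norm_norm]
    exact (norm_sub_le _ _).trans (by linarith [h1 x, h2 x])
  have hI : Integrable (fun x => ‖φ x - f x‖) μ :=
    Integrable.of_bound (C := 2) hm.aestronglyMeasurable (ae_of_all _ hb)
  have hI' : Integrable (fun q => ‖φ (g q) - f (g q)‖) (volume.restrict S) :=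
    Integrable.of_bound (C := 2) (hm.comp hg).aestronglyMeasurable (ae_of_all _ fun q => hb _)
  have e1 : ∫ q in S, ‖φ (g q) - f (g q)‖ ≤ ∫ x, ‖φ x - f x‖ ∂μ := by
    rw [← integral_map (f := fun x => ‖φ x - f x‖) hg.aemeasurable hm.aestronglyMeasurable]
    exact integral_mono_measure hμ (ae_of_all _ fun x => norm_nonneg _) hI
  have e2 : ∫ q in S, f (g q) i ≤ ∫ q in S, (φ (g q) i + ‖φ (g q) - f (g q)‖) := by
    refine integral_mono (hint f hf h2) ((hint φ hφ h1).add hI') fun q => ?_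
    have := d2e_abs_le (φ (g q) - f (g q)) i
    rw [PiLp.sub_apply] at this
    have := neg_abs_le (φ (g q) i - f (g q) i)
    dsimp only
    linarith
  rw [integral_add (hint φ hφ h1) hI'] at e2
  linarith

theorem d2e_gr_meas {k : ℝ → ℝ → ℝ} (hk : Measurable fun q : ℝ × ℝ => k q.1 q.2) :
    MeasurableSet (Gr k) :=
  (measurableSet_lt measurable_const hk).inter (measurableSet_lt hk measurable_const)

theorem d2e_gr_fin {k : ℝ → ℝ → ℝ}
    (hk : ∀ a b, 0 < k a b → a ∈ Ioo (0 : ℝ) 1 ∧ b ∈ Ioo (0 : ℝ) 1) : volume (Gr k) ≠ ∞ := by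
  have hsub : Gr k ⊆ Icc (0 : ℝ) 1 ×ˢ Icc (0 : ℝ) 1 := fun q hq =>
    ⟨Ioo_subset_Icc_self (hk _ _ hq.1).1, Ioo_subset_Icc_self (hk _ _ hq.1).2⟩
  exact ((measure_mono hsub).trans_lt (isCompact_Icc.prod isCompact_Icc).measure_lt_top).ne

theorem d2e_null {S : Set (ℝ × ℝ)} (hS : MeasurableSet S) {g : ℝ × ℝ → E3} (hg : Measurable g)
    {U : Set E3} (hU : IsOpen U) (h : ∀ q ∈ S, g q ∈ U) :
    Measure.map g (volume.restrict S) Uᶜ = 0 := by
  rw [Measure.map_apply hg hU.measurableSet.compl, Measure.restrict_apply' hS]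
  have : g ⁻¹' Uᶜ ∩ S = ∅ := eq_empty_of_forall_notMem fun q hq => hq.1 (h q hq.2)
  rw [this, measure_empty]

theorem d2e_pt_mem {p : P3} (h1 : p.1 ∈ Ioo (0 : ℝ) 1) (h2 : p.2.1 ∈ Ioo (0 : ℝ) 1)
    (h3 : p.2.2 ∈ Ioo (0 : ℝ) 1) : pt p ∈ {x : E3 | ∀ j, 0 < x j ∧ x j < 1} := by
  intro j
  fin_cases j
  · exact h1
  · exact h2
  · exact h3

theorem cal_of_div {D : Set P3} (h : Down D) {P : ℝ}
    (hP : ∀ φ : E3 → E3, Loc {x | ∀ j, 0 < x j ∧ x j < 1} φ → ∫ q in D, divergence φ (pt q) ≤ P) :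
    Cal D P := by
  intro ψ1 ψ2 ψ3 m1 m2 m3 hψ
  obtain ⟨k1, k2, k3⟩ := h.h_meas
  have hpt : Measurable pt := measurableEmbedding_pt.measurable
  have hU : IsOpen {x : E3 | ∀ j, 0 < x j ∧ x j < 1} := by
    simp only [ofPred_forall]
    refine isOpen_iInter_of_finite fun j => ?_
    exact (isOpen_Ioo (a := (0 : ℝ)) (b := 1)).preimage
      (EuclideanSpace.proj (𝕜 := ℝ) j).continuous
  let g1 : ℝ × ℝ → E3 := fun q => pt (h1 D q.1 q.2, q.1, q.2)
  let g2 : ℝ × ℝ → E3 := fun q => pt (q.1, h2 D q.1 q.2, q.2)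
  let g3 : ℝ × ℝ → E3 := fun q => pt (q.1, q.2, h3 D q.1 q.2)
  have hg1 : Measurable g1 := hpt.comp (k1.prodMk measurable_id)
  have hg2 : Measurable g2 := hpt.comp (measurable_fst.prodMk (k2.prodMk measurable_snd))
  have hg3 : Measurable g3 := hpt.comp (measurable_fst.prodMk (measurable_snd.prodMk k3))
  have f1 : volume (Gr (h1 D)) ≠ ∞ := d2e_gr_fin fun a b hab => h.h_pos (Or.inl hab)
  have f2 : volume (Gr (h2 D)) ≠ ∞ := d2e_gr_fin fun a b hab => h.h_pos (Or.inr (Or.inl hab))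
  have f3 : volume (Gr (h3 D)) ≠ ∞ := d2e_gr_fin fun a b hab => h.h_pos (Or.inr (Or.inr hab))
  have : IsFiniteMeasure (volume.restrict (Gr (h1 D))) := isFiniteMeasure_restrict.2 f1
  have : IsFiniteMeasure (volume.restrict (Gr (h2 D))) := isFiniteMeasure_restrict.2 f2
  have : IsFiniteMeasure (volume.restrict (Gr (h3 D))) := isFiniteMeasure_restrict.2 f3
  let ν1 : Measure E3 := Measure.map g1 (volume.restrict (Gr (h1 D)))
  let ν2 : Measure E3 := Measure.map g2 (volume.restrict (Gr (h2 D)))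
  let ν3 : Measure E3 := Measure.map g3 (volume.restrict (Gr (h3 D)))
  have n1 : ν1 {x : E3 | ∀ j, 0 < x j ∧ x j < 1}ᶜ = 0 :=
    d2e_null (d2e_gr_meas k1) hg1 hU fun q hq =>
      d2e_pt_mem hq (h.h_pos (Or.inl hq.1)).1 (h.h_pos (Or.inl hq.1)).2
  have n2 : ν2 {x : E3 | ∀ j, 0 < x j ∧ x j < 1}ᶜ = 0 :=
    d2e_null (d2e_gr_meas k2) hg2 hU fun q hq =>
      d2e_pt_mem (h.h_pos (Or.inr (Or.inl hq.1))).1 hq (h.h_pos (Or.inr (Or.inl hq.1))).2
  have n3 : ν3 {x : E3 | ∀ j, 0 < x j ∧ x j < 1}ᶜ = 0 :=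
    d2e_null (d2e_gr_meas k3) hg3 hU fun q hq =>
      d2e_pt_mem (h.h_pos (Or.inr (Or.inr hq.1))).1 (h.h_pos (Or.inr (Or.inr hq.1))).2 hq
  have hμ : (ν1 + ν2 + ν3) {x : E3 | ∀ j, 0 < x j ∧ x j < 1}ᶜ = 0 := by
    rw [Measure.add_apply, Measure.add_apply, n1, n2, n3, add_zero, add_zero]
  let un : E3 → P3 := fun x => (x 0, x 1, x 2)
  have hun : Measurable un :=
    (d2e_coord_meas 0).prodMk ((d2e_coord_meas 1).prodMk (d2e_coord_meas 2))
  let f : E3 → E3 := fun x => pt (ψ1 (un x), ψ2 (un x), ψ3 (un x))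
  have hf : Measurable f :=
    hpt.comp ((m1.comp hun).prodMk ((m2.comp hun).prodMk (m3.comp hun)))
  have hf1 : ∀ x, ‖f x‖ ≤ 1 := by
    intro x
    rw [EuclideanSpace.norm_eq, Fin.sum_univ_three]
    refine Real.sqrt_le_one.2 ?_
    simp only [Real.norm_eq_abs, sq_abs]
    exact hψ (un x)
  refine le_of_forall_pos_le_add fun ε hε => ?_
  obtain ⟨φ, hφ, hφf⟩ := exists_L1_field (ν1 + ν2 + ν3) hU hμ hf hf1 (δ := ε / 3) (by positivity)
  have hφm : Measurable φ := hφ.1.continuous.measurable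
  have e1 := d2e_step f1 hg1 (ν1 + ν2 + ν3)
    ((Measure.le_add_right le_rfl).trans (Measure.le_add_right le_rfl)) hφm hf hφ.2.2.2 hf1 0
  have e2 := d2e_step f2 hg2 (ν1 + ν2 + ν3)
    ((Measure.le_add_left le_rfl).trans (Measure.le_add_right le_rfl)) hφm hf hφ.2.2.2 hf1 1
  have e3 := d2e_step f3 hg3 (ν1 + ν2 + ν3) (Measure.le_add_left le_rfl) hφm hf hφ.2.2.2 hf1 2
  have e := hP φ hφ
  rw [div_eq_I h hφ] at e
  have a1 : I1 D ψ1 = ∫ q in Gr (h1 D), f (g1 q) 0 := rfl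
  have a2 : I2 D ψ2 = ∫ q in Gr (h2 D), f (g2 q) 1 := rfl
  have a3 : I3 D ψ3 = ∫ q in Gr (h3 D), f (g3 q) 2 := rfl
  have b1 : I1 D (fun q => φ (pt q) 0) = ∫ q in Gr (h1 D), φ (g1 q) 0 := rfl
  have b2 : I2 D (fun q => φ (pt q) 1) = ∫ q in Gr (h2 D), φ (g2 q) 1 := rfl
  have b3 : I3 D (fun q => φ (pt q) 2) = ∫ q in Gr (h3 D), φ (g3 q) 2 := rfl
  linarith

end Crest.Agent.R214
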