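import Crest.Agent.R214.D2

/-! Block D3: slices and the slicing inequality.
`quantile`: let `ν` be the law of `H` on `{0 < H < 1}` and `τ z = sSup {t ∈ (0,1) | z < a t}`.  The image
of `volume.restrict (Ioo amin amax)` under `τ` is `ν` (compare the sets `Ioi t`; `a` is antitone on
`(0,1)` by the sandwich).  Put `R' t = R (a t)` if `ν {t} = 0`, and `0` otherwise (countably many atoms:
`Measure.countable_meas_level_set_pos` / `countable_meas_pos_of_disjoint_iUnion`).  If `τ z` is not an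
atom then `a (τ z) = z`.
`slicing`: apply `Cal` to `ψ₁ = R' t * η₁`, `ψ₂ = R' t * η₂`, `ψ₃ = √(1 - R' t²)` and Fubini
(`I1 D ψ₁ + I2 D ψ₂ = ∫ t in Ioo 0 1, R' t * Lc D η₁ η₂ t`). -/

set_option autoImplicit false
set_option linter.unusedVariables false
open MeasureTheory Set Filter Metric
open scoped Topology ENNReal NNReal
open Crest.GeometryTopology.PeriodicPerimeter

noncomputable section
namespace Crest.Agent.R214

theorem d3a_right {Ω : Type*} [MeasurableSpace Ω] (μ : Measure Ω) {H : Ω → ℝ} {t : ℝ} (ht : t < 1) {z : ℝ≥0∞}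
    (hz : z < μ {q | t < H q}) : ∃ s, t < s ∧ s ≤ 1 ∧ z < μ {q | s < H q} := by
  have h1 : Tendsto (fun n : ℕ => μ {q | t + (1 - t) / (n + 1) < H q}) atTop
      (𝓝 (μ (⋃ n : ℕ, {q | t + (1 - t) / (n + 1) < H q}))) := by
    refine tendsto_measure_iUnion_atTop fun m n hmn q hq => ?_
    refine lt_of_le_of_lt (b := t + (1 - t) / (m + 1)) ?_ hq
    have : (m : ℝ) ≤ n := by exact_mod_cast hmn
    have := sub_pos.2 ht
    gcongr
  have e : (⋃ n : ℕ, {q | t + (1 - t) / (n + 1) < H q}) = {q | t < H q} := by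
    ext q
    simp only [mem_iUnion, mem_ofPred_eq]
    constructor
    · rintro ⟨n, hn⟩
      have : 0 < (1 - t) / (n + 1) := by have := sub_pos.2 ht; positivity
      linarith
    · intro hq
      obtain ⟨n, hn⟩ := exists_nat_gt ((1 - t) / (H q - t))
      refine ⟨n, ?_⟩
      rw [div_lt_iff₀ (sub_pos.2 hq)] at hn
      rw [← lt_sub_iff_add_lt', div_lt_iff₀ (by positivity)]
      nlinarith
  rw [e] at h1
  obtain ⟨n, hn⟩ := (h1.eventually (lt_mem_nhds hz)).exists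
  have h2 : 0 < (1 - t) / (n + 1) := by have := sub_pos.2 ht; positivity
  have h3 : (1 - t) / (n + 1) ≤ 1 - t := div_le_self (sub_pos.2 ht).le (by simp)
  exact ⟨_, by linarith, by linarith, hn⟩

theorem d3a_left {Ω : Type*} [MeasurableSpace Ω] (μ : Measure Ω) {H : Ω → ℝ} (hH : Measurable H)
    (hfin : μ {q | 0 < H q} ≠ ⊤) {t : ℝ} (ht : 0 < t) {z : ℝ≥0∞}
    (hz : ∀ s, 0 ≤ s → s < t → z ≤ μ {q | s < H q}) : z ≤ μ {q | t ≤ H q} := by
  have h1 : Tendsto (fun n : ℕ => μ {q | t - t / (n + 1) < H q}) atTop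
      (𝓝 (μ (⋂ n : ℕ, {q | t - t / (n + 1) < H q}))) := by
    refine tendsto_measure_iInter_atTop (fun n => (measurableSet_lt measurable_const hH).nullMeasurableSet)
      (fun m n hmn q hq => ?_) ⟨0, by simpa using hfin⟩
    refine lt_of_le_of_lt (b := t - t / (n + 1)) ?_ hq
    have : (m : ℝ) ≤ n := by exact_mod_cast hmn
    gcongr
  have e : (⋂ n : ℕ, {q | t - t / (n + 1) < H q}) = {q | t ≤ H q} := by
    ext q
    simp only [mem_iInter, mem_ofPred_eq]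
    constructor
    · intro hq
      by_contra hn
      push Not at hn
      obtain ⟨n, hn'⟩ := exists_nat_gt (t / (t - H q))
      have := hq n
      rw [div_lt_iff₀ (sub_pos.2 hn)] at hn'
      rw [sub_lt_comm, lt_div_iff₀ (by positivity)] at this
      nlinarith
    · intro hq n
      have : 0 < t / (n + 1) := by positivity
      linarith
  rw [e] at h1
  refine ge_of_tendsto' h1 fun n => hz _ ?_ ?_
  · have : t / (n + 1) ≤ t := div_le_self ht.le (by simp)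
    linarith
  · have : 0 < t / (n + 1) := by positivity
    linarith

theorem quantile {Ω : Type*} [MeasurableSpace Ω] (μ : Measure Ω) {H : Ω → ℝ} (hH : Measurable H)
    (hfin : μ {q | 0 < H q} ≠ ⊤) (hH1 : ∀ q, H q ≤ 1) {a : ℝ → ℝ} (ha : Measurable a)
    (hs : ∀ t ∈ Ioo (0 : ℝ) 1, (μ {q | t < H q}).toReal ≤ a t ∧ a t ≤ (μ {q | t ≤ H q}).toReal)
    {R : ℝ → ℝ} (hR : MB 1 R) :
    ∃ R' : ℝ → ℝ, MB 1 R' ∧ (∀ᵐ t ∂(volume.restrict (Ioo (0 : ℝ) 1)), R' t = R (a t)) ∧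
      ∫ z in Ioo (μ {q | 1 ≤ H q}).toReal (μ {q | 0 < H q}).toReal, Real.sqrt (1 - R z ^ 2) ≤
        ∫ q in {q | 0 < H q ∧ H q < 1}, Real.sqrt (1 - R' (H q) ^ 2) ∂μ := by
  classical
  have fin : ∀ {S : Set Ω}, S ⊆ {q | 0 < H q} → μ S ≠ ⊤ := fun h => ne_top_of_le_ne_top hfin (measure_mono h)
  set F : ℝ → ℝ := fun t => (μ {q | t < H q}).toReal with hF
  have fF : ∀ t, 0 ≤ t → μ {q | t < H q} ≠ ⊤ := fun t ht => fin fun q hq => ht.trans_lt hq
  have fG : ∀ t, 0 < t → μ {q | t ≤ H q} ≠ ⊤ := fun t ht => fin fun q hq => ht.trans_le hq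
  have Fa : ∀ s t, 0 ≤ s → s ≤ t → F t ≤ F s := fun s t h1 h2 =>
    ENNReal.toReal_mono (fF s h1) (measure_mono fun q hq => h2.trans_lt hq)
  set τ : ℝ → ℝ := fun z => sSup (insert 0 {t | t ∈ Icc (0 : ℝ) 1 ∧ z < F t}) with hτ
  have bd : ∀ z, BddAbove (insert 0 {t | t ∈ Icc (0 : ℝ) 1 ∧ z < F t}) := fun z =>
    ⟨1, by rintro t (rfl | ht); exacts [zero_le_one, ht.1.2]⟩
  have τa : Antitone τ := fun z z' h => csSup_le_csSup (bd z) (insert_nonempty _ _)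
    (insert_subset_insert fun t ht => ⟨ht.1, h.trans_lt ht.2⟩)
  have τ0 : ∀ z, 0 ≤ τ z := fun z => le_csSup (bd z) (mem_insert _ _)
  have τ1 : ∀ z, τ z ≤ 1 := fun z => csSup_le (insert_nonempty _ _) (by rintro t (rfl | ht); exacts [zero_le_one, ht.1.2])
  have τi : ∀ z, 0 ≤ z → ∀ t, 0 ≤ t → t < 1 → (t < τ z ↔ z < F t) := by
    intro z hz t h0 h1
    constructor
    · intro h
      obtain ⟨s, rfl | hs', h2⟩ := exists_lt_of_lt_csSup (insert_nonempty _ _) h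
      · exact absurd h2 h0.not_gt
      · exact hs'.2.trans_le (Fa t s h0 h2.le)
    · intro h
      obtain ⟨s, h2, h3, h4⟩ := d3a_right μ h1 ((ENNReal.ofReal_lt_iff_lt_toReal hz (fF t h0)).2 h)
      exact h2.trans_le (le_csSup (bd z) (Or.inr ⟨⟨h0.trans h2.le, h3⟩,
        (ENNReal.ofReal_lt_iff_lt_toReal hz (fF s (h0.trans h2.le))).1 h4⟩))
  have τl : ∀ z, 0 ≤ z → 0 < τ z → z ≤ (μ {q | τ z ≤ H q}).toReal := fun z hz h =>
    (ENNReal.ofReal_le_iff_le_toReal (fG _ h)).1 (d3a_left μ hH hfin h fun s h1 h2 =>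
      (ENNReal.ofReal_le_iff_le_toReal (fF s h1)).2 ((τi z hz s h1 (h2.trans_le (τ1 z))).1 h2).le)
  set m := (μ {q | 1 ≤ H q}).toReal with hm
  have m0 : 0 ≤ m := ENNReal.toReal_nonneg
  have mS : MeasurableSet {q | 0 < H q ∧ H q < 1} :=
    (measurableSet_lt measurable_const hH).inter (measurableSet_lt hH measurable_const)
  have law : (volume.restrict (Ioo m (F 0))).map τ = (μ.restrict {q | 0 < H q ∧ H q < 1}).map H := by
    have key : ∀ t, 0 ≤ t → t < 1 → μ {q | t < H q ∧ H q < 1} = ENNReal.ofReal (F t - m) := by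
      intro t h0 h1
      have e : {q | t < H q ∧ H q < 1} = {q | t < H q} \ {q | 1 ≤ H q} := by ext q; simp
      rw [e, measure_sdiff (s₁ := {q | t < H q}) (s₂ := {q | 1 ≤ H q}) (fun q hq => h1.trans_le hq) (measurableSet_le measurable_const hH).nullMeasurableSet
        (fG 1 one_pos), ENNReal.ofReal_sub _ m0, ENNReal.ofReal_toReal (fF t h0), ENNReal.ofReal_toReal (fG 1 one_pos)]
    refine ext_of_generate_finite (range Ioi) (borel_eq_generateFrom_Ioi ℝ) isPiSystem_Ioi ?_ ?_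
    · rintro _ ⟨t, rfl⟩
      rw [Measure.map_apply τa.measurable measurableSet_Ioi, Measure.map_apply hH measurableSet_Ioi,
        Measure.restrict_apply' measurableSet_Ioo, Measure.restrict_apply' mS]
      rcases lt_or_ge t 0 with h0 | h0
      · have e1 : τ ⁻¹' Ioi t ∩ Ioo m (F 0) = Ioo m (F 0) := inter_eq_right.2 fun z _ => h0.trans_le (τ0 z)
        have e2 : H ⁻¹' Ioi t ∩ {q | 0 < H q ∧ H q < 1} = {q | 0 < H q ∧ H q < 1} :=
          inter_eq_right.2 fun q hq => h0.trans hq.1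
        rw [e1, e2, key 0 le_rfl one_pos, Real.volume_Ioo]
      rcases lt_or_ge t 1 with h1 | h1
      · have e1 : τ ⁻¹' Ioi t ∩ Ioo m (F 0) = Ioo m (F t) := by
          ext z
          exact ⟨fun h => ⟨h.2.1, (τi z (m0.trans h.2.1.le) t h0 h1).1 h.1⟩, fun h =>
            ⟨(τi z (m0.trans h.1.le) t h0 h1).2 h.2, h.1, h.2.trans_le (Fa 0 t le_rfl h0)⟩⟩
        have e2 : H ⁻¹' Ioi t ∩ {q | 0 < H q ∧ H q < 1} = {q | t < H q ∧ H q < 1} := by
          ext q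
          exact ⟨fun h => ⟨h.1, h.2.2⟩, fun h => ⟨h.1, h0.trans_lt h.1, h.2⟩⟩
        rw [e1, e2, key t h0 h1, Real.volume_Ioo]
      · have e1 : τ ⁻¹' Ioi t ∩ Ioo m (F 0) = ∅ :=
          eq_empty_of_forall_notMem fun z h => absurd ((τ1 z).trans h1) (not_le.2 h.1)
        have e2 : H ⁻¹' Ioi t ∩ {q | 0 < H q ∧ H q < 1} = ∅ :=
          eq_empty_of_forall_notMem fun q h => absurd (h.2.2.le.trans h1) (not_le.2 h.1)
        rw [e1, e2, measure_empty, measure_empty]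
    · rw [Measure.map_apply τa.measurable MeasurableSet.univ, Measure.map_apply hH MeasurableSet.univ, preimage_univ,
        preimage_univ, Measure.restrict_apply_univ, Measure.restrict_apply_univ, key 0 le_rfl one_pos, Real.volume_Ioo]
  have : IsFiniteMeasure (μ.restrict {q | 0 < H q}) := isFiniteMeasure_restrict.2 hfin
  have hA : Set.Countable {t : ℝ | 0 < μ.restrict {q | 0 < H q} {q | H q = t}} := Measure.countable_meas_level_set_pos hH
  set A := {t : ℝ | 0 < μ.restrict {q | 0 < H q} {q | H q = t}} with hAd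
  set R' : ℝ → ℝ := Aᶜ.indicator fun t => R (a t) with hR'
  have mR : Measurable R' := (hR.1.comp ha).indicator hA.measurableSet.compl
  have mg : Measurable fun t => Real.sqrt (1 - R' t ^ 2) := by fun_prop
  refine ⟨R', ⟨mR, fun t => ?_⟩, ?_, ?_⟩
  · by_cases ht : t ∈ Aᶜ
    · rw [hR', indicator_of_mem ht]; exact hR.2 _
    · rw [hR', indicator_of_notMem ht]; exact ⟨le_rfl, zero_le_one⟩
  · filter_upwards [ae_restrict_of_ae (hA.ae_notMem volume)] with t ht using indicator_of_mem ht _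
  · rw [← integral_map hH.aemeasurable mg.aestronglyMeasurable, ← law,
      integral_map τa.measurable.aemeasurable mg.aestronglyMeasurable]
    have b1 : ∀ x : ℝ, ‖Real.sqrt (1 - x ^ 2)‖ ≤ 1 := fun x => by
      rw [Real.norm_of_nonneg (Real.sqrt_nonneg _), Real.sqrt_le_one]; linarith [sq_nonneg x]
    have hRm := hR.1
    refine setIntegral_mono_on
      (Measure.integrableOn_of_bounded (M := 1) measure_Ioo_lt_top.ne (by fun_prop : Measurable _).aestronglyMeasurable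
        (Eventually.of_forall fun z => b1 _))
      (Measure.integrableOn_of_bounded (M := 1) measure_Ioo_lt_top.ne (mg.comp τa.measurable).aestronglyMeasurable
        (Eventually.of_forall fun z => b1 _)) measurableSet_Ioo fun z hz => ?_
    by_cases ht : τ z ∈ Aᶜ
    · have z0 : 0 ≤ z := m0.trans hz.1.le
      have t0 : 0 < τ z := (τi z z0 0 le_rfl one_pos).2 hz.2
      have h1 := τl z z0 t0
      have t1 : τ z < 1 := lt_of_le_of_ne (τ1 z) fun e => by rw [e] at h1; exact absurd hz.1 (not_lt.2 h1)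
      have h2 : F (τ z) ≤ z := not_lt.1 fun h => lt_irrefl _ ((τi z z0 _ t0.le t1).2 h)
      have h3 : μ {q | H q = τ z} = 0 := by
        have h4 : μ.restrict {q | 0 < H q} {q | H q = τ z} = 0 := nonpos_iff_eq_zero.1 (not_lt.1 ht)
        rwa [Measure.restrict_apply (measurableSet_eq_fun hH measurable_const),
          inter_eq_left.2 fun q hq => by simp only [mem_ofPred_eq] at hq ⊢; rwa [hq]] at h4
      have h4 : μ {q | τ z ≤ H q} ≤ μ {q | τ z < H q} := by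
        refine (measure_mono (t := {q | τ z < H q} ∪ {q | H q = τ z}) fun q hq => ?_).trans
          ((measure_union_le _ _).trans (by rw [h3, add_zero]))
        exact (lt_or_eq_of_le (show τ z ≤ H q from hq)).elim Or.inl fun e => Or.inr e.symm
      have h5 := ENNReal.toReal_mono (fF _ t0.le) h4
      obtain ⟨h6, h7⟩ := hs _ ⟨t0, t1⟩
      have e : a (τ z) = z := by simp only [hF] at h2; linarith
      rw [hR', indicator_of_mem ht, e]
    · rw [hR', indicator_of_notMem ht]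
      simpa using (le_abs_self _).trans (b1 (R z))

theorem d3b_le1 {S : Set ℝ} (hS : S ⊆ Ioo (0 : ℝ) 1) : volume S ≤ 1 := by
  have := measure_mono (μ := volume) hS
  simpa using this

theorem d3b_le2 {S : Set (ℝ × ℝ)} (hS : S ⊆ Ioo (0 : ℝ) 1 ×ˢ Ioo (0 : ℝ) 1) : volume S ≤ 1 := by
  have := measure_mono (μ := volume) hS
  rw [Measure.volume_eq_prod, Measure.prod_prod] at this
  rw [Measure.volume_eq_prod]
  simpa using this

theorem d3b_mono1 {S T : Set ℝ} (hST : S ⊆ T) (hT : T ⊆ Ioo (0 : ℝ) 1) :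
    (volume S).toReal ≤ (volume T).toReal :=
  ENNReal.toReal_mono (ne_top_of_le_ne_top ENNReal.one_ne_top (d3b_le1 hT)) (measure_mono hST)

theorem d3b_mono2 {S T : Set (ℝ × ℝ)} (hST : S ⊆ T) (hT : T ⊆ Ioo (0 : ℝ) 1 ×ˢ Ioo (0 : ℝ) 1) :
    (volume S).toReal ≤ (volume T).toReal :=
  ENNReal.toReal_mono (ne_top_of_le_ne_top ENNReal.one_ne_top (d3b_le2 hT)) (measure_mono hST)

theorem d3b_one1 {S : Set ℝ} (hS : S ⊆ Ioo (0 : ℝ) 1) : (volume S).toReal ≤ 1 := by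
  have := ENNReal.toReal_mono ENNReal.one_ne_top (d3b_le1 hS)
  simpa using this

theorem d3b_one2 {S : Set (ℝ × ℝ)} (hS : S ⊆ Ioo (0 : ℝ) 1 ×ˢ Ioo (0 : ℝ) 1) :
    (volume S).toReal ≤ 1 := by
  have := ENNReal.toReal_mono ENNReal.one_ne_top (d3b_le2 hS)
  simpa using this

theorem d3b_cube {D : Set P3} (h : Down D) {x y t : ℝ} (hp : (x, y, t) ∈ D) :
    x ∈ Ioo (0 : ℝ) 1 ∧ y ∈ Ioo (0 : ℝ) 1 ∧ t ∈ Ioo (0 : ℝ) 1 := by
  have := h.sub hp
  exact ⟨this.1, this.2.1, this.2.2⟩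

theorem d3b_slice_sub {D : Set P3} (h : Down D) (t : ℝ) :
    {q : ℝ × ℝ | (q.1, q.2, t) ∈ D} ⊆ Ioo (0 : ℝ) 1 ×ˢ Ioo (0 : ℝ) 1 :=
  fun q hq => ⟨(d3b_cube h hq).1, (d3b_cube h hq).2.1⟩

theorem d3b_h3_sub {D : Set P3} (h : Down D) :
    {q : ℝ × ℝ | 0 < h3 D q.1 q.2} ⊆ Ioo (0 : ℝ) 1 ×ˢ Ioo (0 : ℝ) 1 :=
  fun q hq => h.h_pos (Or.inr (Or.inr hq))

theorem d3b_meas_assoc {D : Set P3} (h : Down D) :
    MeasurableSet {p : (ℝ × ℝ) × ℝ | (p.1.1, p.1.2, p.2) ∈ D} := by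
  have hm : Measurable (fun p : (ℝ × ℝ) × ℝ => ((p.1.1, p.1.2, p.2) : P3)) := by fun_prop
  exact hm h.meas

theorem d3b_meas_slice {D : Set P3} (h : Down D) (t : ℝ) :
    MeasurableSet {q : ℝ × ℝ | (q.1, q.2, t) ∈ D} := by
  have hm : Measurable (fun q : ℝ × ℝ => ((q.1, q.2, t) : P3)) := by fun_prop
  exact hm h.meas

theorem Down.sa_meas {D : Set P3} (h : Down D) : Measurable (sa D) := by
  have := measurable_measure_prodMk_right (μ := (volume : Measure (ℝ × ℝ))) (d3b_meas_assoc h)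
  exact this.ennreal_toReal

theorem Down.sa_sandwich {D : Set P3} (h : Down D) {t : ℝ} (ht : t ∈ Ioo (0 : ℝ) 1) :
    (volume {q : ℝ × ℝ | t < h3 D q.1 q.2}).toReal ≤ sa D t ∧
      sa D t ≤ (volume {q : ℝ × ℝ | t ≤ h3 D q.1 q.2}).toReal := by
  constructor
  · refine d3b_mono2 (fun q hq => ?_) (d3b_slice_sub h t)
    exact h.mem3.1 ht.1 hq
  · refine d3b_mono2 (fun q hq => h.mem3.2 hq) (fun q hq => d3b_h3_sub h ?_)
    exact lt_of_lt_of_le ht.1 hq

theorem Down.sa_range {D : Set P3} (h : Down D) {t : ℝ} (ht : t ∈ Ioo (0 : ℝ) 1) :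
    aMin D ≤ sa D t ∧ sa D t ≤ aMax D := by
  obtain ⟨h1', h2'⟩ := h.sa_sandwich ht
  constructor
  · refine le_trans (d3b_mono2 (fun q hq => ?_) (fun q hq => d3b_h3_sub h ?_)) h1'
    · exact lt_of_lt_of_le ht.2 hq
    · exact lt_trans ht.1 hq
  · refine le_trans h2' (d3b_mono2 (fun q hq => ?_) (d3b_h3_sub h))
    exact lt_of_lt_of_le ht.1 hq

theorem Down.a_bounds {D : Set P3} (h : Down D) : 0 ≤ aMin D ∧ aMin D ≤ aMax D ∧ aMax D ≤ 1 := by
  refine ⟨ENNReal.toReal_nonneg, d3b_mono2 (fun q hq => ?_) (d3b_h3_sub h), d3b_one2 (d3b_h3_sub h)⟩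
  exact lt_of_lt_of_le one_pos (show 1 ≤ h3 D q.1 q.2 from hq)

theorem Down.sa_anti {D : Set P3} (h : Down D) : AntitoneOn (sa D) (Ioo (0 : ℝ) 1) := by
  intro s hs t ht hst
  refine d3b_mono2 (fun q hq => ?_) (d3b_slice_sub h s)
  obtain ⟨hx, hy, -⟩ := d3b_cube h hq
  exact h.down _ hq (q.1, q.2, s) ⟨hx, hy, hs⟩ le_rfl le_rfl hst

theorem Down.vol_eq {D : Set P3} (h : Down D) : vol3 D = ∫ t in Ioo (0 : ℝ) 1, sa D t := by
  have hA : volume D = volume {p : (ℝ × ℝ) × ℝ | (p.1.1, p.1.2, p.2) ∈ D} := by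
    have := (volume_preserving_prodAssoc (α₁ := ℝ) (β₁ := ℝ) (γ₁ := ℝ)).measure_preimage
      h.meas.nullMeasurableSet
    rw [← this]
    rfl
  have hB : volume {p : (ℝ × ℝ) × ℝ | (p.1.1, p.1.2, p.2) ∈ D} =
      ∫⁻ t : ℝ, volume {q : ℝ × ℝ | (q.1, q.2, t) ∈ D} := by
    rw [Measure.volume_eq_prod, Measure.prod_apply_symm (d3b_meas_assoc h)]
    rfl
  have hm := measurable_measure_prodMk_right (μ := (volume : Measure (ℝ × ℝ))) (d3b_meas_assoc h)
  have hC : ∫ t : ℝ, sa D t = (∫⁻ t : ℝ, volume {q : ℝ × ℝ | (q.1, q.2, t) ∈ D}).toReal := by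
    refine integral_toReal hm.aemeasurable (Eventually.of_forall fun t => ?_)
    exact lt_of_le_of_lt (d3b_le2 (d3b_slice_sub h t)) ENNReal.one_lt_top
  rw [setIntegral_eq_integral_of_forall_compl_eq_zero, hC, vol3, hA, hB]
  intro t ht
  have : {q : ℝ × ℝ | (q.1, q.2, t) ∈ D} = ∅ :=
    eq_empty_of_forall_notMem fun q hq => ht (d3b_cube h hq).2.2
  simp [sa, this]

theorem Down.sa_eq {D : Set P3} (h : Down D) (t : ℝ) :
    (sa D t = ∫ y in Ioo (0 : ℝ) 1, h1 D y t) ∧ (sa D t = ∫ x in Ioo (0 : ℝ) 1, h2 D x t) := by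
  have hS := d3b_meas_slice h t
  constructor
  · have hB : volume {q : ℝ × ℝ | (q.1, q.2, t) ∈ D} =
        ∫⁻ y : ℝ, volume {x : ℝ | (x, y, t) ∈ D} := by
      rw [Measure.volume_eq_prod, Measure.prod_apply_symm hS]
      rfl
    have hm := measurable_measure_prodMk_right (μ := (volume : Measure ℝ)) hS
    have hC : ∫ y : ℝ, h1 D y t = (∫⁻ y : ℝ, volume {x : ℝ | (x, y, t) ∈ D}).toReal := by
      refine integral_toReal hm.aemeasurable (Eventually.of_forall fun y => ?_)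
      exact lt_of_le_of_lt (d3b_le1 fun x hx => (d3b_cube h hx).1) ENNReal.one_lt_top
    rw [setIntegral_eq_integral_of_forall_compl_eq_zero, hC, sa, hB]
    intro y hy
    have : {x : ℝ | (x, y, t) ∈ D} = ∅ :=
      eq_empty_of_forall_notMem fun x hx => hy (d3b_cube h hx).2.1
    simp [h1, this]
  · have hB : volume {q : ℝ × ℝ | (q.1, q.2, t) ∈ D} =
        ∫⁻ x : ℝ, volume {y : ℝ | (x, y, t) ∈ D} := by
      rw [Measure.volume_eq_prod, Measure.prod_apply hS]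
      rfl
    have hm := measurable_measure_prodMk_left (ν := (volume : Measure ℝ)) hS
    have hC : ∫ x : ℝ, h2 D x t = (∫⁻ x : ℝ, volume {y : ℝ | (x, y, t) ∈ D}).toReal := by
      refine integral_toReal hm.aemeasurable (Eventually.of_forall fun x => ?_)
      exact lt_of_le_of_lt (d3b_le1 fun y hy => (d3b_cube h hy).2.1) ENNReal.one_lt_top
    rw [setIntegral_eq_integral_of_forall_compl_eq_zero, hC, sa, hB]
    intro x hx
    have : {y : ℝ | (x, y, t) ∈ D} = ∅ :=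
      eq_empty_of_forall_notMem fun y hy => hx (d3b_cube h hy).1
    simp [h2, this]

theorem Down.tr_meas {D : Set P3} (h : Down D) :
    Measurable (trd D) ∧ Measurable (tre D) ∧ Measurable (tru D) ∧ Measurable (trg D) := by
  obtain ⟨m1, m2, -⟩ := h.h_meas
  refine ⟨?_, ?_, ?_, ?_⟩
  · exact (measurable_measure_prodMk_right (μ := (volume : Measure ℝ))
      (measurableSet_lt measurable_const m2)).ennreal_toReal
  · exact (measurable_measure_prodMk_right (μ := (volume : Measure ℝ))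
      (measurableSet_le measurable_const m2)).ennreal_toReal
  · exact (measurable_measure_prodMk_right (μ := (volume : Measure ℝ))
      (measurableSet_lt measurable_const m1)).ennreal_toReal
  · exact (measurable_measure_prodMk_right (μ := (volume : Measure ℝ))
      (measurableSet_le measurable_const m1)).ennreal_toReal

theorem Down.tr_range {D : Set P3} (h : Down D) (t : ℝ) :
    0 ≤ tre D t ∧ tre D t ≤ trd D t ∧ trd D t ≤ 1 ∧ 0 ≤ trg D t ∧ trg D t ≤ tru D t ∧ tru D t ≤ 1 := by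
  have s2 : {x : ℝ | 0 < h2 D x t} ⊆ Ioo (0 : ℝ) 1 :=
    fun x hx => (h.h_pos (Or.inr (Or.inl hx))).1
  have s1 : {y : ℝ | 0 < h1 D y t} ⊆ Ioo (0 : ℝ) 1 :=
    fun y hy => (h.h_pos (Or.inl hy)).1
  exact ⟨ENNReal.toReal_nonneg,
    d3b_mono1 (fun x (hx : 1 ≤ h2 D x t) => (lt_of_lt_of_le one_pos hx : 0 < h2 D x t)) s2,
    d3b_one1 s2, ENNReal.toReal_nonneg,
    d3b_mono1 (fun x (hx : 1 ≤ h1 D x t) => (lt_of_lt_of_le one_pos hx : 0 < h1 D x t)) s1,
    d3b_one1 s1⟩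

theorem Down.tr_anti {D : Set P3} (h : Down D) :
    AntitoneOn (trd D) (Ioo (0 : ℝ) 1) ∧ AntitoneOn (tre D) (Ioo (0 : ℝ) 1) := by
  constructor
  · intro s hs t ht hst
    refine d3b_mono1 (fun x hx => ?_) (fun x hx => (h.h_pos (Or.inr (Or.inl hx))).1)
    have hx0 := (h.h_pos (Or.inr (Or.inl hx))).1.1
    exact lt_of_lt_of_le hx (h.h_anti hx0 hs.1 le_rfl hst).2.1
  · intro s hs t ht hst
    refine d3b_mono1 (fun x hx => ?_)
      (fun x hx => (h.h_pos (Or.inr (Or.inl (lt_of_lt_of_le one_pos hx)))).1)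
    have hx0 := (h.h_pos (Or.inr (Or.inl (lt_of_lt_of_le one_pos hx)))).1.1
    exact le_trans hx (h.h_anti hx0 hs.1 le_rfl hst).2.1

theorem d3c_int {S : Set ℝ} (hS : S ⊆ Ioo (0 : ℝ) 1) (hd : ∀ x ∈ S, ∀ y, 0 < y → y ≤ x → y ∈ S) :
    (∀ x, 0 < x → x < (volume S).toReal → x ∈ S) ∧ (∀ x ∈ S, x ≤ (volume S).toReal) := by
  have hfin : volume S ≠ ⊤ := by
    refine ne_top_of_le_ne_top ?_ (measure_mono hS)
    simp
  refine ⟨fun x hx hlt => ?_, fun x hx => ?_⟩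
  · by_contra hn
    have h1 : S ⊆ Ioo 0 x := fun y hy => ⟨(hS hy).1, not_le.1 fun hxy => hn (hd y hy x hx hxy)⟩
    have h2 : (volume S).toReal ≤ (volume (Ioo (0 : ℝ) x)).toReal :=
      ENNReal.toReal_mono (by simp) (measure_mono h1)
    rw [Real.volume_Ioo, sub_zero, ENNReal.toReal_ofReal hx.le] at h2
    linarith
  · have h1 : Ioc 0 x ⊆ S := fun y hy => hd x hx y hy.1 hy.2
    have h2 : (volume (Ioc (0 : ℝ) x)).toReal ≤ (volume S).toReal :=
      ENNReal.toReal_mono hfin (measure_mono h1)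
    rwa [Real.volume_Ioc, sub_zero, ENNReal.toReal_ofReal (hS hx).1.le] at h2

theorem d3c_set {f : ℝ → ℝ} (hr : ∀ x, 0 ≤ f x ∧ f x ≤ 1) (hp : ∀ x, 0 < f x → x ∈ Ioo (0 : ℝ) 1)
    (ha : ∀ x y, 0 < f x → 0 < y → y ≤ x → f x ≤ f y) :
    (({x : ℝ | 0 < f x ∧ f x < 1} : Set ℝ) =ᵐ[volume]
        Ioo (volume {x : ℝ | 1 ≤ f x}).toReal (volume {x : ℝ | 0 < f x}).toReal ∧
      (∀ x, 0 < x → x < (volume {x : ℝ | 1 ≤ f x}).toReal → f x = 1) ∧
      (∀ x, (volume {x : ℝ | 0 < f x}).toReal < x → f x = 0) ∧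
      (∀ x, 0 < x → x < (volume {x : ℝ | 0 < f x}).toReal → 0 < f x)) ∧
      (∀ x, 1 ≤ f x → x ≤ (volume {x : ℝ | 1 ≤ f x}).toReal) := by
  obtain ⟨e1, e2⟩ := d3c_int (S := {x : ℝ | 1 ≤ f x}) (fun x hx => hp x (lt_of_lt_of_le one_pos hx))
    (fun x hx y hy hyx => le_trans hx (ha x y (lt_of_lt_of_le one_pos hx) hy hyx))
  obtain ⟨d1, d2⟩ := d3c_int (S := {x : ℝ | 0 < f x}) (fun x hx => hp x hx)
    (fun x hx y hy hyx => lt_of_lt_of_le hx (ha x y hx hy hyx))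
  set e := (volume {x : ℝ | 1 ≤ f x}).toReal
  set d := (volume {x : ℝ | 0 < f x}).toReal
  have he : 0 ≤ e := ENNReal.toReal_nonneg
  refine ⟨⟨?_, fun x hx hxe => le_antisymm (hr x).2 (e1 x hx hxe), fun x hx => ?_,
    fun x hx hxd => d1 x hx hxd⟩, fun x hx => e2 x hx⟩
  · have h1 : ∀ᵐ x : ℝ, x ≠ e := by
      rw [ae_iff]; simp
    have h2 : ∀ᵐ x : ℝ, x ≠ d := by
      rw [ae_iff]; simp
    filter_upwards [h1, h2] with x hxe hxd
    apply propext
    constructor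
    · rintro ⟨a1, a2⟩
      refine ⟨lt_of_le_of_ne (not_lt.1 fun h => ?_) hxe.symm, lt_of_le_of_ne (d2 x a1) hxd⟩
      exact absurd (e1 x (hp x a1).1 h) (not_le.2 a2)
    · rintro ⟨a1, a2⟩
      exact ⟨d1 x (lt_of_le_of_lt he a1) a2, not_le.1 fun h => absurd (e2 x h) (not_le.2 a1)⟩
  · exact le_antisymm (not_lt.1 fun h => absurd (d2 x h) (not_le.2 hx)) (hr x).1

theorem d3c_set2 {D : Set P3} (h : Down D) (t : ℝ) :
    (({x : ℝ | 0 < h2 D x t ∧ h2 D x t < 1} : Set ℝ) =ᵐ[volume] Ioo (tre D t) (trd D t) ∧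
      (∀ x, 0 < x → x < tre D t → h2 D x t = 1) ∧ (∀ x, trd D t < x → h2 D x t = 0) ∧
      (∀ x, 0 < x → x < trd D t → 0 < h2 D x t)) ∧ ∀ x, 1 ≤ h2 D x t → x ≤ tre D t :=
  d3c_set (f := fun x => h2 D x t) (fun x => (h.h_range x t).2.1)
    (fun x hx => (h.h_pos (Or.inr (Or.inl hx))).1)
    (fun x y hx hy hyx => (h.h_anti hy (h.h_pos (Or.inr (Or.inl hx))).2.1 hyx le_rfl).2.1)

theorem d3c_set1 {D : Set P3} (h : Down D) (t : ℝ) :
    (({y : ℝ | 0 < h1 D y t ∧ h1 D y t < 1} : Set ℝ) =ᵐ[volume] Ioo (trg D t) (tru D t) ∧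
      (∀ y, 0 < y → y < trg D t → h1 D y t = 1) ∧ (∀ y, tru D t < y → h1 D y t = 0) ∧
      (∀ y, 0 < y → y < tru D t → 0 < h1 D y t)) ∧ ∀ y, 1 ≤ h1 D y t → y ≤ trg D t :=
  d3c_set (f := fun x => h1 D x t) (fun x => (h.h_range x t).1)
    (fun x hx => (h.h_pos (Or.inl hx)).1)
    (fun x y hx hy hyx => (h.h_anti hy (h.h_pos (Or.inl hx)).2.1 hyx le_rfl).1)

/-- the sets in `Lc` are intervals up to end points -/
theorem Down.set2 {D : Set P3} (h : Down D) (t : ℝ) :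
    ({x : ℝ | 0 < h2 D x t ∧ h2 D x t < 1} : Set ℝ) =ᵐ[volume] Ioo (tre D t) (trd D t) ∧
      (∀ x, 0 < x → x < tre D t → h2 D x t = 1) ∧ (∀ x, trd D t < x → h2 D x t = 0) ∧
      (∀ x, 0 < x → x < trd D t → 0 < h2 D x t) :=
  (d3c_set2 h t).1

theorem Down.set1 {D : Set P3} (h : Down D) (t : ℝ) :
    ({y : ℝ | 0 < h1 D y t ∧ h1 D y t < 1} : Set ℝ) =ᵐ[volume] Ioo (trg D t) (tru D t) ∧
      (∀ y, 0 < y → y < trg D t → h1 D y t = 1) ∧ (∀ y, tru D t < y → h1 D y t = 0) ∧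
      (∀ y, 0 < y → y < tru D t → 0 < h1 D y t) :=
  (d3c_set1 h t).1

theorem d3c_le {a b : ℝ} (hb : 0 ≤ b) (h : ∀ x, 0 < x → x < a → x ≤ b) : a ≤ b := by
  by_contra hn
  push Not at hn
  have := h ((a + b) / 2) (by linarith) (by linarith)
  linarith

theorem Down.h1_between {D : Set P3} (h : Down D) {y t : ℝ} (hy : y ∈ Ioo (0 : ℝ) 1) :
    tre D t ≤ h1 D y t ∧ h1 D y t ≤ trd D t := by
  obtain ⟨-, s1, s2, -⟩ := h.set2 t
  refine ⟨d3c_le (h.h_range y t).1.1 fun x hx hxe => ?_,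
    d3c_le ENNReal.toReal_nonneg fun x hx hxe => ?_⟩
  · exact h.mem1.2 (h.mem2.1 hy.1 (by rw [s1 x hx hxe]; exact hy.2))
  · have h1 := h.mem2.2 (h.mem1.1 hx hxe)
    refine not_lt.1 fun h2 => ?_
    rw [s2 x h2] at h1
    exact absurd hy.1 (not_lt.2 h1)

theorem Down.h2_between {D : Set P3} (h : Down D) {x t : ℝ} (hx : x ∈ Ioo (0 : ℝ) 1) :
    trg D t ≤ h2 D x t ∧ h2 D x t ≤ tru D t := by
  obtain ⟨-, s1, s2, -⟩ := h.set1 t
  refine ⟨d3c_le (h.h_range x t).2.1.1 fun y hy hye => ?_,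
    d3c_le ENNReal.toReal_nonneg fun y hy hye => ?_⟩
  · exact h.mem2.2 (h.mem1.1 hx.1 (by rw [s1 y hy hye]; exact hx.2))
  · have h1 := h.mem1.2 (h.mem2.1 hy hye)
    refine not_lt.1 fun h2 => ?_
    rw [s2 y h2] at h1
    exact absurd hx.1 (not_lt.2 h1)

theorem d3c_pB {f : ℝ → ℝ → ℝ} (hp : ∀ a b, 1 ≤ f a b → a ∈ Ioo (0 : ℝ) 1 ∧ b ∈ Ioo (0 : ℝ) 1) :
    (∀ t, 0 < t → t < pB f → ∃ a b, t < b ∧ 1 ≤ f a b) ∧ (∀ a b, 1 ≤ f a b → b ≤ pB f) ∧
      (∀ a b, 1 ≤ f a b → a ≤ pA f) ∧ 0 ≤ pA f ∧ 0 ≤ pB f ∧ pB f ≤ 1 := by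
  refine ⟨fun t ht hlt => ?_, fun a b hab => ?_, fun a b hab => ?_, ?_, ?_, ?_⟩
  · by_cases hne : ({b | ∃ a, 1 ≤ f a b} : Set ℝ).Nonempty
    · obtain ⟨b, ⟨a, hab⟩, hb⟩ := exists_lt_of_lt_csSup hne hlt
      exact ⟨a, b, hb, hab⟩
    · rw [not_nonempty_iff_eq_empty] at hne
      rw [pB, hne, Real.sSup_empty] at hlt
      linarith
  · exact le_csSup ⟨1, fun b ⟨a, hab⟩ => (hp a b hab).2.2.le⟩ ⟨a, hab⟩
  · exact le_csSup ⟨1, fun a ⟨b, hab⟩ => (hp a b hab).1.2.le⟩ ⟨b, hab⟩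
  · exact Real.sSup_nonneg fun a ⟨b, hab⟩ => (hp a b hab).1.1.le
  · exact Real.sSup_nonneg fun b ⟨a, hab⟩ => (hp a b hab).2.1.le
  · exact Real.sSup_le (fun b ⟨a, hab⟩ => (hp a b hab).2.2.le) zero_le_one

theorem d3c_sa {D : Set P3} (h : Down D) (t : ℝ) : tre D t ≤ sa D t ∧ sa D t ≤ trd D t := by
  have hm : Measurable fun y : ℝ => h1 D y t :=
    h.h_meas.1.comp (measurable_id.prodMk measurable_const)
  have hi : IntegrableOn (fun y : ℝ => h1 D y t) (Ioo (0 : ℝ) 1) := by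
    refine Measure.integrableOn_of_bounded (M := 1) (by simp) hm.aestronglyMeasurable ?_
    refine Eventually.of_forall fun y => ?_
    rw [Real.norm_eq_abs, abs_of_nonneg (h.h_range y t).1.1]
    exact (h.h_range y t).1.2
  have hc : ∀ c : ℝ, ∫ y in Ioo (0 : ℝ) 1, c = c := fun c => by simp
  have hci : ∀ c : ℝ, IntegrableOn (fun _ : ℝ => c) (Ioo (0 : ℝ) 1) := fun c =>
    integrableOn_const (by simp)
  rw [(h.sa_eq t).1]
  constructor
  · conv_lhs => rw [← hc (tre D t)]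
    exact setIntegral_mono_on (hci _) hi measurableSet_Ioo fun y hy => (h.h1_between hy).1
  · conv_rhs => rw [← hc (trd D t)]
    exact setIntegral_mono_on hi (hci _) measurableSet_Ioo fun y hy => (h.h1_between hy).2

theorem Down.phase {D : Set P3} (h : Down D) {t : ℝ} (ht : t ∈ Ioo (0 : ℝ) 1) :
    (t < pB (h1 D) → 0 < trg D t) ∧ (pB (h1 D) < t → trg D t = 0) ∧
    (t < pB (h2 D) → 0 < tre D t) ∧ (pB (h2 D) < t → tre D t = 0) ∧
    tre D t ≤ pA (h2 D) ∧ pA (h3 D) ≤ trd D t ∧ pB (h3 D) ≤ tru D t ∧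
    (0 < trg D t → trd D t = 1) ∧ (0 < tre D t → tru D t = 1) ∧ tre D t ≤ sa D t ∧
    (trd D t = 0 → sa D t = 0) ∧ (tre D t = 1 → sa D t = 1) := by
  have p1 : ∀ a b, 1 ≤ h1 D a b → a ∈ Ioo (0 : ℝ) 1 ∧ b ∈ Ioo (0 : ℝ) 1 := fun a b hab =>
    h.h_pos (Or.inl (lt_of_lt_of_le one_pos hab))
  have p2 : ∀ a b, 1 ≤ h2 D a b → a ∈ Ioo (0 : ℝ) 1 ∧ b ∈ Ioo (0 : ℝ) 1 := fun a b hab =>
    h.h_pos (Or.inr (Or.inl (lt_of_lt_of_le one_pos hab)))
  have p3 : ∀ a b, 1 ≤ h3 D a b → a ∈ Ioo (0 : ℝ) 1 ∧ b ∈ Ioo (0 : ℝ) 1 := fun a b hab =>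
    h.h_pos (Or.inr (Or.inr (lt_of_lt_of_le one_pos hab)))
  obtain ⟨a1, a2, -, -, -, -⟩ := d3c_pB p1
  obtain ⟨b1, b2, b3, b4, -, -⟩ := d3c_pB p2
  obtain ⟨⟨-, s1, s2, -⟩, s4⟩ := d3c_set1 h t
  obtain ⟨⟨-, r1, r2, -⟩, r4⟩ := d3c_set2 h t
  obtain ⟨t1, t2, t3, t4, t5, t6⟩ := h.tr_range t
  obtain ⟨q1, q2⟩ := d3c_sa h t
  refine ⟨fun hlt => ?_, fun hlt => ?_, fun hlt => ?_, fun hlt => ?_, ?_, ?_, ?_, fun hg => ?_,
    fun he => ?_, q1, fun hd => by linarith, fun he => by linarith⟩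
  · obtain ⟨a, b, hb, hab⟩ := a1 t ht.1 hlt
    have ha := (p1 a b hab).1.1
    exact lt_of_lt_of_le ha (s4 a (le_trans hab (h.h_anti ha ht.1 le_rfl hb.le).1))
  · have : ({y : ℝ | 1 ≤ h1 D y t} : Set ℝ) = ∅ :=
      eq_empty_of_forall_notMem fun y hy => absurd (a2 y t hy) (not_le.2 hlt)
    rw [trg, this]; simp
  · obtain ⟨a, b, hb, hab⟩ := b1 t ht.1 hlt
    have ha := (p2 a b hab).1.1
    exact lt_of_lt_of_le ha (r4 a (le_trans hab (h.h_anti ha ht.1 le_rfl hb.le).2.1))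
  · have : ({y : ℝ | 1 ≤ h2 D y t} : Set ℝ) = ∅ :=
      eq_empty_of_forall_notMem fun y hy => absurd (b2 y t hy) (not_le.2 hlt)
    rw [tre, this]; simp
  · exact d3c_le b4 fun x hx hxe => b3 x t (r1 x hx hxe).ge
  · refine Real.sSup_le (fun a ⟨b, hab⟩ => ?_) (le_trans t1 t2)
    have h1 := h.mem2.2 (h.mem3.1 ht.1 (lt_of_lt_of_le ht.2 hab))
    refine not_lt.1 fun h2 => ?_
    rw [r2 a h2] at h1
    exact absurd (p3 a b hab).2.1 (not_lt.2 h1)
  · refine Real.sSup_le (fun b ⟨a, hab⟩ => ?_) (le_trans t4 t5)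
    have h1 := h.mem1.2 (h.mem3.1 ht.1 (lt_of_lt_of_le ht.2 hab))
    refine not_lt.1 fun h2 => ?_
    rw [s2 b h2] at h1
    exact absurd (p3 a b hab).1.1 (not_lt.2 h1)
  · have e1 := s1 (trg D t / 2) (by linarith) (by linarith)
    have e2 := (h.h1_between (t := t) (p1 _ _ e1.ge).1).2
    linarith
  · have e1 := r1 (tre D t / 2) (by linarith) (by linarith)
    have e2 := (h.h2_between (t := t) (p2 _ _ e1.ge).1).2
    linarith

theorem Down.p_range {D : Set P3} (h : Down D) :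
    0 ≤ pB (h1 D) ∧ pB (h2 D) ≤ 1 ∧ 0 ≤ pA (h2 D) := by
  have p1 : ∀ a b, 1 ≤ h1 D a b → a ∈ Ioo (0 : ℝ) 1 ∧ b ∈ Ioo (0 : ℝ) 1 := fun a b hab =>
    h.h_pos (Or.inl (lt_of_lt_of_le one_pos hab))
  have p2 : ∀ a b, 1 ≤ h2 D a b → a ∈ Ioo (0 : ℝ) 1 ∧ b ∈ Ioo (0 : ℝ) 1 := fun a b hab =>
    h.h_pos (Or.inr (Or.inl (lt_of_lt_of_le one_pos hab)))
  exact ⟨(d3c_pB p1).2.2.2.2.1, (d3c_pB p2).2.2.2.2.2, (d3c_pB p2).2.2.2.1⟩

theorem d3d_aux {H : ℝ → ℝ → ℝ} (hH : Measurable fun q : ℝ × ℝ => H q.1 q.2)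
    (hp : ∀ a b, 0 < H a b → a ∈ Ioo (0 : ℝ) 1 ∧ b ∈ Ioo (0 : ℝ) 1) {g : ℝ × ℝ → ℝ}
    (hg : Measurable g) (hb : ∀ q, |g q| ≤ 1) :
    Measurable (fun t => ∫ y in {y : ℝ | 0 < H y t ∧ H y t < 1}, g (y, t)) ∧
    (∀ t, |∫ y in {y : ℝ | 0 < H y t ∧ H y t < 1}, g (y, t)| ≤ 1) ∧
    ∀ R : ℝ → ℝ, MB 1 R → ∫ q in Gr H, R q.2 * g q =
      ∫ t in Ioo (0 : ℝ) 1, R t * ∫ y in {y : ℝ | 0 < H y t ∧ H y t < 1}, g (y, t) := by
  have hG : MeasurableSet (Gr H) :=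
    (measurableSet_lt measurable_const hH).inter (measurableSet_lt hH measurable_const)
  have hS : ∀ t, MeasurableSet {y : ℝ | 0 < H y t ∧ H y t < 1} := fun t =>
    measurable_prodMk_right (y := t) hG
  have h1 : ∀ (g : ℝ × ℝ → ℝ) (t : ℝ), ∫ y in {y : ℝ | 0 < H y t ∧ H y t < 1}, g (y, t) =
      ∫ y, (Gr H).indicator g (y, t) := fun g t => by
    rw [← integral_indicator (hS t)]
    rfl
  refine ⟨?_, fun t => ?_, fun R hR => ?_⟩
  · simp only [h1]
    exact (hg.indicator hG).stronglyMeasurable.integral_prod_left'.measurable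
  · have h2 : volume {y : ℝ | 0 < H y t ∧ H y t < 1} ≤ 1 :=
      (measure_mono fun y hy => (hp y t hy.1).1).trans (by simp)
    refine (norm_setIntegral_le_of_norm_le_const (C := 1) (f := fun y => g (y, t))
      (h2.trans_lt ENNReal.one_lt_top)
      fun y _ => hb (y, t)).trans ?_
    rw [one_mul]
    exact ENNReal.toReal_le_of_le_ofReal zero_le_one (by simpa using h2)
  · have h2 : volume (Gr H) < ⊤ := by
      refine (measure_mono (t := Ioo (0 : ℝ) 1 ×ˢ Ioo (0 : ℝ) 1) fun q hq => hp _ _ hq.1).trans_lt ?_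
      rw [Measure.volume_eq_prod, Measure.prod_prod]
      simp
    have h3 : IntegrableOn (fun q : ℝ × ℝ => R q.2 * g q) (Gr H) :=
      Measure.integrableOn_of_bounded (M := 1) h2.ne
        ((hR.1.comp measurable_snd).mul hg).aestronglyMeasurable (Eventually.of_forall fun q => by
          rw [norm_mul, Real.norm_of_nonneg (hR.2 _).1]
          exact mul_le_one₀ (hR.2 _).2 (norm_nonneg _) (hb q))
    rw [← integral_indicator hG, Measure.volume_eq_prod,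
      integral_prod_symm _ ((integrable_indicator_iff hG).2 h3),
      ← setIntegral_eq_integral_of_forall_compl_eq_zero (s := Ioo (0 : ℝ) 1)]
    · refine setIntegral_congr_fun measurableSet_Ioo fun t _ => ?_
      simp only [← h1, integral_const_mul]
    · intro t ht
      refine integral_eq_zero_of_ae (Eventually.of_forall fun y => ?_)
      exact indicator_of_notMem (fun h => ht (hp _ _ h.1).2) _

theorem Down.Lc_int {D : Set P3} (h : Down D) {η1 η2 : P3 → ℝ} (m1 : Measurable η1)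
    (m2 : Measurable η2) (hη : ∀ p, η1 p ^ 2 + η2 p ^ 2 ≤ 1) :
    Measurable (Lc D η1 η2) ∧ ∀ t, |Lc D η1 η2 t| ≤ 2 := by
  obtain ⟨a1, b1, -⟩ := d3d_aux h.h_meas.1 (fun _ _ hp => h.h_pos (Or.inl hp))
    (g := fun q => η1 (h1 D q.1 q.2, q.1, q.2)) (m1.comp (h.h_meas.1.prodMk measurable_id))
    (fun q => abs_le_one_iff_mul_self_le_one.2 (by nlinarith [hη (h1 D q.1 q.2, q.1, q.2)]))
  obtain ⟨a2, b2, -⟩ := d3d_aux h.h_meas.2.1 (fun _ _ hp => h.h_pos (Or.inr (Or.inl hp)))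
    (g := fun q => η2 (q.1, h2 D q.1 q.2, q.2))
    (m2.comp (measurable_fst.prodMk (h.h_meas.2.1.prodMk measurable_snd)))
    (fun q => abs_le_one_iff_mul_self_le_one.2 (by nlinarith [hη (q.1, h2 D q.1 q.2, q.2)]))
  exact ⟨a1.add a2, fun t => (abs_add_le _ _).trans (by linarith [b1 t, b2 t])⟩

theorem slicing {D : Set P3} (h : Down D) {P : ℝ} (hc : Cal D P) {η1 η2 : P3 → ℝ}
    (m1 : Measurable η1) (m2 : Measurable η2) (hη : ∀ p, η1 p ^ 2 + η2 p ^ 2 ≤ 1) {R : ℝ → ℝ}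
    (hR : MB 1 R) :
    (∫ z in Ioo (aMin D) (aMax D), Real.sqrt (1 - R z ^ 2)) +
      ∫ t in Ioo (0 : ℝ) 1, R (sa D t) * Lc D η1 η2 t ≤ P := by
  obtain ⟨R', hR', hae, hq⟩ := quantile (volume : Measure (ℝ × ℝ)) h.h_meas.2.2
    (ne_top_of_le_ne_top (by rw [Measure.volume_eq_prod, Measure.prod_prod]; simp)
      (measure_mono (t := Ioo (0 : ℝ) 1 ×ˢ Ioo (0 : ℝ) 1) fun q hq => h.h_pos (Or.inr (Or.inr hq))))
    (fun q => (h.h_range q.1 q.2).2.2.2) h.sa_meas (fun t ht => h.sa_sandwich ht) hR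
  obtain ⟨a1, b1, c1⟩ := d3d_aux h.h_meas.1 (fun _ _ hp => h.h_pos (Or.inl hp))
    (g := fun q => η1 (h1 D q.1 q.2, q.1, q.2)) (m1.comp (h.h_meas.1.prodMk measurable_id))
    (fun q => abs_le_one_iff_mul_self_le_one.2 (by nlinarith [hη (h1 D q.1 q.2, q.1, q.2)]))
  obtain ⟨a2, b2, c2⟩ := d3d_aux h.h_meas.2.1 (fun _ _ hp => h.h_pos (Or.inr (Or.inl hp)))
    (g := fun q => η2 (q.1, h2 D q.1 q.2, q.2))
    (m2.comp (measurable_fst.prodMk (h.h_meas.2.1.prodMk measurable_snd)))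
    (fun q => abs_le_one_iff_mul_self_le_one.2 (by nlinarith [hη (q.1, h2 D q.1 q.2, q.2)]))
  have ht : Measurable fun p : P3 => R' p.2.2 := hR'.1.comp (measurable_snd.comp measurable_snd)
  have h3 := hc (fun p => R' p.2.2 * η1 p) (fun p => R' p.2.2 * η2 p)
    (fun p => Real.sqrt (1 - R' p.2.2 ^ 2)) (ht.mul m1) (ht.mul m2)
    (measurable_const.sub (ht.pow_const 2)).sqrt fun p => by
      have h4 := hR'.2 p.2.2
      rw [Real.sq_sqrt (by nlinarith)]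
      nlinarith [mul_le_mul_of_nonneg_left (hη p) (sq_nonneg (R' p.2.2))]
  have hi : ∀ {F : ℝ → ℝ}, Measurable F → (∀ t, |F t| ≤ 1) →
      IntegrableOn (fun t => R' t * F t) (Ioo (0 : ℝ) 1) := fun hF hb =>
    Measure.integrableOn_of_bounded (M := 1) (by simp) (hR'.1.mul hF).aestronglyMeasurable
      (Eventually.of_forall fun t => by
        rw [norm_mul, Real.norm_of_nonneg (hR'.2 _).1]
        exact mul_le_one₀ (hR'.2 _).2 (norm_nonneg _) (hb t))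
  have h4 : ∫ t in Ioo (0 : ℝ) 1, R (sa D t) * Lc D η1 η2 t =
      I1 D (fun p => R' p.2.2 * η1 p) + I2 D (fun p => R' p.2.2 * η2 p) := by
    rw [I1, I2, c1 R' hR', c2 R' hR', ← integral_add (hi a1 b1) (hi a2 b2)]
    refine integral_congr_ae (hae.mono fun t ht => ?_)
    simp only [Lc, ht, mul_add]
  rw [h4]
  exact le_trans (by rw [add_comm]; exact add_le_add le_rfl hq) h3

end Crest.Agent.R214
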