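import Crest.Agent.R214.Defs

/-! Block N1: the analytic one-dimensional lemmas.
`lemC`: `p = √amin`, `q = √amax`, `λ = √π / (p + q)`, `m z = λ z + √π p q / (p + q)` (the chord),
`R z = max 0 (min 1 (m z / √(π z)))`, `mt t = m (a t) + (if t < t0 then κ / 2 else 0)` (`R ≥ 1/2` on the
range).  `π z - m z² = λ² (z - amin)(amax - z)`, so `√(1 - R²) ≥ λ √((z - amin)(amax - z)) / √(π amax)`,
whose integral is `λ π (amax - amin)² / (8 √(π amax))`, while
`√(π V) - m V ≤ λ² (amax - amin)² / (8 √(π amin))`; `√π p (p + q) > q`.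
`lemB`: radii `x = √(4 amin/π) ≤ 0.0353`, `y = √(4 amax/π) ≤ 0.757`, `r = rB V ≤ 0.7002`,
`ρ² = 4 V/π = 2 r³/3`, `x ≤ ρ ≤ y`.  For `β ∈ [0,1]` take the chord between the levels `β² amin` and
`amax`: `m z = (π/2)(4 z/π + β x y)/(y + β x)`, `λ = 2/(y + β x)`, `R = m / √(π z)` clamped.
`√(1 - R²) = (λ/√π) √(amax - z) √(1 - β² amin / z) ≥ (λ/√π)(√(amax - z) - β² √(amax amin) / √z)`.
One gets `(y + β x)(2/π)(P - π r²/2) ≥ Q + x (β (y - r²) - β² y² - x y/2)`,
`Q = (y - r)² (y + 2 r)/3`.  Choose `β = 3/16` if `y ≥ 0.92 r` or `r ≤ 0.4` (bracket positive, use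
`y² ≥ 2 r³/3`), else `β = 0` (`Q > x² y/2`).  For `t0 = 0` add `κ R (a t)` on `t < t0` (positive by `pos`).
`lemS`: `x = amin`, `y = 1 - amax`.  If `V ≤ 0.31` take `R = 0`.  Otherwise, if `x ≤ y`, `y > 0`:
`k = √y / 3`, `m z = k (z - x)`, `R = m / linf` clamped, `√(1 - R²) ≥ 1 - R²`, `R ≤ k/2` on `z ≤ 1/2`,
`R² ≤ k² (1 + 1/(π √y √(1 - z)))` above; symmetrically for `y ≤ x` with `m z = k (1 - y - z)`.
`ball_profile`: `λ = 2/r`; for `t₁ ∈ (0,1)`, `z₁ = a t₁ > 0` and small `δ` use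
`R z = (λ z - δ)₊/√(π z)` for `z > z₁`, `λ z/√(π z)` for `z ≤ z₁`, `mt = λ a - δ 1_{t < t₁}`; then
`δ t₁ ≥ ∫_{z₁}^{z₂} (θ_δ - θ₀)`, `θ_δ - θ₀ = (ρ₀² - ρ_δ²)/(θ_δ + θ₀)`, `θ₀ = √(1 - λ² z/π)`; `δ → 0`,
`z₂ → amax` give `t₁ ≥ √(r² - 4 z₁/π)`, also when `z₁ = 0` (monotone limit through `t ↑`, or apply it to
`z₁ > 0` small with the same `t₁`).  So `a t ≥ π (r² - t²)₊/4`, and the integrals agree. -/

set_option autoImplicit false
set_option linter.unusedVariables false
open MeasureTheory Set Filter Metric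
open scoped Topology ENNReal NNReal
open Crest.GeometryTopology.PeriodicPerimeter

noncomputable section
namespace Crest.Agent.R214

theorem val_mono {z x y : ℝ} (hx : 0 < x) (hxy : x ≤ y) (h : 4 * z ≤ Real.pi * x ^ 2) :
    val z x ≤ val z y := by
  have hy : 0 < y := hx.trans_le hxy
  have e : val z y - val z x = (y - x) * (Real.pi * x * y - 4 * z) / (4 * x * y) := by
    unfold val; field_simp; ring
  have : 0 ≤ Real.pi * x * y - 4 * z := by nlinarith [mul_pos Real.pi_pos hx]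
  have : 0 ≤ (y - x) * (Real.pi * x * y - 4 * z) / (4 * x * y) :=
    div_nonneg (mul_nonneg (by linarith) this) (by positivity)
  linarith

theorem val_anti {z x y : ℝ} (hx : 0 < x) (hxy : x ≤ y) (h : Real.pi * y ^ 2 ≤ 4 * z) :
    val z y ≤ val z x := by
  have hy : 0 < y := hx.trans_le hxy
  have e : val z x - val z y = (y - x) * (4 * z - Real.pi * x * y) / (4 * x * y) := by
    unfold val; field_simp; ring
  have : 0 ≤ 4 * z - Real.pi * x * y := by nlinarith [mul_pos Real.pi_pos hy]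
  have : 0 ≤ (y - x) * (4 * z - Real.pi * x * y) / (4 * x * y) :=
    div_nonneg (mul_nonneg (by linarith) this) (by positivity)
  linarith

theorem n1a_val_sq {z x : ℝ} (hx : 0 < x) :
    val z x ^ 2 = Real.pi * z + (z / x - Real.pi * x / 4) ^ 2 := by
  unfold val; field_simp; ring

theorem sqrt_le_val {z x : ℝ} (hz : 0 ≤ z) (hx : 0 < x ∨ (x = 0 ∧ z = 0)) :
    Real.sqrt (Real.pi * z) ≤ val z x := by
  rcases hx with hx | ⟨rfl, rfl⟩
  · refine Real.sqrt_le_iff.mpr ⟨by unfold val; have := Real.pi_pos; positivity, ?_⟩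
    rw [n1a_val_sq hx]
    nlinarith [sq_nonneg (z / x - Real.pi * x / 4)]
  · simp [val]

theorem val_eq_sqrt {z x : ℝ} (hz : 0 ≤ z) (hx : 0 < x) (h : val z x ≤ Real.sqrt (Real.pi * z)) :
    4 * z = Real.pi * x ^ 2 := by
  have v0 : 0 ≤ val z x := by unfold val; have := Real.pi_pos; positivity
  have h2 : val z x ^ 2 ≤ Real.pi * z := by
    have := pow_le_pow_left₀ v0 h 2
    rwa [Real.sq_sqrt (mul_nonneg Real.pi_pos.le hz)] at this
  rw [n1a_val_sq hx] at h2
  have h3 : z / x - Real.pi * x / 4 = 0 := by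
    have : (z / x - Real.pi * x / 4) ^ 2 = 0 := le_antisymm (by linarith) (sq_nonneg _)
    exact pow_eq_zero_iff (two_ne_zero) |>.mp this
  field_simp at h3
  linarith

theorem rB_cube {V : ℝ} (hV : 0 ≤ V) : Real.pi * rB V ^ 3 / 6 = V := by
  have h : 0 ≤ 6 * V / Real.pi := by have := Real.pi_pos; positivity
  unfold rB
  rw [← Real.rpow_natCast, ← Real.rpow_mul h]
  norm_num
  have := Real.pi_pos
  field_simp

theorem rB_pos {V : ℝ} (hV : 0 < V) : 0 < rB V := by
  unfold rB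
  have := Real.pi_pos
  positivity

theorem Iq_le_sph {V r : ℝ} (hV : 0 ≤ V) (hr : 0 < r) : Iq V ≤ 2 * V / r + Real.pi * r ^ 2 / 6 := by
  have h3 := rB_cube hV
  have h0 : 0 ≤ rB V := by unfold rB; have := Real.pi_pos; positivity
  refine ((min_le_left _ _).trans (min_le_left _ _)).trans ?_
  set ρ := rB V
  have e : 2 * V / r + Real.pi * r ^ 2 / 6 - Real.pi * ρ ^ 2 / 2 =
      Real.pi * ((ρ - r) ^ 2 * (2 * ρ + r)) / (6 * r) := by
    rw [← h3]; field_simp; ring
  have : 0 ≤ Real.pi * ((ρ - r) ^ 2 * (2 * ρ + r)) / (6 * r) := by have := Real.pi_pos; positivity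
  linarith

theorem Iq_le_cyl {V ρ : ℝ} (hV : 0 ≤ V) (hρ : 0 < ρ) : Iq V ≤ V / ρ + Real.pi * ρ / 4 := by
  exact ((min_le_left _ _).trans (min_le_right _ _)).trans (sqrt_le_val hV (Or.inl hρ))

theorem Iq_le_one (V : ℝ) : Iq V ≤ 1 := by
  exact min_le_right _ _

theorem sph_le_iff {V : ℝ} (hV : 0 < V) :
    (Real.pi * rB V ^ 2 / 2 ≤ Real.sqrt (Real.pi * V) ↔ V ≤ 4 * Real.pi / 81) ∧
    (Real.sqrt (Real.pi * V) ≤ Real.pi * rB V ^ 2 / 2 ↔ 4 * Real.pi / 81 ≤ V) ∧
    (Real.sqrt (Real.pi * V) ≤ 1 ↔ V ≤ 1 / Real.pi) ∧ (1 ≤ Real.sqrt (Real.pi * V) ↔ 1 / Real.pi ≤ V) := by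
  have h3 := rB_cube hV.le
  have h0 := rB_pos hV
  have hp := Real.pi_pos
  set r := rB V
  have k1 : r ≤ 2 / 3 ↔ V ≤ 4 * Real.pi / 81 := by
    rw [← h3, ← pow_le_pow_iff_left₀ h0.le (by norm_num) (three_ne_zero)]
    constructor <;> intro h <;> nlinarith
  have k2 : 2 / 3 ≤ r ↔ 4 * Real.pi / 81 ≤ V := by
    rw [← h3, ← pow_le_pow_iff_left₀ (by norm_num) h0.le (three_ne_zero)]
    constructor <;> intro h <;> nlinarith
  have hq : 0 < Real.pi ^ 2 * r ^ 3 / 4 := by positivity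
  have e1 : (Real.pi * r ^ 2 / 2) ^ 2 = Real.pi ^ 2 * r ^ 3 / 4 * r := by ring
  have e2 : Real.pi * V = Real.pi ^ 2 * r ^ 3 / 4 * (2 / 3) := by rw [← h3]; ring
  refine ⟨?_, ?_, ?_, ?_⟩
  · rw [Real.le_sqrt (by positivity) (by positivity), e1, e2, mul_le_mul_iff_right₀ hq, k1]
  · rw [Real.sqrt_le_left (by positivity), e1, e2, mul_le_mul_iff_right₀ hq, k2]
  · rw [Real.sqrt_le_one, le_div_iff₀ hp, mul_comm]
  · rw [Real.one_le_sqrt, div_le_iff₀ hp, mul_comm]

theorem two_Iq {V : ℝ} (hV : 0 ≤ V) : 2 * Iq V =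
    min (min ((36 * Real.pi) ^ ((1 : ℝ) / 3) * V ^ ((2 : ℝ) / 3)) (2 * Real.sqrt (Real.pi * V))) 2 := by
  have h3 := rB_cube hV
  have hp := Real.pi_pos
  have h0 : 0 ≤ rB V := by unfold rB; positivity
  have e : 2 * (Real.pi * rB V ^ 2 / 2) = (36 * Real.pi) ^ ((1 : ℝ) / 3) * V ^ ((2 : ℝ) / 3) := by
    rw [← pow_left_inj₀ (by positivity) (by positivity) (three_ne_zero), mul_pow ((36 * Real.pi) ^ _),
      ← Real.rpow_natCast ((36 * Real.pi) ^ _), ← Real.rpow_natCast (V ^ _),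
      ← Real.rpow_mul (by positivity), ← Real.rpow_mul hV]
    norm_num
    set r := rB V
    rw [← h3]
    ring
  unfold Iq
  rw [mul_min_of_nonneg _ _ (by norm_num : (0 : ℝ) ≤ 2), mul_min_of_nonneg _ _ (by norm_num : (0 : ℝ) ≤ 2),
    e, mul_one]

theorem n1c_a_int {cs : ℕ} (O : OneD cs) : IntegrableOn O.a (Ioo (0 : ℝ) 1) := by
  refine Measure.integrableOn_of_bounded (M := 1) (by simp) O.meas.aestronglyMeasurable ?_
  refine (ae_restrict_iff' measurableSet_Ioo).mpr (Eventually.of_forall fun t ht => ?_)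
  have := O.range t ht
  rw [Real.norm_eq_abs, abs_le]
  constructor <;> linarith [O.amin_nonneg, O.amax_le, this.1, this.2]

theorem OneD.V_range {cs : ℕ} (O : OneD cs) : O.amin ≤ O.V ∧ O.V ≤ O.amax := by
  have e : ∀ c : ℝ, ∫ t in Ioo (0 : ℝ) 1, c = c := fun c => by simp
  rw [O.hV]
  constructor
  · rw [← e O.amin]
    exact setIntegral_mono_on (integrableOn_const (by simp)) (n1c_a_int O) measurableSet_Ioo
      fun t ht => (O.range t ht).1
  · rw [← e O.amax]
    exact setIntegral_mono_on (n1c_a_int O) (integrableOn_const (by simp)) measurableSet_Ioo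
      fun t ht => (O.range t ht).2

theorem OneD.key_linf {cs : ℕ} (O : OneD cs) :
    Key O.P O.amin O.amax O.a (fun t => linf (O.a t)) := by
  intro R mt hR hmt hL
  have h0 : MB (7 / 8) (fun _ => 0) := ⟨measurable_const, fun _ => by norm_num⟩
  refine O.key 0 R _ _ mt le_rfl (by unfold alR; split_ifs <;> norm_num) hR h0 h0 hmt
    (fun t ht c1 x x0 x1 x2 => ?_) (fun t ht c1 c0 => ?_) (fun t ht c0 x x0 x1 x2 => ?_)
  · refine (hL t ht).trans (mul_le_mul_of_nonneg_left ?_ (hR.2 _).1)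
    have r := O.range t ht
    have x0' : 0 ≤ x := le_trans (by unfold alR; split_ifs <;> norm_num) x0
    refine (min_le_right _ _).trans (sqrt_le_val (by linarith [r.2, O.amax_le]) ?_)
    rcases eq_or_lt_of_le x0' with c | c
    · exact Or.inr ⟨c.symm, by rw [x2.resolve_left (by linarith)]; simp⟩
    · exact Or.inl c
  · refine (hL t ht).trans (mul_le_mul_of_nonneg_left ?_ (hR.2 _).1)
    have : Gf 0 0 = 1 := by simp [Gf]
    simp only [this, zero_mul, zero_add]
    exact (min_le_left _ _).trans (min_le_right _ _)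
  · refine (hL t ht).trans (mul_le_mul_of_nonneg_left ?_ (hR.2 _).1)
    have r := O.range t ht
    refine ((min_le_left _ _).trans (min_le_left _ _)).trans
      (sqrt_le_val (O.amin_nonneg.trans r.1) ?_)
    rcases eq_or_lt_of_le x0 with c | c
    · exact Or.inr ⟨c.symm, x2.resolve_left (by linarith)⟩
    · exact Or.inl c

theorem OneD.key_III {cs : ℕ} (O : OneD cs) (h0 : O.t0 = 0) :
    Key O.P O.amin O.amax O.a (fun t => Real.sqrt (Real.pi * O.a t)) := by
  intro R mt hR hmt hL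
  have hz : MB (7 / 8) (fun _ => 0) := ⟨measurable_const, fun _ => by norm_num⟩
  refine O.key 0 R _ _ mt le_rfl (by unfold alR; split_ifs <;> norm_num) hR hz hz hmt
    (fun t ht c1 x x0 x1 x2 => ?_) (fun t ht c1 c0 => ?_) (fun t ht c0 x x0 x1 x2 => ?_)
  · linarith [O.t1_le, ht.1]
  · linarith [ht.1]
  · refine (hL t ht).trans (mul_le_mul_of_nonneg_left ?_ (hR.2 _).1)
    have r := O.range t ht
    refine sqrt_le_val (O.amin_nonneg.trans r.1) ?_
    rcases eq_or_lt_of_le x0 with c | c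
    · exact Or.inr ⟨c.symm, x2.resolve_left (by linarith)⟩
    · exact Or.inl c

theorem n1c_chord {cs : ℕ} (O : OneD cs) {κ : ℝ} (hκ : 0 < κ)
    (hK : Key O.P O.amin O.amax O.a
      (fun t => Real.sqrt (Real.pi * O.a t) + if t < O.t0 then κ else 0))
    {p q : ℝ} (hp : 0 ≤ p) (hq : 0 < q) (hpu : p ^ 2 ≤ O.amin) (hqv : q ^ 2 = O.amax) :
    ∃ J, 0 ≤ J ∧ (0 < O.t0 → 0 < J) ∧
      (∫ z in Ioo O.amin O.amax, Real.sqrt ((z - p ^ 2) * (q ^ 2 - z) / z)) / (p + q) +
        Real.sqrt Real.pi * (O.V + p * q) / (p + q) + J ≤ O.P := by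
  set c := Real.sqrt Real.pi with hc
  have c0 : 0 < c := Real.sqrt_pos.mpr Real.pi_pos
  have c2 : c ^ 2 = Real.pi := Real.sq_sqrt Real.pi_pos.le
  have hpq : 0 < p + q := by linarith
  set m : ℝ → ℝ := fun z => c * (z + p * q) / (p + q) with hm
  set R : ℝ → ℝ := fun z => max 0 (min 1 (m z / Real.sqrt (Real.pi * z))) with hRdef
  have hRmeas : Measurable R := by
    simp only [hRdef, hm]
    fun_prop
  have hR : MB 1 R := ⟨hRmeas, fun z => ⟨le_max_left _ _, max_le zero_le_one (min_le_left _ _)⟩⟩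
  have hm0 : ∀ z, p ^ 2 ≤ z → 0 ≤ m z := fun z hz => by
    have : 0 ≤ z := (sq_nonneg p).trans hz
    simp only [hm]; positivity
  have hm1 : ∀ z, p ^ 2 ≤ z → z ≤ q ^ 2 → m z ≤ Real.sqrt (Real.pi * z) := fun z h0 h1 => by
    refine (le_abs_self _).trans (Real.abs_le_sqrt ?_)
    simp only [hm]
    rw [div_pow, div_le_iff₀ (by positivity), ← c2]
    have := mul_nonneg (sub_nonneg.mpr h0) (sub_nonneg.mpr h1)
    have k : (z + p * q) ^ 2 ≤ z * (p + q) ^ 2 := by nlinarith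
    have := mul_le_mul_of_nonneg_left k (sq_nonneg c)
    nlinarith
  have hRe : ∀ z, p ^ 2 ≤ z → z ≤ q ^ 2 → R z = m z / Real.sqrt (Real.pi * z) := fun z h0 h1 => by
    simp only [hRdef]
    rw [min_eq_right (div_le_one_of_le₀ (hm1 z h0 h1) (Real.sqrt_nonneg _)),
      max_eq_right (div_nonneg (hm0 z h0) (Real.sqrt_nonneg _))]
  have hRm : ∀ z, p ^ 2 ≤ z → z ≤ q ^ 2 → R z * Real.sqrt (Real.pi * z) = m z := fun z h0 h1 => by
    rw [hRe z h0 h1]
    rcases eq_or_lt_of_le (Real.sqrt_nonneg (Real.pi * z)) with h | h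
    · have := hm1 z h0 h1
      rw [← h] at this ⊢
      rw [mul_zero]
      exact le_antisymm (hm0 z h0) this
    · field_simp
  have hj : IntegrableOn (fun t => if t < O.t0 then κ * R (O.a t) else 0) (Ioo (0 : ℝ) 1) := by
    refine Measure.integrableOn_of_bounded (M := κ) (by simp) ?_ (Eventually.of_forall fun t => ?_)
    · exact (Measurable.ite measurableSet_Iio (measurable_const.mul (hRmeas.comp O.meas))
        measurable_const).aestronglyMeasurable
    · split_ifs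
      · rw [Real.norm_eq_abs, abs_of_nonneg (mul_nonneg hκ.le (hR.2 _).1)]
        nlinarith [(hR.2 (O.a t)).2]
      · simpa using hκ.le
  have hj0 : ∀ t, 0 ≤ (if t < O.t0 then κ * R (O.a t) else 0) := fun t => by
    split_ifs
    · exact mul_nonneg hκ.le (hR.2 _).1
    · exact le_rfl
  have i1 : IntegrableOn (fun t => c / (p + q) * O.a t) (Ioo (0 : ℝ) 1) := (n1c_a_int O).const_mul _
  have i2 : IntegrableOn (fun t : ℝ => c * (p * q) / (p + q)) (Ioo (0 : ℝ) 1) :=
    integrableOn_const (by simp)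
  have i12 : IntegrableOn (fun t => c / (p + q) * O.a t + c * (p * q) / (p + q)) (Ioo (0 : ℝ) 1) :=
    i1.add i2
  have key := hK R (fun t => c / (p + q) * O.a t + c * (p * q) / (p + q) +
      if t < O.t0 then κ * R (O.a t) else 0) hR (i12.add hj) (fun t ht => by
    have r := O.range t ht
    have := hRm (O.a t) (hpu.trans r.1) (hqv ▸ r.2)
    have e : c / (p + q) * O.a t + c * (p * q) / (p + q) = m (O.a t) := by simp only [hm]; ring
    rw [e, mul_add, this]
    split_ifs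
    · linarith
    · linarith)
  rw [integral_add i12 hj, integral_add i1 i2, integral_const_mul, ← O.hV] at key
  have e : ∫ t in Ioo (0 : ℝ) 1, c * (p * q) / (p + q) = c * (p * q) / (p + q) := by simp
  rw [e] at key
  refine ⟨∫ t in Ioo (0 : ℝ) 1, if t < O.t0 then κ * R (O.a t) else 0, integral_nonneg hj0,
    fun h0 => ?_, ?_⟩
  · rw [setIntegral_pos_iff_support_of_nonneg_ae (Eventually.of_forall hj0) hj]
    refine lt_of_lt_of_le ?_ (measure_mono (s := Ioo 0 O.t0) fun t ht => ?_)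
    · simpa using h0
    · have ht' : t ∈ Ioo (0 : ℝ) 1 := ⟨ht.1, ht.2.trans_le O.t0_le⟩
      refine ⟨?_, ht'⟩
      have r := O.range t ht'
      have a0 := O.pos t ht' ht.2
      rw [Function.mem_support, if_pos ht.2, hRe _ (hpu.trans r.1) (hqv ▸ r.2)]
      have : 0 < m (O.a t) := by simp only [hm]; positivity
      have : 0 < Real.sqrt (Real.pi * O.a t) := Real.sqrt_pos.mpr (by positivity)
      positivity
  · have e2 : ∫ z in Ioo O.amin O.amax, Real.sqrt (1 - R z ^ 2) =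
        ∫ z in Ioo O.amin O.amax, Real.sqrt ((z - p ^ 2) * (q ^ 2 - z) / z) / (p + q) := by
      refine setIntegral_congr_fun measurableSet_Ioo fun z hz => ?_
      have z0 : 0 < z := O.amin_nonneg.trans_lt hz.1
      rw [hRe z (hpu.trans hz.1.le) (hqv ▸ hz.2.le), div_pow, Real.sq_sqrt (by positivity)]
      have : 1 - m z ^ 2 / (Real.pi * z) = (z - p ^ 2) * (q ^ 2 - z) / z / (p + q) ^ 2 := by
        simp only [hm]
        rw [← c2]
        field_simp
        ring
      rw [this, Real.sqrt_div' _ (sq_nonneg _), Real.sqrt_sq hpq.le]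
    rw [e2, integral_div] at key
    have : c * (O.V + p * q) / (p + q) = c / (p + q) * O.V + c * (p * q) / (p + q) := by ring
    linarith

theorem n1c_int {p q u : ℝ} (hq : 0 ≤ q) (hu : 0 ≤ u) :
    IntegrableOn (fun z => Real.sqrt ((z - p ^ 2) * (q ^ 2 - z) / z)) (Ioo u (q ^ 2)) := by
  refine Measure.integrableOn_of_bounded (M := q) (by simp)
    (Measurable.aestronglyMeasurable (by fun_prop)) ?_
  refine (ae_restrict_iff' measurableSet_Ioo).mpr (Eventually.of_forall fun z hz => ?_)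
  have z0 : 0 < z := hu.trans_lt hz.1
  rw [Real.norm_eq_abs, abs_of_nonneg (Real.sqrt_nonneg _)]
  refine Real.sqrt_le_iff.mpr ⟨hq, ?_⟩
  rw [div_le_iff₀ z0]
  have := mul_nonneg (sq_nonneg p) (sub_nonneg.mpr hz.2.le)
  nlinarith

theorem n1c_semi {u v : ℝ} (h : u < v) :
    ∫ z in Ioo u v, Real.sqrt ((z - u) * (v - z)) = Real.pi * (v - u) ^ 2 / 8 := by
  have hd : 0 < (v - u) / 2 := by linarith
  rw [← integral_Ioc_eq_integral_Ioo, ← intervalIntegral.integral_of_le h.le]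
  have e := intervalIntegral.smul_integral_comp_mul_add
    (fun z => Real.sqrt ((z - u) * (v - z))) (a := -1) (b := 1) ((v - u) / 2) ((u + v) / 2)
  have e1 : (v - u) / 2 * -1 + (u + v) / 2 = u := by ring
  have e2 : (v - u) / 2 * 1 + (u + v) / 2 = v := by ring
  rw [e1, e2] at e
  rw [← e]
  have : (fun x : ℝ => Real.sqrt (((v - u) / 2 * x + (u + v) / 2 - u) *
      (v - ((v - u) / 2 * x + (u + v) / 2)))) = fun x => (v - u) / 2 * Real.sqrt (1 - x ^ 2) := by
    funext x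
    have : ((v - u) / 2 * x + (u + v) / 2 - u) * (v - ((v - u) / 2 * x + (u + v) / 2)) =
        ((v - u) / 2) ^ 2 * (1 - x ^ 2) := by ring
    rw [this, Real.sqrt_mul (sq_nonneg _), Real.sqrt_sq hd.le]
  rw [this, intervalIntegral.integral_const_mul, integral_sqrt_one_sub_sq, smul_eq_mul]
  ring

theorem lemC {cs : ℕ} (O : OneD cs) {κ : ℝ} (hκ : 0 < κ)
    (hK : Key O.P O.amin O.amax O.a
      (fun t => Real.sqrt (Real.pi * O.a t) + if t < O.t0 then κ else 0))
    (h1 : 9 / 64 ≤ O.amin) (h2 : O.amax ≤ 9 / 20) : Out O := by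
  obtain ⟨v0, v1⟩ := O.V_range
  have hle : O.amin ≤ O.amax := v0.trans v1
  set p := Real.sqrt O.amin with hp
  set q := Real.sqrt O.amax with hq
  have p2 : p ^ 2 = O.amin := Real.sq_sqrt O.amin_nonneg
  have q2 : q ^ 2 = O.amax := Real.sq_sqrt (by linarith)
  have p1 : 3 / 8 ≤ p := (le_abs_self _).trans (Real.abs_le_sqrt (by linarith))
  have pq : p ≤ q := Real.sqrt_le_sqrt hle
  have q1 : q ≤ 0.68 := Real.sqrt_le_iff.mpr ⟨by norm_num, by linarith⟩
  have p0 : 0 < p := by linarith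
  have q0 : 0 < q := by linarith
  obtain ⟨J, J0, J1, key⟩ := n1c_chord O hκ hK p0.le q0 p2.le q2
  set c := Real.sqrt Real.pi with hc
  have c0 : 0 < c := Real.sqrt_pos.mpr Real.pi_pos
  have c2 : c ^ 2 = Real.pi := Real.sq_sqrt Real.pi_pos.le
  have c1 : 1.77 ≤ c := (le_abs_self _).trans (Real.abs_le_sqrt (by linarith [Real.pi_gt_d2]))
  have hI : Iq O.V ≤ Real.sqrt (Real.pi * O.V) := (min_le_left _ _).trans (min_le_right _ _)
  set w := Real.sqrt O.V with hw
  have w2 : w ^ 2 = O.V := Real.sq_sqrt (by linarith)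
  have pw : p ≤ w := Real.sqrt_le_sqrt v0
  have wq : w ≤ q := Real.sqrt_le_sqrt v1
  have e : Real.sqrt (Real.pi * O.V) = c * w := Real.sqrt_mul Real.pi_pos.le _
  have hpq : 0 < p + q := by linarith
  rcases eq_or_lt_of_le hle with h | h
  · have e1 : q = p := by rw [hp, hq, h]
    have e2 : w = p := le_antisymm (e1 ▸ wq) pw
    have e3 : c * (O.V + p * q) / (p + q) = c * w := by
      rw [← w2, e1, e2]; field_simp
    rw [e3, h, Ioo_self] at key
    simp only [Measure.restrict_empty, integral_zero_measure, zero_div, zero_add] at key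
    rcases eq_or_lt_of_le (O.t1_nonneg.trans O.t1_le) with t | t
    · exact Or.inr (Or.inr (Or.inl ⟨h, t.symm, by linarith⟩))
    · exact Or.inl (by linarith [J1 t])
  · left
    have k1 : Real.pi * (O.amax - O.amin) ^ 2 / 8 / q ≤
        ∫ z in Ioo O.amin O.amax, Real.sqrt ((z - p ^ 2) * (q ^ 2 - z) / z) := by
      rw [← n1c_semi h, ← integral_div]
      refine setIntegral_mono_on ?_ (q2 ▸ n1c_int q0.le O.amin_nonneg) measurableSet_Ioo
        fun z hz => ?_
      · exact (Continuous.integrableOn_Icc (by fun_prop)).mono_set Ioo_subset_Icc_self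
      · have z0 : 0 < z := O.amin_nonneg.trans_lt hz.1
        have n : 0 ≤ (z - O.amin) * (O.amax - z) :=
          mul_nonneg (by linarith [hz.1]) (by linarith [hz.2])
        rw [p2, q2, Real.sqrt_div n]
        exact div_le_div_of_nonneg_left (Real.sqrt_nonneg _) (Real.sqrt_pos.mpr z0)
          (Real.sqrt_le_sqrt hz.2.le)
    have hlt : p < q := Real.sqrt_lt_sqrt O.amin_nonneg h
    have k2 : c * w * (p + q) <
        Real.pi * (O.amax - O.amin) ^ 2 / 8 / q + c * (O.V + p * q) := by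
      rw [← c2, ← w2, ← p2, ← q2]
      -- `c (w - p)(q - w) < c² (q² - p²)² / (8 q)`
      have a1 : (w - p) * (q - w) ≤ (q - p) ^ 2 / 4 := by nlinarith [sq_nonneg (w - p - (q - w))]
      have a2 : 2 * q < c * (p + q) ^ 2 := by nlinarith
      have a3 : (q - p) ^ 2 / 4 < c * (q ^ 2 - p ^ 2) ^ 2 / 8 / q := by
        rw [lt_div_iff₀ q0]
        have : 0 < (q - p) ^ 2 := by positivity
        nlinarith
      have a4 := mul_lt_mul_of_pos_left (a1.trans_lt a3) c0
      have : c * (c * (q ^ 2 - p ^ 2) ^ 2 / 8 / q) = c ^ 2 * (q ^ 2 - p ^ 2) ^ 2 / 8 / q := by ring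
      nlinarith
    have k3 : c * w < (Real.pi * (O.amax - O.amin) ^ 2 / 8 / q) / (p + q) +
        c * (O.V + p * q) / (p + q) := by
      rw [← add_div, lt_div_iff₀ hpq]; exact k2
    have k4 := div_le_div_of_nonneg_right k1 hpq.le
    linarith

theorem n1b_int {β s q : ℝ} (b0 : 0 ≤ β) (b1 : β ≤ 1) (s0 : 0 ≤ s) (hsq : s ≤ q) :
    2 / 3 * q ^ 3 - q * s ^ 2 - 2 * β ^ 2 * q * s * (q - s) ≤
      ∫ z in Ioo (s ^ 2) (q ^ 2), Real.sqrt ((z - (β * s) ^ 2) * (q ^ 2 - z) / z) := by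
  have q0 : 0 ≤ q := s0.trans hsq
  have h2 : s ^ 2 ≤ q ^ 2 := by nlinarith
  rw [← integral_Ioc_eq_integral_Ioo, ← intervalIntegral.integral_of_le h2]
  have hi : IntegrableOn (fun z => Real.sqrt ((z - (β * s) ^ 2) * (q ^ 2 - z) / z))
      (Icc (s ^ 2) (q ^ 2)) :=
    (integrableOn_Icc_iff_integrableOn_Ioo).mpr (n1c_int q0 (sq_nonneg s))
  have key := intervalIntegral.sub_le_integral_of_hasDeriv_right_of_le h2
    (g := fun z => -(2 / 3) * ((q ^ 2 - z) * Real.sqrt (q ^ 2 - z)) - 2 * β ^ 2 * q * s * Real.sqrt z)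
    (g' := fun z => Real.sqrt (q ^ 2 - z) - β ^ 2 * q * s / Real.sqrt z)
    (Continuous.continuousOn (by fun_prop)) (fun z hz => ?_) hi (fun z hz => ?_)
  · refine le_trans ?_ key
    simp only [sub_self, zero_mul, mul_zero, Real.sqrt_sq q0, Real.sqrt_sq s0]
    set w := Real.sqrt (q ^ 2 - s ^ 2)
    have w0 : 0 ≤ w := Real.sqrt_nonneg _
    have w2 : w ^ 2 = q ^ 2 - s ^ 2 := Real.sq_sqrt (by linarith)
    have : 0 ≤ (q - w) ^ 2 * (q + 2 * w) := by positivity
    have e : s ^ 2 = q ^ 2 - w ^ 2 := by linarith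
    rw [← w2, e]
    nlinarith
  · have z0 : 0 < z := (sq_nonneg s).trans_lt hz.1
    have z1 : 0 < q ^ 2 - z := by linarith [hz.2]
    have d1 : HasDerivAt (fun z : ℝ => q ^ 2 - z) (-1) z := by
      simpa using (hasDerivAt_id z).const_sub (q ^ 2)
    have d2 := d1.sqrt z1.ne'
    have d3 := (Real.hasDerivAt_sqrt z0.ne')
    have d4 := ((d1.mul d2).const_mul (-(2 / 3))).sub (d3.const_mul (2 * β ^ 2 * q * s))
    refine HasDerivAt.hasDerivWithinAt (d4.congr_deriv ?_)
    have r1 : 0 < Real.sqrt (q ^ 2 - z) := Real.sqrt_pos.mpr z1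
    have r0 : 0 < Real.sqrt z := Real.sqrt_pos.mpr z0
    have r2 : Real.sqrt (q ^ 2 - z) ^ 2 = q ^ 2 - z := Real.sq_sqrt z1.le
    set w := Real.sqrt (q ^ 2 - z)
    rw [← r2]
    field_simp
    ring
  · have z0 : 0 < z := (sq_nonneg s).trans_lt hz.1
    have z1 : 0 < q ^ 2 - z := by linarith [hz.2]
    have r0 : 0 < Real.sqrt z := Real.sqrt_pos.mpr z0
    have r3 : Real.sqrt z ^ 2 = z := Real.sq_sqrt z0.le
    have r4 : s ≤ Real.sqrt z := (le_abs_self _).trans (Real.abs_le_sqrt hz.1.le)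
    have r5 : Real.sqrt (q ^ 2 - z) ≤ q := Real.sqrt_le_iff.mpr ⟨q0, by linarith⟩
    set y := s / Real.sqrt z with hy
    have y0 : 0 ≤ y := by positivity
    have y1 : y ≤ 1 := (div_le_one r0).mpr r4
    have e1 : (z - (β * s) ^ 2) * (q ^ 2 - z) / z = (q ^ 2 - z) * (1 - β ^ 2 * y ^ 2) := by
      rw [hy, div_pow, r3]; field_simp
    have e2 : β ^ 2 * q * s / Real.sqrt z = β ^ 2 * y * q := by rw [hy]; ring
    have bb : β ^ 2 ≤ 1 := by nlinarith
    have n1 : 0 ≤ β ^ 2 * y := by positivity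
    have n2 : β ^ 2 * y ≤ 1 := by nlinarith
    have n3 : 1 - β ^ 2 * y ≤ Real.sqrt (1 - β ^ 2 * y ^ 2) := by
      refine (le_abs_self _).trans (Real.abs_le_sqrt ?_)
      have : β ^ 2 * y ^ 2 ≤ β ^ 2 * y := by nlinarith
      nlinarith
    rw [e1, e2, Real.sqrt_mul z1.le]
    have := mul_le_mul_of_nonneg_left n3 (Real.sqrt_nonneg (q ^ 2 - z))
    have := mul_le_mul_of_nonneg_left r5 n1
    nlinarith

theorem n1b_poly {x y r : ℝ} (x0 : 0 ≤ x) (x1 : x ≤ 0.0353) (y0 : 0 < y) (y1 : y ≤ 0.757)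
    (r0 : 0 < r) (r1 : r ≤ 0.7002) (h : 2 * r ^ 3 / 3 ≤ y ^ 2) :
    ∃ β : ℝ, 0 ≤ β ∧ β ≤ 1 ∧
      0 ≤ (y - r) ^ 2 * (y + 2 * r) / 3 + x * (β * (y - r ^ 2) - β ^ 2 * y ^ 2 - x * y / 2) ∧
      (0 < (y - r) ^ 2 * (y + 2 * r) / 3 + x * (β * (y - r ^ 2) - β ^ 2 * y ^ 2 - x * y / 2) ∨
        (x = 0 ∧ y = r)) := by
  by_cases c : 0.92 * r ≤ y ∨ r ≤ 0.4
  · have hB : 0 < 3 / 16 * (y - r ^ 2) - (3 / 16) ^ 2 * y ^ 2 - x * y / 2 := by
      by_cases c1 : 0.92 * r ≤ y
      · have a1 : r ^ 2 ≤ 0.7611 * y := by nlinarith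
        have a2 : y ^ 2 ≤ 0.757 * y := by nlinarith
        have a3 : x * y ≤ 0.0353 * y := by nlinarith
        nlinarith
      · have c2 : r ≤ 0.4 := c.resolve_left c1
        have c1' := not_le.mp c1
        have a1 : 1.2 * r ^ 2 ≤ y := by
          by_contra hn
          have hn' := not_le.mp hn
          have : y ^ 2 < (1.2 * r ^ 2) ^ 2 := by nlinarith
          have r3 : 0 < r ^ 3 := by positivity
          nlinarith
        have a2 : y ^ 2 ≤ 0.368 * y := by nlinarith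
        have a3 : x * y ≤ 0.0353 * y := by nlinarith
        nlinarith
    have hQ : 0 ≤ (y - r) ^ 2 * (y + 2 * r) / 3 := by positivity
    refine ⟨3 / 16, by norm_num, by norm_num, by positivity, ?_⟩
    rcases eq_or_lt_of_le x0 with hx | hx
    · by_cases hy : y = r
      · exact Or.inr ⟨hx.symm, hy⟩
      · left
        have : 0 < (y - r) ^ 2 := by have := sub_ne_zero.mpr hy; positivity
        have : 0 < (y - r) ^ 2 * (y + 2 * r) / 3 := by positivity
        have := mul_nonneg x0 hB.le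
        linarith
    · left
      have := mul_pos hx hB
      linarith
  · push Not at c
    obtain ⟨c1, c2⟩ := c
    have a1 : 0.032 ≤ r - y := by linarith
    have a2 : 0.001024 ≤ (y - r) ^ 2 := by nlinarith
    have a3 : 0.001024 * (3 * y) ≤ (y - r) ^ 2 * (y + 2 * r) :=
      mul_le_mul a2 (by linarith) (by linarith) (sq_nonneg _)
    have a4 : x * x ≤ 0.00125 := by nlinarith
    have a5 : x * x * y ≤ 0.00125 * y := mul_le_mul_of_nonneg_right a4 y0.le
    have : 0 < (y - r) ^ 2 * (y + 2 * r) / 3 + x * (0 * (y - r ^ 2) - 0 ^ 2 * y ^ 2 - x * y / 2) := by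
      nlinarith
    exact ⟨0, le_rfl, zero_le_one, this.le, Or.inl this⟩

theorem lemB {cs : ℕ} (O : OneD cs) {κ : ℝ} (hκ : 0 < κ)
    (hK : Key O.P O.amin O.amax O.a
      (fun t => Real.sqrt (Real.pi * O.a t) + if t < O.t0 then κ else 0))
    (hV : 0 < O.V) (h1 : O.amin ≤ 1 / 1024) (h2 : O.amax ≤ 9 / 20) (h3 : O.V ≤ 23 / 128) : Out O := by
  obtain ⟨v0, v1⟩ := O.V_range
  have hle : O.amin ≤ O.amax := v0.trans v1
  set c := Real.sqrt Real.pi with hc
  have c0 : 0 < c := Real.sqrt_pos.mpr Real.pi_pos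
  have c2 : c ^ 2 = Real.pi := Real.sq_sqrt Real.pi_pos.le
  have pi0 := Real.pi_gt_d4
  set s := Real.sqrt O.amin with hs
  set q := Real.sqrt O.amax with hq
  have s2 : s ^ 2 = O.amin := Real.sq_sqrt O.amin_nonneg
  have q2 : q ^ 2 = O.amax := Real.sq_sqrt (by linarith)
  have s0 : 0 ≤ s := Real.sqrt_nonneg _
  have q0 : 0 < q := Real.sqrt_pos.mpr (by linarith)
  have sq : s ≤ q := Real.sqrt_le_sqrt hle
  set r := rB O.V with hr
  have r0 : 0 < r := rB_pos hV
  have r3 : Real.pi * r ^ 3 / 6 = O.V := rB_cube hV.le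
  obtain ⟨x, hx⟩ : ∃ x, s = c * x / 2 := ⟨2 * s / c, by field_simp⟩
  obtain ⟨y, hy⟩ : ∃ y, q = c * y / 2 := ⟨2 * q / c, by field_simp⟩
  have x0 : 0 ≤ x := by
    by_contra hn
    have := mul_neg_of_pos_of_neg c0 (not_le.mp hn)
    linarith
  have y0 : 0 < y := by
    by_contra hn
    have := mul_nonpos_of_nonneg_of_nonpos c0.le (not_lt.mp hn)
    linarith
  have ex : O.amin = Real.pi * x ^ 2 / 4 := by rw [← s2, hx, ← c2]; ring
  have ey : O.amax = Real.pi * y ^ 2 / 4 := by rw [← q2, hy, ← c2]; ring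
  have x1 : x ≤ 0.0353 := by
    by_contra hn
    have hn' := not_le.mp hn
    have : 0.0353 ^ 2 ≤ x ^ 2 := by nlinarith
    nlinarith
  have y1 : y ≤ 0.757 := by
    by_contra hn
    have hn' := not_le.mp hn
    have : 0.757 ^ 2 ≤ y ^ 2 := by nlinarith
    nlinarith
  have r1 : r ≤ 0.7002 := by
    by_contra hn
    have hn' := not_le.mp hn
    have : 0.7002 ^ 3 ≤ r ^ 3 := pow_le_pow_left₀ (by norm_num) hn'.le 3
    nlinarith
  have hry : 2 * r ^ 3 / 3 ≤ y ^ 2 := by
    have : Real.pi * (2 * r ^ 3 / 3) ≤ Real.pi * y ^ 2 := by linarith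
    exact le_of_mul_le_mul_left this Real.pi_pos
  obtain ⟨β, b0, b1, T0, T1⟩ := n1b_poly x0 x1 y0 y1 r0 r1 hry
  set T := (y - r) ^ 2 * (y + 2 * r) / 3 + x * (β * (y - r ^ 2) - β ^ 2 * y ^ 2 - x * y / 2) with hT
  have bb : β ^ 2 ≤ 1 := by nlinarith
  obtain ⟨J, J0, J1, key⟩ := n1c_chord O hκ hK (p := β * s) (mul_nonneg b0 s0) q0
    (by rw [← s2, mul_pow]; nlinarith [sq_nonneg s]) q2
  have k1 := n1b_int b0 b1 s0 sq
  rw [s2] at k1
  have hpq : 0 < β * s + q := by positivity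
  have k2 := div_le_div_of_nonneg_right k1 hpq.le
  rw [q2] at k2 key
  have k3 : (2 / 3 * q ^ 3 - q * O.amin - 2 * β ^ 2 * q * s * (q - s) + c * (O.V + β * s * q)) /
      (β * s + q) ≤ O.P - J := by
    rw [add_div]; linarith
  rw [div_le_iff₀ hpq] at k3
  have k4 : c ^ 3 / 4 * T ≤ (O.P - J - Real.pi * r ^ 2 / 2) * (β * s + q) := by
    have n : 0 ≤ c ^ 3 / 4 * (β ^ 2 * x ^ 2 * y) := by positivity
    have e : 2 / 3 * q ^ 3 - q * O.amin - 2 * β ^ 2 * q * s * (q - s) + c * (O.V + β * s * q) -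
        Real.pi * r ^ 2 / 2 * (β * s + q) = c ^ 3 / 4 * T + c ^ 3 / 4 * (β ^ 2 * x ^ 2 * y) := by
      rw [← r3, ex, hx, hy, hT, ← c2]; ring
    linarith
  have hI : Iq O.V ≤ Real.pi * r ^ 2 / 2 := (min_le_left _ _).trans (min_le_left _ _)
  have c3 : 0 < c ^ 3 / 4 := by positivity
  have k5 : 0 ≤ O.P - J - Real.pi * r ^ 2 / 2 :=
    nonneg_of_mul_nonneg_left ((mul_nonneg c3.le T0).trans k4) hpq
  rcases T1 with T1 | ⟨hx0, hyr⟩
  · left
    have : 0 < O.P - J - Real.pi * r ^ 2 / 2 :=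
      (mul_pos_iff_of_pos_right hpq).mp ((mul_pos c3 T1).trans_le k4)
    linarith
  · rcases eq_or_lt_of_le (O.t1_nonneg.trans O.t1_le) with t | t
    · refine Or.inr (Or.inr (Or.inr ⟨by rw [ex, hx0]; simp, t.symm, by rw [ey, hyr], by linarith⟩))
    · exact Or.inl (by linarith [J1 t])

theorem n1d_linf_nonneg (z : ℝ) : 0 ≤ linf z :=
  le_min (le_min (Real.sqrt_nonneg _) zero_le_one) (Real.sqrt_nonneg _)

theorem n1d_sqrt_int {R : ℝ → ℝ} (hR : MB 1 R) (a b : ℝ) :
    IntegrableOn (fun z => Real.sqrt (1 - R z ^ 2)) (Ioo a b) := by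
  refine Measure.integrableOn_of_bounded (M := 1) (by simp) ?_ (Eventually.of_forall fun z => ?_)
  · have := hR.1
    exact (Measurable.sqrt (by fun_prop)).aestronglyMeasurable
  · rw [Real.norm_eq_abs, abs_of_nonneg (Real.sqrt_nonneg _)]
    exact Real.sqrt_le_one.mpr (by nlinarith [sq_nonneg (R z)])

theorem n1d_refl {P u v : ℝ} (huv : u ≤ v) {a : ℝ → ℝ} (hK : Key P u v a (fun t => linf (a t))) :
    Key P (1 - v) (1 - u) (fun t => 1 - a t) (fun t => linf (1 - a t)) := by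
  intro R mt hR hmt hL
  have e : ∀ z, linf (1 - z) = linf z := fun z => by
    unfold linf
    rw [sub_sub_cancel]
    ac_rfl
  have := hK (fun z => R (1 - z)) mt ⟨hR.1.comp (measurable_const.sub measurable_id), fun z => hR.2 _⟩
    hmt (fun t ht => by simpa only [e] using hL t ht)
  have e2 : ∫ z in Ioo u v, Real.sqrt (1 - R (1 - z) ^ 2) =
      ∫ z in Ioo (1 - v) (1 - u), Real.sqrt (1 - R z ^ 2) := by
    rw [← integral_Ioc_eq_integral_Ioo, ← intervalIntegral.integral_of_le huv,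
      ← integral_Ioc_eq_integral_Ioo, ← intervalIntegral.integral_of_le (by linarith)]
    exact intervalIntegral.integral_comp_sub_left (fun z => Real.sqrt (1 - R z ^ 2)) 1
  rwa [e2] at this

theorem n1d_main {P u y : ℝ} {a : ℝ → ℝ} (hi : IntegrableOn a (Ioo (0 : ℝ) 1))
    (hK : Key P u (1 - y) a (fun t => linf (a t))) (hr : ∀ t ∈ Ioo (0 : ℝ) 1, u ≤ a t ∧ a t ≤ 1 - y)
    (u0 : 0 ≤ u) (uy : u ≤ y) (y0 : 0 < y) (y1 : y ≤ 1 / 2048)
    (hV : 0.31 ≤ ∫ t in Ioo (0 : ℝ) 1, a t) : 1 < P := by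
  set s := Real.sqrt y with hs
  have s0 : 0 < s := Real.sqrt_pos.mpr y0
  have s2 : s ^ 2 = y := Real.sq_sqrt y0.le
  have s1 : s ≤ 0.0221 := Real.sqrt_le_iff.mpr ⟨by norm_num, by linarith⟩
  have pi0 := Real.pi_gt_d2
  set m : ℝ → ℝ := fun z => s / 3 * (z - u) with hm
  set R : ℝ → ℝ := fun z => max 0 (min 1 (m z / linf z)) with hRdef
  have hRmeas : Measurable R := by
    simp only [hRdef, hm, linf]
    fun_prop
  have hR : MB 1 R := ⟨hRmeas, fun z => ⟨le_max_left _ _, max_le zero_le_one (min_le_left _ _)⟩⟩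
  have hm0 : ∀ z, u ≤ z → 0 ≤ m z := fun z hz => mul_nonneg (by positivity) (by linarith)
  have hm2 : ∀ z, u ≤ z → m z ≤ s / 3 * z := fun z hz =>
    mul_le_mul_of_nonneg_left (by linarith) (by positivity)
  have hm1 : ∀ z, u ≤ z → z ≤ 1 - y → m z ≤ linf z := fun z h0 h1 => by
    have z0 : 0 ≤ z := u0.trans h0
    have k0 := hm0 z h0
    have k1 := hm2 z h0
    have k2 : m z ≤ s / 3 := k1.trans (by nlinarith)
    refine le_min (le_min ?_ (by linarith)) ?_
    · refine (le_abs_self _).trans (Real.abs_le_sqrt ?_)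
      have : m z ≤ z := k1.trans (by nlinarith)
      nlinarith
    · refine (le_abs_self _).trans (Real.abs_le_sqrt ?_)
      nlinarith
  have hRe : ∀ z, u ≤ z → z ≤ 1 - y → R z = m z / linf z := fun z h0 h1 => by
    simp only [hRdef]
    rw [min_eq_right (div_le_one_of_le₀ (hm1 z h0 h1) (n1d_linf_nonneg _)),
      max_eq_right (div_nonneg (hm0 z h0) (n1d_linf_nonneg _))]
  have hRm : ∀ z, u ≤ z → z ≤ 1 - y → R z * linf z = m z := fun z h0 h1 => by
    rw [hRe z h0 h1]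
    rcases eq_or_lt_of_le (n1d_linf_nonneg z) with h | h
    · have := hm1 z h0 h1
      rw [← h] at this ⊢
      rw [mul_zero]
      exact le_antisymm (hm0 z h0) this
    · field_simp
  have i2 : IntegrableOn (fun t : ℝ => u) (Ioo (0 : ℝ) 1) := integrableOn_const (by simp)
  have key := hK R (fun t => s / 3 * (a t - u)) hR ((hi.sub i2).const_mul _)
    (fun t ht => (hRm _ (hr t ht).1 (hr t ht).2).ge)
  rw [integral_const_mul, integral_sub hi i2] at key
  have e : ∫ t in Ioo (0 : ℝ) 1, u = u := by simp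
  rw [e] at key
  have huv : u ≤ 1 - y := by linarith
  rw [← integral_Ioc_eq_integral_Ioo, ← intervalIntegral.integral_of_le huv] at key
  have k := intervalIntegral.sub_le_integral_of_hasDeriv_right_of_le huv
    (g := fun z => (1 - y / 9) * z - s / 27 * (2 / 3 * ((1 - z) * Real.sqrt (1 - z)) - 2 * Real.sqrt (1 - z)))
    (g' := fun z => (1 - y / 9) - s / 27 * (z / Real.sqrt (1 - z)))
    (Continuous.continuousOn (by fun_prop)) (fun z hz => ?_)
    ((integrableOn_Icc_iff_integrableOn_Ioo).mpr (n1d_sqrt_int hR _ _)) (fun z hz => ?_)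
  · simp only [sub_sub_cancel, ← hs] at k
    set w := Real.sqrt (1 - u)
    have w0 : 0 ≤ w := Real.sqrt_nonneg _
    have w2 : w ^ 2 = 1 - u := Real.sq_sqrt (by linarith)
    have a1 : -(4 / 3) ≤ 2 / 3 * ((1 - u) * w) - 2 * w := by
      rw [← w2]
      have : 0 ≤ (w - 1) ^ 2 * (w + 2) := by positivity
      nlinarith
    have a2 : 2 / 3 * (y * s) - 2 * s ≤ 0 := by nlinarith
    have a3 := mul_le_mul_of_nonneg_left a1 (show 0 ≤ s / 27 by positivity)
    have a4 := mul_le_mul_of_nonneg_left a2 (show 0 ≤ s / 27 by positivity)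
    have a5 : y ≤ 0.0221 * s := by nlinarith
    have a6 := mul_le_mul_of_nonneg_left hV (show 0 ≤ s / 3 by positivity)
    have a7 : s * u ≤ s / 2048 := by nlinarith
    have a8 : 0 ≤ y * (y + u) := by positivity
    nlinarith
  · have z1 : 0 < 1 - z := by linarith [hz.2]
    have d1 : HasDerivAt (fun z : ℝ => 1 - z) (-1) z := by
      simpa using (hasDerivAt_id z).const_sub 1
    have d2 := d1.sqrt z1.ne'
    have d4 := ((hasDerivAt_id z).const_mul (1 - y / 9)).sub
      ((((d1.mul d2).const_mul (2 / 3)).sub (d2.const_mul 2)).const_mul (s / 27))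
    refine HasDerivAt.hasDerivWithinAt (d4.congr_deriv ?_)
    have r1 : 0 < Real.sqrt (1 - z) := Real.sqrt_pos.mpr z1
    have r2 : Real.sqrt (1 - z) ^ 2 = 1 - z := Real.sq_sqrt z1.le
    set w := Real.sqrt (1 - z)
    have : z = 1 - w ^ 2 := by linarith
    rw [← r2, this]
    field_simp
    ring
  · have z0 : 0 < z := u0.trans_lt hz.1
    have z1 : 0 < 1 - z := by linarith [hz.2]
    have r1 : 0 < Real.sqrt (1 - z) := Real.sqrt_pos.mpr z1
    have r2 : Real.sqrt (1 - z) ^ 2 = 1 - z := Real.sq_sqrt z1.le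
    have r3 : s ≤ Real.sqrt (1 - z) := Real.sqrt_le_sqrt (by linarith [hz.2])
    have R0 := (hR.2 z).1
    have R1 := (hR.2 z).2
    have b1 : 1 - R z ^ 2 ≤ Real.sqrt (1 - R z ^ 2) := by
      refine (le_abs_self _).trans (Real.abs_le_sqrt ?_)
      have : R z ^ 2 ≤ 1 := by nlinarith
      nlinarith [sq_nonneg (R z)]
    have b2 : R z ^ 2 ≤ y / 9 + s / 27 * (z / Real.sqrt (1 - z)) := by
      have c1 := hRm z hz.1.le hz.2.le
      have c2 := hm2 z hz.1.le
      have c3 := hm0 z hz.1.le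
      have n0 : 0 ≤ s / 27 * (z / Real.sqrt (1 - z)) := by positivity
      have c4 : (R z * linf z) ^ 2 ≤ y / 9 * z ^ 2 := by
        rw [c1, ← s2]
        nlinarith
      rw [mul_pow] at c4
      have zz : z ^ 2 ≤ z := by nlinarith
      rcases min_choice (min (Real.sqrt (Real.pi * z)) 1) (Real.sqrt (Real.pi * (1 - z))) with h | h
      · have : R z ^ 2 ≤ y / 9 := by
          rcases min_choice (Real.sqrt (Real.pi * z)) 1 with h' | h'
          · have : linf z ^ 2 = Real.pi * z := by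
              unfold linf; rw [h, h', Real.sq_sqrt (by positivity)]
            rw [this] at c4
            have : R z ^ 2 * z ≤ y / 9 * z := by
              have := mul_nonneg (sq_nonneg (R z)) z0.le
              nlinarith
            exact le_of_mul_le_mul_right this z0
          · have : linf z = 1 := by unfold linf; rw [h, h']
            rw [this] at c4
            nlinarith
        linarith
      · have : linf z ^ 2 = Real.pi * (1 - z) := by
          unfold linf; rw [h, Real.sq_sqrt (by positivity)]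
        rw [this, ← r2] at c4
        set w := Real.sqrt (1 - z)
        have : R z ^ 2 ≤ s / 27 * (z / w) := by
          rw [← mul_div_assoc, le_div_iff₀ r1]
          have d1 : R z ^ 2 * (3 * (s * w)) ≤ R z ^ 2 * (Real.pi * w ^ 2) := by
            refine mul_le_mul_of_nonneg_left ?_ (sq_nonneg _)
            have : s * w ≤ w ^ 2 := by nlinarith
            nlinarith [sq_nonneg w]
          have d2 : y / 9 * z ^ 2 ≤ s ^ 2 / 9 * z := by rw [s2]; nlinarith
          have d3 : s * (R z ^ 2 * w) ≤ s * (s / 27 * z) := by nlinarith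
          exact le_of_mul_le_mul_left d3 s0
        linarith
    linarith

theorem lemS {cs : ℕ} (O : OneD cs) (hV : O.V ≤ 1 / 2) (h1 : O.amin ≤ 1 / 2048)
    (h2 : 2047 / 2048 ≤ O.amax) : Out O := by
  have hK := O.key_linf
  have hle : O.amin ≤ O.amax := O.V_range.1.trans O.V_range.2
  have a0 := O.amin_nonneg
  have a1 := O.amax_le
  have k0 : O.amax - O.amin ≤ O.P := by
    have := hK (fun _ => 0) (fun _ => 0) ⟨measurable_const, fun _ => by norm_num⟩
      (integrableOn_const (by simp)) (fun t ht => by simp)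
    simpa [hle] using this
  by_cases c : O.V ≤ 0.31
  · left
    have hI : Iq O.V ≤ Real.sqrt (Real.pi * O.V) := (min_le_left _ _).trans (min_le_right _ _)
    have : Real.sqrt (Real.pi * O.V) ≤ 0.99 :=
      Real.sqrt_le_iff.mpr ⟨by norm_num, by nlinarith [Real.pi_lt_d2, O.V_range.1]⟩
    linarith
  · by_cases c0 : O.amin = 0 ∧ O.amax = 1
    · exact Or.inr (Or.inl ⟨c0.1, c0.2, by linarith [c0.1, c0.2]⟩)
    · left
      refine (Iq_le_one _).trans_lt ?_
      rcases le_total O.amin (1 - O.amax) with d | d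
      · have y0 : 0 < 1 - O.amax := by
          by_contra hn
          exact c0 ⟨by linarith, by linarith⟩
        refine n1d_main (u := O.amin) (y := 1 - O.amax) (n1c_a_int O) (by rwa [sub_sub_cancel])
          (fun t ht => by rw [sub_sub_cancel]; exact O.range t ht) a0 d y0 (by linarith) ?_
        rw [← O.hV]; linarith
      · have y0 : 0 < O.amin := by
          by_contra hn
          exact c0 ⟨by linarith, by linarith⟩
        have i1 : IntegrableOn (fun t : ℝ => (1 : ℝ)) (Ioo (0 : ℝ) 1) := integrableOn_const (by simp)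
        refine n1d_main (u := 1 - O.amax) (y := O.amin) (a := fun t => 1 - O.a t)
          (i1.sub (n1c_a_int O)) (n1d_refl hle hK)
          (fun t ht => ⟨by linarith [(O.range t ht).2], by linarith [(O.range t ht).1]⟩)
          (by linarith) d y0 h1 ?_
        rw [integral_sub i1 (n1c_a_int O), ← O.hV]
        have : ∫ t in Ioo (0 : ℝ) 1, (1 : ℝ) = 1 := by simp
        rw [this]; linarith

theorem n1d_step {u : ℝ} (h0 : 0 ≤ u) (h1 : u ≤ 1) :
    ∫ t in Ioo (0 : ℝ) 1, (if t < u then (1 : ℝ) else 0) = u := by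
  have : (fun t : ℝ => if t < u then (1 : ℝ) else 0) = (Iio u).indicator fun _ => (1 : ℝ) := by
    funext t; simp [indicator]
  rw [this, setIntegral_indicator measurableSet_Iio]
  have : Ioo (0 : ℝ) 1 ∩ Iio u = Ioo 0 u := by
    ext t
    simp only [mem_inter_iff, mem_Ioo, mem_Iio]
    exact ⟨fun h => ⟨h.1.1, h.2⟩, fun h => ⟨⟨h.1, h.2.trans_le h1⟩, h.2⟩⟩
  rw [this]
  simp [h0]

theorem slab_profile {P V : ℝ} {a : ℝ → ℝ} (ha : Measurable a)
    (hr : ∀ t ∈ Ioo (0 : ℝ) 1, 0 ≤ a t ∧ a t ≤ 1) (hanti : AntitoneOn a (Ioo (0 : ℝ) 1))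
    (hV : V = ∫ t in Ioo (0 : ℝ) 1, a t) (hK : Key P 0 1 a (fun t => linf (a t))) (hP : P ≤ 1) :
    ∀ᵐ t ∂(volume.restrict (Ioo (0 : ℝ) 1)), a t = if t < V then 1 else 0 := by
  have hm : Measurable fun t => linf (a t) := by
    unfold linf
    fun_prop
  have hi : IntegrableOn (fun t => linf (a t)) (Ioo (0 : ℝ) 1) := by
    refine Measure.integrableOn_of_bounded (M := 1) (by simp) hm.aestronglyMeasurable
      (Eventually.of_forall fun t => ?_)
    rw [Real.norm_eq_abs, abs_of_nonneg (n1d_linf_nonneg _)]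
    exact (min_le_left _ _).trans (min_le_right _ _)
  set I := ∫ t in Ioo (0 : ℝ) 1, linf (a t) with hI
  have I0 : 0 ≤ I := integral_nonneg fun t => n1d_linf_nonneg _
  have hε : ∀ ε : ℝ, 0 < ε → ε ≤ 1 → I ≤ ε := fun ε e0 e1 => by
    have := hK (fun _ => ε) (fun t => ε * linf (a t)) ⟨measurable_const, fun _ => ⟨e0.le, e1⟩⟩
      (hi.const_mul _) (fun t ht => le_rfl)
    rw [integral_const_mul, ← hI] at this
    have e : ∫ z in Ioo (0 : ℝ) 1, Real.sqrt (1 - ε ^ 2) = Real.sqrt (1 - ε ^ 2) := by simp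
    rw [e] at this
    have b1 : 1 - ε ^ 2 ≤ Real.sqrt (1 - ε ^ 2) := by
      refine (le_abs_self _).trans (Real.abs_le_sqrt ?_)
      have : ε ^ 2 ≤ 1 := by nlinarith
      nlinarith [sq_nonneg ε]
    have : ε * I ≤ ε * ε := by nlinarith
    exact le_of_mul_le_mul_left this e0
  have I1 : I = 0 := by
    refine le_antisymm ?_ I0
    by_contra hn
    have hn' := not_le.mp hn
    have := hε (min 1 (I / 2)) (lt_min one_pos (by linarith)) (min_le_left _ _)
    linarith [min_le_right 1 (I / 2)]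
  have hz := (setIntegral_eq_zero_iff_of_nonneg_ae
    (Eventually.of_forall fun t => n1d_linf_nonneg (a t)) hi).mp I1
  set S : Set ℝ := insert 0 {t | t ∈ Ioo (0 : ℝ) 1 ∧ 0 < a t} with hS
  have bdd : ∀ t ∈ S, t ≤ 1 := by
    rintro t (rfl | ht)
    · exact zero_le_one
    · exact ht.1.2.le
  have hb : BddAbove S := ⟨1, bdd⟩
  have T0 : 0 ≤ sSup S := le_csSup hb (mem_insert _ _)
  have T1 : sSup S ≤ 1 := csSup_le ⟨0, mem_insert _ _⟩ bdd
  have hT : ∀ᵐ t ∂(volume.restrict (Ioo (0 : ℝ) 1)), a t = if t < sSup S then 1 else 0 := by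
    have hne : ∀ᵐ t ∂(volume.restrict (Ioo (0 : ℝ) 1)), t ≠ sSup S :=
      ae_restrict_of_ae (by simp [ae_iff])
    filter_upwards [hz, hne, ae_restrict_mem measurableSet_Ioo] with t h0 h1 ht
    have r := hr t ht
    split_ifs with c
    · obtain ⟨t', ht', c'⟩ := exists_lt_of_lt_csSup ⟨0, mem_insert _ _⟩ c
      rcases ht' with rfl | ht'
      · linarith [ht.1]
      · have p : 0 < a t := ht'.2.trans_le (hanti ht ht'.1 c'.le)
        by_contra hn
        have p1 : 0 < 1 - a t := by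
          rcases eq_or_lt_of_le r.2 with h | h
          · exact absurd h hn
          · linarith
        have : 0 < linf (a t) := by
          have := Real.pi_pos
          exact lt_min (lt_min (Real.sqrt_pos.mpr (by positivity)) one_pos)
            (Real.sqrt_pos.mpr (by positivity))
        exact this.ne' h0
    · by_contra hn
      have p : 0 < a t := lt_of_le_of_ne r.1 (Ne.symm hn)
      exact h1 (le_antisymm (le_csSup hb (Or.inr ⟨ht, p⟩)) (not_lt.mp c))
  have : V = sSup S := by rw [hV, integral_congr_ae hT, n1d_step T0 T1]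
  rw [this]
  exact hT

theorem n1e_int {A c a b : ℝ} (hA : 0 < A) (hab : a ≤ b) (hb : b / A ≤ c) :
    ∫ z in a..b, Real.sqrt (c - z / A) =
      2 * A / 3 * (Real.sqrt (c - a / A) ^ 3 - Real.sqrt (c - b / A) ^ 3) := by
  have hc : Continuous fun z : ℝ => Real.sqrt (c - z / A) := by fun_prop
  have h := intervalIntegral.integral_eq_sub_of_hasDerivAt_of_le hab
    (f := fun z => -(2 * A / 3) * Real.sqrt (c - z / A) ^ 3) (f' := fun z => Real.sqrt (c - z / A))
    (by fun_prop) (fun z hz => ?_) (hc.intervalIntegrable _ _)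
  · rw [h]; ring
  · have h1 : 0 < c - z / A := by
      have : z / A < b / A := div_lt_div_of_pos_right hz.2 hA
      linarith
    have h2 : HasDerivAt (fun z : ℝ => c - z / A) (-(1 / A)) z :=
      ((hasDerivAt_id z).div_const A).const_sub c
    have h3 := ((h2.sqrt h1.ne').pow 3).const_mul (-(2 * A / 3))
    have h4 : 0 < Real.sqrt (c - z / A) := Real.sqrt_pos.2 h1
    refine h3.congr_deriv ?_
    simp only [Nat.cast_ofNat, Nat.add_one_sub_one]
    field_simp

theorem n1e_step {P r : ℝ} {a : ℝ → ℝ} (h0 : 0 < r) (ha : Measurable a)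
    (hr : ∀ t ∈ Ioo (0 : ℝ) 1, 0 ≤ a t ∧ a t ≤ Real.pi * r ^ 2 / 4)
    (hanti : AntitoneOn a (Ioo (0 : ℝ) 1))
    (hV : Real.pi * r ^ 3 / 6 = ∫ t in Ioo (0 : ℝ) 1, a t)
    (hK : Key P 0 (Real.pi * r ^ 2 / 4) a (fun t => Real.sqrt (Real.pi * a t)))
    (hP : P ≤ Real.pi * r ^ 2 / 2) {t₁ z₁ δ η : ℝ} (ht : t₁ ∈ Ioo (0 : ℝ) 1) (hz : 0 < z₁)
    (hz1 : a t₁ ≤ z₁) (hz2 : z₁ ≤ Real.pi * r ^ 2 / 4) (hδ : 0 ≤ δ) (hη0 : 0 ≤ η)
    (hη : Real.pi * z₁ * η = 4 / r * δ * z₁ - δ ^ 2) :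
    Real.pi * r ^ 2 / 6 * (Real.sqrt (1 + η - z₁ / (Real.pi * r ^ 2 / 4)) ^ 3 -
      Real.sqrt (1 - z₁ / (Real.pi * r ^ 2 / 4)) ^ 3 - Real.sqrt η ^ 3) ≤ δ * t₁ := by
  have hπ := Real.pi_pos
  set A : ℝ := Real.pi * r ^ 2 / 4 with hA
  have hA0 : 0 < A := by positivity
  have hsq : ∀ z : ℝ, z / A * (Real.pi * z) = (2 / r * z) ^ 2 := by
    intro z; rw [hA]; field_simp; ring
  have hηz : η ≤ z₁ / A := by
    have h1 := hsq z₁
    have h2 : η * (Real.pi * z₁) ≤ z₁ / A * (Real.pi * z₁) := by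
      have h3 : 4 / r * δ * z₁ = 2 * (2 / r * z₁) * δ := by ring
      nlinarith [sq_nonneg (2 / r * z₁ - δ)]
    exact le_of_mul_le_mul_right h2 (by positivity)
  have hai : IntegrableOn a (Ioo (0 : ℝ) 1) := by
    refine Measure.integrableOn_of_bounded (M := A) (by simp) ha.aestronglyMeasurable ?_
    filter_upwards [ae_restrict_mem measurableSet_Ioo] with t ht
    rw [Real.norm_eq_abs, abs_of_nonneg (hr t ht).1]
    exact (hr t ht).2
  have hii : IntegrableOn ((Iio t₁).indicator fun _ : ℝ => δ) (Ioo (0 : ℝ) 1) :=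
    (integrableOn_const (by simp)).indicator measurableSet_Iio
  have hR : ∀ z : ℝ, z ≤ A → ∀ e : ℝ, 0 ≤ e → min 1 (Real.sqrt (z / A - e)) = Real.sqrt (z / A - e) := by
    intro z hz e he
    refine min_eq_right (Real.sqrt_le_one.2 ?_)
    have : z / A ≤ 1 := (div_le_one hA0).2 hz
    linarith
  have key := hK (fun z => min 1 (Real.sqrt (z / A - if z₁ < z then η else 0)))
    (fun t => 2 / r * a t - (Iio t₁).indicator (fun _ => δ) t) ⟨?_, fun z => ?_⟩
    ((hai.const_mul _).sub hii) (fun t ht' => ?_)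
  · have e1 : ∫ t in Ioo (0 : ℝ) 1, (2 / r * a t - (Iio t₁).indicator (fun _ => δ) t) =
        4 * A / 3 - δ * t₁ := by
      rw [integral_sub (hai.const_mul _) hii, integral_const_mul, ← hV,
        integral_indicator measurableSet_Iio, Measure.restrict_restrict measurableSet_Iio]
      have : Iio t₁ ∩ Ioo (0 : ℝ) 1 = Ioo 0 t₁ := by
        ext x
        simp only [mem_inter_iff, mem_Iio, mem_Ioo]
        exact ⟨fun h => ⟨h.2.1, h.1⟩, fun h => ⟨h.2, h.1, h.2.trans ht.2⟩⟩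
      rw [this, setIntegral_const, Real.volume_real_Ioo_of_le ht.1.le, hA]
      simp only [smul_eq_mul]
      field_simp
      ring
    have e2 : ∫ z in Ioo (0 : ℝ) A,
        Real.sqrt (1 - min 1 (Real.sqrt (z / A - if z₁ < z then η else 0)) ^ 2) =
        (∫ z in (0 : ℝ)..z₁, Real.sqrt (1 - z / A)) + ∫ z in z₁..A, Real.sqrt (1 + η - z / A) := by
      have c1 : Continuous fun z : ℝ => Real.sqrt (1 - z / A) := by fun_prop
      have c2 : Continuous fun z : ℝ => Real.sqrt (1 + η - z / A) := by fun_prop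
      have g1 : EqOn (fun z : ℝ =>
          Real.sqrt (1 - min 1 (Real.sqrt (z / A - if z₁ < z then η else 0)) ^ 2))
          (fun z => Real.sqrt (1 - z / A)) (Ioc 0 z₁) := by
        intro z hz'
        simp only [not_lt.2 hz'.2, if_false]
        rw [hR z (hz'.2.trans hz2) 0 le_rfl, sub_zero, Real.sq_sqrt (div_pos hz'.1 hA0).le]
      have g2 : EqOn (fun z : ℝ =>
          Real.sqrt (1 - min 1 (Real.sqrt (z / A - if z₁ < z then η else 0)) ^ 2))
          (fun z => Real.sqrt (1 + η - z / A)) (Ioc z₁ A) := by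
        intro z hz'
        simp only [hz'.1, if_true]
        have : z₁ / A ≤ z / A := div_le_div_of_nonneg_right hz'.1.le hA0.le
        rw [hR z hz'.2 η hη0, Real.sq_sqrt (by linarith)]
        congr 1; ring
      rw [← integral_Ioc_eq_integral_Ioo, ← Ioc_union_Ioc_eq_Ioc hz.le hz2,
        setIntegral_union (Ioc_disjoint_Ioc_of_le le_rfl) measurableSet_Ioc
          ((integrableOn_congr_fun g1 measurableSet_Ioc).2 (c1.integrableOn_Ioc))
          ((integrableOn_congr_fun g2 measurableSet_Ioc).2 (c2.integrableOn_Ioc)),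
        setIntegral_congr_fun measurableSet_Ioc g1, setIntegral_congr_fun measurableSet_Ioc g2,
        intervalIntegral.integral_of_le hz.le, intervalIntegral.integral_of_le hz2]
    rw [e1, e2, n1e_int hA0 hz.le ((div_le_one hA0).2 hz2),
      n1e_int hA0 hz2 (by rw [div_self hA0.ne']; linarith), div_self hA0.ne'] at key
    simp only [zero_div, sub_zero, Real.sqrt_one, one_pow, add_sub_cancel_left] at key
    have e3 : Real.pi * r ^ 2 / 6 = 2 * A / 3 := by rw [hA]; ring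
    have e4 : Real.pi * r ^ 2 / 2 = 2 * A := by rw [hA]; ring
    rw [e3]
    rw [e4] at hP
    linarith
  · refine measurable_const.min (Measurable.sqrt ((measurable_id.div_const A).sub ?_))
    exact Measurable.ite measurableSet_Ioi measurable_const measurable_const
  · exact ⟨le_min zero_le_one (Real.sqrt_nonneg _), min_le_left _ _⟩
  · obtain ⟨a0, a1⟩ := hr t ht'
    have hπa : 0 ≤ Real.pi * a t := by positivity
    by_cases h : z₁ < a t
    · have h1 : t < t₁ := by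
        by_contra hc
        have := hanti ht ht' (not_lt.1 hc)
        linarith
      simp only [h, if_true, indicator_of_mem (mem_Iio.2 h1)]
      rw [hR _ a1 η hη0, ← Real.sqrt_mul' _ hπa]
      refine Real.le_sqrt_of_sq_le ?_
      have h2 := hsq (a t)
      have h3 : z₁ * (Real.pi * a t * η + δ ^ 2) ≤ z₁ * (4 / r * δ * a t) := by
        have : δ ^ 2 * z₁ ≤ δ ^ 2 * a t := mul_le_mul_of_nonneg_left h.le (sq_nonneg δ)
        have h4 : z₁ * (Real.pi * a t * η) = a t * (4 / r * δ * z₁ - δ ^ 2) := by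
          rw [← hη]; ring
        nlinarith
      have h5 := le_of_mul_le_mul_left h3 hz
      have h6 : 4 / r * δ * a t = 2 * (2 / r * a t) * δ := by ring
      nlinarith
    · simp only [h, if_false]
      rw [hR _ a1 0 le_rfl, sub_zero, ← Real.sqrt_mul' _ hπa, hsq,
        Real.sqrt_sq (by positivity)]
      have : 0 ≤ (Iio t₁).indicator (fun _ : ℝ => δ) t := indicator_nonneg (fun _ _ => hδ) t
      linarith

theorem n1e_lower {P r : ℝ} {a : ℝ → ℝ} (h0 : 0 < r) (ha : Measurable a)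
    (hr : ∀ t ∈ Ioo (0 : ℝ) 1, 0 ≤ a t ∧ a t ≤ Real.pi * r ^ 2 / 4)
    (hanti : AntitoneOn a (Ioo (0 : ℝ) 1))
    (hV : Real.pi * r ^ 3 / 6 = ∫ t in Ioo (0 : ℝ) 1, a t)
    (hK : Key P 0 (Real.pi * r ^ 2 / 4) a (fun t => Real.sqrt (Real.pi * a t)))
    (hP : P ≤ Real.pi * r ^ 2 / 2) {t₁ z₁ : ℝ} (ht : t₁ ∈ Ioo (0 : ℝ) 1) (hz : 0 < z₁)
    (hz1 : a t₁ ≤ z₁) (hz2 : z₁ ≤ Real.pi * r ^ 2 / 4) :
    r * Real.sqrt (1 - z₁ / (Real.pi * r ^ 2 / 4)) ≤ t₁ := by
  have hπ := Real.pi_pos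
  have hu : 0 ≤ 1 - z₁ / (Real.pi * r ^ 2 / 4) := by
    have : z₁ / (Real.pi * r ^ 2 / 4) ≤ 1 := (div_le_one (by positivity)).2 hz2
    linarith
  set x := Real.sqrt (1 - z₁ / (Real.pi * r ^ 2 / 4)) with hx
  have hx0 : 0 ≤ x := Real.sqrt_nonneg _
  set k : ℝ := 4 / r / Real.pi with hk
  have hk0 : 0 < k := by positivity
  have hc : Continuous fun δ : ℝ => Real.pi * r ^ 2 / 6 *
      (3 / 2 * x * (k - δ / (Real.pi * z₁)) - k * Real.sqrt (k * δ)) := by fun_prop
  have hl := (hc.tendsto 0).mono_left (nhdsWithin_le_nhds (s := Ioi 0))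
  have e0 : Real.pi * r ^ 2 / 6 *
      (3 / 2 * x * (k - 0 / (Real.pi * z₁)) - k * Real.sqrt (k * 0)) = r * x := by
    rw [mul_zero, Real.sqrt_zero, hk]; field_simp; ring
  rw [e0] at hl
  refine le_of_tendsto hl ?_
  filter_upwards [Ioo_mem_nhdsGT (show (0 : ℝ) < 4 / r * z₁ by positivity)] with δ hδ
  set η : ℝ := δ * (k - δ / (Real.pi * z₁)) with hη
  have hη1 : Real.pi * z₁ * η = 4 / r * δ * z₁ - δ ^ 2 := by
    rw [hη, hk]; field_simp
  have hη0 : 0 ≤ η := by
    have h1 : 0 ≤ Real.pi * z₁ * η := by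
      rw [hη1]; nlinarith [hδ.1, hδ.2]
    exact nonneg_of_mul_nonneg_right h1 (by positivity)
  have hη2 : η ≤ k * δ := by
    have : 0 ≤ δ * (δ / (Real.pi * z₁)) := by have := hδ.1; positivity
    rw [hη]; nlinarith
  have h1 := n1e_step h0 ha hr hanti hV hK hP ht hz hz1 hz2 hδ.1.le hη0 hη1
  rw [← hx] at h1
  set y := Real.sqrt (1 + η - z₁ / (Real.pi * r ^ 2 / 4)) with hy
  have hy0 : 0 ≤ y := Real.sqrt_nonneg _
  have h2 : y ^ 2 - x ^ 2 = η := by
    rw [hx, hy, Real.sq_sqrt hu, Real.sq_sqrt (by linarith)]; ring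
  have h3 : 3 / 2 * x * η ≤ y ^ 3 - x ^ 3 := by
    have : 0 ≤ (y - x) ^ 2 * (y + x / 2) := by positivity
    rw [← h2]; nlinarith
  have h4 : Real.sqrt η ^ 3 ≤ k * δ * Real.sqrt (k * δ) := by
    rw [pow_succ, Real.sq_sqrt hη0]
    exact mul_le_mul hη2 (Real.sqrt_le_sqrt hη2) (Real.sqrt_nonneg _) (hη0.trans hη2)
  have h5 : Real.pi * r ^ 2 / 6 * (3 / 2 * x * η - k * δ * Real.sqrt (k * δ)) ≤ δ * t₁ :=
    le_trans (mul_le_mul_of_nonneg_left (by linarith) (by positivity)) h1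
  refine le_of_mul_le_mul_left (le_trans (le_of_eq ?_) h5) hδ.1
  rw [hη]; ring

theorem ball_profile {P r : ℝ} {a : ℝ → ℝ} (h0 : 0 < r) (h1 : r < 1) (ha : Measurable a)
    (hr : ∀ t ∈ Ioo (0 : ℝ) 1, 0 ≤ a t ∧ a t ≤ Real.pi * r ^ 2 / 4)
    (hanti : AntitoneOn a (Ioo (0 : ℝ) 1))
    (hV : Real.pi * r ^ 3 / 6 = ∫ t in Ioo (0 : ℝ) 1, a t)
    (hK : Key P 0 (Real.pi * r ^ 2 / 4) a (fun t => Real.sqrt (Real.pi * a t)))
    (hP : P ≤ Real.pi * r ^ 2 / 2) :
    ∀ᵐ t ∂(volume.restrict (Ioo (0 : ℝ) 1)), a t = Real.pi * max (r ^ 2 - t ^ 2) 0 / 4 := by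
  have hπ := Real.pi_pos
  have hle : ∀ t ∈ Ioo (0 : ℝ) 1, Real.pi * max (r ^ 2 - t ^ 2) 0 / 4 ≤ a t := by
    intro t ht
    by_contra hc
    rw [not_le] at hc
    obtain ⟨a0, a1⟩ := hr t ht
    have h2 : 0 < r ^ 2 - t ^ 2 := by
      by_contra h3
      rw [max_eq_right (not_lt.1 h3)] at hc
      linarith
    rw [max_eq_left h2.le] at hc
    have h4 : Real.pi * (r ^ 2 - t ^ 2) / 4 ≤ Real.pi * r ^ 2 / 4 := by
      have : 0 ≤ Real.pi * t ^ 2 := by positivity
      linarith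
    set z₁ : ℝ := (a t + Real.pi * (r ^ 2 - t ^ 2) / 4) / 2 with hz₁
    have h5 := n1e_lower h0 ha hr hanti hV hK hP ht (z₁ := z₁) (by linarith) (by linarith)
      (by linarith)
    have h6 : z₁ / (Real.pi * r ^ 2 / 4) ≤ 1 := (div_le_one (by positivity)).2 (by linarith)
    have h7 := pow_le_pow_left₀ (by positivity) h5 2
    rw [mul_pow, Real.sq_sqrt (by linarith)] at h7
    have h8 : Real.pi * (r ^ 2 * (1 - z₁ / (Real.pi * r ^ 2 / 4))) = Real.pi * r ^ 2 - 4 * z₁ := by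
      field_simp
    have h9 := mul_le_mul_of_nonneg_left h7 hπ.le
    linarith
  have hai : IntegrableOn a (Ioo (0 : ℝ) 1) := by
    refine Measure.integrableOn_of_bounded (M := Real.pi * r ^ 2 / 4) (by simp)
      ha.aestronglyMeasurable ?_
    filter_upwards [ae_restrict_mem measurableSet_Ioo] with t ht
    rw [Real.norm_eq_abs, abs_of_nonneg (hr t ht).1]
    exact (hr t ht).2
  have hc : Continuous fun t : ℝ => Real.pi * max (r ^ 2 - t ^ 2) 0 / 4 := by fun_prop
  have hbi : IntegrableOn (fun t : ℝ => Real.pi * max (r ^ 2 - t ^ 2) 0 / 4) (Ioo (0 : ℝ) 1) :=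
    hc.integrableOn_Icc.mono_set Ioo_subset_Icc_self
  have hint : ∫ t in Ioo (0 : ℝ) 1, Real.pi * max (r ^ 2 - t ^ 2) 0 / 4 = Real.pi * r ^ 3 / 6 := by
    rw [← integral_Ioc_eq_integral_Ioo, ← intervalIntegral.integral_of_le zero_le_one,
      ← intervalIntegral.integral_add_adjacent_intervals (b := r) (hc.intervalIntegrable _ _)
        (hc.intervalIntegrable _ _)]
    have e1 : ∫ t in (0 : ℝ)..r, Real.pi * max (r ^ 2 - t ^ 2) 0 / 4 =
        ∫ t in (0 : ℝ)..r, Real.pi / 4 * (r ^ 2 - t ^ 2) := by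
      refine intervalIntegral.integral_congr fun t ht => ?_
      rw [uIcc_of_le h0.le] at ht
      have : t ^ 2 ≤ r ^ 2 := pow_le_pow_left₀ ht.1 ht.2 2
      rw [max_eq_left (by linarith)]; ring
    have e2 : ∫ t in r..1, Real.pi * max (r ^ 2 - t ^ 2) 0 / 4 = ∫ t in r..1, (0 : ℝ) := by
      refine intervalIntegral.integral_congr fun t ht => ?_
      rw [uIcc_of_le h1.le] at ht
      have : r ^ 2 ≤ t ^ 2 := pow_le_pow_left₀ h0.le ht.1 2
      rw [max_eq_right (by linarith)]; ring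
    rw [e1, e2, intervalIntegral.integral_zero, intervalIntegral.integral_const_mul,
      intervalIntegral.integral_sub (by simp) (by simp), integral_pow]
    simp only [intervalIntegral.integral_const, smul_eq_mul]
    norm_num
    ring
  have h := (integral_eq_iff_of_ae_le hbi hai (by
    filter_upwards [ae_restrict_mem measurableSet_Ioo] with t ht using hle t ht)).1
    (hint.trans hV)
  exact h.symm

end Crest.Agent.R214
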