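import Crest.Agent.R214.D3
import Crest.Agent.R214.N1

/-! Block D4: the explicit calibrations of a slice and the one-dimensional data.
`Lc` at height `t` only sees the values of `η₁`, `η₂` at height `t`.  `∫₀¹ √(1 - u²) = π/4`
(`integral_sqrt_one_sub_sq`).  `cal_II`: `φ y = p + (q - p) y`; `√(1 - u²) ≥ 1 - u²/2 - 0.245 u⁴` for
`|u| ≤ 7/8`.
`exists_oneD`: `t1 = pB (h1 D)`, `t0 = pB (h2 D)`, `a1 = sSup (insert amin (sa D '' Ioo t1 1))`, the same for
`a0`, `s = sSup (insert 0 (tre D '' Ioo t1 1))`, `w = sSup (insert 0 (trd D '' Ioo t0 1))`.  In `key` glue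
the fields by `if t < t1 then … else if t < t0 then … else …`; in phase III take `x = max (trd D t) e3`:
if `e3 ≤ trd` use `cal_III_d`; otherwise `e3 ≤ tru` and either `4 a ≤ π e3²` (use `cal_III_u` and
`val_mono`) or not (use `cal_III_d` and `val_anti`). -/

set_option autoImplicit false
set_option linter.unusedVariables false
open MeasureTheory Set Filter Metric
open scoped Topology ENNReal NNReal
open Crest.GeometryTopology.PeriodicPerimeter

noncomputable section
namespace Crest.Agent.R214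

theorem Gf_le {p q : ℝ} (hp : 0 ≤ p ∧ p ≤ 7 / 8) (hq : 0 ≤ q ∧ q ≤ 7 / 8) :
    Gf p q ≤ ∫ y in Ioo (0 : ℝ) 1, Real.sqrt (1 - (p + (q - p) * y) ^ 2) := by
  have e : Gf p q = ∫ y in Ioo (0 : ℝ) 1,
      (1 - (p + (q - p) * y) ^ 2 / 2 - 49 / 200 * (p + (q - p) * y) ^ 4) := by
    rw [← integral_Ioc_eq_integral_Ioo, ← intervalIntegral.integral_of_le zero_le_one]
    have := intervalIntegral.integral_eq_sub_of_hasDerivAt (a := (0 : ℝ)) (b := 1)
      (f := fun y : ℝ => y - (p ^ 2 * y + p * (q - p) * y ^ 2 + (q - p) ^ 2 * y ^ 3 / 3) / 2 -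
        49 / 200 * (p ^ 4 * y + 2 * p ^ 3 * (q - p) * y ^ 2 + 2 * p ^ 2 * (q - p) ^ 2 * y ^ 3 +
          p * (q - p) ^ 3 * y ^ 4 + (q - p) ^ 4 * y ^ 5 / 5))
      (f' := fun y : ℝ => 1 - (p + (q - p) * y) ^ 2 / 2 - 49 / 200 * (p + (q - p) * y) ^ 4)
      (fun y _ => by
        have d1 := hasDerivAt_id y
        have d2 := hasDerivAt_pow 2 y
        have d3 := hasDerivAt_pow 3 y
        have d4 := hasDerivAt_pow 4 y
        have d5 := hasDerivAt_pow 5 y
        have := (d1.sub ((((d1.const_mul (p ^ 2)).add (d2.const_mul (p * (q - p)))).add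
          ((d3.const_mul ((q - p) ^ 2)).div_const 3)).div_const 2)).sub
          ((((((d1.const_mul (p ^ 4)).add (d2.const_mul (2 * p ^ 3 * (q - p)))).add
            (d3.const_mul (2 * p ^ 2 * (q - p) ^ 2))).add (d4.const_mul (p * (q - p) ^ 3))).add
            ((d5.const_mul ((q - p) ^ 4)).div_const 5)).const_mul (49 / 200))
        refine HasDerivAt.congr_deriv this ?_
        push_cast
        ring)
      (Continuous.intervalIntegrable (by fun_prop) _ _)
    rw [this]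
    unfold Gf
    ring
  rw [e]
  refine setIntegral_mono_on ?_ ?_ measurableSet_Ioo fun y hy => ?_
  · exact (Continuous.integrableOn_Icc (by fun_prop)).mono_set Ioo_subset_Icc_self
  · exact (Continuous.integrableOn_Icc (by fun_prop)).mono_set Ioo_subset_Icc_self
  · have u0 : 0 ≤ p + (q - p) * y := by nlinarith [hy.1, hy.2, hp.1, hq.1]
    have u1 : p + (q - p) * y ≤ 7 / 8 := by nlinarith [hy.1, hy.2, hp.2, hq.2]
    set u := p + (q - p) * y
    refine (le_abs_self _).trans (Real.abs_le_sqrt ?_)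
    have v0 : 0 ≤ u ^ 2 := sq_nonneg u
    have v1 : u ^ 2 ≤ 49 / 64 := by nlinarith
    have e4 : u ^ 4 = (u ^ 2) ^ 2 := by ring
    rw [e4]
    set v := u ^ 2
    have k : 1 / 4 - 49 / 100 + 49 / 200 * v + (49 / 200) ^ 2 * v ^ 2 ≤ 0 := by nlinarith
    have := mul_nonpos_of_nonneg_of_nonpos (sq_nonneg v) k
    nlinarith

theorem d4a_quarter {d : ℝ} (hd : 0 ≤ d) :
    ∫ x in Ioo (0 : ℝ) d, Real.sqrt (1 - (x / d) ^ 2) = Real.pi * d / 4 := by
  rcases eq_or_lt_of_le hd with h | h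
  · simp [← h]
  rw [← integral_Ioc_eq_integral_Ioo, ← intervalIntegral.integral_of_le hd,
    intervalIntegral.integral_comp_div (fun u => Real.sqrt (1 - u ^ 2)) h.ne', zero_div,
    div_self h.ne', smul_eq_mul]
  have e1 := integral_sqrt_one_sub_sq
  have c : Continuous fun u : ℝ => Real.sqrt (1 - u ^ 2) := by fun_prop
  rw [← intervalIntegral.integral_add_adjacent_intervals (b := 0) (c.intervalIntegrable _ _)
    (c.intervalIntegrable _ _)] at e1
  have e2 := intervalIntegral.integral_comp_neg (a := (0 : ℝ)) (b := 1) (fun u => Real.sqrt (1 - u ^ 2))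
  simp only [neg_sq, neg_zero] at e2
  rw [← e2] at e1
  have : ∫ x in (0 : ℝ)..1, Real.sqrt (1 - x ^ 2) = Real.pi / 4 := by linarith
  rw [this]
  ring

theorem d4a_bdd {f : ℝ → ℝ} (hm : Measurable f) (hr : ∀ y, 0 ≤ f y ∧ f y ≤ 1) (a b : ℝ) :
    IntegrableOn f (Ioo a b) := by
  refine Measure.integrableOn_of_bounded (M := 1) (by simp) hm.aestronglyMeasurable
    (Eventually.of_forall fun y => ?_)
  rw [Real.norm_eq_abs, abs_of_nonneg (hr y).1]
  exact (hr y).2

theorem d4a_split {f : ℝ → ℝ} (hm : Measurable f) (hr : ∀ y, 0 ≤ f y ∧ f y ≤ 1) {g u : ℝ}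
    (h0 : 0 ≤ g) (h1 : g ≤ u) (h2 : u ≤ 1) (e1 : ∀ y, 0 < y → y < g → f y = 1)
    (e0 : ∀ y, u < y → f y = 0) : ∫ y in Ioo g u, f y = (∫ y in Ioo (0 : ℝ) 1, f y) - g := by
  have ii : ∀ a b, a ≤ b → IntervalIntegrable f volume a b := fun a b hab =>
    (intervalIntegrable_iff_integrableOn_Ioo_of_le hab).mpr (d4a_bdd hm hr a b)
  have k : ∀ a b, a ≤ b → ∫ y in Ioo a b, f y = ∫ y in a..b, f y := fun a b hab => by
    rw [← integral_Ioc_eq_integral_Ioo, ← intervalIntegral.integral_of_le hab]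
  have k1 : ∫ y in Ioo (0 : ℝ) g, f y = g := by
    rw [setIntegral_congr_fun measurableSet_Ioo (g := fun _ => (1 : ℝ)) fun y hy => e1 y hy.1 hy.2]
    simp [h0]
  have k0 : ∫ y in Ioo u 1, f y = 0 := by
    rw [setIntegral_congr_fun measurableSet_Ioo (g := fun _ => (0 : ℝ)) fun y hy => e0 y hy.1]
    simp
  rw [k _ _ h0] at k1
  rw [k _ _ h2] at k0
  rw [k _ _ h1, k _ _ zero_le_one,
    ← intervalIntegral.integral_add_adjacent_intervals (ii _ _ h0) (ii g 1 (h1.trans h2)),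
    ← intervalIntegral.integral_add_adjacent_intervals (ii _ _ h1) (ii u 1 h2), k1, k0]
  ring

theorem d4a_m1 {D : Set P3} (h : Down D) (t : ℝ) : Measurable fun y => h1 D y t :=
  h.h_meas.1.comp (measurable_id.prodMk measurable_const)

theorem d4a_m2 {D : Set P3} (h : Down D) (t : ℝ) : Measurable fun x => h2 D x t :=
  h.h_meas.2.1.comp (measurable_id.prodMk measurable_const)

theorem d4a_i1 {D : Set P3} (h : Down D) (t : ℝ) :
    ∫ y in Ioo (trg D t) (tru D t), h1 D y t = sa D t - trg D t := by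
  obtain ⟨a1, a2, a3, a4, a5, a6⟩ := h.tr_range t
  rw [(h.sa_eq t).1]
  exact d4a_split (d4a_m1 h t) (fun y => (h.h_range y t).1) a4 a5 a6 (h.set1 t).2.1 (h.set1 t).2.2.1

theorem d4a_i2 {D : Set P3} (h : Down D) (t : ℝ) :
    ∫ x in Ioo (tre D t) (trd D t), h2 D x t = sa D t - tre D t := by
  obtain ⟨a1, a2, a3, a4, a5, a6⟩ := h.tr_range t
  rw [(h.sa_eq t).2]
  exact d4a_split (d4a_m2 h t) (fun y => (h.h_range y t).2.1) a1 a2 a3 (h.set2 t).2.1
    (h.set2 t).2.2.1

theorem d4a_Lc {D : Set P3} (h : Down D) (η1 η2 : P3 → ℝ) (t : ℝ) :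
    Lc D η1 η2 t = (∫ y in Ioo (trg D t) (tru D t), η1 (h1 D y t, y, t)) +
      ∫ x in Ioo (tre D t) (trd D t), η2 (x, h2 D x t, t) := by
  unfold Lc
  rw [setIntegral_congr_set (h.set1 t).1, setIntegral_congr_set (h.set2 t).1]

theorem d4a_t {D : Set P3} (h : Down D) {t : ℝ} (he : 0 < tre D t) : t ∈ Ioo (0 : ℝ) 1 := by
  have := (h.set2 t).2.1 (tre D t / 2) (by linarith) (by linarith)
  exact (h.h_pos (a := tre D t / 2) (b := t) (Or.inr (Or.inl (by rw [this]; exact one_pos)))).2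

theorem cal_III_d {D : Set P3} (h : Down D) {t : ℝ} (he : tre D t = 0) (hg : trg D t = 0)
    {η1 η2 : P3 → ℝ} (e1 : ∀ x y, 0 ≤ x → x ≤ trd D t → η1 (x, y, t) = x / trd D t)
    (e2 : ∀ x y, 0 ≤ x → x ≤ trd D t → η2 (x, y, t) = Real.sqrt (1 - (x / trd D t) ^ 2)) :
    Lc D η1 η2 t = val (sa D t) (trd D t) := by
  obtain ⟨a1, a2, a3, a4, a5, a6⟩ := h.tr_range t
  have i1 := d4a_i1 h t
  rw [d4a_Lc h, setIntegral_congr_fun measurableSet_Ioo (g := fun y => h1 D y t / trd D t)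
      fun y hy => e1 _ _ (h.h_range y t).1.1
        (h.h1_between ⟨a4.trans_lt hy.1, hy.2.trans_le a6⟩).2,
    setIntegral_congr_fun measurableSet_Ioo (g := fun x => Real.sqrt (1 - (x / trd D t) ^ 2))
      fun x hx => e2 _ _ (a1.trans hx.1.le) hx.2.le, integral_div, i1, he, hg,
    d4a_quarter (a1.trans a2), sub_zero]
  rfl

theorem cal_III_u {D : Set P3} (h : Down D) {t : ℝ} (he : tre D t = 0) (hg : trg D t = 0)
    {η1 η2 : P3 → ℝ}
    (e1 : ∀ x y, 0 ≤ y → y ≤ tru D t → η1 (x, y, t) = Real.sqrt (1 - (y / tru D t) ^ 2))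
    (e2 : ∀ x y, 0 ≤ y → y ≤ tru D t → η2 (x, y, t) = y / tru D t) :
    Lc D η1 η2 t = val (sa D t) (tru D t) := by
  obtain ⟨a1, a2, a3, a4, a5, a6⟩ := h.tr_range t
  have i2 := d4a_i2 h t
  rw [d4a_Lc h, setIntegral_congr_fun measurableSet_Ioo
      (g := fun y => Real.sqrt (1 - (y / tru D t) ^ 2))
      fun y hy => e1 _ _ (a4.trans hy.1.le) hy.2.le,
    setIntegral_congr_fun measurableSet_Ioo (g := fun x => h2 D x t / tru D t)
      fun x hx => e2 _ _ (h.h_range x t).2.1.1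
        (h.h2_between ⟨a1.trans_lt hx.1, hx.2.trans_le a3⟩).2, integral_div, i2, he, hg,
    d4a_quarter (a4.trans a5), sub_zero, add_comm]
  rfl

theorem cal_II {D : Set P3} (h : Down D) {t : ℝ} (he : 0 < tre D t) (hg : trg D t = 0)
    {p q : ℝ} (hp : 0 ≤ p ∧ p ≤ 7 / 8) (hq : 0 ≤ q ∧ q ≤ 7 / 8) {η1 η2 : P3 → ℝ}
    (e1 : ∀ x y, 0 ≤ y → y ≤ 1 → η1 (x, y, t) = Real.sqrt (1 - (p + (q - p) * y) ^ 2))
    (e2 : ∀ x y, 0 ≤ y → y ≤ 1 → η2 (x, y, t) = p + (q - p) * y) :
    p * (trd D t - sa D t) + q * (sa D t - tre D t) + Gf p q ≤ Lc D η1 η2 t := by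
  obtain ⟨a1, a2, a3, a4, a5, a6⟩ := h.tr_range t
  have i2 := d4a_i2 h t
  have hu : tru D t = 1 := (h.phase (d4a_t h he)).2.2.2.2.2.2.2.2.1 he
  rw [d4a_Lc h, setIntegral_congr_fun measurableSet_Ioo
      (g := fun y => Real.sqrt (1 - (p + (q - p) * y) ^ 2))
      fun y hy => e1 _ _ (a4.trans hy.1.le) (hy.2.le.trans a6),
    setIntegral_congr_fun measurableSet_Ioo (g := fun x => p + (q - p) * h2 D x t)
      fun x hx => e2 _ _ (h.h_range x t).2.1.1 (h.h_range x t).2.1.2,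
    integral_add (integrable_const _)
      ((d4a_bdd (d4a_m2 h t) (fun y => (h.h_range y t).2.1) _ _).const_mul _),
    integral_const_mul, i2, hg, hu]
  have := Gf_le hp hq
  have e : ∫ x in Ioo (tre D t) (trd D t), p = (trd D t - tre D t) * p := by simp [a2]
  rw [e]
  linarith

theorem cal_I {D : Set P3} (h : Down D) {t : ℝ} (he : 0 < tre D t) (hg : 0 < trg D t)
    {η1 η2 : P3 → ℝ}
    (e1 : ∀ x y, tre D t ≤ x → x ≤ 1 → η1 (x, y, t) = (1 - x) / (1 - tre D t))
    (e2 : ∀ x y, tre D t ≤ x → x ≤ 1 →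
      η2 (x, y, t) = Real.sqrt (1 - ((1 - x) / (1 - tre D t)) ^ 2)) :
    Lc D η1 η2 t = val (1 - sa D t) (1 - tre D t) := by
  obtain ⟨a1, a2, a3, a4, a5, a6⟩ := h.tr_range t
  have i1 := d4a_i1 h t
  have hu : tru D t = 1 := (h.phase (d4a_t h he)).2.2.2.2.2.2.2.2.1 he
  have hd : trd D t = 1 := (h.phase (d4a_t h he)).2.2.2.2.2.2.2.1 hg
  rw [d4a_Lc h, setIntegral_congr_fun measurableSet_Ioo (g := fun y => (1 - h1 D y t) / (1 - tre D t))
      fun y hy => e1 _ _ (h.h1_between ⟨a4.trans_lt hy.1, hy.2.trans_le a6⟩).1 (h.h_range y t).1.2,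
    setIntegral_congr_fun measurableSet_Ioo
      (g := fun x => Real.sqrt (1 - ((1 - x) / (1 - tre D t)) ^ 2))
      fun x hx => e2 _ _ hx.1.le (hx.2.le.trans a3), integral_div,
    integral_sub (integrable_const _)
      (d4a_bdd (d4a_m1 h t) (fun y => (h.h_range y t).1) _ _), i1, hd]
  have e : ∫ x in Ioo (trg D t) (tru D t), (1 : ℝ) = tru D t - trg D t := by simp [a5]
  have e' : ∫ x in Ioo (tre D t) 1, Real.sqrt (1 - ((1 - x) / (1 - tre D t)) ^ 2) =
      Real.pi * (1 - tre D t) / 4 := by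
    rw [← d4a_quarter (by linarith), ← integral_Ioc_eq_integral_Ioo,
      ← intervalIntegral.integral_of_le (by linarith), ← integral_Ioc_eq_integral_Ioo,
      ← intervalIntegral.integral_of_le (by linarith),
      intervalIntegral.integral_comp_sub_left (fun x => Real.sqrt (1 - (x / (1 - tre D t)) ^ 2)) 1,
      sub_self]
  rw [e, e', hu]
  unfold val
  ring

/-- the supremum of an antitone function beyond a level -/
theorem d4b_sup {f : ℝ → ℝ} {m M τ : ℝ} (h0 : 0 ≤ τ) (hmM : m ≤ M)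
    (hr : ∀ t ∈ Ioo (0 : ℝ) 1, m ≤ f t ∧ f t ≤ M) (ha : AntitoneOn f (Ioo (0 : ℝ) 1)) :
    m ≤ sSup (insert m (f '' Ioo τ 1)) ∧ sSup (insert m (f '' Ioo τ 1)) ≤ M ∧
      ∀ t ∈ Ioo (0 : ℝ) 1, (t < τ → sSup (insert m (f '' Ioo τ 1)) ≤ f t) ∧
        (τ < t → f t ≤ sSup (insert m (f '' Ioo τ 1))) := by
  have bd : ∀ z ∈ insert m (f '' Ioo τ 1), z ≤ M := by
    rintro z (rfl | ⟨t, ht, rfl⟩)
    · exact hmM
    · exact (hr t ⟨h0.trans_lt ht.1, ht.2⟩).2
  have hb : BddAbove (insert m (f '' Ioo τ 1)) := ⟨M, bd⟩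
  refine ⟨le_csSup hb (mem_insert _ _), csSup_le (insert_nonempty _ _) bd, fun t ht =>
    ⟨fun c => csSup_le (insert_nonempty _ _) ?_, fun c => le_csSup hb (Or.inr ⟨t, ⟨c, ht.2⟩, rfl⟩)⟩⟩
  rintro z (rfl | ⟨t', ht', rfl⟩)
  · exact (hr t ht).1
  · exact ha ht ⟨h0.trans_lt ht'.1, ht'.2⟩ (c.trans ht'.1).le

theorem d4b_cl {u : ℝ} (h0 : 0 ≤ u) (h1 : u ≤ 1) : max 0 (min 1 u) = u := by
  rw [min_eq_right h1, max_eq_right h0]

theorem d4b_fields {D : Set P3} (h : Down D) (t1 t0 e3 : ℝ) {Φ0 Φ1 : ℝ → ℝ} (m0 : MB (7 / 8) Φ0)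
    (m1 : MB (7 / 8) Φ1) : ∃ η1 η2 : P3 → ℝ, Measurable η1 ∧ Measurable η2 ∧
      (∀ p, η1 p ^ 2 + η2 p ^ 2 ≤ 1) ∧ ∀ t,
      (t < t1 → 0 < tre D t → 0 < trg D t → Lc D η1 η2 t = val (1 - sa D t) (1 - tre D t)) ∧
      (t1 < t → t < t0 → 0 < tre D t → trg D t = 0 →
        Φ0 (sa D t) * (trd D t - sa D t) + Φ1 (sa D t) * (sa D t - tre D t) +
          Gf (Φ0 (sa D t)) (Φ1 (sa D t)) ≤ Lc D η1 η2 t) ∧
      (t1 < t → t0 < t → tre D t = 0 → trg D t = 0 →
        Lc D η1 η2 t = if trd D t < e3 ∧ 4 * sa D t ≤ Real.pi * e3 ^ 2 then val (sa D t) (tru D t)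
          else val (sa D t) (trd D t)) := by
  classical
  obtain ⟨md, me, mu, mg⟩ := h.tr_meas
  have ma := h.sa_meas
  set C : ℝ → Prop := fun t => trd D t < e3 ∧ 4 * sa D t ≤ Real.pi * e3 ^ 2 with hC
  have mC : MeasurableSet {t | C t} :=
    (measurableSet_lt md measurable_const).inter (measurableSet_le (ma.const_mul _) measurable_const)
  set B : ℝ → Prop := fun t => ¬ t < t1 ∧ (t < t0 ∨ C t) with hB
  have mB : MeasurableSet {t | B t} := measurableSet_Iio.compl.inter (measurableSet_Iio.union mC)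
  have m3 : Measurable fun p : P3 => p.2.2 := measurable_snd.snd
  set u : P3 → ℝ := fun p => if p.2.2 < t1 then (1 - p.1) / (1 - tre D p.2.2)
    else if p.2.2 < t0 then Φ0 (sa D p.2.2) + (Φ1 (sa D p.2.2) - Φ0 (sa D p.2.2)) * p.2.1
    else if C p.2.2 then p.2.1 / tru D p.2.2 else p.1 / trd D p.2.2 with hu
  have mu' : Measurable u := by
    have a0 := m0.1.comp (ma.comp m3)
    have a1 := m1.1.comp (ma.comp m3)
    refine Measurable.ite (m3 measurableSet_Iio)
      ((measurable_const.sub measurable_fst).div (measurable_const.sub (me.comp m3)))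
      (Measurable.ite (m3 measurableSet_Iio) (a0.add ((a1.sub a0).mul measurable_snd.fst))
        (Measurable.ite (m3 mC) (measurable_snd.fst.div (mu.comp m3))
          (measurable_fst.div (md.comp m3))))
  set v : P3 → ℝ := fun p => max 0 (min 1 (u p)) with hv
  have mv : Measurable v := measurable_const.max (measurable_const.min mu')
  have ms : Measurable fun p => Real.sqrt (1 - v p ^ 2) := by fun_prop
  have hs : ∀ p, v p ^ 2 + Real.sqrt (1 - v p ^ 2) ^ 2 = 1 := fun p => by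
    have v0 : 0 ≤ v p := le_max_left _ _
    have v1 : v p ≤ 1 := max_le zero_le_one (min_le_left _ _)
    rw [Real.sq_sqrt (by nlinarith)]
    ring
  refine ⟨fun p => if B p.2.2 then Real.sqrt (1 - v p ^ 2) else v p,
    fun p => if B p.2.2 then v p else Real.sqrt (1 - v p ^ 2), Measurable.ite (m3 mB) ms mv,
    Measurable.ite (m3 mB) mv ms, fun p => ?_, fun t => ⟨fun c he hg => ?_, fun c1 c0 he hg => ?_,
      fun c1 c0 he hg => ?_⟩⟩
  · dsimp only
    split_ifs <;> linarith [hs p]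
  · have nB : ¬ B t := fun hb => hb.1 c
    have ev : ∀ x y, tre D t ≤ x → x ≤ 1 → v (x, y, t) = (1 - x) / (1 - tre D t) := fun x y x0 x1 => by
      simp only [hv, hu, if_pos c]
      exact d4b_cl (div_nonneg (by linarith) (by linarith))
        (div_le_one_of_le₀ (by linarith) (by linarith))
    refine cal_I h he hg (fun x y x0 x1 => ?_) (fun x y x0 x1 => ?_)
    · simp only [if_neg nB, ev x y x0 x1]
    · simp only [if_neg nB, ev x y x0 x1]
  · have yB : B t := ⟨not_lt.mpr c1.le, Or.inl c0⟩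
    have p0 := m0.2 (sa D t)
    have p1 := m1.2 (sa D t)
    have ev : ∀ x y, 0 ≤ y → y ≤ 1 →
        v (x, y, t) = Φ0 (sa D t) + (Φ1 (sa D t) - Φ0 (sa D t)) * y := fun x y y0 y1 => by
      simp only [hv, hu, if_neg (not_lt.mpr c1.le), if_pos c0]
      exact d4b_cl (by nlinarith [p0.1, p1.1]) (by nlinarith [p0.2, p1.2])
    refine cal_II h he hg p0 p1 (fun x y x0 x1 => ?_) (fun x y x0 x1 => ?_)
    · simp only [if_pos yB, ev x y x0 x1]
    · simp only [if_pos yB, ev x y x0 x1]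
  · by_cases c : C t
    · rw [if_pos c]
      have yB : B t := ⟨not_lt.mpr c1.le, Or.inr c⟩
      have ev : ∀ x y, 0 ≤ y → y ≤ tru D t → v (x, y, t) = y / tru D t := fun x y y0 y1 => by
        simp only [hv, hu, if_neg (not_lt.mpr c1.le), if_neg (not_lt.mpr c0.le), if_pos c]
        exact d4b_cl (div_nonneg y0 (y0.trans y1)) (div_le_one_of_le₀ y1 (y0.trans y1))
      refine cal_III_u h he hg (fun x y x0 x1 => ?_) (fun x y x0 x1 => ?_)
      · simp only [if_pos yB, ev x y x0 x1]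
      · simp only [if_pos yB, ev x y x0 x1]
    · rw [if_neg c]
      have nB : ¬ B t := fun hb => hb.2.elim (not_lt.mpr c0.le) c
      have ev : ∀ x y, 0 ≤ x → x ≤ trd D t → v (x, y, t) = x / trd D t := fun x y y0 y1 => by
        simp only [hv, hu, if_neg (not_lt.mpr c1.le), if_neg (not_lt.mpr c0.le), if_neg c]
        exact d4b_cl (div_nonneg y0 (y0.trans y1)) (div_le_one_of_le₀ y1 (y0.trans y1))
      refine cal_III_d h he hg (fun x y x0 x1 => ?_) (fun x y x0 x1 => ?_)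
      · simp only [if_neg nB, ev x y x0 x1]
      · simp only [if_neg nB, ev x y x0 x1]

theorem exists_oneD {D : Set P3} (h : Down D) {P : ℝ} (hc : Cal D P) {cs : ℕ} (hcs : Case cs D) :
    ∃ O : OneD cs, O.P = P ∧ O.V = vol3 D ∧ O.a = sa D ∧ O.amin = aMin D ∧ O.amax = aMax D ∧
      O.t0 = pB (h2 D) ∧ O.t1 = pB (h1 D) := by
  obtain ⟨c01, cA, cB1, cB2⟩ := hcs
  obtain ⟨p1, p0, pA0⟩ := h.p_range
  obtain ⟨b0, b1, b2⟩ := h.a_bounds
  have hr : ∀ t ∈ Ioo (0 : ℝ) 1, aMin D ≤ sa D t ∧ sa D t ≤ aMax D := fun t ht => h.sa_range ht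
  have A1 := d4b_sup p1 b1 hr h.sa_anti
  have A0 := d4b_sup (p1.trans c01) b1 hr h.sa_anti
  have S := d4b_sup (f := tre D) (m := 0) (M := 1) p1 zero_le_one
    (fun t _ => ⟨(h.tr_range t).1, (h.tr_range t).2.1.trans (h.tr_range t).2.2.1⟩) h.tr_anti.2
  have W := d4b_sup (f := trd D) (m := 0) (M := 1) (p1.trans c01) zero_le_one
    (fun t _ => ⟨(h.tr_range t).1.trans (h.tr_range t).2.1, (h.tr_range t).2.2.1⟩) h.tr_anti.1
  refine ⟨{
    P := P, V := vol3 D, amin := aMin D, amax := aMax D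
    a0 := sSup (insert (aMin D) (sa D '' Ioo (pB (h2 D)) 1))
    a1 := sSup (insert (aMin D) (sa D '' Ioo (pB (h1 D)) 1))
    t0 := pB (h2 D), t1 := pB (h1 D)
    w := sSup (insert 0 (trd D '' Ioo (pB (h2 D)) 1))
    s := sSup (insert 0 (tre D '' Ioo (pB (h1 D)) 1))
    a := sa D, meas := h.sa_meas, hV := h.vol_eq, amin_nonneg := b0, amin_le := A0.1
    a0_le := ?_, a1_le := A1.2.1, amax_le := b2, range := hr, lev1 := A1.2.2, lev0 := A0.2.2
    t1_nonneg := p1, t1_le := c01, t0_le := p0, hw := ⟨W.1, W.2.1⟩, hs := ⟨S.1, S.2.1⟩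
    pos := fun t ht c => ?_, caseA := cA, caseB1 := fun c => (cB1 c).1, caseB2 := fun c => ?_
    key := ?_ }, rfl, rfl, rfl, rfl, rfl, rfl, rfl⟩
  · refine csSup_le (insert_nonempty _ _) ?_
    rintro z (rfl | ⟨t, ht, rfl⟩)
    · exact A1.1
    · exact (A1.2.2 t ⟨(p1.trans c01).trans_lt ht.1, ht.2⟩).2 (c01.trans_lt ht.1)
  · have := h.phase ht
    exact (this.2.2.1 c).trans_le this.2.2.2.2.2.2.2.2.2.1
  · refine csSup_le (insert_nonempty _ _) ?_
    rintro z (rfl | ⟨t, ht, rfl⟩)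
    · unfold alR; norm_num
    · exact (h.phase ⟨p1.trans_lt ht.1, ht.2⟩).2.2.2.2.1.trans (cB2 c)
  · intro e3 R Φ0 Φ1 mt e0 e1 hR hΦ0 hΦ1 hmt hI hII hIII
    obtain ⟨η1, η2, m1, m2, hη, hL⟩ := d4b_fields h (pB (h1 D)) (pB (h2 D)) e3 hΦ0 hΦ1
    refine le_trans (add_le_add le_rfl ?_) (slicing h hc m1 m2 hη hR)
    obtain ⟨mL, bL⟩ := h.Lc_int m1 m2 hη
    refine setIntegral_mono_on_ae hmt ?_ measurableSet_Ioo ?_
    · refine Measure.integrableOn_of_bounded (M := 2) (by simp)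
        ((hR.1.comp h.sa_meas).mul mL).aestronglyMeasurable (Eventually.of_forall fun t => ?_)
      rw [Real.norm_eq_abs, abs_mul, abs_of_nonneg (hR.2 _).1]
      nlinarith [(hR.2 (sa D t)).1, (hR.2 (sa D t)).2, bL t, abs_nonneg (Lc D η1 η2 t)]
    · have n1 : ∀ᵐ t : ℝ, t ≠ pB (h1 D) := by simp [ae_iff]
      have n0 : ∀ᵐ t : ℝ, t ≠ pB (h2 D) := by simp [ae_iff]
      filter_upwards [n1, n0] with t n1 n0 ht
      obtain ⟨q1, q2, q3, q4, q5, q6, q7, q8, q9, q10, q11, q12⟩ := h.phase ht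
      obtain ⟨a1, a2, a3, a4, a5, a6⟩ := h.tr_range t
      have R0 := (hR.2 (sa D t)).1
      rcases lt_or_gt_of_ne n1 with c1 | c1
      · have he := q3 (c1.trans_le c01)
        rw [(hL t).1 c1 he (q1 c1)]
        refine hI t ht c1 _ ?_ (by linarith [(S.2.2 t ht).1 c1]) ?_
        · split_ifs with c
          · linarith [cB2 c]
          · linarith
        · rcases eq_or_lt_of_le (a2.trans a3) with c | c
          · exact Or.inr (q12 c)
          · exact Or.inl (by linarith)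
      · rcases lt_or_gt_of_ne n0 with c0 | c0
        · refine (hII t ht c1 c0).trans (mul_le_mul_of_nonneg_left
            (le_trans ?_ ((hL t).2.1 c1 c0 (q3 c0) (q2 c1))) R0)
          have k1 := mul_le_mul_of_nonneg_left ((W.2.2 t ht).1 c0) (hΦ0.2 (sa D t)).1
          have k2 := mul_le_mul_of_nonneg_left ((S.2.2 t ht).2 c1) (hΦ1.2 (sa D t)).1
          linarith
        · rw [(hL t).2.2 c1 c0 (q4 c0) (q2 c1)]
          by_cases c : trd D t < e3
          · have e3p : 0 < e3 := (a1.trans a2).trans_lt c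
            have cs1 : cs = 1 := by
              by_contra hn
              rw [if_neg hn] at e1
              linarith
            rw [if_pos cs1] at e1
            have hu : e3 ≤ tru D t := by
              rcases (cB1 cs1).2 with d | d
              · linarith
              · linarith
            refine (hIII t ht c0 e3 le_rfl (le_max_right _ _) (Or.inl e3p)).trans
              (mul_le_mul_of_nonneg_left ?_ R0)
            by_cases d : 4 * sa D t ≤ Real.pi * e3 ^ 2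
            · rw [if_pos ⟨c, d⟩]
              exact val_mono e3p hu d
            · rw [if_neg fun hh => d hh.2]
              have d' := not_le.mp d
              have : 0 < trd D t := by
                rcases eq_or_lt_of_le (a1.trans a2) with k | k
                · have := q11 k.symm
                  have := mul_pos Real.pi_pos (pow_pos e3p 2)
                  linarith
                · exact k
              exact val_anti this c.le d'.le
          · rw [if_neg fun hh => c hh.1]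
            refine hIII t ht c0 _ (not_lt.mp c) (((W.2.2 t ht).2 c0).trans (le_max_left _ _)) ?_
            rcases eq_or_lt_of_le (a1.trans a2) with k | k
            · exact Or.inr (q11 k.symm)
            · exact Or.inl k

end Crest.Agent.R214
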