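import Crest.Agent.R214.D4

/-! Block D5: the equality cases for down-sets.
`disc_2d`: perturbed calibration `η₁ = max 0 (min 1 (x/d - δ))` for `y ≤ y₀`, `η₁ = max 0 (min 1 (x/d))` for
`y > y₀`, `η₂ = √(1 - η₁²)`.  With `ξ = h1 D y₀ t`: for `x > ξ` one has `h2 D x t ≤ y₀`, so
`Lc ≥ a/d - δ y₀ + π d/4 + d δ (min √(1 - (ξ/d)²) √(1 - δ²) - √(2δ))`.  Hence `y₀² + ξ² ≥ d²` for
rational `y₀`, then for all `y₀` (monotonicity), so `h1 D y t ≥ √(d² - y²)`, and both sides have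
integral `π d²/4`.
`discs`: for a measurable family `η` let `T = {t | Lc η t > Lc η⁰ t}` and glue `η` on `T` with the
standard family `η⁰` (`cal_III_d`) off `T`; `slicing` and `Lc η⁰ ≥ √(π a)` give
`Lc η t ≤ √(π a t)` for a.e. `t` with `R (a t) > 0`; countably many `η`; `val_eq_sqrt`.
`ae_of_h1`: Fubini; the section `{x | (x,y,t) ∈ D}` is `(0, h1 D y t)` up to a point. -/

set_option autoImplicit false
set_option linter.unusedVariables false
open MeasureTheory Set Filter Metric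
open scoped Topology ENNReal NNReal
open Crest.GeometryTopology.PeriodicPerimeter

noncomputable section
namespace Crest.Agent.R214

/-- the perturbed calibration -/
def eta1 (D : Set P3) (δ y0 : ℝ) (p : P3) : ℝ :=
  max 0 (min 1 (p.1 / trd D p.2.2 - if p.2.1 ≤ y0 then δ else 0))
def eta2 (D : Set P3) (δ y0 : ℝ) (p : P3) : ℝ := Real.sqrt (1 - eta1 D δ y0 p ^ 2)

theorem d5a_shift {F : ℝ → ℝ} (hc : Continuous F) (ha : Antitone F) (ξ d : ℝ) {c : ℝ}
    (h0 : 0 ≤ c) : (∫ x in ξ..d, F x) + c * (F ξ - F (d - c)) ≤ ∫ x in ξ..d, F (x - c) := by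
  rw [intervalIntegral.integral_comp_sub_right F c]
  have ii : ∀ a b, IntervalIntegrable F volume a b := fun a b => hc.intervalIntegrable a b
  have e1 := intervalIntegral.integral_add_adjacent_intervals (ii (ξ - c) ξ) (ii ξ d)
  have e2 := intervalIntegral.integral_add_adjacent_intervals (ii (ξ - c) (d - c)) (ii (d - c) d)
  have b1 : ∫ _ in (ξ - c)..ξ, F ξ ≤ ∫ x in (ξ - c)..ξ, F x :=
    intervalIntegral.integral_mono_on (by linarith) (by simp) (ii _ _) fun x hx => ha hx.2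
  have b2 : ∫ x in (d - c)..d, F x ≤ ∫ _ in (d - c)..d, F (d - c) :=
    intervalIntegral.integral_mono_on (by linarith) (ii _ _) (by simp) fun x hx => ha hx.1
  rw [intervalIntegral.integral_const, smul_eq_mul] at b1 b2
  have r1 : ξ - (ξ - c) = c := by ring
  have r2 : d - (d - c) = c := by ring
  rw [r1] at b1
  rw [r2] at b2
  linarith

theorem d5a_cl (s : ℝ) : 0 ≤ max 0 (min 1 s) ∧ max 0 (min 1 s) ≤ 1 :=
  ⟨le_max_left _ _, max_le zero_le_one (min_le_left _ _)⟩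

theorem d5a_anti : Antitone fun s : ℝ => Real.sqrt (1 - max 0 (min 1 s) ^ 2) := by
  intro a b hab
  have k : max 0 (min 1 a) ≤ max 0 (min 1 b) := max_le_max le_rfl (min_le_min le_rfl hab)
  exact Real.sqrt_le_sqrt (by nlinarith [d5a_cl a, d5a_cl b])

theorem d5a_first {D : Set P3} (h : Down D) {t : ℝ} (hg : trg D t = 0) (hd : 0 < trd D t)
    {δ y0 : ℝ} (hδ : 0 ≤ δ) (hy : 0 ≤ y0) :
    sa D t / trd D t - δ * y0 ≤ ∫ y in Ioo (trg D t) (tru D t), eta1 D δ y0 (h1 D y t, y, t) := by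
  obtain ⟨a1, a2, a3, a4, a5, a6⟩ := h.tr_range t
  have i1 := d4a_i1 h t
  rw [hg] at i1 a5 ⊢
  have I1 : IntegrableOn (fun y => h1 D y t) (Ioo 0 (tru D t)) :=
    d4a_bdd (d4a_m1 h t) (fun y => (h.h_range y t).1) _ _
  have I2 : Integrable ((Ioc (0 : ℝ) y0).indicator fun _ => δ) :=
    (integrable_indicator_iff measurableSet_Ioc).mpr (integrableOn_const (by simp))
  have m1 := d4a_m1 h t
  have I3 : IntegrableOn (fun y => eta1 D δ y0 (h1 D y t, y, t)) (Ioo 0 (tru D t)) := by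
    refine d4a_bdd ?_ (fun y => d5a_cl _) _ _
    show Measurable fun y => max 0 (min 1 (h1 D y t / trd D t - if y ≤ y0 then δ else 0))
    refine measurable_const.max (measurable_const.min ((m1.div_const _).sub ?_))
    exact Measurable.ite measurableSet_Iic measurable_const measurable_const
  have b1 : ∫ y in Ioo 0 (tru D t), (Ioc (0 : ℝ) y0).indicator (fun _ => δ) y ≤ δ * y0 := by
    refine (setIntegral_le_integral I2 (Eventually.of_forall fun y =>
      indicator_nonneg (fun _ _ => hδ) y)).trans ?_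
    rw [integral_indicator measurableSet_Ioc]
    simp [hy, mul_comm]
  have b2 : ∫ y in Ioo 0 (tru D t), (h1 D y t / trd D t - (Ioc (0 : ℝ) y0).indicator (fun _ => δ) y) ≤
      ∫ y in Ioo 0 (tru D t), eta1 D δ y0 (h1 D y t, y, t) := by
    refine setIntegral_mono_on ((I1.div_const _).sub I2.integrableOn) I3 measurableSet_Ioo
      fun y hy' => ?_
    have k : h1 D y t / trd D t ≤ 1 :=
      (div_le_one hd).mpr (h.h1_between ⟨hy'.1, hy'.2.trans_le a6⟩).2
    unfold eta1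
    refine le_max_of_le_right (le_min ?_ ?_)
    · have : 0 ≤ (Ioc (0 : ℝ) y0).indicator (fun _ => δ) y := indicator_nonneg (fun _ _ => hδ) y
      linarith
    · by_cases c : y ≤ y0
      · simp [indicator, c, hy'.1]
      · simp [indicator, c]
  rw [integral_sub (I1.div_const _) I2.integrableOn, integral_div, i1, sub_zero] at b2
  linarith

theorem d5a_second {D : Set P3} (h : Down D) {t : ℝ} (he : tre D t = 0) (hd : 0 < trd D t)
    {δ y0 : ℝ} (hδ : 0 ≤ δ) (hy : y0 ∈ Ioo (0 : ℝ) 1) :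
    Real.pi * trd D t / 4 + trd D t * δ * (Real.sqrt (1 - (h1 D y0 t / trd D t) ^ 2) -
      Real.sqrt (1 - max 0 (min 1 (1 - δ)) ^ 2)) ≤
      ∫ x in Ioo (tre D t) (trd D t), eta2 D δ y0 (x, h2 D x t, t) := by
  rw [he]
  set d := trd D t with hdd
  set ξ := h1 D y0 t with hξ
  have ξ0 : 0 ≤ ξ := (h.h_range y0 t).1.1
  have ξ1 : ξ ≤ d := (h.h1_between hy).2
  set F : ℝ → ℝ := fun x => Real.sqrt (1 - max 0 (min 1 (x / d)) ^ 2) with hF
  have Fc : Continuous F := by fun_prop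
  have Fa : Antitone F := fun a b hab => d5a_anti (div_le_div_of_nonneg_right hab hd.le)
  have m2 := d4a_m2 h t
  have mφ : Measurable fun x => eta2 D δ y0 (x, h2 D x t, t) := by
    show Measurable fun x : ℝ =>
      Real.sqrt (1 - max 0 (min 1 (x / d - if h2 D x t ≤ y0 then δ else 0)) ^ 2)
    refine (measurable_const.sub (Measurable.pow_const ?_ 2)).sqrt
    refine measurable_const.max (measurable_const.min ((measurable_id'.div_const _).sub ?_))
    exact Measurable.ite (m2 measurableSet_Iic) measurable_const measurable_const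
  have ii : ∀ a b, a ≤ b →
      IntervalIntegrable (fun x => eta2 D δ y0 (x, h2 D x t, t)) volume a b := fun a b hab =>
    (intervalIntegrable_iff_integrableOn_Ioo_of_le hab).mpr (d4a_bdd mφ (fun x =>
      ⟨Real.sqrt_nonneg _, Real.sqrt_le_one.mpr (by nlinarith [sq_nonneg (eta1 D δ y0 (x, h2 D x t, t))])⟩)
      a b)
  have q : ∫ x in (0 : ℝ)..d, F x = Real.pi * d / 4 := by
    rw [← d4a_quarter hd.le, intervalIntegral.integral_of_le hd.le, integral_Ioc_eq_integral_Ioo]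
    refine setIntegral_congr_fun measurableSet_Ioo fun x hx => ?_
    simp only [hF]
    rw [d4b_cl (div_nonneg hx.1.le hd.le) ((div_le_one hd).mpr hx.2.le)]
  have b1 : ∫ x in (0 : ℝ)..ξ, F x ≤ ∫ x in (0 : ℝ)..ξ, eta2 D δ y0 (x, h2 D x t, t) := by
    refine intervalIntegral.integral_mono_on ξ0 (Fc.intervalIntegrable _ _) (ii _ _ ξ0)
      fun x _ => ?_
    refine d5a_anti (a := x / d - if h2 D x t ≤ y0 then δ else 0) (b := x / d) ?_
    split_ifs <;> linarith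
  have b2 : ∫ x in ξ..d, F (x - d * δ) ≤ ∫ x in ξ..d, eta2 D δ y0 (x, h2 D x t, t) := by
    refine intervalIntegral.integral_mono_on_of_le_Ioo ξ1
      ((Fc.comp (continuous_id.sub continuous_const)).intervalIntegrable _ _) (ii _ _ ξ1)
      fun x hx => ?_
    have k : h2 D x t ≤ y0 := by
      by_contra c
      have := h.mem1.2 (h.mem2.1 hy.1 (not_le.mp c))
      linarith [hx.1]
    have e : (x - d * δ) / d = x / d - δ := by field_simp
    simp only [hF, eta2, eta1, if_pos k, e, ← hdd, le_refl]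
  have b3 := d5a_shift Fc Fa ξ d (mul_nonneg hd.le hδ)
  have e1 := intervalIntegral.integral_add_adjacent_intervals (μ := volume)
    (Fc.intervalIntegrable 0 ξ) (Fc.intervalIntegrable ξ d)
  have e2 := intervalIntegral.integral_add_adjacent_intervals (ii 0 ξ ξ0) (ii ξ d ξ1)
  have f1 : F ξ = Real.sqrt (1 - (ξ / d) ^ 2) := by
    simp only [hF]
    rw [d4b_cl (div_nonneg ξ0 hd.le) ((div_le_one hd).mpr ξ1)]
  have f2 : F (d - d * δ) = Real.sqrt (1 - max 0 (min 1 (1 - δ)) ^ 2) := by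
    have e : (d - d * δ) / d = 1 - δ := by field_simp
    simp only [hF, e]
  rw [f1, f2] at b3
  rw [← integral_Ioc_eq_integral_Ioo, ← intervalIntegral.integral_of_le hd.le]
  linarith

theorem d5a_area {d : ℝ} (hd : 0 < d) (h1' : d ≤ 1) :
    ∫ y in Ioo (0 : ℝ) 1, Real.sqrt (d ^ 2 - y ^ 2) = Real.pi * d ^ 2 / 4 := by
  rw [setIntegral_eq_of_subset_of_forall_sdiff_eq_zero (t := Ioo (0 : ℝ) 1) (s := Ioo 0 d)
    measurableSet_Ioo (Ioo_subset_Ioo_right h1') fun y hy => ?_]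
  · have e : ∀ y : ℝ, Real.sqrt (d ^ 2 - y ^ 2) = d * Real.sqrt (1 - (y / d) ^ 2) := fun y => by
      have : d ^ 2 - y ^ 2 = d ^ 2 * (1 - (y / d) ^ 2) := by field_simp
      rw [this, Real.sqrt_mul (sq_nonneg d), Real.sqrt_sq hd.le]
    simp only [e]
    rw [integral_const_mul, d4a_quarter hd.le]
    ring
  · have : d ≤ y := by
      by_contra c
      exact hy.2 ⟨hy.1.1, not_le.mp c⟩
    exact Real.sqrt_eq_zero_of_nonpos (by nlinarith)

theorem disc_2d {D : Set P3} (h : Down D) {t : ℝ} (he : tre D t = 0) (hg : trg D t = 0)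
    (hd : 0 < trd D t) (ha : 4 * sa D t = Real.pi * trd D t ^ 2)
    (hL : ∀ δ y0 : ℚ, 0 < δ → δ < 1 → 0 < y0 → y0 < 1 →
      Lc D (eta1 D δ y0) (eta2 D δ y0) t ≤ Real.sqrt (Real.pi * sa D t)) :
    ∀ᵐ y ∂(volume.restrict (Ioo (0 : ℝ) 1)), h1 D y t = Real.sqrt (trd D t ^ 2 - y ^ 2) := by
  have d1 : trd D t ≤ 1 := (h.tr_range t).2.2.1
  have ht : 0 < t :=
    (h.h_pos (a := trd D t / 2) (b := t)
      (Or.inr (Or.inl ((h.set2 t).2.2.2 _ (by linarith) (by linarith))))).2.1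
  have s1 : Real.sqrt (Real.pi * sa D t) = Real.pi * trd D t / 2 := by
    have : Real.pi * sa D t = (Real.pi * trd D t / 2) ^ 2 := by
      have : sa D t = Real.pi * trd D t ^ 2 / 4 := by linarith
      rw [this]
      ring
    rw [this, Real.sqrt_sq (by have := Real.pi_pos; positivity)]
  have s2 : sa D t / trd D t = Real.pi * trd D t / 4 := by
    have : sa D t = Real.pi * trd D t ^ 2 / 4 := by linarith
    rw [this]
    field_simp
  have A : ∀ y0 : ℚ, 0 < y0 → y0 < 1 → trd D t ^ 2 - (y0 : ℝ) ^ 2 ≤ h1 D y0 t ^ 2 := by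
    intro y0 p0 p1
    have q0 : (0 : ℝ) < y0 := by exact_mod_cast p0
    have q1 : (y0 : ℝ) < 1 := by exact_mod_cast p1
    have B : trd D t * Real.sqrt (1 - (h1 D y0 t / trd D t) ^ 2) ≤ y0 := by
      refine le_of_forall_pos_le_add fun ε hε => ?_
      obtain ⟨δ, δ0, δ1⟩ := exists_rat_btwn (show (0 : ℝ) < min 1 (ε ^ 2 / 2) by positivity)
      have δ2 : (δ : ℝ) < 1 := δ1.trans_le (min_le_left _ _)
      have δ3 : (δ : ℝ) < ε ^ 2 / 2 := δ1.trans_le (min_le_right _ _)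
      have L := hL δ y0 (by exact_mod_cast δ0) (by exact_mod_cast δ2) p0 p1
      have L1 := d5a_first h hg hd δ0.le q0.le
      have L2 := d5a_second h he hd δ0.le ⟨q0, q1⟩
      rw [d4a_Lc h, s1] at L
      rw [s2] at L1
      rw [d4b_cl (by linarith) (by linarith)] at L2
      have L3 : Real.sqrt (1 - (1 - (δ : ℝ)) ^ 2) ≤ ε :=
        Real.sqrt_le_iff.mpr ⟨hε.le, by nlinarith⟩
      have L4 : (δ : ℝ) * (trd D t * (Real.sqrt (1 - (h1 D y0 t / trd D t) ^ 2) -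
          Real.sqrt (1 - (1 - (δ : ℝ)) ^ 2))) ≤ δ * y0 := by linarith
      have L5 := le_of_mul_le_mul_left L4 δ0
      have L6 : trd D t * Real.sqrt (1 - (1 - (δ : ℝ)) ^ 2) ≤ ε := by
        nlinarith [Real.sqrt_nonneg (1 - (1 - (δ : ℝ)) ^ 2)]
      linarith
    have e : trd D t ^ 2 - h1 D y0 t ^ 2 = trd D t ^ 2 * (1 - (h1 D y0 t / trd D t) ^ 2) := by
      field_simp
    have C : Real.sqrt (trd D t ^ 2 - h1 D y0 t ^ 2) ≤ y0 := by
      rw [e, Real.sqrt_mul (sq_nonneg _), Real.sqrt_sq hd.le]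
      exact B
    have := (Real.sqrt_le_iff.mp C).2
    linarith
  have B : ∀ y ∈ Ioo (0 : ℝ) 1, Real.sqrt (trd D t ^ 2 - y ^ 2) ≤ h1 D y t := by
    intro y hy
    refine Real.sqrt_le_iff.mpr ⟨(h.h_range y t).1.1, le_of_forall_pos_le_add fun ε hε => ?_⟩
    obtain ⟨y0, p0, p1⟩ := exists_rat_btwn (show y < min 1 (y + ε / 2) from
      lt_min hy.2 (by linarith))
    have p2 : (y0 : ℝ) < 1 := p1.trans_le (min_le_left _ _)
    have p3 : (y0 : ℝ) < y + ε / 2 := p1.trans_le (min_le_right _ _)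
    have a1 := A y0 (by exact_mod_cast hy.1.trans p0) (by exact_mod_cast p2)
    have a2 : h1 D y0 t ≤ h1 D y t := (h.h_anti hy.1 ht p0.le le_rfl).1
    have a3 : h1 D y0 t ^ 2 ≤ h1 D y t ^ 2 := pow_le_pow_left₀ (h.h_range _ _).1.1 a2 2
    nlinarith [hy.1, hy.2]
  have I1 : IntegrableOn (fun y => h1 D y t) (Ioo 0 1) :=
    d4a_bdd (d4a_m1 h t) (fun y => (h.h_range y t).1) _ _
  have I2 : IntegrableOn (fun y : ℝ => Real.sqrt (trd D t ^ 2 - y ^ 2)) (Ioo 0 1) :=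
    (Continuous.integrableOn_Icc (by fun_prop)).mono_set Ioo_subset_Icc_self
  have Z : ∫ y in Ioo (0 : ℝ) 1, (h1 D y t - Real.sqrt (trd D t ^ 2 - y ^ 2)) = 0 := by
    rw [integral_sub I1 I2, ← (h.sa_eq t).1, d5a_area hd d1]
    linarith
  have N : 0 ≤ᵐ[volume.restrict (Ioo (0 : ℝ) 1)]
      fun y => h1 D y t - Real.sqrt (trd D t ^ 2 - y ^ 2) :=
    (ae_restrict_iff' measurableSet_Ioo).mpr (Eventually.of_forall fun y hy => sub_nonneg.mpr (B y hy))
  filter_upwards [(integral_eq_zero_iff_of_nonneg_ae N (I1.sub I2)).mp Z] with y hy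
  exact sub_eq_zero.mp hy

theorem d5b_eta {D : Set P3} (h : Down D) (δ y0 : ℝ) :
    Measurable (eta1 D δ y0) ∧ Measurable (eta2 D δ y0) ∧
      ∀ p, eta1 D δ y0 p ^ 2 + eta2 D δ y0 p ^ 2 ≤ 1 := by
  have m1 : Measurable (eta1 D δ y0) :=
    measurable_const.max (measurable_const.min
      ((measurable_fst.div (h.tr_meas.1.comp measurable_snd.snd)).sub
        (Measurable.ite (measurableSet_le measurable_snd.fst measurable_const) measurable_const
          measurable_const)))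
  refine ⟨m1, by unfold eta2; fun_prop, fun p => ?_⟩
  have v0 : 0 ≤ eta1 D δ y0 p := le_max_left _ _
  have v1 : eta1 D δ y0 p ≤ 1 := max_le zero_le_one (min_le_left _ _)
  rw [eta2, Real.sq_sqrt (by nlinarith)]
  linarith

theorem d5b_val {D : Set P3} (h : Down D) {t : ℝ} (he : tre D t = 0) (hg : trg D t = 0) :
    Lc D (eta1 D 0 0) (eta2 D 0 0) t = val (sa D t) (trd D t) := by
  have e : ∀ x y, 0 ≤ x → x ≤ trd D t → eta1 D 0 0 (x, y, t) = x / trd D t := fun x y x0 x1 => by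
    simp only [eta1, ite_self, sub_zero]
    exact d4b_cl (div_nonneg x0 (x0.trans x1)) (div_le_one_of_le₀ x1 (x0.trans x1))
  exact cal_III_d h he hg e fun x y x0 x1 => by rw [eta2, e x y x0 x1]

theorem d5b_key {D : Set P3} (h : Down D) {P : ℝ} (hc : Cal D P) (h0 : pB (h2 D) = 0)
    (h1' : pB (h1 D) = 0) {R : ℝ → ℝ} (hR : MB 1 R)
    (hP : P ≤ (∫ z in Ioo (aMin D) (aMax D), Real.sqrt (1 - R z ^ 2)) +
      ∫ t in Ioo (0 : ℝ) 1, R (sa D t) * Real.sqrt (Real.pi * sa D t))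
    {η1 η2 : P3 → ℝ} (m1 : Measurable η1) (m2 : Measurable η2)
    (hη : ∀ p, η1 p ^ 2 + η2 p ^ 2 ≤ 1) :
    ∀ᵐ t ∂(volume.restrict (Ioo (0 : ℝ) 1)), 0 < R (sa D t) →
      Lc D η1 η2 t ≤ Real.sqrt (Real.pi * sa D t) := by
  classical
  obtain ⟨n1, n2, hn⟩ := d5b_eta h 0 0
  have ma := h.sa_meas
  have mS : Measurable fun t => Real.sqrt (Real.pi * sa D t) := by fun_prop
  set T : Set ℝ := {t | Real.sqrt (Real.pi * sa D t) < Lc D η1 η2 t}
  have mT : MeasurableSet T := measurableSet_lt mS (h.Lc_int m1 m2 hη).1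
  set ζ1 : P3 → ℝ := fun p => if p.2.2 ∈ T then η1 p else eta1 D 0 0 p with hζ1
  set ζ2 : P3 → ℝ := fun p => if p.2.2 ∈ T then η2 p else eta2 D 0 0 p with hζ2
  have k1 : Measurable ζ1 := Measurable.ite (measurable_snd.snd mT) m1 n1
  have k2 : Measurable ζ2 := Measurable.ite (measurable_snd.snd mT) m2 n2
  have hζ : ∀ p, ζ1 p ^ 2 + ζ2 p ^ 2 ≤ 1 := fun p => by
    simp only [hζ1, hζ2]
    split_ifs
    exacts [hη p, hn p]
  have e1 : ∀ t ∈ T, Lc D ζ1 ζ2 t = Lc D η1 η2 t := fun t ht => by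
    simp only [Lc, hζ1, hζ2, if_pos ht]
  have e2 : ∀ t ∉ T, Lc D ζ1 ζ2 t = Lc D (eta1 D 0 0) (eta2 D 0 0) t := fun t ht => by
    simp only [Lc, hζ1, hζ2, if_neg ht]
  have hs : ∀ t, 0 ≤ sa D t := fun t => ENNReal.toReal_nonneg
  have hle : ∀ t ∈ Ioo (0 : ℝ) 1, Real.sqrt (Real.pi * sa D t) ≤ Lc D ζ1 ζ2 t := fun t ht => by
    by_cases c : t ∈ T
    · rw [e1 t c]; exact le_of_lt c
    · obtain ⟨q1, q2, q3, q4, q5, q6, q7, q8, q9, q10, q11, q12⟩ := h.phase ht
      obtain ⟨a1, a2, -⟩ := h.tr_range t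
      rw [e2 t c, d5b_val h (q4 (h0 ▸ ht.1)) (q2 (h1' ▸ ht.1))]
      refine sqrt_le_val (hs t) ?_
      rcases eq_or_lt_of_le (a1.trans a2) with k | k
      · exact Or.inr ⟨k.symm, q11 k.symm⟩
      · exact Or.inl k
  obtain ⟨mL, bL⟩ := h.Lc_int k1 k2 hζ
  have iL : IntegrableOn (fun t => R (sa D t) * Lc D ζ1 ζ2 t) (Ioo (0 : ℝ) 1) := by
    refine Measure.integrableOn_of_bounded (M := 2) (by simp)
      ((hR.1.comp ma).mul mL).aestronglyMeasurable (Eventually.of_forall fun t => ?_)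
    rw [Real.norm_eq_abs, abs_mul, abs_of_nonneg (hR.2 _).1]
    nlinarith [(hR.2 (sa D t)).1, (hR.2 (sa D t)).2, bL t, abs_nonneg (Lc D ζ1 ζ2 t)]
  have hle' : ∀ᵐ t ∂(volume.restrict (Ioo (0 : ℝ) 1)),
      R (sa D t) * Real.sqrt (Real.pi * sa D t) ≤ R (sa D t) * Lc D ζ1 ζ2 t :=
    (ae_restrict_mem measurableSet_Ioo).mono fun t ht =>
      mul_le_mul_of_nonneg_left (hle t ht) (hR.2 _).1
  have iS : IntegrableOn (fun t => R (sa D t) * Real.sqrt (Real.pi * sa D t)) (Ioo (0 : ℝ) 1) :=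
    iL.mono' ((hR.1.comp ma).mul mS).aestronglyMeasurable (hle'.mono fun t ht => by
      rwa [Real.norm_eq_abs, abs_of_nonneg (mul_nonneg (hR.2 _).1 (Real.sqrt_nonneg _))])
  have hI := slicing h hc k1 k2 hζ hR
  have := (integral_eq_iff_of_ae_le iS iL hle').1
    (le_antisymm (integral_mono_ae iS iL hle') (by linarith))
  filter_upwards [this] with t ht hp
  by_contra c
  have c' : t ∈ T := not_le.1 c
  rw [← e1 t c'] at c
  exact c (mul_left_cancel₀ hp.ne' ht).ge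

theorem discs {D : Set P3} (h : Down D) {P : ℝ} (hc : Cal D P) (h0 : pB (h2 D) = 0)
    (h1' : pB (h1 D) = 0) {R : ℝ → ℝ} (hR : MB 1 R)
    (hP : P ≤ (∫ z in Ioo (aMin D) (aMax D), Real.sqrt (1 - R z ^ 2)) +
      ∫ t in Ioo (0 : ℝ) 1, R (sa D t) * Real.sqrt (Real.pi * sa D t)) :
    ∀ᵐ t ∂(volume.restrict (Ioo (0 : ℝ) 1)), 0 < R (sa D t) →
      ∀ᵐ y ∂(volume.restrict (Ioo (0 : ℝ) 1)),
        h1 D y t = Real.sqrt (4 * sa D t / Real.pi - y ^ 2) := by
  have k := fun δ y0 : ℝ => d5b_key h hc h0 h1' hR hP (d5b_eta h δ y0).1 (d5b_eta h δ y0).2.1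
    (d5b_eta h δ y0).2.2
  have k' := ae_all_iff.2 fun δ : ℚ => ae_all_iff.2 fun y0 : ℚ => k δ y0
  filter_upwards [k 0 0, k', ae_restrict_mem measurableSet_Ioo] with t t0 tq ht hp
  obtain ⟨q1, q2, q3, q4, q5, q6, q7, q8, q9, q10, q11, q12⟩ := h.phase ht
  obtain ⟨a1, a2, -⟩ := h.tr_range t
  have he := q4 (h0 ▸ ht.1)
  have hg := q2 (h1' ▸ ht.1)
  rcases eq_or_lt_of_le (a1.trans a2) with c | c
  · filter_upwards [ae_restrict_mem measurableSet_Ioo] with y hy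
    rw [q11 c.symm, Real.sqrt_eq_zero_of_nonpos (by simp; positivity)]
    exact le_antisymm (c ▸ (h.h1_between hy).2) (h.h_range y t).1.1
  · have e := val_eq_sqrt ENNReal.toReal_nonneg c (d5b_val h he hg ▸ t0 hp)
    have e' : 4 * sa D t / Real.pi = trd D t ^ 2 := by
      rw [div_eq_iff Real.pi_pos.ne', mul_comm _ Real.pi]; exact e
    rw [e']
    exact disc_2d h he hg c e fun δ y0 _ _ _ _ => tq δ y0 hp

theorem ae_of_h1 {D D' : Set P3} (h : Down D) (h' : Down D')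
    (e : ∀ᵐ t ∂(volume.restrict (Ioo (0 : ℝ) 1)), ∀ᵐ y ∂(volume.restrict (Ioo (0 : ℝ) 1)),
      h1 D y t = h1 D' y t) : D =ᵐ[volume] D' := by
  have z : ∀ {D : Set P3}, Down D → ∀ y t, ¬ (y ∈ Ioo (0 : ℝ) 1 ∧ t ∈ Ioo (0 : ℝ) 1) →
      h1 D y t = 0 := fun h y t c =>
    le_antisymm (not_lt.1 fun hp => c (h.h_pos (Or.inl hp))) (h.h_range y t).1.1
  have m : MeasurableSet {q : ℝ × ℝ | h1 D q.1 q.2 = h1 D' q.1 q.2} :=
    measurableSet_eq_fun h.h_meas.1 h'.h_meas.1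
  have e1 : ∀ᵐ t : ℝ, ∀ᵐ y : ℝ, h1 D y t = h1 D' y t := by
    filter_upwards [(ae_restrict_iff' measurableSet_Ioo).1 e] with t ht
    by_cases c : t ∈ Ioo (0 : ℝ) 1
    · filter_upwards [(ae_restrict_iff' measurableSet_Ioo).1 (ht c)] with y hy
      by_cases c' : y ∈ Ioo (0 : ℝ) 1
      · exact hy c'
      · rw [z h y t fun k => c' k.1, z h' y t fun k => c' k.1]
    · exact Eventually.of_forall fun y => by rw [z h y t fun k => c k.2, z h' y t fun k => c k.2]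
  have e2 : ∀ᵐ q : ℝ × ℝ, h1 D q.1 q.2 = h1 D' q.1 q.2 :=
    (Measure.ae_prod_iff_ae_ae m).2 ((Measure.ae_ae_comm (p := fun y t => h1 D y t = h1 D' y t) m).2 e1)
  have m' : MeasurableSet {p : P3 | p ∈ D ↔ p ∈ D'} := h.meas.iff h'.meas
  refine eventuallyEq_set.2 ((Measure.ae_prod_iff_ae_ae m').2
    ((Measure.ae_ae_comm (p := fun x q => (x, q) ∈ D ↔ (x, q) ∈ D') m').2 ?_))
  filter_upwards [e2] with q hq
  have n : ∀ᵐ x : ℝ, x ≠ h1 D q.1 q.2 := by simp [ae_iff]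
  filter_upwards [n] with x hx
  exact ⟨fun k => h'.mem1.1 (h.sub k).1.1 (hq ▸ lt_of_le_of_ne (h.mem1.2 k) hx),
    fun k => h.mem1.1 (h'.sub k).1.1 (lt_of_le_of_ne (hq ▸ h'.mem1.2 k) hx)⟩

theorem down_Oct (J : Finset (Fin 3)) (ρ : ℝ) : Down (Oct J ρ) := by
  have hc : ∀ j, Measurable fun p : P3 => co p j := fun j => by
    fin_cases j
    · exact measurable_fst
    · exact measurable_snd.fst
    · exact measurable_snd.snd
  refine ⟨(measurableSet_Ioo.prod (measurableSet_Ioo.prod measurableSet_Ioo)).inter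
    (measurableSet_lt (Finset.measurable_sum _ fun j _ => (hc j).pow_const 2) measurable_const),
    fun p hp => hp.1, fun p hp q hq a1 a2 a3 => ⟨hq, lt_of_le_of_lt ?_ hp.2⟩⟩
  refine Finset.sum_le_sum fun j _ => ?_
  fin_cases j
  · exact pow_le_pow_left₀ hq.1.1.le a1 2
  · exact pow_le_pow_left₀ hq.2.1.1.le a2 2
  · exact pow_le_pow_left₀ hq.2.2.1.le a3 2

theorem d5c_len {c : ℝ} (hc : c ≤ 1) {S : Set ℝ} (hS : ∀ x, x ∈ S ↔ x ∈ Ioo (0 : ℝ) 1 ∧ x ^ 2 < c) :
    (volume S).toReal = Real.sqrt c := by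
  have : S = Ioo 0 (Real.sqrt c) := by
    ext x
    rw [hS]
    constructor
    · rintro ⟨h1, h2⟩
      exact ⟨h1.1, (Real.lt_sqrt h1.1.le).2 h2⟩
    · rintro ⟨h1, h2⟩
      exact ⟨⟨h1, h2.trans_le (Real.sqrt_le_one.2 hc)⟩, (Real.lt_sqrt h1.le).1 h2⟩
  rw [this, Real.volume_Ioo, sub_zero, ENNReal.toReal_ofReal (Real.sqrt_nonneg _)]

theorem h1_Oct_ball {ρ y t : ℝ} (h0 : 0 < ρ) (h1' : ρ < 1) (hy : y ∈ Ioo (0 : ℝ) 1)
    (ht : t ∈ Ioo (0 : ℝ) 1) : h1 (Oct Finset.univ ρ) y t = Real.sqrt (ρ ^ 2 - t ^ 2 - y ^ 2) := by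
  refine d5c_len (by nlinarith [sq_nonneg t, sq_nonneg y]) fun x => ?_
  simp only [Oct, cube, co, mem_ofPred_eq, mem_prod, hy, ht, and_true, Fin.sum_univ_three,
    Matrix.cons_val_zero, Matrix.cons_val_one, Matrix.cons_val]
  exact and_congr_right fun _ => by constructor <;> intro h <;> linarith

theorem h1_Oct_cyl {ρ y t : ℝ} (h0 : 0 < ρ) (h1' : ρ < 1) (hy : y ∈ Ioo (0 : ℝ) 1)
    (ht : t ∈ Ioo (0 : ℝ) 1) : h1 (Oct {0, 1} ρ) y t = Real.sqrt (ρ ^ 2 - y ^ 2) := by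
  refine d5c_len (by nlinarith [sq_nonneg y]) fun x => ?_
  have e : ∑ j ∈ ({0, 1} : Finset (Fin 3)), co (x, y, t) j ^ 2 = x ^ 2 + y ^ 2 := by
    rw [Finset.sum_pair (by decide)]; rfl
  simp only [Oct, cube, mem_ofPred_eq, mem_prod, hy, ht, and_true, e]
  exact and_congr_right fun _ => by constructor <;> intro h <;> linarith

theorem h1_Oct_slab {ρ y t : ℝ} (h0 : 0 < ρ) (hy : y ∈ Ioo (0 : ℝ) 1)
    (ht : t ∈ Ioo (0 : ℝ) 1) : h1 (Oct {2} ρ) y t = if t < ρ then 1 else 0 := by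
  have e : ∀ x : ℝ, ∑ j ∈ ({2} : Finset (Fin 3)), co (x, y, t) j ^ 2 = t ^ 2 := fun x => by
    rw [Finset.sum_singleton]; rfl
  have e2 : t ^ 2 < ρ ^ 2 ↔ t < ρ := pow_lt_pow_iff_left₀ ht.1.le h0.le two_ne_zero
  unfold h1
  simp only [Oct, cube, mem_ofPred_eq, mem_prod, hy, ht, and_true, e, e2]
  split_ifs with h
  · simp only [h, and_true]
    rw [ofPred_mem_eq]
    simp
  · simp [h]

theorem d5c_zero {D : Set P3} (h : Down D) {t : ℝ} (h0 : sa D t = 0) :
    ∀ᵐ y ∂(volume.restrict (Ioo (0 : ℝ) 1)), h1 D y t = 0 := by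
  rw [(h.sa_eq t).1] at h0
  exact (integral_eq_zero_iff_of_nonneg (fun y => (h.h_range y t).1.1)
    (d4a_bdd (d4a_m1 h t) (fun y => (h.h_range y t).1) 0 1)).1 h0

theorem d5c_one {D : Set P3} (h : Down D) {t : ℝ} (h0 : sa D t = 1) :
    ∀ᵐ y ∂(volume.restrict (Ioo (0 : ℝ) 1)), h1 D y t = 1 := by
  rw [(h.sa_eq t).1] at h0
  have hi := d4a_bdd (d4a_m1 h t) (fun y => (h.h_range y t).1) 0 1
  have h1i : IntegrableOn (fun _ : ℝ => (1 : ℝ)) (Ioo (0 : ℝ) 1) := integrableOn_const (by simp)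
  have e : ∫ y in Ioo (0 : ℝ) 1, (1 - h1 D y t) = 0 := by
    rw [integral_sub h1i hi, h0]; simp
  have := (integral_eq_zero_iff_of_nonneg (fun y => sub_nonneg.2 (h.h_range y t).1.2)
    (h1i.sub hi)).1 e
  filter_upwards [this] with y hy
  exact (sub_eq_zero.1 hy).symm

/-- `slab_profile`; a slice of area `0` (resp. `1`) has `h1 = 0` (resp. `1`) a.e. by `sa_eq` -/
theorem rig_slab {D : Set P3} (h : Down D) {P : ℝ} (hc : Cal D P) {cs : ℕ} (hcs : Case cs D)
    (hV : 0 < vol3 D) (hmin : aMin D = 0) (hmax : aMax D = 1) (hP : P ≤ 1) :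
    D =ᵐ[volume] Oct {2} (vol3 D) := by
  obtain ⟨O, o1, o2, o3, o4, o5, o6, o7⟩ := exists_oneD h hc hcs
  have hK := O.key_linf
  rw [o1, o3, o4, o5, hmin, hmax] at hK
  have hp := slab_profile h.sa_meas (fun t ht => by rw [← hmin, ← hmax]; exact h.sa_range ht)
    h.sa_anti h.vol_eq hK hP
  refine ae_of_h1 h (down_Oct _ _) ?_
  filter_upwards [hp, ae_restrict_mem measurableSet_Ioo] with t e ht
  by_cases c : t < vol3 D
  · rw [if_pos c] at e
    filter_upwards [d5c_one h e, ae_restrict_mem measurableSet_Ioo] with y a hy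
    rw [a, h1_Oct_slab hV hy ht, if_pos c]
  · rw [if_neg c] at e
    filter_upwards [d5c_zero h e, ae_restrict_mem measurableSet_Ioo] with y a hy
    rw [a, h1_Oct_slab hV hy ht, if_neg c]

/-- `discs` with `R = 1` -/
theorem rig_cyl {D : Set P3} (h : Down D) {P : ℝ} (hc : Cal D P) {cs : ℕ} (hcs : Case cs D)
    (hV : 0 < vol3 D) (hV' : vol3 D ≤ 1 / 2) (hmin : aMin D = aMax D) (h0 : pB (h2 D) = 0)
    (hP : P ≤ Real.sqrt (Real.pi * vol3 D)) :
    D =ᵐ[volume] Oct {0, 1} (Real.sqrt (4 * vol3 D / Real.pi)) := by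
  have hπ := Real.pi_gt_three
  have hs : ∀ t ∈ Ioo (0 : ℝ) 1, sa D t = aMin D := fun t ht =>
    le_antisymm (hmin ▸ (h.sa_range ht).2) (h.sa_range ht).1
  have hv : vol3 D = aMin D := by
    rw [h.vol_eq, setIntegral_congr_fun measurableSet_Ioo hs]; simp
  have h1' : pB (h1 D) = 0 := le_antisymm (h0 ▸ hcs.1) h.p_range.1
  have hd := discs h hc h0 h1' (R := fun _ => 1) ⟨measurable_const, fun _ => by norm_num⟩ (by
    rw [setIntegral_congr_fun (s := Ioo (0 : ℝ) 1) measurableSet_Ioo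
      (g := fun _ => Real.sqrt (Real.pi * vol3 D)) fun t ht => by simp only [hs t ht, hv, one_mul]]
    simpa using hP)
  refine ae_of_h1 h (down_Oct _ _) ?_
  filter_upwards [hd, ae_restrict_mem measurableSet_Ioo] with t e ht
  filter_upwards [e one_pos, ae_restrict_mem measurableSet_Ioo] with y a hy
  rw [a, h1_Oct_cyl (Real.sqrt_pos.2 (by positivity)) ?_ hy ht, Real.sq_sqrt (by positivity),
    hs t ht, hv]
  rw [Real.sqrt_lt' one_pos, div_lt_iff₀ Real.pi_pos]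
  linarith

/-- `ball_profile` and `discs` with `R z = min 1 (2 / r * √(z / π))` -/
theorem rig_ball {D : Set P3} (h : Down D) {P : ℝ} (hc : Cal D P) {cs : ℕ} (hcs : Case cs D)
    (hV : 0 < vol3 D) (hV' : vol3 D ≤ 1 / 2) (hmin : aMin D = 0) (h0 : pB (h2 D) = 0)
    (hmax : aMax D = Real.pi * rB (vol3 D) ^ 2 / 4) (hP : P ≤ Real.pi * rB (vol3 D) ^ 2 / 2) :
    D =ᵐ[volume] Oct Finset.univ (rB (vol3 D)) := by
  have hπ := Real.pi_gt_three
  have hπ0 := Real.pi_pos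
  have r0 := rB_pos hV
  have r3 := rB_cube hV.le
  set r := rB (vol3 D) with hr
  have r1 : r < 1 := by
    by_contra hn
    have : 1 ≤ r ^ 3 := one_le_pow₀ (not_lt.mp hn)
    nlinarith
  obtain ⟨O, o1, o2, o3, o4, o5, o6, o7⟩ := exists_oneD h hc hcs
  have hK := O.key_III (o6.trans h0)
  rw [o1, o3, o4, o5, hmin, hmax] at hK
  have hra : ∀ t ∈ Ioo (0 : ℝ) 1, 0 ≤ sa D t ∧ sa D t ≤ Real.pi * r ^ 2 / 4 := fun t ht => by
    rw [← hmin, ← hmax]; exact h.sa_range ht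
  have hp := ball_profile r0 r1 h.sa_meas hra h.sa_anti (r3.trans h.vol_eq) hK hP
  have h1' : pB (h1 D) = 0 := le_antisymm (h0 ▸ hcs.1) h.p_range.1
  have hA : 0 < Real.pi * r ^ 2 / 4 := by positivity
  have hsq : ∀ z, 0 ≤ z → (2 / r * Real.sqrt (z / Real.pi)) ^ 2 = z / (Real.pi * r ^ 2 / 4) := by
    intro z hz
    rw [mul_pow, Real.sq_sqrt (by positivity)]
    field_simp
    ring
  have hR : ∀ z, 0 ≤ z → z ≤ Real.pi * r ^ 2 / 4 →
      min 1 (2 / r * Real.sqrt (z / Real.pi)) = 2 / r * Real.sqrt (z / Real.pi) := by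
    intro z hz hz'
    refine min_eq_right ((pow_le_one_iff_of_nonneg (by positivity) two_ne_zero).1 ?_)
    rw [hsq z hz, div_le_one hA]
    exact hz'
  have hd := discs h hc h0 h1' (R := fun z => min 1 (2 / r * Real.sqrt (z / Real.pi)))
    ⟨by fun_prop, fun z => ⟨le_min zero_le_one (by positivity), min_le_left _ _⟩⟩ (by
    have e1 : ∫ z in Ioo (aMin D) (aMax D),
        Real.sqrt (1 - min 1 (2 / r * Real.sqrt (z / Real.pi)) ^ 2) = Real.pi * r ^ 2 / 6 := by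
      rw [hmin, hmax, setIntegral_congr_fun measurableSet_Ioo
        (g := fun z => Real.sqrt (1 - z / (Real.pi * r ^ 2 / 4)))
        fun z hz => by simp only [hR z hz.1.le hz.2.le, hsq z hz.1.le],
        ← integral_Ioc_eq_integral_Ioo, ← intervalIntegral.integral_of_le hA.le,
        n1e_int hA hA.le (div_self hA.ne').le, div_self hA.ne']
      simp
      ring
    have e2 : ∫ t in Ioo (0 : ℝ) 1, min 1 (2 / r * Real.sqrt (sa D t / Real.pi)) *
        Real.sqrt (Real.pi * sa D t) = Real.pi * r ^ 2 / 3 := by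
      rw [setIntegral_congr_fun measurableSet_Ioo (g := fun t => 2 / r * sa D t) fun t ht => by
        simp only [hR _ (hra t ht).1 (hra t ht).2]
        rw [mul_assoc, ← Real.sqrt_mul (div_nonneg (hra t ht).1 hπ0.le),
          show sa D t / Real.pi * (Real.pi * sa D t) = sa D t ^ 2 by field_simp,
          Real.sqrt_sq (hra t ht).1], integral_const_mul, ← h.vol_eq, ← r3]
      field_simp
      norm_num
    rw [e1, e2]
    linarith)
  refine ae_of_h1 h (down_Oct _ _) ?_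
  filter_upwards [hd, hp, ae_restrict_mem measurableSet_Ioo] with t e e' ht
  rcases le_or_gt (r ^ 2 - t ^ 2) 0 with c | c
  · rw [max_eq_right c, mul_zero, zero_div] at e'
    filter_upwards [d5c_zero h e', ae_restrict_mem measurableSet_Ioo] with y a hy
    rw [a, h1_Oct_ball r0 r1 hy ht, Real.sqrt_eq_zero'.2 (by nlinarith [sq_nonneg y])]
  · rw [max_eq_left c.le] at e'
    have a0 : 0 < sa D t := by rw [e']; positivity
    filter_upwards [e (lt_min one_pos (by positivity)), ae_restrict_mem measurableSet_Ioo]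
      with y a hy
    rw [a, h1_Oct_ball r0 r1 hy ht, e']
    congr 2
    field_simp

end Crest.Agent.R214
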