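import Crest.Agent.R214.N3
import Crest.Agent.R214.Cert.All

/-! Block N4: the certificate (filled by helper22). -/

set_option autoImplicit false
set_option linter.unusedVariables false
open MeasureTheory Set Filter Metric
open scoped Topology ENNReal NNReal
open Crest.GeometryTopology.PeriodicPerimeter

noncomputable section
namespace Crest.Agent.R214

theorem n4_root {cs : ℕ} (O : OneD cs) (hV' : O.V ≤ 1 / 2) {s1 v0 v1 : ℚ} (hs : O.s ≤ s1)
    (h0 : (v0 : ℝ) ≤ O.V) (h1 : O.V ≤ v1) : InBox O (root s1 v0 v1) := by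
  have a0 := O.amin_nonneg
  have a1 := O.amin_le
  have a2 := O.a0_le
  have a3 := O.a1_le
  have a4 := O.amax_le
  obtain ⟨a5, a6⟩ := O.V_range
  obtain ⟨a7, a8⟩ := O.hw
  obtain ⟨a9, a10⟩ := O.hs
  refine ⟨⟨?_, ?_⟩, ⟨?_, ?_⟩, ⟨?_, ?_⟩, ⟨?_, ?_⟩, ⟨?_, ?_⟩, ⟨?_, hs⟩, ⟨h0, h1⟩⟩ <;>
    simp only [root] <;> push_cast <;> linarith

theorem main1D {cs : ℕ} (hcs' : cs = 0 ∨ cs = 2) (O : OneD cs) (hV : 0 < O.V) (hV' : O.V ≤ 1 / 2) : Out O := by
  have hcs : cs ≤ 2 := by omega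
  rcases hcs' with rfl | rfl
  · rcases le_total O.V (9 / 32) with c | c
    · obtain ⟨t, ht⟩ := ok_a
      exact chk_sound hcs hV hV' t _ (n4_root O hV' (by simpa using O.hs.2) (by simpa using hV.le)
        (by push_cast; exact c)) ht
    · obtain ⟨t, ht⟩ := ok_b
      exact chk_sound hcs hV hV' t _ (n4_root O hV' (by simpa using O.hs.2) (by push_cast; exact c)
        (by push_cast; exact hV')) ht
  · obtain ⟨t, ht⟩ := ok_d
    exact chk_sound hcs hV hV' t _ (n4_root O hV' (by rw [n3a_al]; exact O.caseB2 rfl)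
      (by simpa using hV.le) (by push_cast; exact hV')) ht

end Crest.Agent.R214
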