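import Crest.Agent.R214.D5
import Crest.Agent.R214.N4

/-! Block D6: the theorem for down-sets.  `main_case`: `exists_oneD`, `main1D`, the four alternatives of
`Out`, `sph_le_iff`, `rig_slab`, `rig_cyl`, `rig_ball`.  `mainD`: `exists_case` with
`G D = Down D ∧ Cal D P ∧ vol3 D = V`. -/

set_option autoImplicit false
set_option linter.unusedVariables false
open MeasureTheory Set Filter Metric
open scoped Topology ENNReal NNReal
open Crest.GeometryTopology.PeriodicPerimeter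

noncomputable section
namespace Crest.Agent.R214

theorem main_case {D : Set P3} (h : Down D) {P : ℝ} (hc : Cal D P) {cs : ℕ} (hcs : cs = 0 ∨ cs = 2)
    (hC : Case cs D) (hV : 0 < vol3 D) (hV' : vol3 D ≤ 1 / 2) :
    Iq (vol3 D) ≤ P ∧ (P ≤ Iq (vol3 D) → Cls D (vol3 D)) := by
  obtain ⟨O, eP, eV, ea, emin, emax, e0, e1⟩ := exists_oneD h hc hC
  have out := main1D hcs O (eV ▸ hV) (eV ▸ hV')
  unfold Out at out
  rw [eP, eV, emin, emax, e0] at out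
  set V := vol3 D with hVdef
  obtain ⟨s1, s2, s3, s4⟩ := sph_le_iff hV
  have i1 : Iq V ≤ Real.pi * rB V ^ 2 / 2 := (min_le_left _ _).trans (min_le_left _ _)
  have i2 : Iq V ≤ Real.sqrt (Real.pi * V) := (min_le_left _ _).trans (min_le_right _ _)
  have i3 := Iq_le_one V
  have pi3 := Real.pi_gt_three
  rcases out with o | ⟨o1, o2, o3⟩ | ⟨o1, o2, o3⟩ | ⟨o1, o2, o3, o4⟩
  · exact ⟨o.le, fun hP => absurd hP (not_le.mpr o)⟩
  · refine ⟨i3.trans o3, fun hP => ⟨{2}, V, rig_slab h hc hC hV o1 o2 (hP.trans i3), hV, by linarith,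
      Or.inr (Or.inr ⟨rfl, rfl, s4.mp (o3.trans (hP.trans i2))⟩)⟩⟩
  · refine ⟨i2.trans o3, fun hP => ⟨{0, 1}, Real.sqrt (4 * V / Real.pi),
      rig_cyl h hc hC hV hV' o1 o2 (hP.trans i2), Real.sqrt_pos.mpr (by positivity), ?_,
      Or.inr (Or.inl ⟨rfl, ?_, s2.mp (o3.trans (hP.trans i1)), s3.mp (o3.trans (hP.trans i3))⟩)⟩⟩
    · rw [Real.sqrt_lt' one_pos, div_lt_iff₀ Real.pi_pos]
      linarith
    · rw [Real.sq_sqrt (by positivity)]
      field_simp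
  · refine ⟨i1.trans o4, fun hP => ⟨Finset.univ, rB V,
      rig_ball h hc hC hV hV' o1 o2 o3 (hP.trans i1), rB_pos hV, ?_,
      Or.inl ⟨rfl, (rB_cube hV.le).symm, s1.mp (o4.trans (hP.trans i2))⟩⟩⟩
    by_contra hn
    have : 1 ≤ rB V ^ 3 := one_le_pow₀ (not_lt.mp hn)
    have := rB_cube hV.le
    nlinarith

theorem mainD {D : Set P3} (h : Down D) {P : ℝ} (hc : Cal D P) (hV : 0 < vol3 D)
    (hV' : vol3 D ≤ 1 / 2) : Iq (vol3 D) ≤ P ∧ (P ≤ Iq (vol3 D) → Cls D (vol3 D)) := by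
  refine d2b_case (fun D' => Iq (vol3 D) ≤ P ∧ (P ≤ Iq (vol3 D) → Cls D' (vol3 D)))
    (fun D' k => ⟨k.1, fun hP => (k.2 hP).of_sw12⟩) (fun D' k => ⟨k.1, fun hP => (k.2 hP).of_sw23⟩)
    (fun D' => Down D' ∧ Cal D' P ∧ vol3 D' = vol3 D)
    (fun D' k => ⟨k.1.sw12, Cal.sw12 k.1 k.2.1, (vol3_sw k.1).1.trans k.2.2⟩)
    (fun D' k => ⟨k.1.sw23, Cal.sw23 k.1 k.2.1, (vol3_sw k.1).2.trans k.2.2⟩)
    (fun D' k cs hcs hC => ?_) D ⟨h, hc, rfl⟩
  have := main_case k.1 k.2.1 hcs hC (k.2.2 ▸ hV) (k.2.2 ▸ hV')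
  rwa [k.2.2] at this

end Crest.Agent.R214
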