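import Crest.Prelude.Def_PeriodicPerimeter
import Crest.Agent.R214.Chk

/-!
# Row 214 (S0332, S0333): definitions.  FROZEN (ask helper22 before changing anything).
Blueprint: `Crest/Agent/R214/Blueprint.lean`.
-/

set_option autoImplicit false
open MeasureTheory Set Filter Metric
open scoped Topology
open Crest.GeometryTopology.PeriodicPerimeter

noncomputable section
namespace Crest.Agent.R214

/-! ## The torus -/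

abbrev E3 := EuclideanSpace ℝ (Fin 3)
abbrev cell : Set E3 := unitCell 3
/-- basis vector -/
def ev (i : Fin 3) : E3 := EuclideanSpace.single i 1
/-- periodic functions -/
def Per {β : Type*} (f : E3 → β) : Prop := ∀ v, HasIntegerCoords v → ∀ x, f (x + v) = f x
/-- measurable periodic sets -/
structure PS (E : Set E3) : Prop where
  meas : MeasurableSet E
  per : IsLatticePeriodic E
/-- real indicator -/
def ind (E : Set E3) (x : E3) : ℝ := E.indicator (fun _ => (1 : ℝ)) x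
/-- perimeter at most `p` -/
def PLe (E : Set E3) (p : ℝ) : Prop :=
  ∀ φ : E3 → E3, IsAdmissibleField φ → ∫ x in E ∩ cell, divergence φ x ≤ p
/-- perimeter at least `p` -/
def PGe (E : Set E3) (p : ℝ) : Prop :=
  ∀ η : ℝ, 0 < η → ∃ φ : E3 → E3, IsAdmissibleField φ ∧ p - η < ∫ x in E ∩ cell, divergence φ x
/-- the constant of the nonlocal energy -/
def c0 : ℝ := ∫ h in ball (0 : E3) 1, |h 0|
/-- the nonlocal energy -/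
def NE (u : E3 → ℝ) (ε : ℝ) : ℝ :=
  (∫ h in ball (0 : E3) 1, ∫ x in cell, |u (x + ε • h) - u x|) / ε
/-- reflection of the coordinate `i` -/
def flip (i : Fin 3) (h : E3) : E3 := h - (2 * h i) • ev i

/-! ## One-dimensional periodic sets -/

/-- distance to the nearest integer -/
def tau (s : ℝ) : ℝ := |s - round s|
structure PS1 (A : Set ℝ) : Prop where
  meas : MeasurableSet A
  per : ∀ s, s + 1 ∈ A ↔ s ∈ A
def len (A : Set ℝ) : ℝ := (volume (A ∩ Ico (0 : ℝ) 1)).toReal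
def sh (r : ℝ) (A : Set ℝ) : Set ℝ := {s | s + r ∈ A}
def d1 (A B : Set ℝ) : ℝ := len (symmDiff A B)
def arc (c l : ℝ) : Set ℝ := {s | tau (s - c) < l / 2}
/-- centre of an arc -/
def ctr (A : Set ℝ) : ℝ :=
  Complex.arg (∫ s in A ∩ Ico (0 : ℝ) 1, Complex.exp (2 * Real.pi * s * Complex.I)) / (2 * Real.pi)

/-! ## Steiner symmetrisation -/

/-- the fibre of `E` through `x` in direction `i`, in the absolute coordinate -/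
def fib (E : Set E3) (i : Fin 3) (x : E3) : Set ℝ := {s | x + (s - x i) • ev i ∈ E}
def fl (E : Set E3) (i : Fin 3) (x : E3) : ℝ := len (fib E i x)
def St (i : Fin 3) (E : Set E3) : Set E3 := {x | tau (x i) < fl E i x / 2}
def Mono (i : Fin 3) (E : Set E3) : Prop :=
  ∀ x y : E3, (∀ j, j ≠ i → y j = x j) → tau (y i) ≤ tau (x i) → x ∈ E → y ∈ E
/-- fibrewise symmetric difference of `E` and its translate by `h` -/
def Xi (E : Set E3) (i : Fin 3) (x h : E3) : ℝ := d1 (fib E i x) (sh (h i) (fib E i (x + h)))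
/-- the excess of `G` over its symmetrisation -/
def Ex (G : Set E3) (i : Fin 3) (ε : ℝ) (x h : E3) : ℝ :=
  (Xi G i x (ε • h) + Xi G i x (ε • flip i h) -
    Xi (St i G) i x (ε • h) - Xi (St i G) i x (ε • flip i h)) / ε
/-- hypotheses on the fibre length for the rigidity of Steiner symmetrisation -/
structure RigData (i : Fin 3) (l : E3 → ℝ) (K : ℕ → Set E3) : Prop where
  per : Per l
  inv : ∀ (x : E3) (s : ℝ), l (x + s • ev i) = l x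
  meas : Measurable l
  cpt : ∀ n, IsCompact (K n)
  cvx : ∀ n, Convex ℝ (K n)
  mono : Monotone K
  lip : ∀ n, ∃ δ Λ η : ℝ, 0 < δ ∧ 0 < Λ ∧ 0 < η ∧ ∀ x ∈ K n, ∀ y : E3, ‖y - x‖ ≤ δ →
    η ≤ l y ∧ l y ≤ 1 - η ∧ |l y - l x| ≤ Λ * ‖y - x‖
  cover : ∀ x : E3, (∃ n v, HasIntegerCoords v ∧ x + v ∈ K n) ∨ l x = 0 ∨ l x = 1

/-- slabs (`#J = 1`), tubes (`#J = 2`) and balls (`#J = 3`) -/
def Mod (J : Finset (Fin 3)) (c : E3) (r : ℝ) : Set E3 :=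
  {x | ∑ j ∈ J, tau (x j - c j) ^ 2 < r ^ 2}
def mvol (k : ℕ) (r : ℝ) : ℝ :=
  if k = 1 then 2 * r else if k = 2 then Real.pi * r ^ 2 else 4 * Real.pi * r ^ 3 / 3
def mper (k : ℕ) (r : ℝ) : ℝ :=
  if k = 1 then 2 else if k = 2 then 2 * Real.pi * r else 4 * Real.pi * r ^ 2

/-! ## Down-sets of the unit cube -/

abbrev P3 := ℝ × ℝ × ℝ
def cube : Set P3 := Ioo (0 : ℝ) 1 ×ˢ Ioo (0 : ℝ) 1 ×ˢ Ioo (0 : ℝ) 1
structure Down (D : Set P3) : Prop where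
  meas : MeasurableSet D
  sub : D ⊆ cube
  down : ∀ p ∈ D, ∀ q ∈ cube, q.1 ≤ p.1 → q.2.1 ≤ p.2.1 → q.2.2 ≤ p.2.2 → q ∈ D
def h1 (D : Set P3) (y t : ℝ) : ℝ := (volume {x : ℝ | (x, y, t) ∈ D}).toReal
def h2 (D : Set P3) (x t : ℝ) : ℝ := (volume {y : ℝ | (x, y, t) ∈ D}).toReal
def h3 (D : Set P3) (x y : ℝ) : ℝ := (volume {t : ℝ | (x, y, t) ∈ D}).toReal
/-- where the height is neither `0` nor `1` -/
def Gr (h : ℝ → ℝ → ℝ) : Set (ℝ × ℝ) := {q | 0 < h q.1 q.2 ∧ h q.1 q.2 < 1}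
def I1 (D : Set P3) (ψ : P3 → ℝ) : ℝ := ∫ q in Gr (h1 D), ψ (h1 D q.1 q.2, q.1, q.2)
def I2 (D : Set P3) (ψ : P3 → ℝ) : ℝ := ∫ q in Gr (h2 D), ψ (q.1, h2 D q.1 q.2, q.2)
def I3 (D : Set P3) (ψ : P3 → ℝ) : ℝ := ∫ q in Gr (h3 D), ψ (q.1, q.2, h3 D q.1 q.2)
/-- every Borel calibration is bounded by `P` -/
def Cal (D : Set P3) (P : ℝ) : Prop :=
  ∀ ψ1 ψ2 ψ3 : P3 → ℝ, Measurable ψ1 → Measurable ψ2 → Measurable ψ3 →
    (∀ p, ψ1 p ^ 2 + ψ2 p ^ 2 + ψ3 p ^ 2 ≤ 1) → I1 D ψ1 + I2 D ψ2 + I3 D ψ3 ≤ P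
def co (p : P3) : Fin 3 → ℝ := ![p.1, p.2.1, p.2.2]
def pt (p : P3) : E3 := WithLp.toLp 2 (co p)
/-- the octant `(0,1/2)³` of `E`, rescaled -/
def toD (E : Set E3) : Set P3 := {p | p ∈ cube ∧ (1 / 2 : ℝ) • pt p ∈ E}
def Oct (J : Finset (Fin 3)) (ρ : ℝ) : Set P3 := {p | p ∈ cube ∧ ∑ j ∈ J, co p j ^ 2 < ρ ^ 2}
def sw12 (D : Set P3) : Set P3 := {p | (p.2.1, p.1, p.2.2) ∈ D}
def sw23 (D : Set P3) : Set P3 := {p | (p.1, p.2.2, p.2.1) ∈ D}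
def vol3 (D : Set P3) : ℝ := (volume D).toReal

/-- radius of the ball octant of volume `V` -/
def rB (V : ℝ) : ℝ := (6 * V / Real.pi) ^ ((1 : ℝ) / 3)
/-- the profile of the unit cube -/
def Iq (V : ℝ) : ℝ := min (min (Real.pi * rB V ^ 2 / 2) (Real.sqrt (Real.pi * V))) 1
def Cls (D : Set P3) (V : ℝ) : Prop :=
  ∃ (J : Finset (Fin 3)) (ρ : ℝ), D =ᵐ[volume] Oct J ρ ∧ 0 < ρ ∧ ρ < 1 ∧
    ((J.card = 3 ∧ V = Real.pi * ρ ^ 3 / 6 ∧ V ≤ 4 * Real.pi / 81) ∨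
     (J.card = 2 ∧ V = Real.pi * ρ ^ 2 / 4 ∧ 4 * Real.pi / 81 ≤ V ∧ V ≤ 1 / Real.pi) ∨
     (J.card = 1 ∧ V = ρ ∧ 1 / Real.pi ≤ V))

/-- area of the slice at height `t` -/
def sa (D : Set P3) (t : ℝ) : ℝ := (volume {q : ℝ × ℝ | (q.1, q.2, t) ∈ D}).toReal
def aMin (D : Set P3) : ℝ := (volume {q : ℝ × ℝ | 1 ≤ h3 D q.1 q.2}).toReal
def aMax (D : Set P3) : ℝ := (volume {q : ℝ × ℝ | 0 < h3 D q.1 q.2}).toReal
/-- bottom, top, left and right traces of the slice -/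
def trd (D : Set P3) (t : ℝ) : ℝ := (volume {x : ℝ | 0 < h2 D x t}).toReal
def tre (D : Set P3) (t : ℝ) : ℝ := (volume {x : ℝ | 1 ≤ h2 D x t}).toReal
def tru (D : Set P3) (t : ℝ) : ℝ := (volume {y : ℝ | 0 < h1 D y t}).toReal
def trg (D : Set P3) (t : ℝ) : ℝ := (volume {y : ℝ | 1 ≤ h1 D y t}).toReal
/-- extents of a far trace -/
def pA (h : ℝ → ℝ → ℝ) : ℝ := sSup {a | ∃ b, 1 ≤ h a b}
def pB (h : ℝ → ℝ → ℝ) : ℝ := sSup {b | ∃ a, 1 ≤ h a b}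
def alR : ℝ := 5 / 64
/-- the three cases -/
def Case (cs : ℕ) (D : Set P3) : Prop :=
  pB (h1 D) ≤ pB (h2 D) ∧ (cs = 0 → alR ≤ pB (h1 D)) ∧
    (cs = 1 → pB (h2 D) ≤ alR ∧ (alR ≤ pA (h3 D) ∨ alR ≤ pB (h3 D))) ∧
    (cs = 2 → pA (h2 D) ≤ alR)
/-- calibrated length of the slice at height `t` -/
def Lc (D : Set P3) (η1 η2 : P3 → ℝ) (t : ℝ) : ℝ :=
  (∫ y in {y : ℝ | 0 < h1 D y t ∧ h1 D y t < 1}, η1 (h1 D y t, y, t)) +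
    ∫ x in {x : ℝ | 0 < h2 D x t ∧ h2 D x t < 1}, η2 (x, h2 D x t, t)

/-! ## The one-dimensional problem -/

def val (z x : ℝ) : ℝ := z / x + Real.pi * x / 4
def Gf (p q : ℝ) : ℝ :=
  1 - (p * p + p * q + q * q) / 6 -
    49 / 1000 * (p * p * p * p + p * p * p * q + p * p * q * q + p * q * q * q + q * q * q * q)
/-- measurable with values in `[0, M]` -/
def MB (M : ℝ) (R : ℝ → ℝ) : Prop := Measurable R ∧ ∀ z, 0 ≤ R z ∧ R z ≤ M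
def linf (z : ℝ) : ℝ := min (min (Real.sqrt (Real.pi * z)) 1) (Real.sqrt (Real.pi * (1 - z)))

structure OneD (cs : ℕ) where
  (P V amin amax a0 a1 t0 t1 w s : ℝ)
  a : ℝ → ℝ
  meas : Measurable a
  hV : V = ∫ t in Ioo (0 : ℝ) 1, a t
  amin_nonneg : 0 ≤ amin
  amin_le : amin ≤ a0
  a0_le : a0 ≤ a1
  a1_le : a1 ≤ amax
  amax_le : amax ≤ 1
  range : ∀ t ∈ Ioo (0 : ℝ) 1, amin ≤ a t ∧ a t ≤ amax
  lev1 : ∀ t ∈ Ioo (0 : ℝ) 1, (t < t1 → a1 ≤ a t) ∧ (t1 < t → a t ≤ a1)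
  lev0 : ∀ t ∈ Ioo (0 : ℝ) 1, (t < t0 → a0 ≤ a t) ∧ (t0 < t → a t ≤ a0)
  t1_nonneg : 0 ≤ t1
  t1_le : t1 ≤ t0
  t0_le : t0 ≤ 1
  hw : 0 ≤ w ∧ w ≤ 1
  hs : 0 ≤ s ∧ s ≤ 1
  pos : ∀ t ∈ Ioo (0 : ℝ) 1, t < t0 → 0 < a t
  caseA : cs = 0 → alR ≤ t1
  caseB1 : cs = 1 → t0 ≤ alR
  caseB2 : cs = 2 → s ≤ alR
  key : ∀ (e3 : ℝ) (R Φ0 Φ1 mt : ℝ → ℝ), 0 ≤ e3 → e3 ≤ (if cs = 1 then alR else 0) →
    MB 1 R → MB (7 / 8) Φ0 → MB (7 / 8) Φ1 → IntegrableOn mt (Ioo (0 : ℝ) 1) →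
    (∀ t ∈ Ioo (0 : ℝ) 1, t < t1 → ∀ x, (if cs = 2 then 1 - alR else 0) ≤ x → x ≤ 1 - s →
      (0 < x ∨ a t = 1) → mt t ≤ R (a t) * val (1 - a t) x) →
    (∀ t ∈ Ioo (0 : ℝ) 1, t1 < t → t < t0 →
      mt t ≤ R (a t) * (Φ0 (a t) * (w - a t) + Φ1 (a t) * (a t - s) + Gf (Φ0 (a t)) (Φ1 (a t)))) →
    (∀ t ∈ Ioo (0 : ℝ) 1, t0 < t → ∀ x, e3 ≤ x → x ≤ max w e3 →
      (0 < x ∨ a t = 0) → mt t ≤ R (a t) * val (a t) x) →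
    (∫ z in Ioo amin amax, Real.sqrt (1 - R z ^ 2)) + ∫ t in Ioo (0 : ℝ) 1, mt t ≤ P

/-- the slicing inequality for a lower bound `L t` of the length of the slices -/
def Key (P amin amax : ℝ) (a L : ℝ → ℝ) : Prop :=
  ∀ R mt : ℝ → ℝ, MB 1 R → IntegrableOn mt (Ioo (0 : ℝ) 1) →
    (∀ t ∈ Ioo (0 : ℝ) 1, mt t ≤ R (a t) * L t) →
    (∫ z in Ioo amin amax, Real.sqrt (1 - R z ^ 2)) + ∫ t in Ioo (0 : ℝ) 1, mt t ≤ P

/-- the parameters lie in the box -/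
structure InBox {cs : ℕ} (O : OneD cs) (b : Box) : Prop where
  x : (b.x0 : ℝ) ≤ O.amin ∧ O.amin ≤ b.x1
  y : (b.y0 : ℝ) ≤ O.amax ∧ O.amax ≤ b.y1
  p : (b.p0 : ℝ) ≤ O.a0 ∧ O.a0 ≤ b.p1
  q : (b.q0 : ℝ) ≤ O.a1 ∧ O.a1 ≤ b.q1
  w : (b.w0 : ℝ) ≤ O.w ∧ O.w ≤ b.w1
  s : (b.s0 : ℝ) ≤ O.s ∧ O.s ≤ b.s1
  v : (b.v0 : ℝ) ≤ O.V ∧ O.V ≤ b.v1

/-- the outcome of the one-dimensional analysis -/
def Out {cs : ℕ} (O : OneD cs) : Prop :=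
  Iq O.V < O.P ∨ (O.amin = 0 ∧ O.amax = 1 ∧ 1 ≤ O.P) ∨
    (O.amin = O.amax ∧ O.t0 = 0 ∧ Real.sqrt (Real.pi * O.V) ≤ O.P) ∨
    (O.amin = 0 ∧ O.t0 = 0 ∧ O.amax = Real.pi * rB O.V ^ 2 / 4 ∧ Real.pi * rB O.V ^ 2 / 2 ≤ O.P)

end Crest.Agent.R214
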