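import Crest.Agent.R214.T6

/-! Block T10: the standard regions are the sets `Mod`.  The image `g '' F` under a cubic isometry is
computed pointwise: `y ∈ g '' F ↔ (fun j => ε (σ⁻¹ j) * (y (σ⁻¹ j) - c (σ⁻¹ j))) ∈ F`; `tau` is even.
`volume (symmDiff E F) = 0 ↔ E =ᵐ F` is `measure_symmDiff_eq_zero_iff`.  The slab differs from `Mod` by
countably many planes. -/

set_option autoImplicit false
set_option linter.unusedVariables false
open MeasureTheory Set Filter Metric
open scoped Topology ENNReal NNReal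
open Crest.GeometryTopology.PeriodicPerimeter

noncomputable section
namespace Crest.Agent.R214

theorem periodicBall_eq {r : ℝ} (hr : 0 ≤ r) : periodicBall r = Mod Finset.univ 0 r := by
  ext x
  simp only [periodicBall, Mod, mem_ofPred_eq, PiLp.zero_apply, sub_zero]
  constructor
  · rintro ⟨v, hv, h⟩
    have h1 : dist x v ^ 2 < r ^ 2 := pow_lt_pow_left₀ h dist_nonneg two_ne_zero
    refine lt_of_le_of_lt ?_ h1
    rw [EuclideanSpace.dist_sq_eq]
    refine Finset.sum_le_sum fun j _ => ?_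
    obtain ⟨m, hm⟩ := hv j
    rw [hm, Real.dist_eq]
    exact pow_le_pow_left₀ (tau_nonneg _) (tau_le_int _ m) 2
  · intro h
    refine ⟨WithLp.toLp 2 fun j => (round (x j) : ℝ), fun j => ⟨round (x j), rfl⟩, ?_⟩
    refine lt_of_pow_lt_pow_left₀ 2 hr ?_
    rw [EuclideanSpace.dist_sq_eq]
    exact h

theorem periodicTube_eq (r : ℝ) : periodicTube r = Mod {0, 1} 0 r := by
  ext x
  simp only [periodicTube, Mod, mem_ofPred_eq, PiLp.zero_apply, sub_zero]
  rw [Finset.sum_pair (by decide)]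
  constructor
  · rintro ⟨a, b, h⟩
    have h1 := pow_le_pow_left₀ (tau_nonneg _) (tau_le_int (x 0) a) 2
    have h2 := pow_le_pow_left₀ (tau_nonneg _) (tau_le_int (x 1) b) 2
    rw [sq_abs] at h1 h2
    linarith
  · intro h
    exact ⟨round (x 0), round (x 1), by simpa only [tau, sq_abs] using h⟩

theorem periodicSlab_ae {w : ℝ} (h0 : 0 < w) :
    periodicSlab w =ᵐ[volume] Mod {0} ((w / 2) • ev 0) (w / 2) := by
  have h1 : ∀ᵐ x : E3, ∀ k : ℤ, x 0 ≠ k := by
    rw [ae_all_iff]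
    intro k
    exact (PiLp.volume_preserving_ofLp (Fin 3)).quasiMeasurePreserving.ae
      (Measure.ae_eval_ne (fun _ : Fin 3 => (volume : Measure ℝ)) 0 (k : ℝ))
  filter_upwards [h1] with x hx
  refine propext ?_
  change (∃ a : ℤ, (a : ℝ) ≤ x 0 ∧ x 0 < a + w) ↔
    ∑ j ∈ ({0} : Finset (Fin 3)), tau (x j - ((w / 2) • ev 0 : E3) j) ^ 2 < (w / 2) ^ 2
  rw [Finset.sum_singleton, pow_lt_pow_iff_left₀ (tau_nonneg _) (by linarith) two_ne_zero,
    tau_lt_iff]
  have : ((w / 2) • ev 0 : E3) 0 = w / 2 := by simp [ev]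
  rw [this]
  refine exists_congr fun k => ?_
  rw [abs_lt]
  have := (hx k).symm
  constructor
  · rintro ⟨a, b⟩
    have := lt_of_le_of_ne a this
    constructor <;> linarith
  · rintro ⟨a, b⟩
    constructor <;> linarith

theorem t10_image {g : E3 → E3} {σ : Equiv.Perm (Fin 3)} {ε : Fin 3 → ℝ} {c₀ : E3}
    (hε : ∀ i, ε i = 1 ∨ ε i = -1) (h : ∀ x i, g x i = ε i * x (σ i) + c₀ i) (J : Finset (Fin 3))
    (c : E3) (r : ℝ) : g '' Mod J c r = Mod (J.map σ.symm.toEmbedding) (g c) r := by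
  have hs : Function.Surjective g := fun y => by
    refine ⟨WithLp.toLp 2 fun j => ε (σ.symm j) * (y (σ.symm j) - c₀ (σ.symm j)), ?_⟩
    ext i
    rw [h]
    rcases hε i with e | e <;> simp [e]
  rw [← image_preimage_eq (Mod (J.map σ.symm.toEmbedding) (g c) r) hs]
  congr 1
  ext x
  simp only [Mod, mem_ofPred_eq, mem_preimage, Finset.sum_map, Equiv.coe_toEmbedding, h,
    Equiv.apply_symm_apply]
  rw [Finset.sum_congr rfl]
  intro j _
  congr 1
  rcases hε (σ.symm j) with e | e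
  · rw [e]
    congr 1
    ring
  · rw [e, ← tau_neg]
    congr 1
    ring

theorem image_Mod {g : E3 → E3} (hg : IsCubicIsometry g) (J : Finset (Fin 3)) (c : E3) (r : ℝ) :
    ∃ (J' : Finset (Fin 3)) (c' : E3), J'.card = J.card ∧ g '' Mod J c r = Mod J' c' r := by
  obtain ⟨σ, ε, c₀, hε, h⟩ := hg
  exact ⟨J.map σ.symm.toEmbedding, _, Finset.card_map _, t10_image hε h J c r⟩

theorem exists_image_Mod {J J' : Finset (Fin 3)} (h : J'.card = J.card) (c c' : E3) (r : ℝ) :
    ∃ g : E3 → E3, IsCubicIsometry g ∧ g '' Mod J c r = Mod J' c' r := by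
  have : ∀ J J' : Finset (Fin 3), J'.card = J.card →
      ∃ σ : Equiv.Perm (Fin 3), J.map σ.symm.toEmbedding = J' := by decide
  obtain ⟨σ, rfl⟩ := this J J' h
  have hg : ∀ (x : E3) (i : Fin 3),
      (WithLp.toLp 2 fun i => x (σ i) + (c' i - c (σ i)) : E3) i =
        1 * x (σ i) + (WithLp.toLp 2 fun i => c' i - c (σ i) : E3) i := fun x i => by simp
  refine ⟨fun x => WithLp.toLp 2 fun i => x (σ i) + (c' i - c (σ i)),
    ⟨σ, fun _ => 1, _, fun _ => Or.inl rfl, hg⟩, ?_⟩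
  rw [t10_image (ε := fun _ => 1) (fun _ => Or.inl rfl) hg]
  congr 1
  ext i
  simp

theorem image_congr {g : E3 → E3} (hg : IsCubicIsometry g) {E F : Set E3}
    (h : E =ᵐ[volume] F) : g '' E =ᵐ[volume] g '' F := by
  obtain ⟨σ, ε, c₀, -, hg⟩ := hg
  have hd : Differentiable ℝ g := by
    rw [differentiable_euclidean]
    intro i
    simp only [hg]
    fun_prop
  rw [← measure_symmDiff_eq_zero_iff] at h ⊢
  have hs : symmDiff (g '' E) (g '' F) ⊆ g '' symmDiff E F := by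
    rintro y (⟨⟨x, hx, rfl⟩, h'⟩ | ⟨⟨x, hx, rfl⟩, h'⟩)
    · exact ⟨x, Or.inl ⟨hx, fun hF => h' ⟨x, hF, rfl⟩⟩, rfl⟩
    · exact ⟨x, Or.inr ⟨hx, fun hF => h' ⟨x, hF, rfl⟩⟩, rfl⟩
  exact measure_mono_null hs
    (addHaar_image_eq_zero_of_differentiableOn_of_addHaar_eq_zero volume hd.differentiableOn h)

theorem congruent_iff {E F : Set E3} {J : Finset (Fin 3)} {c : E3} {r : ℝ}
    (hF : F =ᵐ[volume] Mod J c r) :
    CongruentModNull E F ↔
      ∃ (J' : Finset (Fin 3)) (c' : E3), J'.card = J.card ∧ E =ᵐ[volume] Mod J' c' r := by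
  constructor
  · rintro ⟨g, hg, h⟩
    obtain ⟨J', c', h1, h2⟩ := image_Mod hg J c r
    exact ⟨J', c', h1, (measure_symmDiff_eq_zero_iff.1 h).trans (h2 ▸ image_congr hg hF)⟩
  · rintro ⟨J', c', h1, h2⟩
    obtain ⟨g, hg, h⟩ := exists_image_Mod h1 c c' r
    exact ⟨g, hg, measure_symmDiff_eq_zero_iff.2 (h2.trans (h ▸ image_congr hg hF).symm)⟩

end Crest.Agent.R214
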