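import Crest.Agent.R214.T8

/-! Block T9: the models.  `vol_Mod`: `periodicVolume_fl`, `fib_Mod`, then `Per.integral_fibre` in the
remaining directions of `J` with `integral_arc_sqrt`, `integral_arc_sq`.
`per_Mod`: `u δ x = max 0 (min 1 ((r + δ - ρ x) / δ))`, `ρ x = √(∑ j ∈ J, tau (x j - c j)²)` is
`1`-Lipschitz; `ibp`; `fderiv (u δ) = 0` where `ρ < r` or `ρ > r + δ`, norm at most `1/δ`; so
`∫ u δ div φ ≤ (mvol (r + δ') - mvol r) / δ` for every `δ' > δ`; let `δ → 0`.
`rigData_Mod`: `K n = {∑ j ∈ J.erase i, (x j - c j)² ≤ (r (1 - 1/(n+2)))² ∧ ‖x‖ ≤ n}`. -/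

set_option autoImplicit false
set_option linter.unusedVariables false
open MeasureTheory Set Filter Metric
open scoped Topology ENNReal NNReal
open Crest.GeometryTopology.PeriodicPerimeter

noncomputable section
namespace Crest.Agent.R214

theorem t9a_cont (J : Finset (Fin 3)) (c : E3) : Continuous fun x : E3 => ∑ j ∈ J, tau (x j - c j) ^ 2 :=
  continuous_finsetSum _ fun j _ => (tau_lip.continuous.comp (by fun_prop)).pow 2

theorem t9a_per (J : Finset (Fin 3)) (c : E3) : Per fun x : E3 => ∑ j ∈ J, tau (x j - c j) ^ 2 :=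
  fun v hv x => Finset.sum_congr rfl fun j _ => by
    obtain ⟨m, hm⟩ := hv j
    rw [PiLp.add_apply, hm, add_sub_right_comm, tau_add_int]

theorem t9a_not {J : Finset (Fin 3)} {i : Fin 3} (hi : i ∉ J) (c x : E3) (t : ℝ) :
    ∑ j ∈ J, tau ((x + t • ev i) j - c j) ^ 2 = ∑ j ∈ J, tau (x j - c j) ^ 2 :=
  Finset.sum_congr rfl fun j hj => by simp [ev, ne_of_mem_of_not_mem hj hi]

theorem t9a_sum {J : Finset (Fin 3)} {i : Fin 3} (hi : i ∈ J) (c x : E3) (t : ℝ) :
    ∑ j ∈ J, tau ((x + t • ev i) j - c j) ^ 2 =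
      ∑ j ∈ J.erase i, tau (x j - c j) ^ 2 + tau (t + (x i - c i)) ^ 2 := by
  rw [← Finset.sum_erase_add _ _ hi, t9a_not (Finset.notMem_erase i J)]
  simp [ev, add_comm (x i), add_sub_assoc]

theorem Mod_ps (J : Finset (Fin 3)) (c : E3) (r : ℝ) : PS (Mod J c r) := by
  exact ⟨(isOpen_lt (t9a_cont J c) continuous_const).measurableSet, fun v hv x => by
    simp only [Mod, mem_ofPred_eq, t9a_per J c v hv x]⟩

theorem fib_Mod {J : Finset (Fin 3)} {i : Fin 3} (hi : i ∈ J) (c : E3) {r : ℝ} (hr : 0 ≤ r)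
    (x : E3) : fib (Mod J c r) i x =
      arc (c i) (2 * Real.sqrt (r ^ 2 - ∑ j ∈ J.erase i, tau (x j - c j) ^ 2)) := by
  ext s
  simp only [fib, Mod, arc, mem_ofPred_eq, t9a_sum hi, sub_add_sub_cancel]
  rw [mul_div_cancel_left₀ _ two_ne_zero, Real.lt_sqrt (tau_nonneg _), lt_sub_iff_add_lt']

theorem fl_Mod_not {J : Finset (Fin 3)} {i : Fin 3} (hi : i ∉ J) (c : E3) (r : ℝ) :
    fl (Mod J c r) i = ind (Mod J c r) := by
  funext x
  have h : ∀ s, s ∈ fib (Mod J c r) i x ↔ x ∈ Mod J c r := fun s => by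
    simp only [fib, Mod, mem_ofPred_eq, t9a_not hi]
  by_cases hx : x ∈ Mod J c r
  · simp [fl, ind, len, hx, eq_univ_of_forall fun s => (h s).2 hx]
  · simp [fl, ind, len, hx, eq_empty_of_forall_notMem fun s hs => hx ((h s).1 hs)]

theorem t9a_cut (F : ℝ → ℝ) {ρ : ℝ} (h0 : 0 ≤ ρ) (h1 : ρ ≤ 1 / 2) (hF : ∀ t, ρ ^ 2 ≤ t → F t = 0) (a : ℝ) :
    ∫ s in Ico (0 : ℝ) 1, F (tau (s + a) ^ 2) = ∫ s in (-ρ)..ρ, F (s ^ 2) := by
  have hp : Function.Periodic (fun s => F (tau s ^ 2)) 1 := fun s => by simpa using congrArg (fun t => F (t ^ 2)) (tau_add_int s 1)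
  have hs : Function.support (fun s => F (s ^ 2)) ⊆ Ioc (-ρ) ρ := fun s hs =>
    Ioo_subset_Ioc_self (abs_lt.1 (abs_lt_of_sq_lt_sq (not_le.1 fun h => hs (hF _ h)) h0))
  rw [integral_Ico_eq_integral_Ioo, ← integral_Ioc_eq_integral_Ioo, ← intervalIntegral.integral_of_le zero_le_one,
    intervalIntegral.integral_comp_add_right (fun s => F (tau s ^ 2)), zero_add, add_comm,
    hp.intervalIntegral_add_eq a (-(1 / 2)), intervalIntegral.integral_eq_integral_of_support_subset hs,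
    ← intervalIntegral.integral_eq_integral_of_support_subset (a := -(1 / 2)) (b := -(1 / 2) + 1)
      (hs.trans (Ioc_subset_Ioc (by linarith) (by linarith)))]
  refine intervalIntegral.integral_congr fun s hs => ?_
  rw [uIcc_of_le (by linarith)] at hs
  simp only [tau_of_abs_le (abs_le.2 ⟨hs.1, by linarith [hs.2]⟩), sq_abs]

theorem integral_arc_sqrt (a : ℝ) {R : ℝ} (hR : R ≤ 1 / 4) :
    ∫ s in Ico (0 : ℝ) 1, 2 * Real.sqrt (R - tau (s + a) ^ 2) = Real.pi * max R 0 := by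
  rcases le_total R 0 with h | h
  · rw [t9a_cut (fun t => 2 * Real.sqrt (R - t)) le_rfl (by norm_num) fun t ht => by
      rw [Real.sqrt_eq_zero'.2 (by linarith), mul_zero]]
    simp [h]
  obtain ⟨ρ, h0, rfl⟩ : ∃ ρ : ℝ, 0 ≤ ρ ∧ R = ρ ^ 2 := ⟨√R, Real.sqrt_nonneg R, (Real.sq_sqrt h).symm⟩
  have h1 := intervalIntegral.smul_integral_comp_mul_left (fun s => 2 * Real.sqrt (ρ ^ 2 - s ^ 2)) (a := -1) (b := 1) ρ
  rw [mul_neg, mul_one] at h1
  rw [t9a_cut (fun t => 2 * Real.sqrt (ρ ^ 2 - t)) h0 (by nlinarith) fun t ht => by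
    rw [Real.sqrt_eq_zero'.2 (by linarith), mul_zero], ← h1, max_eq_left h]
  simp only [mul_pow, ← mul_one_sub, Real.sqrt_mul (sq_nonneg ρ), Real.sqrt_sq h0,
    intervalIntegral.integral_const_mul, integral_sqrt_one_sub_sq, smul_eq_mul]
  ring

theorem integral_arc_sq (a : ℝ) {r : ℝ} (h0 : 0 ≤ r) (hr : r ≤ 1 / 2) :
    ∫ s in Ico (0 : ℝ) 1, Real.pi * max (r ^ 2 - tau (s + a) ^ 2) 0 = 4 * Real.pi * r ^ 3 / 3 := by
  rw [t9a_cut (fun t => Real.pi * max (r ^ 2 - t) 0) h0 hr fun t ht => by rw [max_eq_right (by linarith), mul_zero],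
    intervalIntegral.integral_congr (g := fun s => Real.pi * (r ^ 2 - s ^ 2)) fun s hs => by
      rw [uIcc_of_le (by linarith)] at hs
      simp only [max_eq_left (sub_nonneg.2 (sq_le_sq' hs.1 hs.2))],
    intervalIntegral.integral_const_mul, intervalIntegral.integral_sub (by simp) (by simp)]
  simp only [intervalIntegral.integral_const, integral_pow, smul_eq_mul]
  ring

theorem t9a_fibre {J : Finset (Fin 3)} {i : Fin 3} (hi : i ∈ J) (c : E3) {F : ℝ → ℝ} (hF : Continuous F) :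
    ∫ x in cell, F (∑ j ∈ J, tau (x j - c j) ^ 2) = ∫ x in cell, ∫ s in Ico (0 : ℝ) 1,
      F (∑ j ∈ J.erase i, tau (x j - c j) ^ 2 + tau (s + (x i - c i)) ^ 2) := by
  have hp : Per fun x : E3 => F (∑ j ∈ J, tau (x j - c j) ^ 2) := fun v hv x => congrArg F (t9a_per J c v hv x)
  obtain ⟨M, hM⟩ := hp.bdd (hF.comp (t9a_cont J c))
  simpa only [t9a_sum hi] using hp.integral_fibre (hF.comp (t9a_cont J c)).measurable hM i

theorem vol_Mod {J : Finset (Fin 3)} (hJ : J.Nonempty) (c : E3) {r : ℝ} (h0 : 0 ≤ r)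
    (hr : r ≤ 1 / 2) : periodicVolume (Mod J c r) = mvol J.card r := by
  obtain ⟨i, hi⟩ := hJ
  have hS : ∀ (K : Finset (Fin 3)) (x : E3), 0 ≤ ∑ j ∈ K, tau (x j - c j) ^ 2 := fun K x => by positivity
  have h1 : ∀ x, fl (Mod J c r) i x = 2 * Real.sqrt (r ^ 2 - ∑ j ∈ J.erase i, tau (x j - c j) ^ 2) := fun x => by
    have := Real.sqrt_le_iff.2 ⟨h0, sub_le_self _ (hS (J.erase i) x)⟩
    rw [fl, fib_Mod hi c h0, len_arc _ (by positivity) (by linarith)]
  have h3 : J.card ≤ 3 := Finset.card_le_univ J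
  have c1 := Finset.card_erase_add_one hi
  simp only [periodicVolume_fl (Mod_ps J c r) i, h1]
  rcases (J.erase i).eq_empty_or_nonempty with e | ⟨j, hj⟩
  · simp [e, ← c1, mvol, Real.sqrt_sq h0, Measure.real, volume_cell]
  have c2 := Finset.card_erase_add_one hj
  rw [t9a_fibre hj c (F := fun t => 2 * Real.sqrt (r ^ 2 - t)) (by fun_prop)]
  simp only [← sub_sub, fun (x : E3) a => integral_arc_sqrt a
    (show r ^ 2 - ∑ l ∈ (J.erase i).erase j, tau (x l - c l) ^ 2 ≤ 1 / 4 by nlinarith [hS ((J.erase i).erase j) x])]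
  rcases ((J.erase i).erase j).eq_empty_or_nonempty with e | ⟨k, hk⟩
  · simp [e, ← c1, ← c2, mvol, sq_nonneg, Measure.real, volume_cell]
  have c3 := Finset.card_erase_add_one hk
  have e : ((J.erase i).erase j).erase k = ∅ := Finset.card_eq_zero.1 (by omega)
  rw [t9a_fibre hk c (F := fun t => Real.pi * max (r ^ 2 - t) 0) (by fun_prop)]
  simp only [e, Finset.sum_empty, zero_add, integral_arc_sq _ h0 hr]
  simp [e, ← c1, ← c2, ← c3, mvol, Measure.real, volume_cell]

/-- the vector of truncated coordinates -/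
def t9b_w (J : Finset (Fin 3)) (c x : E3) : E3 :=
  WithLp.toLp 2 fun j => if j ∈ J then tau (x j - c j) else 0

theorem t9b_norm_sq (J : Finset (Fin 3)) (c x : E3) :
    ‖t9b_w J c x‖ ^ 2 = ∑ j ∈ J, tau (x j - c j) ^ 2 := by
  rw [EuclideanSpace.real_norm_sq_eq]
  simp only [t9b_w, ite_pow]
  rw [← Finset.sum_filter_add_sum_filter_not Finset.univ (fun j => j ∈ J)]
  rw [Finset.sum_congr rfl (g := fun j => tau (x j - c j) ^ 2) fun j hj =>
      if_pos (Finset.mem_filter.1 hj).2,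
    Finset.sum_eq_zero (s := Finset.univ.filter fun j => ¬ j ∈ J) fun j hj => by
      rw [if_neg (Finset.mem_filter.1 hj).2]; norm_num]
  simp

theorem t9b_mem {J : Finset (Fin 3)} {c x : E3} {s : ℝ} (hs : 0 ≤ s) :
    x ∈ Mod J c s ↔ ‖t9b_w J c x‖ < s := by
  change ∑ j ∈ J, tau (x j - c j) ^ 2 < s ^ 2 ↔ _
  rw [← t9b_norm_sq]
  exact sq_lt_sq₀ (norm_nonneg _) hs

theorem t9b_lip (J : Finset (Fin 3)) (c x y : E3) :
    |‖t9b_w J c x‖ - ‖t9b_w J c y‖| ≤ ‖x - y‖ := by
  refine (abs_norm_sub_norm_le _ _).trans ?_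
  rw [EuclideanSpace.norm_eq, EuclideanSpace.norm_eq]
  refine Real.sqrt_le_sqrt (Finset.sum_le_sum fun j _ => ?_)
  refine pow_le_pow_left₀ (norm_nonneg _) ?_ 2
  simp only [t9b_w, PiLp.sub_apply]
  split_ifs
  · have := tau_lip.dist_le_mul (x j - c j) (y j - c j)
    rw [NNReal.coe_one, one_mul, dist_eq_norm, dist_eq_norm, sub_sub_sub_cancel_right] at this
    exact this
  · simp

theorem t9b_per (J : Finset (Fin 3)) (c : E3) : Per (t9b_w J c) := by
  intro v hv x
  unfold t9b_w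
  congr 1
  funext j
  obtain ⟨m, hm⟩ := hv j
  rw [PiLp.add_apply, hm, add_sub_right_comm, tau_add_int]

theorem t9b_mvol (k : ℕ) {r δ : ℝ} (h0 : 0 < δ) (h1 : δ ≤ r) :
    mvol k r - mvol k (r - δ) ≤ δ * mper k r := by
  have hπ := Real.pi_pos
  unfold mvol mper
  split_ifs
  · linarith
  · nlinarith [mul_pos hπ (mul_pos h0 h0)]
  · have : 0 ≤ Real.pi * (δ * δ * (3 * r - δ)) :=
      mul_nonneg hπ.le (mul_nonneg (mul_pos h0 h0).le (by linarith))
    nlinarith

theorem t9b_mper (k : ℕ) {r : ℝ} (h0 : 0 ≤ r) : 0 ≤ mper k r := by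
  have hπ := Real.pi_pos
  unfold mper
  split_ifs <;> positivity

theorem t9b_step {J : Finset (Fin 3)} (hJ : J.Nonempty) (c : E3) {r : ℝ} (hr : r < 1 / 2)
    {φ : E3 → E3} (hφ : IsAdmissibleField φ) {M : ℝ} (hM : ∀ x, |divergence φ x| ≤ M) {δ : ℝ}
    (h0 : 0 < δ) (h1 : δ ≤ r) :
    ∫ x in Mod J c r ∩ cell, divergence φ x ≤ mper J.card r + M * (δ * mper J.card r) := by
  have hM0 : 0 ≤ M := (abs_nonneg _).trans (hM 0)
  let u : E3 → ℝ := fun x => max 0 (min 1 ((r - ‖t9b_w J c x‖) / δ))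
  let g : E3 → ℝ := fun x => ind (Mod J c r) x - ind (Mod J c (r - δ)) x
  have hup : Per u := fun v hv x => by simp only [u, t9b_per J c v hv x]
  have hul : LipschitzWith ⟨δ⁻¹, by positivity⟩ u := by
    refine LipschitzWith.const_max (LipschitzWith.const_min ?_ 1) 0
    refine LipschitzWith.of_dist_le_mul fun x y => ?_
    rw [Real.dist_eq, ← sub_div, abs_div, abs_of_pos h0, sub_sub_sub_cancel_left, abs_sub_comm,
      dist_eq_norm, div_eq_inv_mul]
    exact mul_le_mul_of_nonneg_left (t9b_lip J c x y) (by positivity)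
  have hu0 : ∀ x, 0 ≤ u x := fun x => le_max_left _ _
  have hu1 : ∀ x, u x ≤ 1 := fun x => max_le zero_le_one (min_le_left _ _)
  have hin : ∀ x, ‖t9b_w J c x‖ ≤ r - δ → u x = 1 := fun x hx => by
    have : 1 ≤ (r - ‖t9b_w J c x‖) / δ := by rw [le_div_iff₀ h0]; linarith
    simp only [u, min_eq_left this, max_eq_right zero_le_one]
  have hout : ∀ x, r ≤ ‖t9b_w J c x‖ → u x = 0 := fun x hx => by
    have : (r - ‖t9b_w J c x‖) / δ ≤ 0 := div_nonpos_of_nonpos_of_nonneg (by linarith) h0.le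
    exact max_eq_left ((min_le_right _ _).trans this)
  have hi1 : ∀ s x, 0 ≤ s → ‖t9b_w J c x‖ < s → ind (Mod J c s) x = 1 := fun s x hs hx =>
    indicator_of_mem ((t9b_mem hs).2 hx) _
  have hi0 : ∀ s x, 0 ≤ s → s ≤ ‖t9b_w J c x‖ → ind (Mod J c s) x = 0 := fun s x hs hx =>
    indicator_of_notMem (fun h => absurd ((t9b_mem hs).1 h) (not_lt.2 hx)) _
  have hr0 : 0 ≤ r := by linarith
  have hr1 : 0 ≤ r - δ := by linarith
  have hcase : ∀ x, (g x = 0 ∧ ind (Mod J c r) x = u x ∧ fderiv ℝ u x = 0) ∨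
      (g x = 1 ∧ ind (Mod J c r) x = 1) := by
    intro x
    rcases lt_or_ge ‖t9b_w J c x‖ (r - δ) with hx | hx
    · refine Or.inl ⟨?_, ?_, ?_⟩
      · simp only [g, hi1 r x hr0 (by linarith), hi1 (r - δ) x hr1 hx, sub_self]
      · rw [hi1 r x hr0 (by linarith), hin x hx.le]
      · refine IsLocalMax.fderiv_eq_zero (Eventually.of_forall fun y => ?_)
        rw [hin x hx.le]
        exact hu1 y
    rcases lt_or_ge ‖t9b_w J c x‖ r with hy | hy
    · refine Or.inr ⟨?_, hi1 r x hr0 hy⟩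
      simp only [g, hi1 r x hr0 hy, hi0 (r - δ) x hr1 hx, sub_zero]
    · refine Or.inl ⟨?_, ?_, ?_⟩
      · simp only [g, hi0 r x hr0 hy, hi0 (r - δ) x hr1 hx, sub_self]
      · rw [hi0 r x hr0 hy, hout x hy]
      · refine IsLocalMin.fderiv_eq_zero (Eventually.of_forall fun y => ?_)
        rw [hout x hy]
        exact hu0 y
  have hE := Mod_ps J c r
  have hE' := Mod_ps J c (r - δ)
  have iE : IntegrableOn (ind (Mod J c r)) cell := integrableOn_cell hE.ind_meas (ind_abs_le _)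
  have iE' : IntegrableOn (ind (Mod J c (r - δ))) cell :=
    integrableOn_cell hE'.ind_meas (ind_abs_le _)
  have ig : IntegrableOn g cell := iE.sub iE'
  have hg : ∫ x in cell, g x ≤ δ * mper J.card r := by
    rw [integral_sub iE iE', ← periodicVolume_eq hE.meas, ← periodicVolume_eq hE'.meas,
      vol_Mod hJ c hr0 hr.le, vol_Mod hJ c hr1 (by linarith)]
    exact t9b_mvol _ h0 h1
  have hdm : Measurable (divergence φ) := (adm_div_cont hφ).measurable
  have e1 : ‖∫ x in cell, fderiv ℝ u x (φ x)‖ ≤ ∫ x in cell, δ⁻¹ * g x := by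
    refine norm_integral_le_of_norm_le (ig.const_mul _) (ae_of_all _ fun x => ?_)
    rcases hcase x with h | h
    · rw [h.1, h.2.2]
      simp
    · rw [h.1]
      exact (ContinuousLinearMap.le_opNorm _ _).trans
        (mul_le_mul (norm_fderiv_le_of_lipschitz ℝ hul) (hφ.2.2 x) (norm_nonneg _) (by positivity))
  have i1 : IntegrableOn (fun x => u x * divergence φ x) cell := by
    refine integrableOn_cell (hul.continuous.measurable.mul hdm) (M := M) fun x => ?_
    rw [abs_mul, abs_of_nonneg (hu0 x)]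
    exact (mul_le_of_le_one_left (abs_nonneg _) (hu1 x)).trans (hM x)
  have i2 : IntegrableOn (fun x => ind (Mod J c r) x * divergence φ x) cell := by
    refine integrableOn_cell (hE.ind_meas.mul hdm) (M := M) fun x => ?_
    rw [abs_mul]
    exact (mul_le_of_le_one_left (abs_nonneg _) (ind_abs_le _ x)).trans (hM x)
  have e2 : ∫ x in cell, ind (Mod J c r) x * divergence φ x ≤
      ∫ x in cell, (u x * divergence φ x + M * g x) := by
    refine integral_mono i2 (i1.add (ig.const_mul _)) fun x => ?_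
    dsimp only
    rcases hcase x with h | h
    · rw [h.1, h.2.1]
      simp
    · rw [h.1, h.2]
      have := abs_le.1 (hM x)
      nlinarith [hu0 x, hu1 x]
  rw [integral_add i1 (ig.const_mul _), integral_const_mul, ibp hup hul hφ] at e2
  rw [integral_const_mul, Real.norm_eq_abs] at e1
  rw [← integral_ind_mul hE.meas]
  have e3 : δ⁻¹ * ∫ x in cell, g x ≤ mper J.card r := by
    rw [inv_mul_le_iff₀ h0]
    exact hg
  have e4 := mul_le_mul_of_nonneg_left hg hM0
  have := neg_le_abs (∫ x in cell, fderiv ℝ u x (φ x))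
  linarith

theorem per_Mod {J : Finset (Fin 3)} (hJ : J.Nonempty) (c : E3) {r : ℝ} (h0 : 0 < r)
    (hr : r < 1 / 2) : PLe (Mod J c r) (mper J.card r) := by
  intro φ hφ
  obtain ⟨M, hM⟩ := (adm_div_per hφ).bdd (adm_div_cont hφ)
  have hM0 : 0 ≤ M := (abs_nonneg _).trans (hM 0)
  have hp := t9b_mper J.card h0.le
  refine le_of_forall_pos_le_add fun ε hε => ?_
  have hd : 0 < ε / (M * mper J.card r + 1) := by positivity
  refine (t9b_step hJ c hr hφ hM (lt_min h0 hd) (min_le_left _ _)).trans ?_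
  have h1 : min r (ε / (M * mper J.card r + 1)) * (M * mper J.card r + 1) ≤ ε :=
    (le_div_iff₀ (by positivity)).1 (min_le_right _ _)
  have h2 := lt_min h0 hd
  nlinarith

theorem t9c_ev (x : E3) (s : ℝ) {i j : Fin 3} (h : j ≠ i) : (x + s • ev i) j = x j := by
  simp [ev, h]

theorem t9c_lip (J : Finset (Fin 3)) (c x y : E3) :
    |∑ j ∈ J, tau (y j - c j) ^ 2 - ∑ j ∈ J, tau (x j - c j) ^ 2| ≤ 3 * ‖y - x‖ := by
  rw [← Finset.sum_sub_distrib]
  refine (Finset.abs_sum_le_sum_abs _ _).trans ?_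
  have k : ∀ j ∈ J, |tau (y j - c j) ^ 2 - tau (x j - c j) ^ 2| ≤ ‖y - x‖ := fun j _ => by
    have a1 := tau_lip.dist_le_mul (y j - c j) (x j - c j)
    simp only [NNReal.coe_one, one_mul, Real.dist_eq, sub_sub_sub_cancel_right] at a1
    have a2 : |y j - x j| ≤ ‖y - x‖ := by
      have := PiLp.norm_apply_le (y - x) j
      simpa using this
    rw [sq_sub_sq, abs_mul, abs_of_nonneg (add_nonneg (tau_nonneg _) (tau_nonneg _))]
    have a3 : tau (y j - c j) + tau (x j - c j) ≤ 1 := by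
      linarith [tau_le_half (y j - c j), tau_le_half (x j - c j)]
    have := mul_le_mul a3 (a1.trans a2) (abs_nonneg _) zero_le_one
    linarith
  refine (Finset.sum_le_card_nsmul _ _ _ k).trans ?_
  rw [nsmul_eq_mul]
  have : (J.card : ℝ) ≤ 3 := by exact_mod_cast (Finset.card_le_univ J).trans (by simp)
  exact mul_le_mul_of_nonneg_right this (norm_nonneg _)

theorem rigData_Mod {J : Finset (Fin 3)} {i : Fin 3} (c : E3) {r : ℝ} (h0 : 0 < r)
    (hr : r < 1 / 2) : ∃ K : ℕ → Set E3, RigData i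
      (fun x => 2 * Real.sqrt (r ^ 2 - ∑ j ∈ J.erase i, tau (x j - c j) ^ 2)) K := by
  set J' := J.erase i with hJ'
  set ρ : ℕ → ℝ := fun n => r * (1 - 1 / ((n : ℝ) + 2)) with hρ
  have ρ0 : ∀ n, 0 ≤ ρ n := fun n => by
    have : 1 / ((n : ℝ) + 2) ≤ 1 := by
      rw [div_le_one (by positivity)]; linarith [(n.cast_nonneg : (0 : ℝ) ≤ n)]
    exact mul_nonneg h0.le (by linarith)
  have ρ1 : ∀ n, ρ n < r := fun n => by
    have : 0 < r * (1 / ((n : ℝ) + 2)) := by positivity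
    simp only [hρ]; linarith
  have ct := tau_lip.continuous
  refine ⟨fun n => {x : E3 | ∑ j ∈ J', (x j - c j) ^ 2 ≤ ρ n ^ 2} ∩ closedBall 0 n,
    ⟨fun v hv x => ?_, fun x s => ?_, ?_, fun n => ?_, fun n => ?_, fun m n hmn x hx => ?_,
      fun n => ?_, fun x => ?_⟩⟩
  · have : ∀ j, tau ((x + v) j - c j) = tau (x j - c j) := fun j => by
      obtain ⟨m, hm⟩ := hv j
      rw [PiLp.add_apply, hm, add_sub_right_comm, tau_add_int]
    simp only [this]
  · rw [Finset.sum_congr rfl fun j hj => by rw [t9c_ev x s (Finset.ne_of_mem_erase hj)]]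
  · exact Continuous.measurable (by fun_prop)
  · exact (isCompact_closedBall _ _).inter_left (isClosed_le (by fun_prop) continuous_const)
  · refine Convex.inter (fun x hx y hy a b ha hb hab => ?_) (convex_closedBall _ _)
    have k : ∑ j ∈ J', ((a • x + b • y) j - c j) ^ 2 ≤
        ∑ j ∈ J', (a * (x j - c j) ^ 2 + b * (y j - c j) ^ 2) :=
      Finset.sum_le_sum fun j _ => by
        have e : (a • x + b • y) j - c j = a * (x j - c j) + b * (y j - c j) := by
          simp only [PiLp.add_apply, PiLp.smul_apply, smul_eq_mul]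
          linear_combination (c j) * hab
        have e2 : b = 1 - a := by linarith
        have k := mul_nonneg (mul_nonneg ha hb) (sq_nonneg (x j - y j))
        rw [e]
        rw [e2] at k ⊢
        nlinarith
    rw [Finset.sum_add_distrib, ← Finset.mul_sum, ← Finset.mul_sum] at k
    have k1 := mul_le_mul_of_nonneg_left (show ∑ j ∈ J', (x j - c j) ^ 2 ≤ ρ n ^ 2 from hx) ha
    have k2 := mul_le_mul_of_nonneg_left (show ∑ j ∈ J', (y j - c j) ^ 2 ≤ ρ n ^ 2 from hy) hb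
    show ∑ j ∈ J', ((a • x + b • y) j - c j) ^ 2 ≤ ρ n ^ 2
    have : a * ρ n ^ 2 + b * ρ n ^ 2 = ρ n ^ 2 := by rw [← add_mul, hab, one_mul]
    linarith
  · have mn : (m : ℝ) ≤ n := by exact_mod_cast hmn
    refine ⟨le_trans (show ∑ j ∈ J', (x j - c j) ^ 2 ≤ ρ m ^ 2 from hx.1)
      (pow_le_pow_left₀ (ρ0 m) ?_ 2), closedBall_subset_closedBall mn hx.2⟩
    have : 1 / ((n : ℝ) + 2) ≤ 1 / ((m : ℝ) + 2) :=
      one_div_le_one_div_of_le (by positivity) (by linarith)
    exact mul_le_mul_of_nonneg_left (by linarith) h0.le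
  · have g0 : 0 < r ^ 2 - ρ n ^ 2 := by nlinarith [ρ0 n, ρ1 n]
    set g := r ^ 2 - ρ n ^ 2 with hg
    have w0 : 0 < Real.sqrt (g / 2) := Real.sqrt_pos.mpr (by linarith)
    refine ⟨g / 6, 6 / Real.sqrt (g / 2), min (Real.sqrt (g / 2)) (1 - 2 * r), by linarith,
      by positivity, lt_min w0 (by linarith), fun x hx y hy => ?_⟩
    have s1 : ∑ j ∈ J', tau (x j - c j) ^ 2 ≤ ρ n ^ 2 :=
      le_trans (Finset.sum_le_sum fun j _ => by
        have := tau_le_int (x j - c j) 0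
        simp only [Int.cast_zero, sub_zero] at this
        rw [← sq_abs (x j - c j)]
        exact pow_le_pow_left₀ (tau_nonneg _) this 2) hx.1
    have s2 := t9c_lip J' c x y
    have s3 : 0 ≤ ∑ j ∈ J', tau (y j - c j) ^ 2 := Finset.sum_nonneg fun j _ => sq_nonneg _
    set Sx := ∑ j ∈ J', tau (x j - c j) ^ 2
    set Sy := ∑ j ∈ J', tau (y j - c j) ^ 2
    have s4 : g / 2 ≤ r ^ 2 - Sy := by linarith [(abs_le.mp s2).2]
    have s5 : Real.sqrt (g / 2) ≤ Real.sqrt (r ^ 2 - Sy) := Real.sqrt_le_sqrt s4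
    have s6 : Real.sqrt (r ^ 2 - Sy) ≤ r := Real.sqrt_le_iff.mpr ⟨h0.le, by linarith⟩
    refine ⟨by linarith [min_le_left (Real.sqrt (g / 2)) (1 - 2 * r)],
      by linarith [min_le_right (Real.sqrt (g / 2)) (1 - 2 * r)], ?_⟩
    have u2 : Real.sqrt (r ^ 2 - Sy) ^ 2 = r ^ 2 - Sy := Real.sq_sqrt (by linarith)
    have v2 : Real.sqrt (r ^ 2 - Sx) ^ 2 = r ^ 2 - Sx := Real.sq_sqrt (by linarith)
    have v0 := Real.sqrt_nonneg (r ^ 2 - Sx)
    set u := Real.sqrt (r ^ 2 - Sy)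
    set v := Real.sqrt (r ^ 2 - Sx)
    have e : |u - v| * (u + v) = |Sy - Sx| := by
      rw [← abs_of_nonneg (show 0 ≤ u + v by linarith), ← abs_mul, abs_sub_comm Sy]
      congr 1
      linear_combination u2 - v2
    rw [← mul_sub, abs_mul, abs_two, div_mul_eq_mul_div, le_div_iff₀ w0]
    have := mul_le_mul_of_nonneg_left (show Real.sqrt (g / 2) ≤ u + v by linarith) (abs_nonneg (u - v))
    linarith
  · by_cases k : r ^ 2 ≤ ∑ j ∈ J', tau (x j - c j) ^ 2
    · exact Or.inr (Or.inl (by rw [Real.sqrt_eq_zero_of_nonpos (by linarith), mul_zero]))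
    · left
      set v : E3 := WithLp.toLp 2 fun j => ((-round (x j - c j) : ℤ) : ℝ) with hv
      have e : ∑ j ∈ J', ((x + v) j - c j) ^ 2 = ∑ j ∈ J', tau (x j - c j) ^ 2 :=
        Finset.sum_congr rfl fun j _ => by
          unfold tau
          rw [sq_abs]
          congr 1
          simp only [hv, PiLp.add_apply, Int.cast_neg]
          ring
      set S := ∑ j ∈ J', tau (x j - c j) ^ 2
      have S0 : 0 ≤ S := Finset.sum_nonneg fun j _ => sq_nonneg _
      have s1 : Real.sqrt S < r := (Real.sqrt_lt' h0).mpr (not_le.mp k)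
      obtain ⟨n, hn⟩ := exists_nat_ge (max (r / (r - Real.sqrt S)) ‖x + v‖)
      refine ⟨n, v, fun j => ⟨_, rfl⟩, ?_, by simpa using (le_max_right _ _).trans hn⟩
      show ∑ j ∈ J', ((x + v) j - c j) ^ 2 ≤ ρ n ^ 2
      rw [e, ← Real.sq_sqrt S0]
      refine pow_le_pow_left₀ (Real.sqrt_nonneg _) ?_ 2
      have a1 := (le_max_left _ _).trans hn
      rw [div_le_iff₀ (by linarith)] at a1
      have a2 : r * (1 / ((n : ℝ) + 2)) ≤ r - Real.sqrt S := by
        rw [mul_one_div, div_le_iff₀ (by positivity)]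
        nlinarith
      simp only [hρ]
      linarith

/-- one backward step -/
theorem back_step {G : Set E3} (hG : PS G) {i : Fin 3} {p : ℝ} (h : PLe G p)
    (h' : PGe (St i G) p) {J : Finset (Fin 3)} {c : E3} {r : ℝ} (h0 : 0 < r) (hr : r < 1 / 2)
    (hM : St i G =ᵐ[volume] Mod J c r) : ∃ c' : E3, G =ᵐ[volume] Mod J c' r := by
  have hl : fl G i =ᵐ[volume] fl (Mod J c r) i := by
    rw [← fl_St G i]
    exact fl_congr (hG.st i) (Mod_ps J c r) i hM
  by_cases hi : i ∈ J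
  · obtain ⟨K, hK⟩ := rigData_Mod (J := J) (i := i) c h0 hr
    have e : fl (Mod J c r) i =
        fun x => 2 * Real.sqrt (r ^ 2 - ∑ j ∈ J.erase i, tau (x j - c j) ^ 2) := by
      funext x
      unfold fl
      rw [fib_Mod hi c h0.le, len_arc _ (by positivity)]
      have : Real.sqrt (r ^ 2 - ∑ j ∈ J.erase i, tau (x j - c j) ^ 2) ≤ r :=
        Real.sqrt_le_iff.mpr ⟨h0.le, by
          linarith [Finset.sum_nonneg fun j (_ : j ∈ J.erase i) => sq_nonneg (tau (x j - c j))]⟩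
      linarith
    obtain ⟨a, ha⟩ := steiner_rigid hG h h' hK (e ▸ hl)
    refine ⟨c + (a - c i) • ev i, ha.trans (EventuallyEq.of_eq ?_)⟩
    ext x
    have e1 : (c + (a - c i) • ev i) i = a := by simp [ev]
    have e2 : ∑ j ∈ J.erase i, tau (x j - (c + (a - c i) • ev i) j) ^ 2 =
        ∑ j ∈ J.erase i, tau (x j - c j) ^ 2 :=
      Finset.sum_congr rfl fun j hj => by rw [t9c_ev c _ (Finset.ne_of_mem_erase hj)]
    show tau (x i - a) < 2 * Real.sqrt (r ^ 2 - ∑ j ∈ J.erase i, tau (x j - c j) ^ 2) / 2 ↔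
      ∑ j ∈ J, tau (x j - (c + (a - c i) • ev i) j) ^ 2 < r ^ 2
    rw [← Finset.add_sum_erase J _ hi, e1, e2, mul_div_cancel_left₀ _ two_ne_zero,
      Real.lt_sqrt (tau_nonneg _), lt_sub_iff_add_lt]
  · refine ⟨c, ae_eq_of_fib hG (Mod_ps J c r) i ?_⟩
    rw [fl_Mod_not hi] at hl
    filter_upwards [hl] with x hx
    have e : ∀ s, s ∈ fib (Mod J c r) i x ↔ x ∈ Mod J c r := fun s => by
      show ∑ j ∈ J, tau ((x + (s - x i) • ev i) j - c j) ^ 2 < r ^ 2 ↔ _
      rw [Finset.sum_congr rfl fun j hj => by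
        rw [t9c_ev x _ (show j ≠ i from fun k => hi (k ▸ hj))]]
      rfl
    by_cases k : x ∈ Mod J c r
    · rw [eq_univ_of_forall fun s => (e s).mpr k]
      exact ae_univ_of_len (hG.fib i x) (hx.trans (indicator_of_mem k _))
    · rw [eq_empty_of_forall_notMem fun s hs => k ((e s).mp hs)]
      exact ae_empty_of_len (hG.fib i x) (hx.trans (indicator_of_notMem k _))

end Crest.Agent.R214
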