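import Crest.Agent.R214.D6
import Crest.Agent.R214.T9
import Crest.Agent.R214.T10

/-! Block Fin: assembly.  `E₃ = St 2 (St 1 (St 0 E))` is monotone in all directions; `toD E₃`,
`cal_of_div`, `div_le_of_PLe`, `mainD`.  `rigid`: all symmetrisations have perimeter at least `2 Iq V`
(`lower`, `PGe.of_forall`), `ae_Mod_of_toD`, three times `back_step`. -/

set_option autoImplicit false
set_option linter.unusedVariables false
open MeasureTheory Set Filter Metric
open scoped Topology ENNReal NNReal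
open Crest.GeometryTopology.PeriodicPerimeter

noncomputable section
namespace Crest.Agent.R214

/-- the admissible types and radii at volume `V ≤ 1/2` -/
def Typ (V : ℝ) (k : ℕ) (r : ℝ) : Prop :=
  (k = 3 ∧ r = (3 * V / (4 * Real.pi)) ^ ((1 : ℝ) / 3) ∧ V ≤ 4 * Real.pi / 81) ∨
  (k = 2 ∧ r = Real.sqrt (V / Real.pi) ∧ 4 * Real.pi / 81 ≤ V ∧ V ≤ 1 / Real.pi) ∨
  (k = 1 ∧ r = V / 2 ∧ 1 / Real.pi ≤ V)

theorem fin_core {E : Set E3} (hE : PS E) {V p : ℝ} (hV : 0 < V) (hV' : V ≤ 1 / 2)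
    (hvol : periodicVolume E = V) (hp : PLe E p) :
    (∀ i, Mono i (St 2 (St 1 (St 0 E)))) ∧ Iq V ≤ p / 2 ∧
      (p / 2 ≤ Iq V → Cls (toD (St 2 (St 1 (St 0 E)))) V) := by
  have h0 := hE.st 0
  have h1 := h0.st 1
  have h2 := h1.st 2
  have hm : ∀ i, Mono i (St 2 (St 1 (St 0 E))) := fun i => by
    fin_cases i
    · exact ((mono_St 0 E).st (by decide)).st (by decide)
    · exact (mono_St 1 _).st (by decide)
    · exact mono_St 2 _
  have hp2 : PLe (St 2 (St 1 (St 0 E))) p := PLe.st h1 2 (PLe.st h0 1 (PLe.st hE 0 hp))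
  have hD := down_toD h2 hm
  have hc : Cal _ (p / 2) := cal_of_div hD fun φ hφ => div_le_of_PLe h2 hm hp2 hφ
  have hv : vol3 (toD (St 2 (St 1 (St 0 E)))) = V := by
    rw [vol3_toD h2 hm, periodicVolume_St h1, periodicVolume_St h0, periodicVolume_St hE, hvol]
  have := mainD hD hc (hv ▸ hV) (hv ▸ hV')
  rw [hv] at this
  exact ⟨hm, this⟩

theorem lower {E : Set E3} (hE : PS E) {V p : ℝ} (hV : 0 < V) (hV' : V ≤ 1 / 2)
    (hvol : periodicVolume E = V) (hp : PLe E p) : 2 * Iq V ≤ p := by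
  linarith [(fin_core hE hV hV' hvol hp).2.1]

theorem rigid {E : Set E3} (hE : PS E) {V : ℝ} (hV : 0 < V) (hV' : V ≤ 1 / 2)
    (hvol : periodicVolume E = V) (hp : PLe E (2 * Iq V)) :
    ∃ (J : Finset (Fin 3)) (c : E3) (r : ℝ), Typ V J.card r ∧ E =ᵐ[volume] Mod J c r := by
  obtain ⟨hm, -, hC⟩ := fin_core hE hV hV' hvol hp
  obtain ⟨J, ρ, hD, r0, r1, hT⟩ := hC (by linarith)
  have h0 := hE.st 0
  have h1 := h0.st 1
  have h2 := h1.st 2
  have v0 : periodicVolume (St 0 E) = V := by rw [periodicVolume_St hE, hvol]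
  have v1 : periodicVolume (St 1 (St 0 E)) = V := by rw [periodicVolume_St h0, v0]
  have v2 : periodicVolume (St 2 (St 1 (St 0 E))) = V := by rw [periodicVolume_St h1, v1]
  have p0 := PLe.st hE 0 hp
  have p1 := PLe.st h0 1 p0
  have a3 := ae_Mod_of_toD h2 hm hD
  have q0 : 0 < ρ / 2 := by linarith
  have q1 : ρ / 2 < 1 / 2 := by linarith
  obtain ⟨c2, a2⟩ := back_step h1 p1 (PGe.of_forall fun q hq => lower h2 hV hV' v2 hq) q0 q1 a3
  obtain ⟨c1, a1⟩ := back_step h0 p0 (PGe.of_forall fun q hq => lower h1 hV hV' v1 hq) q0 q1 a2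
  obtain ⟨c0, a0⟩ := back_step hE hp (PGe.of_forall fun q hq => lower h0 hV hV' v0 hq) q0 q1 a1
  refine ⟨J, c0, ρ / 2, ?_, a0⟩
  have hp := Real.pi_pos
  rcases hT with ⟨k, e, l⟩ | ⟨k, e, l1, l2⟩ | ⟨k, e, l⟩
  · refine Or.inl ⟨k, ?_, l⟩
    have : 3 * V / (4 * Real.pi) = (ρ / 2) ^ 3 := by rw [e]; field_simp; ring
    rw [this, ← Real.rpow_natCast, ← Real.rpow_mul q0.le]
    norm_num
  · refine Or.inr (Or.inl ⟨k, ?_, l1, l2⟩)
    have : V / Real.pi = (ρ / 2) ^ 2 := by rw [e]; field_simp; ring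
    rw [this, Real.sqrt_sq q0.le]
  · exact Or.inr (Or.inr ⟨k, by rw [e], l⟩)

theorem Typ.facts {V r : ℝ} {k : ℕ} (hV : 0 < V) (hV' : V ≤ 1 / 2) (h : Typ V k r) :
    0 < r ∧ r < 1 / 2 ∧ 0 < k ∧ mvol k r = V ∧ mper k r = 2 * Iq V := by
  obtain ⟨s1, s2, s3, s4⟩ := sph_le_iff hV
  have hp := Real.pi_pos
  have p3 := Real.pi_gt_three
  have p4 := Real.pi_lt_four
  have k12 : 4 * Real.pi / 81 ≤ 1 / Real.pi := by
    rw [div_le_div_iff₀ (by norm_num) hp]; nlinarith
  rcases h with ⟨rfl, e, l⟩ | ⟨rfl, e, l1, l2⟩ | ⟨rfl, e, l⟩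
  · have r0 : 0 < r := by rw [e]; positivity
    have r3 : r ^ 3 = 3 * V / (4 * Real.pi) := by
      rw [e, ← Real.rpow_natCast, ← Real.rpow_mul (by positivity)]
      norm_num
    have r3' : 4 * Real.pi * r ^ 3 / 3 = V := by rw [r3]; field_simp
    have eB : rB V = 2 * r := by
      rw [← pow_left_inj₀ (rB_pos hV).le (by positivity) three_ne_zero]
      have := rB_cube hV.le
      have k : Real.pi * rB V ^ 3 = Real.pi * (2 * r) ^ 3 := by linarith
      exact mul_left_cancel₀ hp.ne' k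
    refine ⟨r0, ?_, by norm_num, by simpa [mvol] using r3', ?_⟩
    · by_contra hn
      have : (1 / 2) ^ 3 ≤ r ^ 3 := pow_le_pow_left₀ (by norm_num) (not_lt.mp hn) 3
      nlinarith
    · unfold Iq
      rw [min_eq_left (s1.mpr l), min_eq_left ((s1.mpr l).trans (s3.mpr (l.trans k12))), eB]
      simp only [mper]
      norm_num
      ring
  · have r0 : 0 < r := by rw [e]; positivity
    have r2 : Real.pi * r ^ 2 = V := by rw [e, Real.sq_sqrt (by positivity)]; field_simp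
    refine ⟨r0, ?_, by norm_num, by simpa [mvol] using r2, ?_⟩
    · by_contra hn
      have : (1 / 2) ^ 2 ≤ r ^ 2 := pow_le_pow_left₀ (by norm_num) (not_lt.mp hn) 2
      nlinarith
    · unfold Iq
      rw [min_eq_right (s2.mpr l1), min_eq_left (s3.mpr l2), ← r2]
      have : Real.pi * (Real.pi * r ^ 2) = (Real.pi * r) ^ 2 := by ring
      rw [this, Real.sqrt_sq (by positivity)]
      simp only [mper]
      norm_num
      ring
  · refine ⟨by linarith, by linarith, by norm_num, by simp only [mvol]; norm_num; linarith, ?_⟩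
    unfold Iq
    rw [min_eq_right (s2.mpr (k12.trans l)), min_eq_right (s4.mpr l)]
    simp [mper]

theorem exists_Typ {V : ℝ} (hV : 0 < V) : ∃ (J : Finset (Fin 3)) (r : ℝ), Typ V J.card r := by
  rcases le_total V (4 * Real.pi / 81) with c | c
  · exact ⟨Finset.univ, _, Or.inl ⟨rfl, rfl, c⟩⟩
  · rcases le_total V (1 / Real.pi) with d | d
    · exact ⟨{0, 1}, _, Or.inr (Or.inl ⟨rfl, rfl, c, d⟩)⟩
    · exact ⟨{0}, _, Or.inr (Or.inr ⟨rfl, rfl, d⟩)⟩

theorem standard_iff {V : ℝ} (hV : 0 < V) {E : Set E3} :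
    IsStandardRegion V E ↔
      ∃ (J : Finset (Fin 3)) (c : E3) (r : ℝ), Typ V J.card r ∧ E =ᵐ[volume] Mod J c r := by
  have hp := Real.pi_pos
  have b : periodicBall ((3 * V / (4 * Real.pi)) ^ ((1 : ℝ) / 3)) =ᵐ[volume]
      Mod Finset.univ 0 ((3 * V / (4 * Real.pi)) ^ ((1 : ℝ) / 3)) := by
    rw [periodicBall_eq (by positivity)]
  have t : periodicTube (Real.sqrt (V / Real.pi)) =ᵐ[volume]
      Mod {0, 1} 0 (Real.sqrt (V / Real.pi)) := by rw [periodicTube_eq]
  have s := periodicSlab_ae hV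
  unfold IsStandardRegion
  rw [congruent_iff b, congruent_iff t, congruent_iff s]
  constructor
  · rintro (⟨l, J, c, k, e⟩ | ⟨l1, l2, J, c, k, e⟩ | ⟨l, J, c, k, e⟩)
    · exact ⟨J, c, _, Or.inl ⟨k, rfl, l⟩, e⟩
    · exact ⟨J, c, _, Or.inr (Or.inl ⟨k, rfl, l1, l2⟩), e⟩
    · exact ⟨J, c, _, Or.inr (Or.inr ⟨k, rfl, l⟩), e⟩
  · rintro ⟨J, c, r, ⟨k, rfl, l⟩ | ⟨k, rfl, l1, l2⟩ | ⟨k, rfl, l⟩, e⟩
    · exact Or.inl ⟨l, J, c, k, e⟩
    · exact Or.inr (Or.inl ⟨l1, l2, J, c, k, e⟩)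
    · exact Or.inr (Or.inr ⟨l, J, c, k, e⟩)

theorem fin_Iq_nonneg (V : ℝ) : 0 ≤ 2 * Iq V := by
  have hp := Real.pi_pos
  have : 0 ≤ Iq V := le_min (le_min (by positivity) (Real.sqrt_nonneg _)) zero_le_one
  linarith

theorem half_iff {E : Set E3} (hE : PS E) {V : ℝ} (hV : 0 < V) (hV' : V ≤ 1 / 2)
    (hvol : periodicVolume E = V) :
    periodicPerimeter E = ENNReal.ofReal (2 * Iq V) ↔ IsStandardRegion V E := by
  rw [standard_iff hV]
  constructor
  · intro h
    exact rigid hE hV hV' hvol ((perimeter_le_iff (fin_Iq_nonneg V)).mp h.le)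
  · rintro ⟨J, c, r, hT, e⟩
    obtain ⟨r0, r1, k0, -, k2⟩ := hT.facts hV hV'
    refine le_antisymm ((perimeter_le_iff (fin_Iq_nonneg V)).mpr ?_)
      (le_perimeter fun q hq => lower hE hV hV' hvol hq)
    rw [← k2]
    exact PLe.congr e.symm (per_Mod (Finset.card_pos.mp k0) c r0 r1)

theorem fin_compl_le {E : Set E3} (hE : MeasurableSet E) :
    periodicPerimeter Eᶜ ≤ periodicPerimeter E := by
  by_cases c : periodicPerimeter E = ⊤
  · rw [c]; exact le_top
  · rw [← ENNReal.ofReal_toReal c]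
    exact (perimeter_le_iff ENNReal.toReal_nonneg).mpr (PLe.compl hE
      ((perimeter_le_iff ENNReal.toReal_nonneg).mp (ENNReal.ofReal_toReal c).ge))

theorem perimeter_compl {E : Set E3} (hE : MeasurableSet E) :
    periodicPerimeter Eᶜ = periodicPerimeter E := by
  refine le_antisymm (fin_compl_le hE) ?_
  have := fin_compl_le hE.compl
  rwa [compl_compl] at this

theorem fin_exists {V : ℝ} (hV : 0 < V) (hV' : V ≤ 1 / 2) :
    ∃ E : Set E3, PS E ∧ periodicVolume E = V ∧ periodicPerimeter E = ENNReal.ofReal (2 * Iq V) := by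
  obtain ⟨J, r, hT⟩ := exists_Typ hV
  obtain ⟨r0, r1, k0, k1, -⟩ := hT.facts hV hV'
  have v : periodicVolume (Mod J 0 r) = V := by
    rw [vol_Mod (Finset.card_pos.mp k0) 0 r0.le r1.le, k1]
  exact ⟨Mod J 0 r, Mod_ps J 0 r, v, (half_iff (Mod_ps J 0 r) hV hV' v).mpr
    ((standard_iff hV).mpr ⟨J, 0, r, hT, EventuallyEq.rfl⟩)⟩

theorem s0332 (V : ℝ) (hV : 0 < V) (hV' : V < 1) :
    (∀ E : Set E3, MeasurableSet E → IsLatticePeriodic E → periodicVolume E = V →
        ENNReal.ofReal (2 * Iq (min V (1 - V))) ≤ periodicPerimeter E) ∧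
      ∃ E : Set E3, MeasurableSet E ∧ IsLatticePeriodic E ∧ periodicVolume E = V ∧
        periodicPerimeter E = ENNReal.ofReal (2 * Iq (min V (1 - V))) := by
  rcases le_total V (1 - V) with c | c
  · rw [min_eq_left c]
    refine ⟨fun E hE hper hvol => le_perimeter fun q hq =>
      lower ⟨hE, hper⟩ hV (by linarith) hvol hq, ?_⟩
    obtain ⟨E, hE, v, p⟩ := fin_exists hV (by linarith)
    exact ⟨E, hE.meas, hE.per, v, p⟩
  · rw [min_eq_right c]
    refine ⟨fun E hE hper hvol => ?_, ?_⟩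
    · rw [← perimeter_compl hE]
      exact le_perimeter fun q hq => lower (PS.compl ⟨hE, hper⟩) (by linarith) (by linarith)
        (by rw [periodicVolume_compl hE, hvol]) hq
    · obtain ⟨E, hE, v, p⟩ := fin_exists (V := 1 - V) (by linarith) (by linarith)
      exact ⟨Eᶜ, hE.compl.meas, hE.compl.per, by rw [periodicVolume_compl hE.meas, v]; ring,
        by rw [perimeter_compl hE.meas, p]⟩

theorem s0333 (V : ℝ) (hV : 0 < V) (hV' : V < 1) (E : Set E3) (hE : MeasurableSet E)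
    (hper : IsLatticePeriodic E) (hvol : periodicVolume E = V) :
    periodicPerimeter E = ENNReal.ofReal (2 * Iq (min V (1 - V))) ↔
      ((V ≤ 1 / 2 ∧ IsStandardRegion V E) ∨ (1 / 2 < V ∧ IsStandardRegion (1 - V) Eᶜ)) := by
  rcases le_or_gt V (1 / 2) with c | c
  · rw [min_eq_left (by linarith), half_iff ⟨hE, hper⟩ hV c hvol]
    exact ⟨fun h => Or.inl ⟨c, h⟩, fun h => h.elim (fun k => k.2) fun k => absurd k.1 (not_lt.mpr c)⟩
  · rw [min_eq_right (by linarith), ← perimeter_compl hE,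
      half_iff (PS.compl ⟨hE, hper⟩) (by linarith) (by linarith)
        (by rw [periodicVolume_compl hE, hvol])]
    exact ⟨fun h => Or.inr ⟨c, h⟩, fun h => h.elim (fun k => absurd k.1 (not_le.mpr c)) fun k => k.2⟩

end Crest.Agent.R214
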