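import Crest.Agent.R214.N1

/-! Block N2: soundness of the checker.
`ratio_sound`: with `q τ = R τ * A τ - m τ` one has
`q τ = (1 - τ) q 0 + τ q 1 - τ (1 - τ) ΔR ΔA`.
`cell_sound` replaces `(R0, R1)` by `(1, 1)` when one of them exceeds `1` (then use `m ≤ A ≤ L`).
`cells_sound`: induction on the list, gluing by `if z < z1 then … else …`. -/

set_option autoImplicit false
set_option linter.unusedVariables false
open MeasureTheory Set Filter Metric
open scoped Topology ENNReal NNReal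
open Crest.GeometryTopology.PeriodicPerimeter

noncomputable section
namespace Crest.Agent.R214

/-- the three inequalities at the level `z` -/
def Lev (b : Box) (k : Prm) (z R p q : ℝ) : Prop :=
  ((b.q0 : ℝ) ≤ z → ∀ x : ℝ, (k.e1 : ℝ) ≤ x → x ≤ 1 - b.s0 → (0 < x ∨ z = 1) →
    k.l * z + k.c + k.o1 ≤ R * val (1 - z) x) ∧
  ((b.p0 : ℝ) ≤ z → z ≤ b.q1 →
    k.l * z + k.c + k.o2 ≤ R * (p * (b.w0 - z) + q * (z - b.s1) + Gf p q)) ∧
  (z ≤ b.p1 → ∀ x : ℝ, (k.e3 : ℝ) ≤ x → x ≤ b.w1 → (0 < x ∨ z = 0) →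
    k.l * z + k.c ≤ R * val z x)

theorem rd_le (q : ℚ) : rd q ≤ q := by
  unfold rd
  rw [Rat.mkRat_eq_div]
  have hd : (0 : ℚ) < q.den := by exact_mod_cast q.den_pos
  have h : q.num * 4294967296 / (q.den : ℤ) * (q.den : ℤ) ≤ q.num * 4294967296 :=
    Int.ediv_mul_le _ (by exact_mod_cast q.den_nz)
  have h' : ((q.num * 4294967296 / (q.den : ℤ) : ℤ) : ℚ) * q.den ≤ q.num * 4294967296 := by
    exact_mod_cast h
  have e : (q.num : ℚ) = q * q.den := by
    have := Rat.num_div_den q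
    field_simp at this ⊢
    linarith
  rw [div_le_iff₀ (by norm_num)]
  rw [e] at h'
  push_cast
  have : ((q.num * 4294967296 / (q.den : ℤ) : ℤ) : ℚ) * q.den ≤ q * 4294967296 * q.den := by
    linarith
  exact le_of_mul_le_mul_right this hd

theorem le_ru (q : ℚ) : q ≤ ru q := by
  unfold ru
  have := rd_le (-q)
  linarith

theorem piLo_le : (piLo : ℝ) ≤ Real.pi := by
  unfold piLo
  rw [Rat.mkRat_eq_div]
  have := Real.pi_gt_d6
  push_cast
  linarith

theorem le_piHi : Real.pi ≤ (piHi : ℝ) := by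
  unfold piHi
  rw [Rat.mkRat_eq_div]
  have := Real.pi_lt_d6
  push_cast
  linarith

theorem n2a_ite (y q : ℚ) : (((if y * y ≤ q then y else 0 : ℚ)) : ℝ) ≤ Real.sqrt q := by
  split_ifs with h
  · have h' : (y : ℝ) ^ 2 ≤ q := by
      have : ((y * y : ℚ) : ℝ) ≤ q := by exact_mod_cast h
      push_cast at this
      linarith [sq (y : ℝ)]
    exact (le_abs_self _).trans (Real.abs_le_sqrt h')
  · simp

theorem sqLo_le (q : ℚ) : (sqLo q : ℝ) ≤ Real.sqrt q := by
  unfold sqLo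
  exact n2a_ite _ _

theorem capLo_le {e w z : ℚ} (hz : 0 ≤ z) {x : ℝ} (he : (e : ℝ) ≤ x) (hw : x ≤ w) (hx : 0 < x) :
    (capLo e w z : ℝ) ≤ val z x := by
  have hz' : (0 : ℝ) ≤ z := by exact_mod_cast hz
  have hlo := piLo_le
  have hhi := le_piHi
  unfold capLo
  split_ifs with c1 c2
  · obtain ⟨e0, e1⟩ := c1
    have e0' : (0 : ℝ) < e := by exact_mod_cast e0
    have e1' : 4 * (z : ℝ) ≤ piLo * e * e := by exact_mod_cast e1
    have h1 : ((rd (z / e + piLo * e / 4) : ℚ) : ℝ) ≤ z / e + piLo * e / 4 := by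
      exact_mod_cast rd_le _
    have h2 : val z e ≤ val z x := val_mono e0' he (by nlinarith [mul_pos e0' e0'])
    refine h1.trans (le_trans ?_ h2)
    unfold val
    nlinarith
  · obtain ⟨e0, e1⟩ := c2
    have e0' : (0 : ℝ) < w := by exact_mod_cast e0
    have e1' : (piHi : ℝ) * w * w ≤ 4 * z := by exact_mod_cast e1
    have h1 : ((rd (z / w + piLo * w / 4) : ℚ) : ℝ) ≤ z / w + piLo * w / 4 := by
      exact_mod_cast rd_le _
    have h2 : val z w ≤ val z x := val_anti hx hw (by nlinarith [mul_pos e0' e0'])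
    refine h1.trans (le_trans ?_ h2)
    unfold val
    nlinarith
  · refine (sqLo_le _).trans (le_trans ?_ (sqrt_le_val hz' (Or.inl hx)))
    apply Real.sqrt_le_sqrt
    push_cast
    nlinarith

theorem capLo_zero {e w : ℚ} (he : e ≤ 0) : capLo e w 0 ≤ 0 := by
  unfold capLo
  split_ifs with c1 c2
  · exact absurd c1.1 (not_lt.mpr he)
  · exfalso
    have hp : (0 : ℚ) < piHi := by
      have : (0 : ℝ) < piHi := lt_of_lt_of_le Real.pi_pos le_piHi
      exact_mod_cast this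
    have := mul_pos (mul_pos hp c2.1) c2.1
    linarith [c2.2]
  · have := sqLo_le (piLo * 0)
    simp only [mul_zero, Rat.cast_zero, Real.sqrt_zero] at this ⊢
    exact_mod_cast this

theorem n2a_clamp (a : ℚ) : 0 ≤ clampPhi a ∧ clampPhi a ≤ 7 / 8 := by
  unfold clampPhi
  dsimp only
  split_ifs with c1 c2
  · norm_num
  · norm_num
  · exact ⟨(not_le.mp c1).le, (not_le.mp c2).le⟩

theorem phi_mem (X Y : ℚ) :
    (0 ≤ (phi X Y).1 ∧ (phi X Y).1 ≤ 7 / 8) ∧ (0 ≤ (phi X Y).2 ∧ (phi X Y).2 ≤ 7 / 8) := by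
  unfold phi
  by_cases c : X ≤ 0 ∧ Y ≤ 0
  · rw [if_pos c]; norm_num
  · rw [if_neg c]
    exact ⟨n2a_clamp _, n2a_clamp _⟩

theorem Gq_cast (p q : ℚ) : (Gq p q : ℝ) = Gf p q := by
  unfold Gq Gf
  push_cast
  ring

/-- for every `L ≥ A τ`: the line is below `R τ * L` for all larger nonnegative `R`, and below `L` -/
theorem ratio_sound {m0 m1 A0 A1 r0 r1 : ℚ} (h : ratio m0 m1 A0 A1 = some (r0, r1)) {τ : ℝ}
    (h0 : 0 ≤ τ) (h1 : τ ≤ 1) {L : ℝ} (hL : (1 - τ) * A0 + τ * A1 ≤ L) :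
    (∀ R0 R1 : ℝ, 0 ≤ R0 → 0 ≤ R1 → (r0 : ℝ) ≤ R0 → (r1 : ℝ) ≤ R1 →
      (1 - τ) * m0 + τ * m1 ≤ ((1 - τ) * R0 + τ * R1) * L) ∧ (1 - τ) * m0 + τ * m1 ≤ L := by
  unfold ratio at h
  have h1' : 0 ≤ 1 - τ := by linarith
  split_ifs at h with c1 c2 c3 c4
  · have a0 : (0 : ℝ) ≤ A0 := by exact_mod_cast not_lt.mp (fun h => c1 (Or.inl h))
    have a1 : (0 : ℝ) ≤ A1 := by exact_mod_cast not_lt.mp (fun h => c1 (Or.inr h))
    have b0 : (m0 : ℝ) ≤ 0 := by exact_mod_cast c2.1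
    have b1 : (m1 : ℝ) ≤ 0 := by exact_mod_cast c2.2
    have hL0 : 0 ≤ L := le_trans (by positivity) hL
    have hm : (1 - τ) * m0 + τ * m1 ≤ 0 := by nlinarith
    refine ⟨fun R0 R1 p0 p1 _ _ => hm.trans (by positivity), hm.trans hL0⟩
  · have a0 : (0 : ℝ) < A0 := by exact_mod_cast c4.1
    have a1 : (0 : ℝ) < A1 := by exact_mod_cast c4.2
    have b0 : (m0 : ℝ) ≤ A0 := by exact_mod_cast c3.1
    have b1 : (m1 : ℝ) ≤ A1 := by exact_mod_cast c3.2
    refine ⟨fun R0 R1 p0 p1 q0 q1 => ?_, by nlinarith⟩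
    simp only [Option.some.injEq, Prod.mk.injEq] at h
    obtain ⟨e0, e1⟩ := h
    set s0 := ru (m0 / A0) with hs0
    set s1 := ru (m1 / A1) with hs1
    set d := (s1 - s0) * (A1 - A0) with hd
    set pad := (if 0 < d then ru (d / (4 * min A0 A1)) else 0) with hpad
    have u0 : (m0 : ℝ) ≤ s0 * A0 := by
      have : ((m0 / A0 : ℚ) : ℝ) ≤ s0 := by exact_mod_cast le_ru _
      push_cast at this
      rwa [div_le_iff₀ a0] at this
    have u1 : (m1 : ℝ) ≤ s1 * A1 := by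
      have : ((m1 / A1 : ℚ) : ℝ) ≤ s1 := by exact_mod_cast le_ru _
      push_cast at this
      rwa [div_le_iff₀ a1] at this
    have hmin : (0 : ℝ) < min (A0 : ℝ) A1 := lt_min a0 a1
    have hA : min (A0 : ℝ) A1 ≤ (1 - τ) * A0 + τ * A1 := by
      nlinarith [min_le_left (A0 : ℝ) A1, min_le_right (A0 : ℝ) A1]
    have hd' : (d : ℝ) = ((s1 : ℝ) - s0) * (A1 - A0) := by rw [hd]; push_cast; ring
    have hp : τ * (1 - τ) * d ≤ pad * ((1 - τ) * A0 + τ * A1) := by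
      by_cases c : 0 < d
      · have c' : (0 : ℝ) < d := by exact_mod_cast c
        have : ((d / (4 * min A0 A1) : ℚ) : ℝ) ≤ pad := by
          rw [hpad, if_pos c]; exact_mod_cast le_ru _
        push_cast at this
        rw [div_le_iff₀ (by positivity)] at this
        have hp0 : (0 : ℝ) ≤ pad := by
          by_contra hn
          have := mul_neg_of_neg_of_pos (not_le.mp hn) (show (0 : ℝ) < 4 * min (A0 : ℝ) A1 by positivity)
          linarith
        have h4 : τ * (1 - τ) ≤ 1 / 4 := by nlinarith [sq_nonneg (τ - 1 / 2)]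
        have := mul_le_mul_of_nonneg_left hA hp0
        nlinarith
      · have c' : (d : ℝ) ≤ 0 := by exact_mod_cast not_lt.mp c
        have : (pad : ℝ) = 0 := by rw [hpad, if_neg c]; simp
        rw [this, zero_mul]
        exact mul_nonpos_of_nonneg_of_nonpos (mul_nonneg h0 h1') c'
    have q0' : (s0 : ℝ) + pad ≤ R0 := by rw [← e0] at q0; exact_mod_cast q0
    have q1' : (s1 : ℝ) + pad ≤ R1 := by rw [← e1] at q1; exact_mod_cast q1
    have hR : (1 - τ) * s0 + τ * s1 + pad ≤ (1 - τ) * R0 + τ * R1 := by nlinarith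
    have hR0 : 0 ≤ (1 - τ) * R0 + τ * R1 := by positivity
    have k1 := mul_le_mul_of_nonneg_left hL hR0
    have k2 := mul_le_mul_of_nonneg_right hR (hmin.le.trans hA)
    have k3 : ((1 - τ) * s0 + τ * s1) * ((1 - τ) * A0 + τ * A1) =
        (1 - τ) * (s0 * A0) + τ * (s1 * A1) - τ * (1 - τ) * d := by rw [hd']; ring
    have k4 := mul_le_mul_of_nonneg_left u0 h1'
    have k5 := mul_le_mul_of_nonneg_left u1 h0
    nlinarith
  · have a0 : (0 : ℝ) ≤ A0 := by exact_mod_cast not_lt.mp (fun h => c1 (Or.inl h))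
    have a1 : (0 : ℝ) ≤ A1 := by exact_mod_cast not_lt.mp (fun h => c1 (Or.inr h))
    have b0 : (m0 : ℝ) ≤ A0 := by exact_mod_cast c3.1
    have b1 : (m1 : ℝ) ≤ A1 := by exact_mod_cast c3.2
    have hL0 : 0 ≤ L := le_trans (by positivity) hL
    have hm : (1 - τ) * m0 + τ * m1 ≤ L := by nlinarith
    refine ⟨fun R0 R1 p0 p1 q0 q1 => ?_, hm⟩
    simp only [Option.some.injEq, Prod.mk.injEq] at h
    obtain ⟨e0, e1⟩ := h
    rw [← e0] at q0
    rw [← e1] at q1
    push_cast at q0 q1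
    have : 1 ≤ (1 - τ) * R0 + τ * R1 := by nlinarith
    nlinarith

theorem n2a_conc {R0 R1 τ : ℝ} (h0 : 0 ≤ R0 ∧ R0 ≤ 1) (h1 : 0 ≤ R1 ∧ R1 ≤ 1) (t0 : 0 ≤ τ)
    (t1 : τ ≤ 1) : Real.sqrt (1 - R0 ^ 2) + τ * (Real.sqrt (1 - R1 ^ 2) - Real.sqrt (1 - R0 ^ 2)) ≤
      Real.sqrt (1 - (R0 + τ * (R1 - R0)) ^ 2) := by
  set s0 := Real.sqrt (1 - R0 ^ 2)
  set s1 := Real.sqrt (1 - R1 ^ 2)
  have e0 : s0 ^ 2 = 1 - R0 ^ 2 := Real.sq_sqrt (by nlinarith [h0.1, h0.2])
  have e1 : s1 ^ 2 = 1 - R1 ^ 2 := Real.sq_sqrt (by nlinarith [h1.1, h1.2])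
  refine (le_abs_self _).trans (Real.abs_le_sqrt ?_)
  have c : s0 * s1 + R0 * R1 ≤ 1 := by nlinarith [sq_nonneg (s0 - s1), sq_nonneg (R0 - R1)]
  have t2 : 0 ≤ τ * (1 - τ) := mul_nonneg t0 (by linarith)
  have := mul_le_mul_of_nonneg_left c t2
  have k : (s0 + τ * (s1 - s0)) ^ 2 + (R0 + τ * (R1 - R0)) ^ 2 =
      (1 - τ) ^ 2 * (s0 ^ 2 + R0 ^ 2) + τ ^ 2 * (s1 ^ 2 + R1 ^ 2) +
        2 * (τ * (1 - τ) * (s0 * s1 + R0 * R1)) := by ring
  rw [e0, e1] at k
  nlinarith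

theorem trapezoid {z0 z1 R0 R1 : ℝ} (hz : z0 < z1) (h0 : 0 ≤ R0 ∧ R0 ≤ 1) (h1 : 0 ≤ R1 ∧ R1 ≤ 1) :
    (z1 - z0) * (Real.sqrt (1 - R0 ^ 2) + Real.sqrt (1 - R1 ^ 2)) / 2 ≤
      ∫ z in Ioo z0 z1, Real.sqrt (1 - (R0 + (z - z0) / (z1 - z0) * (R1 - R0)) ^ 2) := by
  set s0 := Real.sqrt (1 - R0 ^ 2)
  set s1 := Real.sqrt (1 - R1 ^ 2)
  have hd : 0 < z1 - z0 := by linarith
  have e : ∫ z in Ioo z0 z1, (s0 + (z - z0) / (z1 - z0) * (s1 - s0)) = (z1 - z0) * (s0 + s1) / 2 := by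
    rw [← integral_Ioc_eq_integral_Ioo, ← intervalIntegral.integral_of_le hz.le]
    have : (fun z => s0 + (z - z0) / (z1 - z0) * (s1 - s0)) =
        fun z => (s0 - z0 / (z1 - z0) * (s1 - s0)) + ((s1 - s0) / (z1 - z0)) * z := by
      funext z; field_simp; ring
    rw [this, intervalIntegral.integral_add (by simp) (Continuous.intervalIntegrable (by fun_prop) _ _),
      intervalIntegral.integral_const_mul, integral_id]
    simp only [intervalIntegral.integral_const, smul_eq_mul]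
    field_simp
    ring
  rw [← e]
  refine setIntegral_mono_on ?_ ?_ measurableSet_Ioo fun z hz' => ?_
  · exact (Continuous.integrableOn_Icc (by fun_prop)).mono_set Ioo_subset_Icc_self
  · exact (Continuous.integrableOn_Icc (by fun_prop)).mono_set Ioo_subset_Icc_self
  · exact n2a_conc h0 h1 (div_nonneg (by linarith [hz'.1]) hd.le)
      ((div_le_one hd).mpr (by linarith [hz'.2]))

theorem n2b_omax {u v : Option (ℚ × ℚ)} {c d : ℚ} (h : omax u v = some (c, d)) :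
    ∃ a b a' b', u = some (a, b) ∧ v = some (a', b') ∧ c = max a a' ∧ d = max b b' := by
  rcases u with _ | ⟨a, b⟩ <;> rcases v with _ | ⟨a', b'⟩ <;> simp [omax] at h
  exact ⟨a, b, a', b', rfl, rfl, h.1.symm, h.2.symm⟩

theorem n2b_cap {e w a0 a1 : ℚ} (ha0 : 0 ≤ a0) (ha1 : 0 ≤ a1) {τ x a : ℝ} (t0 : 0 ≤ τ) (t1 : τ ≤ 1)
    (ha : a = (1 - τ) * a0 + τ * a1) (he0 : 0 ≤ e) (he : (e : ℝ) ≤ x) (hw : x ≤ w)
    (hx : 0 < x ∨ a = 0) : (1 - τ) * capLo e w a0 + τ * capLo e w a1 ≤ val a x := by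
  have t2 : 0 ≤ 1 - τ := by linarith
  by_cases c : 0 < x
  · have k0 := mul_le_mul_of_nonneg_left (capLo_le ha0 he hw c) t2
    have k1 := mul_le_mul_of_nonneg_left (capLo_le ha1 he hw c) t0
    have : val a x = (1 - τ) * val a0 x + τ * val a1 x := by
      rw [ha]; unfold val; ring
    linarith
  · have ha' : a = 0 := hx.resolve_left c
    have he0' : (0 : ℝ) ≤ e := by exact_mod_cast he0
    have hx0 : x = 0 := le_antisymm (not_lt.mp c) (he0'.trans he)
    have he1 : e ≤ 0 := by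
      have : (e : ℝ) ≤ 0 := hx0 ▸ he
      exact_mod_cast this
    have hc : ((capLo e w 0 : ℚ) : ℝ) ≤ 0 := by exact_mod_cast capLo_zero he1
    have ha0' : (0 : ℝ) ≤ a0 := by exact_mod_cast ha0
    have ha1' : (0 : ℝ) ≤ a1 := by exact_mod_cast ha1
    have m0 := mul_nonneg t2 ha0'
    have m1 := mul_nonneg t0 ha1'
    have k0 : (1 - τ) * capLo e w a0 ≤ 0 := by
      rcases mul_eq_zero.mp (show (1 - τ) * a0 = 0 by linarith) with h | h
      · rw [h]; simp
      · have : a0 = 0 := by exact_mod_cast h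
        rw [this]; exact mul_nonpos_of_nonneg_of_nonpos t2 hc
    have k1 : τ * capLo e w a1 ≤ 0 := by
      rcases mul_eq_zero.mp (show τ * a1 = 0 by linarith) with h | h
      · rw [h]; simp
      · have : a1 = 0 := by exact_mod_cast h
        rw [this]; exact mul_nonpos_of_nonneg_of_nonpos t0 hc
    have : val a x = 0 := by rw [ha', hx0]; simp [val]
    linarith

theorem n2b_use {m0 m1 A0 A1 r0 r1 R0 R1 : ℚ} (h : ratio m0 m1 A0 A1 = some (r0, r1))
    (p0 : 0 ≤ R0) (p1 : 0 ≤ R1) (q0 : r0 ≤ R0) (q1 : r1 ≤ R1) {τ : ℝ}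
    (h0 : 0 ≤ τ) (h1 : τ ≤ 1) {L : ℝ} (hL : (1 - τ) * A0 + τ * A1 ≤ L) :
    (1 - τ) * m0 + τ * m1 ≤ (if R0 ≤ 1 ∧ R1 ≤ 1 then (R0 : ℝ) + τ * (R1 - R0) else 1) * L := by
  obtain ⟨k1, k2⟩ := ratio_sound h h0 h1 hL
  split_ifs
  · have := k1 R0 R1 (by exact_mod_cast p0) (by exact_mod_cast p1) (by exact_mod_cast q0)
      (by exact_mod_cast q1)
    convert this using 2
    ring
  · linarith

theorem n2b_int {R : ℝ → ℝ} (hR : MB 1 R) {a b : ℝ} {S : Set ℝ} (hS : S ⊆ Ioo a b) :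
    IntegrableOn (fun z => Real.sqrt (1 - R z ^ 2)) S := by
  refine IntegrableOn.mono_set ?_ hS
  refine Measure.integrableOn_of_bounded (M := 1) (by simp) ?_ (Eventually.of_forall fun z => ?_)
  · have := hR.1
    exact (Measurable.sqrt (by fun_prop)).aestronglyMeasurable
  · rw [Real.norm_eq_abs, abs_of_nonneg (Real.sqrt_nonneg _)]
    exact Real.sqrt_le_one.mpr (by nlinarith [sq_nonneg (R z)])

theorem cell_sound {b : Box} {k : Prm} (he1 : 0 ≤ k.e1) (he3 : 0 ≤ k.e3) {z0 z1 R0 R1 : ℚ}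
    (h0 : 0 ≤ z0) (hz : z0 ≤ z1) (h1 : z1 ≤ 1) (h : cellR b k z0 z1 = some (R0, R1)) :
    ∃ (R : ℝ → ℝ) (p q : ℝ), MB 1 R ∧ (0 ≤ p ∧ p ≤ 7 / 8) ∧ (0 ≤ q ∧ q ≤ 7 / 8) ∧
      (∀ z : ℝ, (z0 : ℝ) ≤ z → z ≤ z1 → Lev b k z (R z) p q) ∧
      (cellV b z0 z1 R0 R1 : ℝ) ≤
        ∫ z in Ioo (b.x1 : ℝ) b.y0 ∩ Ioo (z0 : ℝ) z1, Real.sqrt (1 - R z ^ 2) := by
  unfold cellR at h
  dsimp only at h
  obtain ⟨a, a', u, u', e0, h, hR0, hR1⟩ := n2b_omax h
  obtain ⟨a1, b1, w, w', e1, h, hu0, hu1⟩ := n2b_omax h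
  obtain ⟨a2, b2, a3, b3, e2, e3, hw0, hw1⟩ := n2b_omax h
  simp only [Option.some.injEq, Prod.mk.injEq] at e0
  have p0 : 0 ≤ R0 := by rw [hR0, ← e0.1]; exact le_max_left _ _
  have p1 : 0 ≤ R1 := by rw [hR1, ← e0.2]; exact le_max_left _ _
  have q10 : a1 ≤ R0 := by rw [hR0, hu0]; simp
  have q11 : b1 ≤ R1 := by rw [hR1, hu1]; simp
  have q20 : a2 ≤ R0 := by rw [hR0, hu0, hw0]; simp
  have q21 : b2 ≤ R1 := by rw [hR1, hu1, hw1]; simp
  have q30 : a3 ≤ R0 := by rw [hR0, hu0, hw0]; simp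
  have q31 : b3 ≤ R1 := by rw [hR1, hu1, hw1]; simp
  have p0' : (0 : ℝ) ≤ R0 := by exact_mod_cast p0
  have p1' : (0 : ℝ) ≤ R1 := by exact_mod_cast p1
  have hz' : (z0 : ℝ) ≤ z1 := by exact_mod_cast hz
  set τ : ℝ → ℝ := fun z => max 0 (min 1 ((z - z0) / (z1 - z0))) with hτ
  have τ0 : ∀ z, 0 ≤ τ z := fun z => le_max_left _ _
  have τ1 : ∀ z, τ z ≤ 1 := fun z => max_le zero_le_one (min_le_left _ _)
  have τe : ∀ z : ℝ, (z0 : ℝ) ≤ z → z ≤ z1 → τ z = (z - z0) / (z1 - z0) := fun z c0 c1 => by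
    have d0 : 0 ≤ (z - z0) / ((z1 : ℝ) - z0) := div_nonneg (by linarith) (by linarith)
    have d1 : (z - z0) / ((z1 : ℝ) - z0) ≤ 1 := div_le_one_of_le₀ (by linarith) (by linarith)
    simp only [hτ]
    rw [min_eq_right d1, max_eq_right d0]
  have τz : ∀ z : ℝ, (z0 : ℝ) ≤ z → z ≤ z1 → z = (1 - τ z) * z0 + τ z * z1 := fun z c0 c1 => by
    rw [τe z c0 c1]
    rcases eq_or_lt_of_le hz' with c | c
    · rw [← c] at c1 ⊢
      have : z = z0 := le_antisymm c1 c0
      rw [this]; simp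
    · have : (z1 : ℝ) - z0 ≠ 0 := by linarith
      field_simp
      ring
  set f := phi (b.w0 - (z0 + z1) / 2) ((z0 + z1) / 2 - b.s1) with hf
  have hMB : MB 1 (fun z => if R0 ≤ 1 ∧ R1 ≤ 1 then (R0 : ℝ) + τ z * (R1 - R0) else 1) := by
    by_cases c : R0 ≤ 1 ∧ R1 ≤ 1
    · simp only [if_pos c]
      have c0 : (R0 : ℝ) ≤ 1 := by exact_mod_cast c.1
      have c1 : (R1 : ℝ) ≤ 1 := by exact_mod_cast c.2
      refine ⟨by simp only [hτ]; fun_prop, fun z => ⟨?_, ?_⟩⟩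
      · nlinarith [τ0 z, τ1 z]
      · nlinarith [τ0 z, τ1 z]
    · simp only [if_neg c]
      exact ⟨measurable_const, fun z => ⟨zero_le_one, le_rfl⟩⟩
  refine ⟨fun z => if R0 ≤ 1 ∧ R1 ≤ 1 then (R0 : ℝ) + τ z * (R1 - R0) else 1, f.1, f.2, hMB,
    ⟨by exact_mod_cast (phi_mem _ _).1.1, ?_⟩, ⟨by exact_mod_cast (phi_mem _ _).2.1, ?_⟩, ?_, ?_⟩
  · have : ((f.1 : ℚ) : ℝ) ≤ ((7 / 8 : ℚ) : ℝ) := by exact_mod_cast (phi_mem _ _).1.2
    simpa using this
  · have : ((f.2 : ℚ) : ℝ) ≤ ((7 / 8 : ℚ) : ℝ) := by exact_mod_cast (phi_mem _ _).2.2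
    simpa using this
  · intro z c0 c1
    have ez := τz z c0 c1
    refine ⟨fun d x x0 x1 x2 => ?_, fun d0 d1 => ?_, fun d x x0 x1 x2 => ?_⟩
    · have : b.q0 ≤ z1 := by exact_mod_cast d.trans c1
      rw [if_pos this] at e1
      have hc := n2b_cap (e := k.e1) (w := 1 - b.s0) (a0 := 1 - z0) (a1 := 1 - z1)
        (by linarith) (by linarith) (τ0 z) (τ1 z) (x := x) (a := 1 - z)
        (by push_cast; linarith) he1 x0 (by push_cast; exact x1)
        (x2.imp id fun h => by rw [h]; simp)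
      have := n2b_use e1 p0 p1 q10 q11 (τ0 z) (τ1 z) hc
      refine le_trans (le_of_eq ?_) this
      push_cast
      linear_combination (k.l : ℝ) * ez
    · have : b.p0 ≤ z1 ∧ z0 ≤ b.q1 :=
        ⟨by exact_mod_cast d0.trans c1, by exact_mod_cast c0.trans d1⟩
      rw [if_pos this] at e2
      have hg : ((rd (Gq f.1 f.2) : ℚ) : ℝ) ≤ Gf f.1 f.2 := by
        rw [← Gq_cast]; exact_mod_cast rd_le _
      have := n2b_use e2 p0 p1 q20 q21 (τ0 z) (τ1 z)
        (L := f.1 * (b.w0 - z) + f.2 * (z - b.s1) + Gf f.1 f.2) (by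
          push_cast
          have : (1 - τ z) * ((f.1 : ℝ) * (b.w0 - z0) + f.2 * (z0 - b.s1) + rd (Gq f.1 f.2)) +
              τ z * (f.1 * (b.w0 - z1) + f.2 * (z1 - b.s1) + rd (Gq f.1 f.2)) =
              f.1 * (b.w0 - z) + f.2 * (z - b.s1) + rd (Gq f.1 f.2) := by
            linear_combination ((f.1 : ℝ) - f.2) * ez
          linarith)
      refine le_trans (le_of_eq ?_) this
      push_cast
      linear_combination (k.l : ℝ) * ez
    · have : z0 ≤ b.p1 := by exact_mod_cast c0.trans d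
      rw [if_pos this] at e3
      have hc := n2b_cap (e := k.e3) (w := b.w1) (a0 := z0) (a1 := z1)
        h0 (h0.trans hz) (τ0 z) (τ1 z) (x := x) (a := z) ez he3 x0 x1 x2
      have := n2b_use e3 p0 p1 q30 q31 (τ0 z) (τ1 z) hc
      refine le_trans (le_of_eq ?_) this
      push_cast
      linear_combination (k.l : ℝ) * ez
  · have nn : 0 ≤ ∫ z in Ioo (b.x1 : ℝ) b.y0 ∩ Ioo (z0 : ℝ) z1, Real.sqrt (1 -
        (if R0 ≤ 1 ∧ R1 ≤ 1 then (R0 : ℝ) + τ z * (R1 - R0) else 1) ^ 2) :=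
      integral_nonneg fun z => Real.sqrt_nonneg _
    unfold cellV
    by_cases c : b.x1 ≤ z0 ∧ z1 ≤ b.y0 ∧ R0 ≤ 1 ∧ R1 ≤ 1
    · rw [if_pos c]
      obtain ⟨c1, c2, c3, c4⟩ := c
      have c1' : (b.x1 : ℝ) ≤ z0 := by exact_mod_cast c1
      have c2' : (z1 : ℝ) ≤ b.y0 := by exact_mod_cast c2
      have c3' : (R0 : ℝ) ≤ 1 := by exact_mod_cast c3
      have c4' : (R1 : ℝ) ≤ 1 := by exact_mod_cast c4
      have k0 : ((rd ((z1 - z0) * (sqLo (1 - R0 * R0) + sqLo (1 - R1 * R1)) / 2) : ℚ) : ℝ) ≤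
          (z1 - z0) * (Real.sqrt (1 - R0 ^ 2) + Real.sqrt (1 - R1 ^ 2)) / 2 := by
        have k1 : ((rd ((z1 - z0) * (sqLo (1 - R0 * R0) + sqLo (1 - R1 * R1)) / 2) : ℚ) : ℝ) ≤
            (z1 - z0) * (sqLo (1 - R0 * R0) + sqLo (1 - R1 * R1)) / 2 := by exact_mod_cast rd_le _
        have k2 : ((sqLo (1 - R0 * R0) : ℚ) : ℝ) ≤ Real.sqrt (1 - R0 ^ 2) :=
          (sqLo_le _).trans (le_of_eq (by push_cast; rw [sq]))
        have k3 : ((sqLo (1 - R1 * R1) : ℚ) : ℝ) ≤ Real.sqrt (1 - R1 ^ 2) :=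
          (sqLo_le _).trans (le_of_eq (by push_cast; rw [sq]))
        have : (0 : ℝ) ≤ z1 - z0 := by linarith
        refine k1.trans ?_
        have := mul_le_mul_of_nonneg_left (add_le_add k2 k3) this
        linarith
      refine k0.trans ?_
      rcases eq_or_lt_of_le hz' with c | c
      · rw [c, sub_self, zero_mul, zero_div]
        exact integral_nonneg fun z => Real.sqrt_nonneg _
      · rw [inter_eq_right.mpr (Ioo_subset_Ioo c1' c2')]
        refine (trapezoid c ⟨p0', c3'⟩ ⟨p1', c4'⟩).trans (le_of_eq ?_)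
        refine setIntegral_congr_fun measurableSet_Ioo fun z hz => ?_
        simp only [if_pos (And.intro c3 c4)]
        rw [τe z hz.1.le hz.2.le]
    · rw [if_neg c]
      simpa using nn

theorem cells_sound {b : Box} {k : Prm} (he1 : 0 ≤ k.e1) (he3 : 0 ≤ k.e3) (zs : List ℚ)
    (z0 acc v : ℚ) (h0 : 0 ≤ z0)
    (hne : zs ≠ []) (h : cells b k zs z0 acc = some v) :
    ∃ R Φ0 Φ1 : ℝ → ℝ, MB 1 R ∧ MB (7 / 8) Φ0 ∧ MB (7 / 8) Φ1 ∧
      (∀ z : ℝ, (z0 : ℝ) ≤ z → z ≤ b.y1 → Lev b k z (R z) (Φ0 z) (Φ1 z)) ∧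
      (v : ℝ) - acc ≤ ∫ z in Ioo (b.x1 : ℝ) b.y0 ∩ Ioi (z0 : ℝ), Real.sqrt (1 - R z ^ 2) := by
  induction zs generalizing z0 acc with
  | nil => exact absurd rfl hne
  | cons z1 zs ih =>
    unfold cells at h
    split_ifs at h with c
    cases hR : cellR b k z0 z1 with
    | none => rw [hR] at h; simp at h
    | some RR =>
      obtain ⟨R0, R1⟩ := RR
      rw [hR] at h
      dsimp only at h
      obtain ⟨R, p, q, hMB, hp, hq, hL, hV⟩ := cell_sound he1 he3 h0 c.1 c.2 hR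
      by_cases hzs : zs = []
      · subst hzs
        unfold cells at h
        split_ifs at h with c2
        simp only [Option.some.injEq] at h
        have c2' : (b.y1 : ℝ) ≤ z1 := by exact_mod_cast c2
        refine ⟨R, fun _ => p, fun _ => q, hMB, ⟨measurable_const, fun _ => hp⟩,
          ⟨measurable_const, fun _ => hq⟩, fun z d0 d1 => hL z d0 (d1.trans c2'), ?_⟩
        rw [← h]
        push_cast
        have : ∫ z in Ioo (b.x1 : ℝ) b.y0 ∩ Ioo (z0 : ℝ) z1, Real.sqrt (1 - R z ^ 2) ≤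
            ∫ z in Ioo (b.x1 : ℝ) b.y0 ∩ Ioi (z0 : ℝ), Real.sqrt (1 - R z ^ 2) :=
          setIntegral_mono_set (n2b_int hMB inter_subset_left)
            (Eventually.of_forall fun z => Real.sqrt_nonneg _)
            (inter_subset_inter_right _ Ioo_subset_Ioi_self).eventuallyLE
        linarith
      · obtain ⟨R', F0, F1, hMB', hF0, hF1, hL', hV'⟩ := ih z1 _ (h0.trans c.1) hzs h
        have hs : MeasurableSet {z : ℝ | z < z1} := measurableSet_Iio
        have hMB2 : MB 1 (fun z => if z < (z1 : ℝ) then R z else R' z) :=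
          ⟨Measurable.ite hs hMB.1 hMB'.1, fun z => by
            dsimp only; split_ifs; exacts [hMB.2 z, hMB'.2 z]⟩
        refine ⟨fun z => if z < (z1 : ℝ) then R z else R' z, fun z => if z < (z1 : ℝ) then p else F0 z,
          fun z => if z < (z1 : ℝ) then q else F1 z, hMB2,
          ⟨Measurable.ite hs measurable_const hF0.1, fun z => by
            dsimp only; split_ifs; exacts [hp, hF0.2 z]⟩,
          ⟨Measurable.ite hs measurable_const hF1.1, fun z => by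
            dsimp only; split_ifs; exacts [hq, hF1.2 z]⟩, fun z d0 d1 => ?_, ?_⟩
        · dsimp only
          split_ifs with d
          · exact hL z d0 d.le
          · exact hL' z (not_lt.mp d) d1
        · have c1' : (z0 : ℝ) ≤ z1 := by exact_mod_cast c.1
          have e1 : ∫ z in Ioo (b.x1 : ℝ) b.y0 ∩ Ioo (z0 : ℝ) z1, Real.sqrt (1 - R z ^ 2) =
              ∫ z in Ioo (b.x1 : ℝ) b.y0 ∩ Ioo (z0 : ℝ) z1,
                Real.sqrt (1 - (if z < (z1 : ℝ) then R z else R' z) ^ 2) :=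
            setIntegral_congr_fun (measurableSet_Ioo.inter measurableSet_Ioo) fun z hz => by
              simp only [if_pos hz.2.2]
          have e2 : ∫ z in Ioo (b.x1 : ℝ) b.y0 ∩ Ioi (z1 : ℝ), Real.sqrt (1 - R' z ^ 2) =
              ∫ z in Ioo (b.x1 : ℝ) b.y0 ∩ Ioi (z1 : ℝ),
                Real.sqrt (1 - (if z < (z1 : ℝ) then R z else R' z) ^ 2) :=
            setIntegral_congr_fun (measurableSet_Ioo.inter measurableSet_Ioi) fun z hz => by
              simp only [if_neg (not_lt.mpr (le_of_lt (mem_Ioi.mp hz.2)))]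
          have e3 := setIntegral_union (μ := volume)
            (f := fun z => Real.sqrt (1 - (if z < (z1 : ℝ) then R z else R' z) ^ 2))
            (s := Ioo (b.x1 : ℝ) b.y0 ∩ Ioo (z0 : ℝ) z1) (t := Ioo (b.x1 : ℝ) b.y0 ∩ Ioi (z1 : ℝ))
            (Set.disjoint_left.mpr fun z h1 h2 => lt_asymm h1.2.2 h2.2)
            (measurableSet_Ioo.inter measurableSet_Ioi) (n2b_int hMB2 inter_subset_left)
            (n2b_int hMB2 inter_subset_left)
          have e4 : ∫ z in (Ioo (b.x1 : ℝ) b.y0 ∩ Ioo (z0 : ℝ) z1) ∪ (Ioo (b.x1 : ℝ) b.y0 ∩ Ioi (z1 : ℝ)),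
                Real.sqrt (1 - (if z < (z1 : ℝ) then R z else R' z) ^ 2) ≤
              ∫ z in Ioo (b.x1 : ℝ) b.y0 ∩ Ioi (z0 : ℝ),
                Real.sqrt (1 - (if z < (z1 : ℝ) then R z else R' z) ^ 2) :=
            setIntegral_mono_set (n2b_int hMB2 inter_subset_left)
              (Eventually.of_forall fun z => Real.sqrt_nonneg _)
              (union_subset (inter_subset_inter_right _ Ioo_subset_Ioi_self)
                (inter_subset_inter_right _ (Ioi_subset_Ioi c1'))).eventuallyLE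
          push_cast at hV'
          linarith

theorem n2a_aff {a b c d u v x : ℝ} (h0 : a * u + b < c * u + d) (h1 : a * v + b < c * v + d)
    (hu : u ≤ x) (hv : x ≤ v) : a * x + b < c * x + d := by
  rcases le_total a c with h | h
  · nlinarith
  · nlinarith

theorem vOK_sound {v0 v1 l K rho r : ℚ} (h : vOK v0 v1 l K rho r = true) {V : ℝ} (hV : 0 ≤ V)
    (h0 : (v0 : ℝ) ≤ V) (h1 : V ≤ v1) : Iq V < l * V + K := by
  unfold vOK at h
  simp only [Bool.and_eq_true] at h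
  obtain ⟨⟨ha, hb⟩, hc⟩ := h
  have hpi := le_piHi
  by_cases c1 : V ≤ k1
  · have : v0 ≤ k1 := by exact_mod_cast h0.trans c1
    rw [if_pos this] at ha
    simp only [Bool.and_eq_true, decide_eq_true_eq] at ha
    obtain ⟨⟨r0, a0⟩, a1⟩ := ha
    have r0' : (0 : ℝ) < r := by exact_mod_cast r0
    have a0' : 2 * (v0 : ℝ) / r + piHi * r * r / 6 < l * v0 + K := by exact_mod_cast a0
    have a1' : 2 * min (v1 : ℝ) k1 / r + piHi * r * r / 6 < l * min (v1 : ℝ) k1 + K := by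
      exact_mod_cast a1
    have := n2a_aff (a := 2 / r) (b := piHi * r * r / 6) (c := l) (d := K) (u := v0)
      (v := min (v1 : ℝ) k1) (x := V) (by convert a0' using 2; ring) (by convert a1' using 2; ring)
      h0 (le_min h1 c1)
    refine lt_of_le_of_lt ((Iq_le_sph hV r0').trans ?_) this
    have : Real.pi * r ^ 2 ≤ piHi * r * r := by nlinarith [mul_pos r0' r0']
    have e : 2 * V / r = 2 / r * V := by ring
    linarith
  · by_cases c2 : V ≤ k2
    · have c1' := (not_le.mp c1).le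
      have : v0 ≤ k2 ∧ k1 ≤ v1 := ⟨by exact_mod_cast h0.trans c2, by exact_mod_cast c1'.trans h1⟩
      rw [if_pos this] at hb
      simp only [Bool.and_eq_true, decide_eq_true_eq] at hb
      obtain ⟨⟨r0, a0⟩, a1⟩ := hb
      have r0' : (0 : ℝ) < rho := by exact_mod_cast r0
      have a0' : max (v0 : ℝ) k1 / rho + piHi * rho / 4 < l * max (v0 : ℝ) k1 + K := by
        exact_mod_cast a0
      have a1' : min (v1 : ℝ) k2 / rho + piHi * rho / 4 < l * min (v1 : ℝ) k2 + K := by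
        exact_mod_cast a1
      have := n2a_aff (a := 1 / rho) (b := piHi * rho / 4) (c := l) (d := K) (u := max (v0 : ℝ) k1)
        (v := min (v1 : ℝ) k2) (x := V) (by convert a0' using 2; ring) (by convert a1' using 2; ring)
        (max_le h0 c1') (le_min h1 c2)
      refine lt_of_le_of_lt ((Iq_le_cyl hV r0').trans ?_) this
      have : Real.pi * rho ≤ piHi * rho := by nlinarith
      have e : V / rho = 1 / rho * V := by ring
      linarith
    · have c2' := (not_le.mp c2).le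
      have : k2 ≤ v1 := by exact_mod_cast c2'.trans h1
      rw [if_pos this] at hc
      simp only [Bool.and_eq_true, decide_eq_true_eq] at hc
      obtain ⟨a0, a1⟩ := hc
      have a0' : 1 < (l : ℝ) * max (v0 : ℝ) k2 + K := by exact_mod_cast a0
      have a1' : 1 < (l : ℝ) * v1 + K := by exact_mod_cast a1
      have := n2a_aff (a := 0) (b := 1) (c := l) (d := K) (u := max (v0 : ℝ) k2)
        (v := v1) (x := V) (by linarith) (by linarith) (max_le h0 c2') h1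
      have := Iq_le_one V
      linarith

end Crest.Agent.R214
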