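import Crest.Agent.R214.N2
import Crest.Agent.R214.Cert.Ok

/-! Block N3: soundness of the leaves and of the tree.
`leafN_sound`: `O.key` with `e3 = (prm …).e3`, `mt t = l a t + c + (if t < t1 then o1 else if t < t0 then o2 else 0)`;
`∫ mt = l V + c + o1 t1 + o2 (t0 - t1) ≥ l V + c + bonus`; `Ioo x1 y0 ⊆ Ioo amin amax`.
`ucond_sound`: `Φ0 z = if z ≤ 5/16 then 0 else p`, the same for `Φ1`; phase I: `√(π (1 - z)) ≥ √(π z) + κ` for
`z ≤ 9/20`; phase II with `z ≤ 5/16`: `Gf 0 0 = 1 ≥ √(5π/16) + κ`; above `5/16`: affine functions of `z`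
on `[za, q1]` and `sqrt_le_val`; phase III: `sqrt_le_val` with `e3 = 0`. -/

set_option autoImplicit false
set_option linter.unusedVariables false
open MeasureTheory Set Filter Metric
open scoped Topology ENNReal NNReal
open Crest.GeometryTopology.PeriodicPerimeter

noncomputable section
namespace Crest.Agent.R214

theorem InBox.tight {cs : ℕ} {O : OneD cs} {b : Box} (h : InBox O b) : InBox O b.tight := by
  have h1 := O.amin_le
  have h2 := O.a0_le
  have h3 := O.a1_le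
  obtain ⟨h4, h5⟩ := O.V_range
  obtain ⟨⟨x0, x1⟩, ⟨y0, y1⟩, ⟨p0, p1⟩, ⟨q0, q1⟩, w, s, ⟨v0, v1⟩⟩ := h
  refine ⟨⟨x0, ?_⟩, ⟨?_, y1⟩, ⟨?_, ?_⟩, ⟨?_, ?_⟩, w, s, ⟨?_, ?_⟩⟩ <;>
    simp only [Box.tight, Rat.cast_min, Rat.cast_max, le_min_iff, max_le_iff] <;>
    (repeat' constructor) <;> linarith

theorem InBox.split {cs : ℕ} {O : OneD cs} {b : Box} (h : InBox O b) (d : ℕ) (p : ℚ) :
    InBox O (b.setHi d p) ∨ InBox O (b.setLo d p) := by
  obtain ⟨x, y, p', q, w, s, v⟩ := h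
  rcases d with _ | _ | _ | _ | _ | _ | d
  · rcases le_total O.amin p with c | c
    · exact Or.inl ⟨⟨x.1, c⟩, y, p', q, w, s, v⟩
    · exact Or.inr ⟨⟨c, x.2⟩, y, p', q, w, s, v⟩
  · rcases le_total O.amax p with c | c
    · exact Or.inl ⟨x, ⟨y.1, c⟩, p', q, w, s, v⟩
    · exact Or.inr ⟨x, ⟨c, y.2⟩, p', q, w, s, v⟩
  · rcases le_total O.a0 p with c | c
    · exact Or.inl ⟨x, y, ⟨p'.1, c⟩, q, w, s, v⟩
    · exact Or.inr ⟨x, y, ⟨c, p'.2⟩, q, w, s, v⟩
  · rcases le_total O.a1 p with c | c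
    · exact Or.inl ⟨x, y, p', ⟨q.1, c⟩, w, s, v⟩
    · exact Or.inr ⟨x, y, p', ⟨c, q.2⟩, w, s, v⟩
  · rcases le_total O.w p with c | c
    · exact Or.inl ⟨x, y, p', q, ⟨w.1, c⟩, s, v⟩
    · exact Or.inr ⟨x, y, p', q, ⟨c, w.2⟩, s, v⟩
  · rcases le_total O.s p with c | c
    · exact Or.inl ⟨x, y, p', q, w, ⟨s.1, c⟩, v⟩
    · exact Or.inr ⟨x, y, p', q, w, ⟨c, s.2⟩, v⟩
  · rcases le_total O.V p with c | c
    · exact Or.inl ⟨x, y, p', q, w, s, ⟨v.1, c⟩⟩
    · exact Or.inr ⟨x, y, p', q, w, s, ⟨c, v.2⟩⟩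

theorem n3a_step_int (u : ℝ) :
    IntegrableOn (fun t : ℝ => if t < u then (1 : ℝ) else 0) (Ioo (0 : ℝ) 1) := by
  refine Measure.integrableOn_of_bounded (M := 1) (by simp) ?_ (Eventually.of_forall fun z => ?_)
  · exact (Measurable.ite measurableSet_Iio measurable_const measurable_const).aestronglyMeasurable
  · split_ifs <;> simp

theorem n3a_step {u : ℝ} (h0 : 0 ≤ u) (h1 : u ≤ 1) :
    ∫ t in Ioo (0 : ℝ) 1, (if t < u then (1 : ℝ) else 0) = u := by
  have : (fun t : ℝ => if t < u then (1 : ℝ) else 0) = (Iio u).indicator fun _ => (1 : ℝ) := by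
    funext t; simp [indicator]
  rw [this, setIntegral_indicator measurableSet_Iio]
  have : Ioo (0 : ℝ) 1 ∩ Iio u = Ioo 0 u := by
    ext t
    simp only [mem_inter_iff, mem_Ioo, mem_Iio]
    exact ⟨fun h => ⟨h.1.1, h.2⟩, fun h => ⟨⟨h.1, h.2.trans_le h1⟩, h.2⟩⟩
  rw [this]
  simp [h0]

theorem n3a_a_int {cs : ℕ} (O : OneD cs) : IntegrableOn O.a (Ioo (0 : ℝ) 1) := by
  refine Measure.integrableOn_of_bounded (M := 1) (by simp) O.meas.aestronglyMeasurable ?_
  refine (ae_restrict_iff' measurableSet_Ioo).mpr (Eventually.of_forall fun t ht => ?_)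
  have := O.range t ht
  rw [Real.norm_eq_abs, abs_le]
  constructor <;> linarith [O.amin_nonneg, O.amax_le, this.1, this.2]

theorem n3a_al : ((al : ℚ) : ℝ) = alR := by
  unfold al alR
  rw [Rat.mkRat_eq_div]
  push_cast
  rfl

theorem n3a_prm {cs : ℕ} (hcs : cs ≤ 2) {O : OneD cs} {b : Box} (h : InBox O b) (l c : ℚ) {mu : ℚ}
    (hmu : 0 ≤ mu) :
    (prm cs b l c mu).l = l ∧ (prm cs b l c mu).c = c ∧ 0 ≤ (prm cs b l c mu).e1 ∧
    0 ≤ (prm cs b l c mu).e3 ∧ (prm cs b l c mu).e3 ≤ b.w1 ∧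
    ((prm cs b l c mu).e3 : ℝ) ≤ (if cs = 1 then alR else 0) ∧
    ((prm cs b l c mu).e1 : ℝ) ≤ (if cs = 2 then 1 - alR else 0) ∧
    (bonus cs mu : ℝ) ≤ ((prm cs b l c mu).o1 - (prm cs b l c mu).o2) * O.t1 +
      (prm cs b l c mu).o2 * O.t0 := by
  have hw : 0 ≤ b.w1 := by exact_mod_cast O.hw.1.trans h.w.2
  have hmu' : (0 : ℝ) ≤ mu := by exact_mod_cast hmu
  have hal : 0 ≤ al ∧ al ≤ 1 := by
    have := n3a_al
    unfold alR at this
    constructor
    · have : (0 : ℝ) ≤ al := by rw [this]; norm_num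
      exact_mod_cast this
    · have : (al : ℝ) ≤ 1 := by rw [this]; norm_num
      exact_mod_cast this
  interval_cases cs
  · have := O.caseA rfl
    refine ⟨rfl, rfl, le_rfl, le_rfl, hw, by simp [prm], by simp [prm], ?_⟩
    simp only [prm, bonus]
    push_cast
    rw [n3a_al]
    nlinarith
  · have := O.caseB1 rfl
    refine ⟨rfl, rfl, le_rfl, le_min hal.1 hw, min_le_right _ _, ?_, by simp [prm], ?_⟩
    · simp only [prm, if_true]
      push_cast
      rw [n3a_al]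
      exact min_le_left _ _
    · simp only [prm, bonus]
      push_cast
      rw [n3a_al]
      nlinarith
  · refine ⟨rfl, rfl, sub_nonneg.mpr hal.2, le_rfl, hw, by simp [prm], ?_, by simp [prm, bonus]⟩
    simp only [prm, if_true]
    push_cast
    rw [n3a_al]

theorem leafN_sound {cs : ℕ} (hcs : cs ≤ 2) {O : OneD cs} {b : Box} (h : InBox O b)
    {l c mu rho r : ℚ} {n : ℕ} (hc : leafN cs b l c mu rho r n = true) : Iq O.V < O.P := by
  unfold leafN at hc
  simp only [Bool.and_eq_true, decide_eq_true_eq] at hc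
  obtain ⟨⟨⟨hmu, hx0⟩, hy1⟩, hc⟩ := hc
  obtain ⟨kl, kc, he1, he3, he3w, he3a, he1a, hbon⟩ := n3a_prm hcs h l c hmu
  set k := prm cs b l c mu with hk
  cases hcell : cells b k (nodes b n) b.x0 0 with
  | none => rw [hcell] at hc; simp at hc
  | some v =>
    rw [hcell] at hc
    dsimp only at hc
    have hne : nodes b n ≠ [] := by
      unfold nodes
      split_ifs <;> simp
    obtain ⟨R, F0, F1, hR, hF0, hF1, hL, hv⟩ := cells_sound he1 he3 _ _ _ _ hx0 hne hcell
    have hV0 : 0 ≤ O.V := O.amin_nonneg.trans O.V_range.1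
    have hI := vOK_sound hc hV0 h.v.1 h.v.2
    have he3' : (0 : ℝ) ≤ k.e3 := by exact_mod_cast he3
    have he3w' : (k.e3 : ℝ) ≤ b.w1 := by exact_mod_cast he3w
    have hLt : ∀ t ∈ Ioo (0 : ℝ) 1, Lev b k (O.a t) (R (O.a t)) (F0 (O.a t)) (F1 (O.a t)) :=
      fun t ht => hL _ (h.x.1.trans (O.range t ht).1) ((O.range t ht).2.trans h.y.2)
    have i1 : IntegrableOn (fun t => (l : ℝ) * O.a t) (Ioo (0 : ℝ) 1) := (n3a_a_int O).const_mul _
    have i2 : IntegrableOn (fun t : ℝ => (c : ℝ)) (Ioo (0 : ℝ) 1) := integrableOn_const (by simp)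
    have i3 : IntegrableOn (fun t : ℝ => ((k.o1 : ℝ) - k.o2) * if t < O.t1 then (1 : ℝ) else 0)
      (Ioo (0 : ℝ) 1) := (n3a_step_int _).const_mul _
    have i4 : IntegrableOn (fun t : ℝ => (k.o2 : ℝ) * if t < O.t0 then (1 : ℝ) else 0)
      (Ioo (0 : ℝ) 1) := (n3a_step_int _).const_mul _
    have key := O.key k.e3 R F0 F1 (fun t => (l : ℝ) * O.a t + c +
        (((k.o1 : ℝ) - k.o2) * if t < O.t1 then (1 : ℝ) else 0) +
        ((k.o2 : ℝ) * if t < O.t0 then (1 : ℝ) else 0)) he3' he3a hR hF0 hF1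
      (((i1.add i2).add i3).add i4)
      (fun t ht c1 x x0 x1 x2 => by
        have := (hLt t ht).1 (h.q.1.trans ((O.lev1 t ht).1 c1)) x (he1a.trans x0)
          (x1.trans (by linarith [h.s.1])) x2
        rw [kl, kc] at this
        rw [if_pos c1, if_pos (c1.trans_le O.t1_le)]
        linarith)
      (fun t ht c1 c0 => by
        have := (hLt t ht).2.1 (h.p.1.trans ((O.lev0 t ht).1 c0)) (((O.lev1 t ht).2 c1).trans h.q.2)
        rw [kl, kc] at this
        rw [if_neg (not_lt.mpr c1.le), if_pos c0]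
        have m : F0 (O.a t) * (b.w0 - O.a t) + F1 (O.a t) * (O.a t - b.s1) +
            Gf (F0 (O.a t)) (F1 (O.a t)) ≤ F0 (O.a t) * (O.w - O.a t) + F1 (O.a t) * (O.a t - O.s) +
            Gf (F0 (O.a t)) (F1 (O.a t)) := by
          have m1 := mul_le_mul_of_nonneg_left h.w.1 (hF0.2 (O.a t)).1
          have m2 := mul_le_mul_of_nonneg_left h.s.2 (hF1.2 (O.a t)).1
          linarith
        have := mul_le_mul_of_nonneg_left m (hR.2 (O.a t)).1
        linarith)
      (fun t ht c0 x x0 x1 x2 => by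
        have := (hLt t ht).2.2 (((O.lev0 t ht).2 c0).trans h.p.2) x x0
          (x1.trans (max_le h.w.2 he3w')) x2
        rw [kl, kc] at this
        rw [if_neg (not_lt.mpr (O.t1_le.trans c0.le)), if_neg (not_lt.mpr c0.le)]
        linarith)
    have i12 : IntegrableOn (fun t => (l : ℝ) * O.a t + c) (Ioo (0 : ℝ) 1) := i1.add i2
    have i123 : IntegrableOn (fun t => (l : ℝ) * O.a t + c +
        (((k.o1 : ℝ) - k.o2) * if t < O.t1 then (1 : ℝ) else 0)) (Ioo (0 : ℝ) 1) := i12.add i3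
    rw [integral_add i123 i4, integral_add i12 i3, integral_add i1 i2,
      integral_const_mul, integral_const_mul, integral_const_mul,
      n3a_step O.t1_nonneg (O.t1_le.trans O.t0_le), n3a_step (O.t1_nonneg.trans O.t1_le) O.t0_le,
      ← O.hV] at key
    have e : ∫ t in Ioo (0 : ℝ) 1, (c : ℝ) = c := by simp
    rw [e] at key
    have m : ∫ z in Ioo (b.x1 : ℝ) b.y0 ∩ Ioi (b.x0 : ℝ), Real.sqrt (1 - R z ^ 2) ≤
        ∫ z in Ioo O.amin O.amax, Real.sqrt (1 - R z ^ 2) :=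
      setIntegral_mono_set (n2b_int hR Subset.rfl)
        (Eventually.of_forall fun z => Real.sqrt_nonneg _)
        (inter_subset_left.trans (Ioo_subset_Ioo h.x.2 h.y.1)).eventuallyLE
    push_cast at hI hv
    linarith

theorem n3b_alt {b : Box} {p q x : ℚ} (hc : ucond b p q x = true) :
    b.y1 ≤ 9 / 20 ∧ ∃ κ p' q' : ℝ, 0 < κ ∧ κ ≤ 1 / 200 ∧ (0 ≤ p' ∧ p' ≤ 7 / 8) ∧
      (0 ≤ q' ∧ q' ≤ 7 / 8) ∧ ∀ z : ℝ, 5 / 16 < z → (b.p0 : ℝ) ≤ z → z ≤ b.q1 →
        Real.sqrt (Real.pi * z) + κ ≤ p' * (b.w0 - z) + q' * (z - b.s1) + Gf p' q' := by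
  unfold ucond at hc
  simp only [Bool.and_eq_true, Bool.or_eq_true, decide_eq_true_eq] at hc
  obtain ⟨hy, hc⟩ := hc
  refine ⟨hy, ?_⟩
  rcases hc with hc | ⟨⟨⟨⟨⟨p0, p1⟩, q0⟩, q1⟩, x0⟩, a0, a1⟩
  · refine ⟨1 / 200, 0, 0, by norm_num, le_rfl, by norm_num, by norm_num, fun z c0 c1 c2 => ?_⟩
    have : ((b.q1 : ℚ) : ℝ) ≤ ((5 / 16 : ℚ) : ℝ) := by exact_mod_cast hc
    push_cast at this
    linarith
  · have p1' : ((p : ℚ) : ℝ) ≤ ((7 / 8 : ℚ) : ℝ) := by exact_mod_cast p1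
    have q1' : ((q : ℚ) : ℝ) ≤ ((7 / 8 : ℚ) : ℝ) := by exact_mod_cast q1
    have x0' : (0 : ℝ) < x := by exact_mod_cast x0
    have a0' := (Rat.cast_lt (K := ℝ)).mpr a0
    have a1' := (Rat.cast_lt (K := ℝ)).mpr a1
    push_cast at p1' q1' a0' a1'
    rw [Gq_cast] at a0' a1'
    set za := max (b.p0 : ℝ) (5 / 16) with hza
    set g0 := p * (b.w0 - za) + q * (za - b.s1) + Gf p q - (za / x + piHi * x / 4) with hg0
    set g1 := p * (b.w0 - b.q1) + q * (b.q1 - b.s1) + Gf p q - (b.q1 / x + piHi * x / 4) with hg1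
    have hk : 0 < min (1 / 200 : ℝ) (min g0 g1) := lt_min (by norm_num) (lt_min (by linarith) (by linarith))
    refine ⟨min (1 / 200) (min g0 g1) / 2, p, q, by linarith,
      by linarith [min_le_left (1 / 200 : ℝ) (min g0 g1)], ⟨by exact_mod_cast p0, p1'⟩,
      ⟨by exact_mod_cast q0, q1'⟩, fun z c0 c1 c2 => ?_⟩
    have k0 : min (1 / 200 : ℝ) (min g0 g1) ≤ g0 := (min_le_right _ _).trans (min_le_left _ _)
    have k1 : min (1 / 200 : ℝ) (min g0 g1) ≤ g1 := (min_le_right _ _).trans (min_le_right _ _)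
    set κ := min (1 / 200 : ℝ) (min g0 g1)
    have := n2a_aff (a := 1 / x) (b := piHi * x / 4 + κ / 2) (c := (q : ℝ) - p)
      (d := p * b.w0 - q * b.s1 + Gf p q) (u := za) (v := b.q1) (x := z)
      (by have : 1 / (x : ℝ) * za = za / x := by ring
          linarith)
      (by have : 1 / (x : ℝ) * b.q1 = b.q1 / x := by ring
          linarith) (max_le c1 c0.le) c2
    have s := sqrt_le_val (z := z) (x := x) (by linarith) (Or.inl x0')
    unfold val at s
    have : Real.pi * x ≤ piHi * x := mul_le_mul_of_nonneg_right le_piHi x0'.le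
    have : 1 / (x : ℝ) * z = z / x := by ring
    linarith

theorem ucond_sound {cs : ℕ} {O : OneD cs} {b : Box} (h : InBox O b) {p q x : ℚ}
    (hc : ucond b p q x = true) : O.amax ≤ 9 / 20 ∧ ∃ κ : ℝ, 0 < κ ∧ Key O.P O.amin O.amax O.a
      (fun t => Real.sqrt (Real.pi * O.a t) + if t < O.t0 then κ else 0) := by
  obtain ⟨hy, κ, p', q', k0, k1, hp, hq, hz⟩ := n3b_alt hc
  have hy' : ((b.y1 : ℚ) : ℝ) ≤ ((9 / 20 : ℚ) : ℝ) := by exact_mod_cast hy
  push_cast at hy'
  have hmax : O.amax ≤ 9 / 20 := h.y.2.trans hy'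
  refine ⟨hmax, κ, k0, fun R mt hR hmt hL => ?_⟩
  have hs : MeasurableSet {z : ℝ | z ≤ 5 / 16} := measurableSet_Iic
  have hpi0 := Real.pi_gt_d2
  have hpi1 := Real.pi_lt_d2
  refine O.key 0 R (fun z => if z ≤ 5 / 16 then 0 else p') (fun z => if z ≤ 5 / 16 then 0 else q') mt
    le_rfl (by unfold alR; split_ifs <;> norm_num) hR
    ⟨Measurable.ite hs measurable_const measurable_const, fun z => by
      dsimp only; split_ifs; exacts [by norm_num, hp]⟩
    ⟨Measurable.ite hs measurable_const measurable_const, fun z => by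
      dsimp only; split_ifs; exacts [by norm_num, hq]⟩ hmt
    (fun t ht c1 x x0 x1 x2 => ?_) (fun t ht c1 c0 => ?_) (fun t ht c0 x x0 x1 x2 => ?_)
  · refine (hL t ht).trans (mul_le_mul_of_nonneg_left ?_ (hR.2 _).1)
    have r := O.range t ht
    have a1 : O.a t ≤ 9 / 20 := r.2.trans hmax
    have xp : 0 < x := x2.resolve_right (by linarith)
    dsimp only
    rw [if_pos (c1.trans_le O.t1_le)]
    have s := sqrt_le_val (z := 1 - O.a t) (x := x) (by linarith) (Or.inl xp)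
    have s1 : Real.sqrt (Real.pi * O.a t) ≤ 1.2 :=
      Real.sqrt_le_iff.mpr ⟨by norm_num, by nlinarith [r.1, O.amin_nonneg]⟩
    have s2 : 1.3 ≤ Real.sqrt (Real.pi * (1 - O.a t)) :=
      (le_abs_self _).trans (Real.abs_le_sqrt (by nlinarith))
    linarith
  · refine (hL t ht).trans (mul_le_mul_of_nonneg_left ?_ (hR.2 _).1)
    have r := O.range t ht
    dsimp only
    rw [if_pos c0]
    by_cases c : O.a t ≤ 5 / 16
    · simp only [if_pos c]
      have s1 : Real.sqrt (Real.pi * O.a t) ≤ 0.995 :=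
        Real.sqrt_le_iff.mpr ⟨by norm_num, by nlinarith [r.1, O.amin_nonneg]⟩
      have : Gf 0 0 = 1 := by simp [Gf]
      rw [this]
      linarith
    · simp only [if_neg c]
      have := hz _ (not_le.mp c) (h.p.1.trans ((O.lev0 t ht).1 c0)) (((O.lev1 t ht).2 c1).trans h.q.2)
      have m1 := mul_le_mul_of_nonneg_left h.w.1 hp.1
      have m2 := mul_le_mul_of_nonneg_left h.s.2 hq.1
      linarith
  · refine (hL t ht).trans (mul_le_mul_of_nonneg_left ?_ (hR.2 _).1)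
    have r := O.range t ht
    dsimp only
    rw [if_neg (not_lt.mpr c0.le), add_zero]
    refine sqrt_le_val (O.amin_nonneg.trans r.1) ?_
    rcases eq_or_lt_of_le x0 with c | c
    · exact Or.inr ⟨c.symm, x2.resolve_left (by linarith)⟩
    · exact Or.inl c

theorem chk_sound {cs : ℕ} (hcs : cs ≤ 2) {O : OneD cs} (hV : 0 < O.V) (hV' : O.V ≤ 1 / 2) (t : Tr) :
    ∀ b : Box, InBox O b → chk cs t b = true → Out O := by
  induction t with
  | N l c mu rho r n =>
    intro b hb h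
    unfold chk at h
    exact Or.inl (leafN_sound hcs hb.tight h)
  | C p q x =>
    intro b hb h
    unfold chk at h
    simp only [Bool.and_eq_true, decide_eq_true_eq] at h
    obtain ⟨h2, κ, k0, hK⟩ := ucond_sound hb.tight h.2
    have : ((9 / 64 : ℚ) : ℝ) ≤ b.x0 := by exact_mod_cast h.1
    push_cast at this
    exact lemC O k0 hK (this.trans hb.x.1) h2
  | B p q x =>
    intro b hb h
    unfold chk at h
    simp only [Bool.and_eq_true, decide_eq_true_eq] at h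
    obtain ⟨h2, κ, k0, hK⟩ := ucond_sound hb.tight h.2
    have a1 : ((b.tight.x1 : ℚ) : ℝ) ≤ ((1 / 1024 : ℚ) : ℝ) := by exact_mod_cast h.1.1.2
    have a2 : ((b.tight.v1 : ℚ) : ℝ) ≤ ((23 / 128 : ℚ) : ℝ) := by exact_mod_cast h.1.2
    push_cast at a1 a2
    exact lemB O k0 hK hV (hb.tight.x.2.trans a1) h2 (hb.tight.v.2.trans a2)
  | S =>
    intro b hb h
    unfold chk at h
    simp only [Bool.and_eq_true, decide_eq_true_eq] at h
    have a1 : ((b.tight.x1 : ℚ) : ℝ) ≤ ((1 / 2048 : ℚ) : ℝ) := by exact_mod_cast h.1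
    have a2 : ((2047 / 2048 : ℚ) : ℝ) ≤ b.tight.y0 := by exact_mod_cast h.2
    push_cast at a1 a2
    exact lemS O hV' (hb.tight.x.2.trans a1) (a2.trans hb.tight.y.1)
  | X d p t u iht ihu =>
    intro b hb h
    unfold chk at h
    simp only [Bool.and_eq_true] at h
    rcases hb.split d (mkRat p 1048576) with c | c
    · exact iht _ c h.1
    · exact ihu _ c h.2

end Crest.Agent.R214
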