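import Crest.Agent.R214.Defs

/-! Block T1: integration over the cell.  `cell` is `ZSpan.fundamentalDomain` of the basis
`(EuclideanSpace.basisFun (Fin 3) ℝ).toBasis`; use `ZSpan.isAddFundamentalDomain`,
`IsAddFundamentalDomain.setIntegral_eq` / `setLIntegral_eq` / `vadd` (or translate the domain). -/

set_option autoImplicit false
set_option linter.unusedVariables false
open MeasureTheory Set Filter Metric
open scoped Topology ENNReal NNReal
open Crest.GeometryTopology.PeriodicPerimeter

noncomputable section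
namespace Crest.Agent.R214

theorem measurableSet_cell : MeasurableSet cell := by
  have : cell = ⋂ i, (fun x : E3 => x i) ⁻¹' Ico (0 : ℝ) 1 := by
    ext x; simp [cell, unitCell]
  rw [this]
  exact MeasurableSet.iInter fun i => measurableSet_Ico.preimage (by fun_prop)

theorem volume_cell : volume cell = 1 := by
  have : cell = (WithLp.ofLp : E3 → Fin 3 → ℝ) ⁻¹' (univ.pi fun _ => Ico (0 : ℝ) 1) := by
    ext x; simp [cell, unitCell]
  rw [this, (PiLp.volume_preserving_ofLp (Fin 3)).measure_preimage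
    (MeasurableSet.univ_pi fun _ => measurableSet_Ico).nullMeasurableSet, volume_pi_pi]
  simp

theorem cell_subset_ball : cell ⊆ closedBall (0 : E3) 2 := by
  intro x hx
  rw [mem_closedBall_zero_iff, EuclideanSpace.norm_eq]
  refine Real.sqrt_le_iff.2 ⟨by norm_num, ?_⟩
  have h : ∀ i, ‖x i‖ ^ 2 ≤ 1 := fun i => by
    rw [Real.norm_eq_abs, sq_abs]; nlinarith [(hx i).1, (hx i).2]
  rw [Fin.sum_univ_three]
  linarith [h 0, h 1, h 2]

theorem hasInt_ev (i : Fin 3) (k : ℤ) : HasIntegerCoords ((k : ℝ) • ev i) := by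
  intro j
  by_cases h : j = i
  · exact ⟨k, by simp [ev, h]⟩
  · exact ⟨0, by simp [ev, h]⟩

/-- the lattice vector with given coordinates -/
def t1a_vec (m : Fin 3 → ℤ) : E3 := WithLp.toLp 2 fun i => (m i : ℝ)

theorem t1a_vec_int (m : Fin 3 → ℤ) : HasIntegerCoords (t1a_vec m) := fun i => ⟨m i, rfl⟩

theorem exists_int_mem_cell (x : E3) : ∃ v : E3, HasIntegerCoords v ∧ x + v ∈ cell := by
  refine ⟨t1a_vec fun i => -⌊x i⌋, t1a_vec_int _, fun i => ?_⟩
  have e : (x + t1a_vec fun i => -⌊x i⌋) i = Int.fract (x i) := by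
    simp [t1a_vec, Int.fract, sub_eq_add_neg]
  rw [e]
  exact ⟨Int.fract_nonneg _, Int.fract_lt_one _⟩

/-- the integer lattice -/
def t1a_L : AddSubgroup E3 where
  carrier := {v | HasIntegerCoords v}
  zero_mem' := fun _ => ⟨0, by simp⟩
  add_mem' := fun {a b} ha hb i => by
    obtain ⟨m, hm⟩ := ha i
    obtain ⟨n, hn⟩ := hb i
    exact ⟨m + n, by simp [hm, hn]⟩
  neg_mem' := fun {a} ha i => by
    obtain ⟨m, hm⟩ := ha i
    exact ⟨-m, by simp [hm]⟩

instance t1a_countable : Countable t1a_L := by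
  refine Function.Surjective.countable
    (f := fun m : Fin 3 → ℤ => (⟨t1a_vec m, t1a_vec_int m⟩ : t1a_L)) fun v => ?_
  choose m hm using v.2
  exact ⟨m, Subtype.ext (by ext i; exact (hm i).symm)⟩

theorem t1a_fund : IsAddFundamentalDomain t1a_L cell volume := by
  refine IsAddFundamentalDomain.mk' measurableSet_cell.nullMeasurableSet fun x => ?_
  have key : ∀ g : t1a_L, g +ᵥ x ∈ cell → ∀ i, (g : E3) i = -⌊x i⌋ := by
    intro g hg i
    obtain ⟨m, hm⟩ := g.2 i
    have h := hg i
    have e : (g +ᵥ x) i = m + x i := by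
      rw [← hm]; rfl
    rw [e] at h
    have : ⌊x i⌋ = -m := Int.floor_eq_iff.2 ⟨by push_cast; linarith, by push_cast; linarith⟩
    rw [hm, this]; simp
  obtain ⟨v, hv, hx⟩ := exists_int_mem_cell x
  have hx' : (⟨v, hv⟩ : t1a_L) +ᵥ x ∈ cell := by
    rw [add_comm] at hx; exact hx
  refine ⟨⟨v, hv⟩, hx', fun g hg => Subtype.ext ?_⟩
  ext i
  rw [key g hg i, key _ hx' i]

theorem t1a_inv {β : Type*} {f : E3 → β} (hf : Per f) (g : t1a_L) (x : E3) : f (g +ᵥ x) = f x := by
  rw [← hf g g.2 x, add_comm]; rfl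

theorem Per.integral_add {f : E3 → ℝ} (hf : Per f) (v : E3) :
    ∫ x in cell, f (x + v) = ∫ x in cell, f x := by
  have h1 := (t1a_fund.vadd_of_comm v).setIntegral_eq t1a_fund (f := f) (t1a_inv hf)
  rw [← h1, ← image_vadd,
    (measurePreserving_vadd v volume).setIntegral_image_emb (measurableEmbedding_const_vadd v)]
  simp only [vadd_eq_add, add_comm]

open Pointwise in
theorem t1a_lint {f : E3 → ℝ≥0∞} (hf : Per f) (v : E3) :
    ∫⁻ x in v +ᵥ cell, f x = ∫⁻ x in cell, f x :=
  (t1a_fund.vadd_of_comm v).setLIntegral_eq t1a_fund f (t1a_inv hf)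

theorem Per.lintegral_add {f : E3 → ℝ≥0∞} (hf : Per f) (v : E3) :
    ∫⁻ x in cell, f (x + v) = ∫⁻ x in cell, f x := by
  rw [← t1a_lint hf v, ← image_vadd,
    ← (measurePreserving_vadd v volume).setLIntegral_comp_emb (measurableEmbedding_const_vadd v)]
  simp only [vadd_eq_add, add_comm]

theorem Per.ae {p : E3 → Prop} (hp : Per p) (h : ∀ᵐ x ∂(volume.restrict cell), p x) :
    ∀ᵐ x : E3, p x := by
  rw [ae_iff] at h ⊢
  rw [Measure.restrict_apply' measurableSet_cell] at h
  refine t1a_fund.measure_zero_of_invariant _ (fun g => ?_) h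
  ext x
  rw [mem_vadd_set_iff_neg_vadd_mem]
  simp only [mem_ofPred_eq, t1a_inv hp]

open Pointwise in
theorem exists_lintegral_le {K : Set E3} (hK : Bornology.IsBounded K) :
    ∃ C : ℕ, ∀ f : E3 → ℝ≥0∞, Per f → ∫⁻ x in K, f x ≤ C * ∫⁻ x in cell, f x := by
  obtain ⟨R, hR⟩ := hK.exists_norm_le
  set S : Finset (Fin 3 → ℤ) := Fintype.piFinset fun _ => Finset.Icc ⌊-R⌋ ⌊R⌋ with hS
  refine ⟨S.card, fun f hf => ?_⟩
  have hsub : K ⊆ ⋃ m : S, t1a_vec m +ᵥ cell := by
    intro x hx
    have hm : (fun i => ⌊x i⌋) ∈ S := by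
      refine Fintype.mem_piFinset.2 fun i => ?_
      have h := abs_le.1 ((EuclideanSpace.norm_eq x ▸ PiLp.norm_apply_le x i).trans
        (EuclideanSpace.norm_eq x ▸ hR x hx))
      exact Finset.mem_Icc.2 ⟨Int.floor_mono h.1, Int.floor_mono h.2⟩
    refine mem_iUnion.2 ⟨⟨_, hm⟩, ?_⟩
    rw [mem_vadd_set_iff_neg_vadd_mem]
    intro i
    have e : (-t1a_vec (fun i => ⌊x i⌋) +ᵥ x) i = Int.fract (x i) := by
      simp [t1a_vec, Int.fract, sub_eq_neg_add]
    rw [e]
    exact ⟨Int.fract_nonneg _, Int.fract_lt_one _⟩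
  refine (lintegral_mono_set hsub).trans ((lintegral_iUnion_le _ _).trans ?_)
  simp only [t1a_lint hf]
  simp

theorem Per.bdd {f : E3 → ℝ} (hf : Per f) (hc : Continuous f) : ∃ M : ℝ, ∀ x, |f x| ≤ M := by
  obtain ⟨M, hM⟩ := (isCompact_closedBall (0 : E3) 2).exists_bound_of_continuousOn hc.continuousOn
  refine ⟨M, fun x => ?_⟩
  obtain ⟨v, hv, hx⟩ := exists_int_mem_cell x
  rw [← hf v hv x]
  exact hM _ (cell_subset_ball hx)

theorem integrableOn_cell {f : E3 → ℝ} (hf : Measurable f) {M : ℝ} (hM : ∀ x, |f x| ≤ M) :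
    IntegrableOn f cell := by
  exact Measure.integrableOn_of_bounded (by simp [volume_cell]) hf.aestronglyMeasurable (ae_of_all _ hM)

/-- averaging over the fibres (translation invariance and Fubini) -/
theorem Per.integral_fibre {f : E3 → ℝ} (hf : Per f) (hm : Measurable f) {M : ℝ}
    (hM : ∀ x, |f x| ≤ M) (i : Fin 3) :
    ∫ x in cell, f x = ∫ x in cell, ∫ s in Ico (0 : ℝ) 1, f (x + s • ev i) := by
  have : IsFiniteMeasure (volume.restrict cell) := ⟨by simp [volume_cell]⟩
  rw [integral_integral_swap]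
  · simp [hf.integral_add]
  · exact Integrable.of_bound (hm.comp (by fun_prop)).aestronglyMeasurable M (ae_of_all _ fun p => hM _)

theorem PS.ind_per {E : Set E3} (h : PS E) : Per (ind E) := by
  intro v hv x
  by_cases hx : x ∈ E <;> simp [ind, hx, h.per v hv x]

theorem PS.ind_meas {E : Set E3} (h : PS E) : Measurable (ind E) := by
  exact measurable_const.indicator h.meas

theorem ind_abs_le (E : Set E3) (x : E3) : |ind E x| ≤ 1 := by
  by_cases h : x ∈ E <;> simp [ind, h]

theorem integral_ind_mul {E : Set E3} (h : MeasurableSet E) (f : E3 → ℝ) :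
    ∫ x in cell, ind E x * f x = ∫ x in E ∩ cell, f x := by
  rw [inter_comm, ← setIntegral_indicator h]
  refine integral_congr_ae (ae_of_all _ fun x => ?_)
  by_cases hx : x ∈ E <;> simp [ind, hx]

theorem periodicVolume_eq {E : Set E3} (h : MeasurableSet E) :
    periodicVolume E = ∫ x in cell, ind E x := by
  simpa [periodicVolume, Measure.real] using (integral_ind_mul h fun _ => 1).symm

theorem periodicVolume_congr {E F : Set E3} (h : E =ᵐ[volume] F) :
    periodicVolume E = periodicVolume F := by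
  rw [periodicVolume, periodicVolume, measure_congr (h.inter (ae_eq_refl _))]

theorem PS.compl {E : Set E3} (h : PS E) : PS Eᶜ := by
  exact ⟨h.meas.compl, fun v hv x => not_congr (h.per v hv x)⟩

theorem periodicVolume_compl {E : Set E3} (h : MeasurableSet E) :
    periodicVolume Eᶜ = 1 - periodicVolume E := by
  have h1 := congrArg ENNReal.toReal (measure_inter_add_sdiff (μ := volume) cell h)
  rw [volume_cell, ENNReal.toReal_add (measure_ne_top_of_subset inter_subset_left (by simp [volume_cell]))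
    (measure_ne_top_of_subset sdiff_subset (by simp [volume_cell])), inter_comm, sdiff_eq, inter_comm cell] at h1
  rw [periodicVolume, periodicVolume, eq_sub_iff_add_eq', h1, ENNReal.toReal_one]

end Crest.Agent.R214
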