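import Crest.Agent.R214.T1

/-! Block T2: admissible fields, integration by parts, the perimeter predicates, rotations.
`ibp`: for each `i` the difference quotients `(φ (x + s • ev i) i - φ x i) / s` converge boundedly;
move the shift to `u` with `Per.integral_add`; `u` is a.e. differentiable
(`LipschitzWith.ae_differentiableAt`), dominated convergence along `s = 1/(n+1)`.
`rot`: write `L h = ⟪v, h⟫`, take a linear isometry sending `v` to `‖v‖ • ev 0`
(`Submodule.reflection`, `reflection_sub`) and use that it preserves `volume` and the ball. -/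

set_option autoImplicit false
set_option linter.unusedVariables false
open MeasureTheory Set Filter Metric
open scoped Topology ENNReal NNReal
open Crest.GeometryTopology.PeriodicPerimeter

noncomputable section
namespace Crest.Agent.R214

theorem adm_div_cont {φ : E3 → E3} (h : IsAdmissibleField φ) : Continuous (divergence φ) := by
  have hc : Continuous (fderiv ℝ φ) := h.1.continuous_fderiv one_ne_zero
  unfold divergence
  fun_prop

theorem t2a_fderiv_per {β : Type*} [NormedAddCommGroup β] [NormedSpace ℝ β] {u : E3 → β}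
    (hp : Per u) : Per (fderiv ℝ u) := by
  intro v hv x
  rw [← fderiv_comp_add_right]
  congr 1
  funext y
  exact hp v hv y

theorem adm_div_per {φ : E3 → E3} (h : IsAdmissibleField φ) : Per (divergence φ) := by
  intro v hv x
  unfold divergence
  rw [t2a_fderiv_per (u := φ) h.2.1 v hv x]

theorem adm_translate {φ : E3 → E3} (h : IsAdmissibleField φ) (y : E3) :
    IsAdmissibleField (fun x => φ (x + y)) ∧
      ∀ x, divergence (fun x => φ (x + y)) x = divergence φ (x + y) := by
  refine ⟨⟨h.1.comp (contDiff_id.add contDiff_const), fun v hv x => ?_, fun x => h.2.2 _⟩,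
    fun x => ?_⟩
  · simp only
    rw [add_right_comm, h.2.1 v hv]
  · unfold divergence
    rw [fderiv_comp_add_right]

theorem adm_neg {φ : E3 → E3} (h : IsAdmissibleField φ) :
    IsAdmissibleField (fun x => -φ x) ∧ ∀ x, divergence (fun x => -φ x) x = -divergence φ x := by
  refine ⟨⟨h.1.neg, fun v hv x => ?_, fun x => ?_⟩, fun x => ?_⟩
  · simp only
    rw [h.2.1 v hv]
  · rw [norm_neg]; exact h.2.2 x
  · unfold divergence
    rw [fderiv_fun_neg, ← Finset.sum_neg_distrib]
    simp

theorem Per.lipschitz {u : E3 → ℝ} (hp : Per u) (hu : ContDiff ℝ 1 u) :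
    ∃ K : ℝ≥0, LipschitzWith K u := by
  have hc : Continuous (fderiv ℝ u) := hu.continuous_fderiv one_ne_zero
  have hp' : Per (fun x => ‖fderiv ℝ u x‖) := fun v hv x => by
    simp only
    rw [t2a_fderiv_per hp v hv x]
  obtain ⟨M, hM⟩ := hp'.bdd hc.norm
  refine ⟨M.toNNReal, lipschitzWith_of_nnnorm_fderiv_le (hu.differentiable one_ne_zero)
    fun x => ?_⟩
  rw [← NNReal.coe_le_coe, coe_nnnorm]
  exact ((le_abs_self _).trans (hM x)).trans (Real.le_coe_toNNReal M)

theorem t2a_lineDeriv {w : E3 → ℝ} {K : ℝ≥0} (hp : Per w) (hw : LipschitzWith K w) (v : E3) :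
    ∫ x in cell, lineDeriv ℝ w x v = 0 := by
  have hg : Integrable (cell.indicator (fun _ => (1 : ℝ))) (volume : Measure E3) := by
    rw [integrable_indicator_iff measurableSet_cell]
    exact integrableOn_const (by rw [volume_cell]; exact ENNReal.one_ne_top)
  have key : ∀ f : E3 → ℝ, ∫ x, f x * cell.indicator (fun _ => (1 : ℝ)) x = ∫ x in cell, f x := by
    intro f
    rw [← integral_indicator measurableSet_cell]
    congr 1
    funext x
    by_cases hx : x ∈ cell <;> simp [hx]
  have h := hw.integral_inv_smul_sub_mul_tendsto_integral_lineDeriv_mul hg v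
  simp only [key] at h
  obtain ⟨M, hM⟩ := hp.bdd hw.continuous
  have h0 : ∀ t : ℝ, ∫ x in cell, t⁻¹ • (w (x + t • v) - w x) = 0 := by
    intro t
    rw [integral_smul, integral_sub, hp.integral_add, sub_self, smul_zero]
    · exact integrableOn_cell (hw.continuous.comp (by fun_prop)).measurable fun x => hM _
    · exact integrableOn_cell hw.continuous.measurable hM
  simp only [h0] at h
  exact tendsto_nhds_unique h tendsto_const_nhds

theorem t2a_lip_mul {u w : E3 → ℝ} {K L : ℝ≥0} (hu : LipschitzWith K u) (hw : LipschitzWith L w)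
    {M N : ℝ} (hM : ∀ x, |u x| ≤ M) (hN : ∀ x, |w x| ≤ N) :
    ∃ C : ℝ≥0, LipschitzWith C (fun x => u x * w x) := by
  have hM0 : 0 ≤ M := (abs_nonneg _).trans (hM 0)
  have hN0 : 0 ≤ N := (abs_nonneg _).trans (hN 0)
  refine ⟨⟨M * L + N * K, by positivity⟩, LipschitzWith.of_dist_le_mul fun x y => ?_⟩
  have h1 := hu.dist_le_mul x y
  have h2 := hw.dist_le_mul x y
  rw [Real.dist_eq] at h1 h2 ⊢
  have e : u x * w x - u y * w y = u x * (w x - w y) + w y * (u x - u y) := by ring
  rw [e]
  refine (abs_add_le _ _).trans ?_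
  rw [abs_mul, abs_mul]
  change _ ≤ (M * L + N * K) * dist x y
  rw [add_mul, mul_assoc, mul_assoc]
  gcongr
  · exact hM x
  · exact hN y

theorem ibp {u : E3 → ℝ} {K : ℝ≥0} (hp : Per u) (hu : LipschitzWith K u) {φ : E3 → E3}
    (h : IsAdmissibleField φ) :
    ∫ x in cell, u x * divergence φ x = -∫ x in cell, fderiv ℝ u x (φ x) := by
  obtain ⟨M, hM⟩ := hp.bdd hu.continuous
  have hφc : ∀ i, ContDiff ℝ 1 (fun x => φ x i) := fun i => by
    have := h.1
    fun_prop
  have hφp : ∀ i, Per (fun x => φ x i) := fun i v hv x => by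
    simp only
    rw [h.2.1 v hv]
  have hφb : ∀ i x, |φ x i| ≤ 1 := fun i x =>
    (PiLp.norm_apply_le (φ x) i).trans (h.2.2 x)
  have hl : ∀ i, ∃ C : ℝ≥0, LipschitzWith C (fun x => u x * φ x i) := fun i => by
    obtain ⟨L, hL⟩ := (hφp i).lipschitz (hφc i)
    exact t2a_lip_mul hu hL hM (hφb i)
  choose C hC using hl
  have hper : ∀ i, Per (fun x => u x * φ x i) := fun i v hv x => by
    simp only
    rw [hp v hv, h.2.1 v hv]
  have hint : ∀ i, IntegrableOn (fun x => lineDeriv ℝ (fun x => u x * φ x i) x (ev i)) cell :=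
    fun i => integrableOn_cell (measurable_lineDeriv (hC i).continuous)
      fun x => norm_lineDeriv_le_of_lipschitz ℝ (hC i)
  have hsum : ∫ x in cell, ∑ i, lineDeriv ℝ (fun x => u x * φ x i) x (ev i) = 0 := by
    rw [integral_finsetSum _ fun i _ => hint i]
    exact Finset.sum_eq_zero fun i _ => t2a_lineDeriv (hper i) (hC i) _
  obtain ⟨N, hN⟩ := (adm_div_per h).bdd (adm_div_cont h)
  have hint2 : IntegrableOn (fun x => u x * divergence φ x) cell :=
    integrableOn_cell (M := M * N) (hu.continuous.mul (adm_div_cont h)).measurable fun x => by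
      rw [abs_mul]
      exact mul_le_mul (hM x) (hN x) (abs_nonneg _) ((abs_nonneg _).trans (hM x))
  have hae : ∀ᵐ x ∂(volume.restrict cell), fderiv ℝ u x (φ x) =
      ∑ i, lineDeriv ℝ (fun x => u x * φ x i) x (ev i) - u x * divergence φ x := by
    refine ae_restrict_of_ae ?_
    filter_upwards [hu.ae_differentiableAt] with x hx
    have hφx : DifferentiableAt ℝ φ x := h.1.differentiable one_ne_zero x
    have e : ∀ i, lineDeriv ℝ (fun x => u x * φ x i) x (ev i) =
        u x * fderiv ℝ φ x (EuclideanSpace.single i 1) i + φ x i * fderiv ℝ u x (ev i) := by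
      intro i
      have h1 : HasFDerivAt (fun x => φ x i)
          ((EuclideanSpace.proj i : E3 →L[ℝ] ℝ).comp (fderiv ℝ φ x)) x :=
        (EuclideanSpace.proj i : E3 →L[ℝ] ℝ).hasFDerivAt.comp x hφx.hasFDerivAt
      have h2 := (hx.hasFDerivAt.mul h1).hasLineDerivAt (ev i)
      exact h2.lineDeriv
    simp only [e, Finset.sum_add_distrib, ← Finset.mul_sum, divergence, add_sub_cancel_left]
    have e2 : φ x = ∑ i, φ x i • ev i := by
      ext j
      simp [ev, Finset.sum_apply, Pi.single_apply]
    conv_lhs => rw [e2]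
    simp only [map_sum, map_smul, smul_eq_mul]
  rw [integral_congr_ae hae, integral_sub (integrable_finsetSum _ fun i _ => hint i) hint2, hsum]
  simp

theorem integral_div_zero {φ : E3 → E3} (h : IsAdmissibleField φ) :
    ∫ x in cell, divergence φ x = 0 := by
  have := ibp (u := fun _ => (1 : ℝ)) (fun _ _ _ => rfl) (LipschitzWith.const 1) h
  simpa using this

theorem t2b_zero : IsAdmissibleField (fun _ : E3 => (0 : E3)) :=
  ⟨contDiff_const, fun _ _ _ => rfl, fun _ => by simp⟩

theorem PLe.nonneg {E : Set E3} {p : ℝ} (h : PLe E p) : 0 ≤ p := by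
  simpa [divergence] using h (fun _ => 0) t2b_zero

theorem PLe.compl {E : Set E3} (hE : MeasurableSet E) {p : ℝ} (h : PLe E p) : PLe Eᶜ p := fun φ hφ => by
  obtain ⟨M, hM⟩ := (adm_div_per hφ).bdd (adm_div_cont hφ)
  have h1 := integral_inter_add_sdiff hE (integrableOn_cell (adm_div_cont hφ).measurable hM)
  have h2 := h _ (adm_neg hφ).1
  simp only [(adm_neg hφ).2, integral_neg] at h2
  rw [integral_div_zero hφ, inter_comm, sdiff_eq, inter_comm cell Eᶜ] at h1
  linarith

theorem PLe.congr {E F : Set E3} (h : E =ᵐ[volume] F) {p : ℝ} (hp : PLe E p) : PLe F p := fun φ hφ =>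
  (setIntegral_congr_set (h.symm.inter (ae_eq_refl cell))).trans_le (hp φ hφ)

theorem PGe.congr {E F : Set E3} (h : E =ᵐ[volume] F) {p : ℝ} (hp : PGe E p) : PGe F p := fun η hη =>
  (hp η hη).imp fun _ h' => ⟨h'.1, h'.2.trans_eq (setIntegral_congr_set (h.inter (ae_eq_refl cell)))⟩

theorem PGe.of_forall {E : Set E3} {p : ℝ} (h : ∀ q, PLe E q → p ≤ q) : PGe E p := fun η hη => by
  by_contra h'
  have := h (p - η) fun φ hφ => not_lt.1 fun h1 => h' ⟨φ, hφ, h1⟩
  linarith

theorem perimeter_le_iff {E : Set E3} {p : ℝ} (hp : 0 ≤ p) :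
    periodicPerimeter E ≤ ENNReal.ofReal p ↔ PLe E p := by
  simp only [periodicPerimeter, iSup_le_iff, ENNReal.ofReal_le_ofReal_iff hp, Subtype.forall, PLe]

theorem le_perimeter {E : Set E3} {p : ℝ} (h : ∀ q, PLe E q → p ≤ q) :
    ENNReal.ofReal p ≤ periodicPerimeter E := by
  rcases eq_or_ne (periodicPerimeter E) ⊤ with h1 | h1
  · exact h1 ▸ le_top
  · exact ENNReal.ofReal_le_of_le_toReal (h _ ((perimeter_le_iff ENNReal.toReal_nonneg).1
      (ENNReal.ofReal_toReal h1).ge))

theorem c0_pos : 0 < c0 := by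
  have hc : Continuous fun h : E3 => |h 0| := by fun_prop
  refine (setIntegral_pos_iff_support_of_nonneg_ae (Eventually.of_forall fun _ => abs_nonneg _)
    ((hc.continuousOn.integrableOn_compact (isCompact_closedBall 0 1)).mono_set ball_subset_closedBall)).2
    ((hc.isOpen_support.inter isOpen_ball).measure_pos _ ⟨(1 / 2 : ℝ) • ev 0, ?_, ?_⟩)
  · simp [ev]
  · norm_num [ev, norm_smul]

theorem t2b_iso (T : E3 ≃ₗᵢ[ℝ] E3) (f : E3 → ℝ) :
    ∫ h in ball (0 : E3) 1, f (T h) = ∫ h in ball (0 : E3) 1, f h := by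
  rw [← T.measurePreserving.setIntegral_preimage_emb T.toHomeomorph.measurableEmbedding f]
  congr 2
  ext x
  simp

theorem rot (L : E3 →L[ℝ] ℝ) : ∫ h in ball (0 : E3) 1, |L h| = c0 * ‖L‖ := by
  obtain ⟨v, rfl⟩ := (InnerProductSpace.toDual ℝ E3).surjective L
  have hv : ‖‖v‖ • ev 0‖ = ‖v‖ := by simp [ev, norm_smul]
  obtain ⟨T, hT⟩ : ∃ T : E3 ≃ₗᵢ[ℝ] E3, T (‖v‖ • ev 0) = v := ⟨_, Submodule.reflection_sub hv⟩
  rw [← t2b_iso T, LinearIsometryEquiv.norm_map, c0, ← integral_mul_const]
  refine integral_congr_ae (Eventually.of_forall fun h => ?_)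
  simp only [InnerProductSpace.toDual_apply_apply]
  nth_rw 1 [← hT]
  rw [LinearIsometryEquiv.inner_map_map, real_inner_smul_left, abs_mul, abs_norm, mul_comm]
  simp [ev, EuclideanSpace.inner_single_left]

theorem flip_apply (i j : Fin 3) (h : E3) : flip i h j = if j = i then -h j else h j := by
  by_cases hj : j = i
  · simp [flip, ev, hj]
    ring
  · simp [flip, ev, hj]

theorem t2b_flip (i : Fin 3) (h : E3) : flip i h = (ℝ ∙ ev i)ᗮ.reflection h := by
  rw [Submodule.reflection_orthogonal_apply, Submodule.reflection_singleton_apply, neg_sub, flip, two_smul,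
    ← add_smul]
  simp [ev, EuclideanSpace.inner_single_left, two_mul]

theorem norm_flip (i : Fin 3) (h : E3) : ‖flip i h‖ = ‖h‖ := by
  rw [t2b_flip, LinearIsometryEquiv.norm_map]

theorem measurable_flip (i : Fin 3) : Measurable (flip i) := by
  rw [funext (t2b_flip i)]
  exact (LinearIsometryEquiv.continuous _).measurable

theorem integral_flip (i : Fin 3) (f : E3 → ℝ) :
    ∫ h in ball (0 : E3) 1, f (flip i h) = ∫ h in ball (0 : E3) 1, f h := by
  simp only [t2b_flip, t2b_iso]

end Crest.Agent.R214
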