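import Crest.Agent.R214.T2

/-! Block T3: the nonlocal energy computes the perimeter.
`exists_moll`: `u n = (φ n).normed volume ⋆ ind E` for bumps of radius tending to `0`
(`ContDiffBump.ae_convolution_tendsto_right_of_locallyIntegrable`); `u n x = ∫ ρ y * ind E (x - y)`,
so both inequalities follow from Fubini, `Per.integral_add` and `adm_translate`.
`grad_le`: test with `φ = -(‖∇u‖² + δ)^(-1/2) • ∇u` (gradient), `ibp`, `δ → 0`.
`NE_smooth_le`: `u (x + ε h) - u x = ∫₀¹ fderiv u (x + s ε h) (ε h)`, Fubini, `Per.integral_add`, `rot`.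
`NE_le`: dominated convergence `NE (u n) ε → NE (ind E) ε`.
`tendsto_NE`: dominated convergence with the bound `K`.
`NE_lower`: choose `n` with `∫ u n div φ` close to `∫_E div φ`, then `ibp`, `tendsto_NE`. -/

set_option autoImplicit false
set_option linter.unusedVariables false
open MeasureTheory Set Filter Metric
open scoped Topology ENNReal NNReal
open Crest.GeometryTopology.PeriodicPerimeter

noncomputable section
namespace Crest.Agent.R214

theorem t3a_fub {ρ : E3 → ℝ} (hρ : Integrable ρ) (h0 : ∀ y, 0 ≤ ρ y) (h1 : ∫ y, ρ y = 1) {F : E3 → E3 → ℝ}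
    (hF : Measurable fun q : E3 × E3 => F q.1 q.2) {M : ℝ} (hM : ∀ x y, |F x y| ≤ M) {p : ℝ}
    (h : ∀ y, ∫ x in cell, F x y ≤ p) :
    IntegrableOn (fun x => ∫ y, ρ y * F x y) cell ∧ ∫ x in cell, ∫ y, ρ y * F x y ≤ p := by
  have : IsFiniteMeasure (volume.restrict cell) := ⟨by simp [volume_cell]⟩
  have hi : Integrable (Function.uncurry fun x y => ρ y * F x y) ((volume.restrict cell).prod volume) :=
    (hρ.comp_snd _).mul_bdd hF.aestronglyMeasurable (Eventually.of_forall fun q => hM q.1 q.2)
  refine ⟨hi.integral_prod_left, ?_⟩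
  rw [integral_integral_swap hi, ← one_mul p, ← h1, ← integral_mul_const]
  refine integral_mono hi.integral_prod_right (hρ.mul_const p) fun y => ?_
  simp only [integral_const_mul]
  exact mul_le_mul_of_nonneg_left (h y) (h0 y)

theorem exists_moll {E : Set E3} (hE : PS E) : ∃ u : ℕ → E3 → ℝ,
    (∀ n, ContDiff ℝ 2 (u n) ∧ Per (u n) ∧ ∀ x, |u n x| ≤ 1) ∧
    (∀ᵐ x : E3, Tendsto (fun n => u n x) atTop (𝓝 (ind E x))) ∧
    (∀ n p, PLe E p → ∀ φ : E3 → E3, IsAdmissibleField φ →
      ∫ x in cell, u n x * divergence φ x ≤ p) ∧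
    (∀ n (h : E3), ∫ x in cell, |u n (x + h) - u n x| ≤ ∫ x in cell, |ind E (x + h) - ind E x|) := by
  let φ : ℕ → ContDiffBump (0 : E3) := fun n => ⟨1 / ((n : ℝ) + 1), 2 * (1 / ((n : ℝ) + 1)),
    Nat.one_div_pos_of_nat, lt_two_mul_self Nat.one_div_pos_of_nat⟩
  have hm := hE.ind_meas
  have hl : LocallyIntegrable (ind E) := (locallyIntegrable_const (1 : ℝ)).mono hm.aestronglyMeasurable
    (Eventually.of_forall fun x => by simpa using ind_abs_le E x)
  have hi := fun n => (φ n).integrable_normed (μ := volume)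
  have h0 := fun n => (φ n).nonneg_normed (μ := volume)
  have h1 := fun n => (φ n).integral_normed (μ := volume)
  have hi' : ∀ n x, Integrable fun y => (φ n).normed volume y * ind E (x - y) := fun n x =>
    (hi n).mul_bdd (hm.comp (measurable_const.sub measurable_id)).aestronglyMeasurable
      (Eventually.of_forall fun y => ind_abs_le E _)
  refine ⟨fun n x => ∫ y, (φ n).normed volume y * ind E (x - y), fun n => ⟨?_, fun v hv x => ?_, fun x => ?_⟩,
    ContDiffBump.ae_convolution_tendsto_right_of_locallyIntegrable (φ := φ) (K := 2)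
      (by simpa [φ] using tendsto_one_div_add_atTop_nhds_zero_nat.const_mul (2 : ℝ))
      (Eventually.of_forall fun n => le_rfl) hl, fun n p hp ψ hψ => ?_, fun n h => ?_⟩
  · exact (φ n).hasCompactSupport_normed.contDiff_convolution_left (ContinuousLinearMap.lsmul ℝ ℝ)
      (φ n).contDiff_normed hl
  · simp only [add_sub_right_comm x v, hE.ind_per v hv]
  · rw [← h1 n, ← Real.norm_eq_abs]
    refine norm_integral_le_of_norm_le (hi n) (Eventually.of_forall fun y => ?_)
    rw [norm_mul, Real.norm_of_nonneg (h0 n y)]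
    exact mul_le_of_le_one_right (h0 n y) (ind_abs_le E _)
  · obtain ⟨M, hM⟩ := (adm_div_per hψ).bdd (adm_div_cont hψ)
    simp only [← integral_mul_const, mul_assoc]
    refine (t3a_fub (hi n) (h0 n) (h1 n) (F := fun x y => ind E (x - y) * divergence ψ x) (M := M)
      ((hm.comp (measurable_fst.sub measurable_snd)).mul ((adm_div_cont hψ).measurable.comp measurable_fst))
      (fun x y => ?_) fun y => ?_).2
    · rw [abs_mul]
      exact (mul_le_of_le_one_left (abs_nonneg _) (ind_abs_le E _)).trans (hM x)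
    · rw [← Per.integral_add (f := fun x => ind E (x - y) * divergence ψ x) (fun v hv x => by
        simp only [add_sub_right_comm x v, hE.ind_per v hv, adm_div_per hψ v hv]) y]
      simp only [add_sub_cancel_right, ← (adm_translate hψ y).2, integral_ind_mul hE.meas]
      exact hp _ (adm_translate hψ y).1
  · obtain ⟨a1, a2⟩ := t3a_fub (hi n) (h0 n) (h1 n) (F := fun x y => |ind E (x + h - y) - ind E (x - y)|) (M := 2)
      (p := ∫ x in cell, |ind E (x + h) - ind E x|)
      ((hm.comp ((measurable_fst.add_const h).sub measurable_snd)).sub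
        (hm.comp (measurable_fst.sub measurable_snd))).abs
      (fun x y => by
        rw [abs_abs]
        linarith [abs_sub (ind E (x + h - y)) (ind E (x - y)), ind_abs_le E (x + h - y), ind_abs_le E (x - y)])
      (fun y => by
        rw [← Per.integral_add (f := fun x => |ind E (x + h - y) - ind E (x - y)|) (fun v hv x => by
          simp only [add_right_comm x v, add_sub_right_comm _ v, hE.ind_per v hv]) y]
        simp only [add_right_comm _ y, add_sub_cancel_right, le_refl])
    refine (integral_mono_of_nonneg (Eventually.of_forall fun x => abs_nonneg _) a1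
      (Eventually.of_forall fun x => ?_)).trans a2
    beta_reduce
    rw [← integral_sub (hi' n _) (hi' n _)]
    refine abs_integral_le_integral_abs.trans_eq (integral_congr_ae (Eventually.of_forall fun y => ?_))
    beta_reduce
    rw [← mul_sub, abs_mul, abs_of_nonneg (h0 n y)]

theorem t3b_per {u : E3 → ℝ} (hp : Per u) : Per (fderiv ℝ u) := fun v hv x => by
  rw [← fderiv_comp_add_right]
  exact congrArg (fun f => fderiv ℝ f x) (funext (hp v hv))

theorem t3b_fin : IsFiniteMeasure (volume.restrict cell) :=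
  isFiniteMeasure_restrict.2 (by rw [volume_cell]; exact ENNReal.one_ne_top)

theorem t3b_fin' : IsFiniteMeasure (volume.restrict (ball (0 : E3) 1)) :=
  isFiniteMeasure_restrict.2 measure_ball_lt_top.ne

theorem t3b_bdd {u : E3 → ℝ} (hu : ContDiff ℝ 2 u) (hp : Per u) : ∃ M : ℝ, ∀ x, ‖fderiv ℝ u x‖ ≤ M := by
  obtain ⟨M, hM⟩ := Per.bdd (f := fun x => ‖fderiv ℝ u x‖) (fun v hv x => by simp only [t3b_per hp v hv x])
    (hu.continuous_fderiv two_ne_zero).norm
  exact ⟨M, fun x => (le_abs_self _).trans (hM x)⟩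

theorem grad_le {u : E3 → ℝ} (hu : ContDiff ℝ 2 u) (hp : Per u) {p : ℝ}
    (h : ∀ φ : E3 → E3, IsAdmissibleField φ → ∫ x in cell, u x * divergence φ x ≤ p) :
    ∫ x in cell, ‖fderiv ℝ u x‖ ≤ p := by
  have := t3b_fin
  have hd : ContDiff ℝ 1 (fderiv ℝ u) := hu.fderiv_right (by norm_num)
  have hg1 : ∀ x v : E3, Inner.inner ℝ (gradient u x) v = fderiv ℝ u x v := fun x v =>
    InnerProductSpace.toDual_symm_apply
  have hg2 : ∀ x, ‖gradient u x‖ = ‖fderiv ℝ u x‖ := fun x => LinearIsometryEquiv.norm_map _ _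
  have hg : ContDiff ℝ 1 (gradient u) := by
    refine contDiff_euclidean.2 fun i => ?_
    have : (fun x => gradient u x i) = fun x => fderiv ℝ u x (ev i) := by
      funext x; rw [← hg1, ev, EuclideanSpace.inner_single_right, one_mul]; rfl
    rw [this]
    exact hd.clm_apply contDiff_const
  obtain ⟨K, hK⟩ := hp.lipschitz (hu.of_le (by norm_num))
  obtain ⟨M, hM⟩ := t3b_bdd hu hp
  refine le_of_forall_pos_le_add fun δ hδ => ?_
  have hs : ∀ x, 0 < √(‖gradient u x‖ ^ 2 + δ ^ 2) := fun x => Real.sqrt_pos.2 (by positivity)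
  have hs' : ∀ x, ‖gradient u x‖ ≤ √(‖gradient u x‖ ^ 2 + δ ^ 2) := fun x =>
    Real.le_sqrt_of_sq_le (by nlinarith)
  have hc : ContDiff ℝ 1 fun x => -(√(‖gradient u x‖ ^ 2 + δ ^ 2))⁻¹ :=
    ((((hg.norm_sq ℝ).add contDiff_const).sqrt fun x => by positivity).inv fun x => (hs x).ne').neg
  have ha : IsAdmissibleField fun x => -(√(‖gradient u x‖ ^ 2 + δ ^ 2))⁻¹ • gradient u x := by
    refine ⟨hc.smul hg, fun v hv x => ?_, fun x => ?_⟩
    · have : gradient u (x + v) = gradient u x := by unfold gradient; rw [t3b_per hp v hv x]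
      simp only [this]
    · rw [norm_smul, norm_neg, norm_inv, Real.norm_of_nonneg (hs x).le, inv_mul_le_iff₀ (hs x), mul_one]
      exact hs' x
  have H := h _ ha
  rw [ibp hp hK ha, ← integral_neg] at H
  have i1 : IntegrableOn (fun x => ‖fderiv ℝ u x‖) cell :=
    integrableOn_cell hd.continuous.norm.measurable (M := M) fun x => by rw [abs_norm]; exact hM x
  have i2 : IntegrableOn (fun x => -fderiv ℝ u x (-(√(‖gradient u x‖ ^ 2 + δ ^ 2))⁻¹ • gradient u x)) cell :=
    integrableOn_cell (hd.continuous.clm_apply ha.1.continuous).neg.measurable (M := M) fun x => by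
      rw [abs_neg]
      exact ((fderiv ℝ u x).le_opNorm _).trans
        ((mul_le_of_le_one_right (norm_nonneg _) (ha.2.2 x)).trans (hM x))
  have H2 := integral_mono i1 (i2.add (integrable_const δ)) fun x => by
    simp only [Pi.add_apply]
    rw [map_smul, ← hg1, real_inner_self_eq_norm_sq, ← hg2, smul_eq_mul, neg_mul, neg_neg,
      ← sub_le_iff_le_add, le_inv_mul_iff₀ (hs x)]
    have e := Real.sq_sqrt (show 0 ≤ ‖gradient u x‖ ^ 2 + δ ^ 2 by positivity)
    have e2 : δ ≤ √(‖gradient u x‖ ^ 2 + δ ^ 2) := Real.le_sqrt_of_sq_le (by nlinarith [norm_nonneg (gradient u x)])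
    nlinarith [mul_le_mul_of_nonneg_left (hs' x) (hs x).le, mul_le_mul_of_nonneg_left e2 hδ.le]
  rw [integral_add' i2 (integrable_const δ), setIntegral_const, Measure.real, volume_cell] at H2
  simp only [ENNReal.toReal_one, smul_eq_mul, one_mul] at H2
  linarith

/-- joint integrability, for Fubini -/
theorem NE_integrable {u : E3 → ℝ} (hu : Measurable u) {M : ℝ} (hM : ∀ x, |u x| ≤ M) (ε : ℝ) :
    Integrable (fun q : E3 × E3 => |u (q.2 + ε • q.1) - u q.2|)
      ((volume.restrict (ball (0 : E3) 1)).prod (volume.restrict cell)) := by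
  have := t3b_fin
  have := t3b_fin'
  refine Integrable.of_bound (Measurable.aestronglyMeasurable (by fun_prop)) (M + M) (ae_of_all _ fun q => ?_)
  rw [Real.norm_eq_abs, abs_abs]
  exact (abs_sub _ _).trans (add_le_add (hM _) (hM _))

theorem t3b_shift {u : E3 → ℝ} (hu : ContDiff ℝ 2 u) (hp : Per u) (v : E3) :
    ∫ x in cell, |u (x + v) - u x| ≤ ∫ x in cell, |fderiv ℝ u x v| := by
  have := t3b_fin
  have hd : Continuous (fderiv ℝ u) := hu.continuous_fderiv two_ne_zero
  obtain ⟨M, hM⟩ := t3b_bdd hu hp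
  obtain ⟨M', hM'⟩ := hp.bdd hu.continuous
  have hi : Integrable (fun q : E3 × ℝ => |fderiv ℝ u (q.1 + q.2 • v) v|)
      ((volume.restrict cell).prod (volume.restrict (Ioc (0 : ℝ) 1))) := by
    refine Integrable.of_bound (Continuous.aestronglyMeasurable (by fun_prop)) (M * ‖v‖)
      (ae_of_all _ fun q => ?_)
    rw [Real.norm_eq_abs, abs_abs]
    exact ((fderiv ℝ u _).le_opNorm _).trans (mul_le_mul_of_nonneg_right (hM _) (norm_nonneg _))
  have h1 : ∀ x, |u (x + v) - u x| ≤ ∫ s in Ioc (0 : ℝ) 1, |fderiv ℝ u (x + s • v) v| := fun x => by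
    have a : ∀ s : ℝ, HasDerivAt (fun s : ℝ => u (x + s • v)) (fderiv ℝ u (x + s • v) v) s := fun s => by
      have b : HasDerivAt (fun s : ℝ => x + s • v) v s := by
        simpa using ((hasDerivAt_id s).smul_const v).const_add x
      exact (hu.differentiable two_ne_zero _).hasFDerivAt.comp_hasDerivAt s b
    have b := intervalIntegral.integral_eq_sub_of_hasDerivAt (a := 0) (b := 1) (fun s _ => a s)
      (Continuous.intervalIntegrable (by fun_prop) _ _)
    simp only [one_smul, zero_smul, add_zero] at b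
    rw [← b, intervalIntegral.integral_of_le zero_le_one]
    exact abs_integral_le_integral_abs
  have hm := hu.continuous.measurable
  refine (integral_mono (integrableOn_cell (by fun_prop) (M := M' + M') fun x => ?_)
    hi.integral_prod_left h1).trans (le_of_eq ?_)
  · rw [abs_abs]; exact (abs_sub _ _).trans (add_le_add (hM' _) (hM' _))
  rw [integral_integral_swap hi]
  have h2 : ∀ s : ℝ, ∫ x in cell, |fderiv ℝ u (x + s • v) v| = ∫ x in cell, |fderiv ℝ u x v| := fun s =>
    Per.integral_add (f := fun x => |fderiv ℝ u x v|) (fun w hw x => by simp only [t3b_per hp w hw x]) _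
  simp [h2]

theorem NE_smooth_le {u : E3 → ℝ} (hu : ContDiff ℝ 2 u) (hp : Per u) {ε : ℝ} (hε : 0 < ε) :
    NE u ε ≤ c0 * ∫ x in cell, ‖fderiv ℝ u x‖ := by
  have := t3b_fin
  have := t3b_fin'
  have hd : Continuous (fderiv ℝ u) := hu.continuous_fderiv two_ne_zero
  obtain ⟨M, hM⟩ := t3b_bdd hu hp
  obtain ⟨M', hM'⟩ := hp.bdd hu.continuous
  have hi : Integrable (fun q : E3 × E3 => |fderiv ℝ u q.2 q.1|)
      ((volume.restrict (ball (0 : E3) 1)).prod (volume.restrict cell)) := by
    refine Integrable.of_bound (Continuous.aestronglyMeasurable (by fun_prop)) M ?_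
    rw [Measure.prod_restrict, ae_restrict_iff' (measurableSet_ball.prod measurableSet_cell)]
    refine ae_of_all _ fun q hq => ?_
    rw [Real.norm_eq_abs, abs_abs]
    exact ((fderiv ℝ u _).le_opNorm _).trans
      ((mul_le_of_le_one_right (norm_nonneg _) (mem_ball_zero_iff.1 hq.1).le).trans (hM _))
  unfold NE
  rw [div_le_iff₀ hε, ← integral_const_mul]
  simp_rw [← rot]
  rw [← integral_integral_swap (f := fun h x : E3 => |fderiv ℝ u x h|) hi, ← integral_mul_const]
  refine integral_mono (NE_integrable hu.continuous.measurable hM' ε).integral_prod_left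
    (hi.integral_prod_left.mul_const ε) fun h => (t3b_shift hu hp _).trans (le_of_eq ?_)
  simp only [map_smul, smul_eq_mul, abs_mul, abs_of_pos hε, integral_const_mul, mul_comm]

instance t3c_fin_cell : IsFiniteMeasure (volume.restrict cell) :=
  ⟨by simp [volume_cell]⟩

instance t3c_fin_ball : IsFiniteMeasure (volume.restrict (ball (0 : E3) 1)) :=
  ⟨by simpa using measure_ball_lt_top⟩

theorem t3c_two {u : E3 → ℝ} (h : ∀ x, |u x| ≤ 1) (x y : E3) : ‖|u x - u y|‖ ≤ 2 := by
  rw [Real.norm_eq_abs, abs_abs]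
  exact (abs_sub _ _).trans (by linarith [h x, h y])

theorem NE_le {E : Set E3} (hE : PS E) {p : ℝ} (h : PLe E p) {ε : ℝ} (hε : 0 < ε) :
    NE (ind E) ε ≤ c0 * p := by
  obtain ⟨u, hu, hae, hp, -⟩ := exists_moll hE
  have h1 : Tendsto (fun n => NE (u n) ε) atTop (𝓝 (NE (ind E) ε)) := by
    refine Tendsto.div_const (tendsto_integral_of_dominated_convergence (fun _ => 2)
      (fun n => (NE_integrable (hu n).1.continuous.measurable (hu n).2.2 ε).integral_prod_left.1)
      (integrable_const _) (fun n => ae_of_all _ fun h => ?_) (ae_of_all _ fun h => ?_)) ε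
    · have := norm_integral_le_of_norm_le_const (μ := volume.restrict cell) (C := 2)
        (f := fun x => |u n (x + ε • h) - u n x|) (ae_of_all _ fun x => t3c_two ((hu n).2.2) _ _)
      simpa [Measure.real, volume_cell] using this
    · refine tendsto_integral_of_dominated_convergence (fun _ => 2) (fun n => ?_) (integrable_const _)
        (fun n => ae_of_all _ fun x => t3c_two ((hu n).2.2) _ _) (ae_restrict_of_ae ?_)
      · have := (hu n).1.continuous
        exact Continuous.aestronglyMeasurable (by fun_prop)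
      · filter_upwards [hae, (measurePreserving_add_right volume (ε • h)).quasiMeasurePreserving.ae hae]
          with x h1 h2 using (h2.sub h1).abs
  exact le_of_tendsto' h1 fun n => (NE_smooth_le (hu n).1 (hu n).2.1 hε).trans
    (mul_le_mul_of_nonneg_left (grad_le (hu n).1 (hu n).2.1 (hp n p h)) c0_pos.le)

theorem tendsto_NE {u : E3 → ℝ} (hu : ContDiff ℝ 2 u) (hp : Per u) :
    Tendsto (NE u) (𝓝[>] 0) (𝓝 (c0 * ∫ x in cell, ‖fderiv ℝ u x‖)) := by
  obtain ⟨K, hK⟩ := hp.lipschitz (hu.of_le (by norm_num))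
  obtain ⟨M, hM⟩ := hp.bdd hu.continuous
  have hc := hu.continuous
  have hd : Continuous (fderiv ℝ u) := hu.continuous_fderiv (by norm_num)
  have hb : ∀ᵐ q : E3 × E3 ∂((volume.restrict (ball (0 : E3) 1)).prod (volume.restrict cell)),
      ‖q.1‖ ≤ 1 := Measure.quasiMeasurePreserving_fst.ae
        ((ae_restrict_mem measurableSet_ball).mono fun h hh => (mem_ball_zero_iff.1 hh).le)
  have h1 := tendsto_integral_filter_of_dominated_convergence (l := 𝓝[>] (0 : ℝ))
    (μ := (volume.restrict (ball (0 : E3) 1)).prod (volume.restrict cell))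
    (F := fun ε q => |u (q.2 + ε • q.1) - u q.2| / ε) (f := fun q => |fderiv ℝ u q.2 q.1|)
    (fun _ => K) (Eventually.of_forall fun ε => Continuous.aestronglyMeasurable (by fun_prop))
    (eventually_mem_nhdsWithin.mono fun ε (hε : 0 < ε) => hb.mono fun q hq => by
      have := hK.dist_le_mul (q.2 + ε • q.1) q.2
      rw [Real.dist_eq, dist_eq_norm, add_sub_cancel_left, norm_smul, Real.norm_of_nonneg hε.le] at this
      rw [Real.norm_of_nonneg (by positivity), div_le_iff₀ hε]
      exact this.trans (mul_le_mul_of_nonneg_left (mul_le_of_le_one_right hε.le hq) K.2))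
    (integrable_const _) (ae_of_all _ fun q => by
      have h2 := ((hu.differentiable (by norm_num) q.2).hasFDerivAt.hasLineDerivAt
        q.1).tendsto_slope_zero_right.abs
      refine h2.congr' (eventually_mem_nhdsWithin.mono fun ε (hε : 0 < ε) => ?_)
      simp only [smul_eq_mul, abs_mul, abs_inv, abs_of_pos hε]
      rw [div_eq_inv_mul])
  have h2 : Integrable (fun q : E3 × E3 => |fderiv ℝ u q.2 q.1|)
      ((volume.restrict (ball (0 : E3) 1)).prod (volume.restrict cell)) :=
    Integrable.of_bound (Continuous.aestronglyMeasurable (by fun_prop)) K (hb.mono fun q hq => by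
      rw [Real.norm_eq_abs, abs_abs]
      exact ((fderiv ℝ u q.2).le_opNorm q.1).trans ((mul_le_of_le_one_right (norm_nonneg _) hq).trans
        (norm_fderiv_le_of_lipschitz ℝ hK)))
  rw [integral_prod_symm _ h2] at h1
  simp only [rot, integral_const_mul] at h1
  refine h1.congr fun ε => ?_
  rw [integral_div, integral_prod _ (NE_integrable hc.measurable hM ε), NE]

theorem NE_lower {E : Set E3} (hE : PS E) {φ : E3 → E3} (h : IsAdmissibleField φ) {η : ℝ}
    (hη : 0 < η) :
    ∀ᶠ ε in 𝓝[>] (0 : ℝ), c0 * ∫ x in E ∩ cell, divergence φ x ≤ NE (ind E) ε + η := by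
  obtain ⟨u, hu, hae, -, hle⟩ := exists_moll hE
  have hc := adm_div_cont h
  obtain ⟨M, hM⟩ := (adm_div_per h).bdd hc
  have h1 : Tendsto (fun n => ∫ x in cell, u n x * divergence φ x) atTop
      (𝓝 (∫ x in cell, ind E x * divergence φ x)) :=
    tendsto_integral_of_dominated_convergence (fun _ => M)
      (fun n => ((hu n).1.continuous.mul hc).aestronglyMeasurable) (integrable_const _)
      (fun n => ae_of_all _ fun x => by
        rw [Real.norm_eq_abs, abs_mul]
        exact (mul_le_of_le_one_left (abs_nonneg _) ((hu n).2.2 x)).trans (hM x))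
      (ae_restrict_of_ae (hae.mono fun x hx => hx.mul_const _))
  rw [integral_ind_mul hE.meas] at h1
  obtain ⟨n, hn⟩ := ((h1.const_mul c0).eventually (lt_mem_nhds (sub_lt_self _ (half_pos hη)))).exists
  obtain ⟨K, hK⟩ := (hu n).2.1.lipschitz ((hu n).1.of_le (by norm_num))
  have h2 : ∫ x in cell, u n x * divergence φ x ≤ ∫ x in cell, ‖fderiv ℝ (u n) x‖ := by
    rw [ibp (hu n).2.1 hK h]
    refine (neg_le_abs _).trans (norm_integral_le_of_norm_le ?_ (ae_of_all _ fun x =>
      ((fderiv ℝ (u n) x).le_opNorm _).trans (mul_le_of_le_one_right (norm_nonneg _) (h.2.2 x))))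
    exact integrableOn_cell ((hu n).1.continuous_fderiv (by norm_num)).norm.measurable (M := K)
      fun x => by rw [abs_norm]; exact norm_fderiv_le_of_lipschitz ℝ hK
  filter_upwards [(tendsto_NE (hu n).1 (hu n).2.1).eventually
    (lt_mem_nhds (sub_lt_self _ (half_pos hη))), eventually_mem_nhdsWithin] with ε h3 (hε : 0 < ε)
  have h4 : NE (u n) ε ≤ NE (ind E) ε :=
    div_le_div_of_nonneg_right (integral_mono
      (NE_integrable (hu n).1.continuous.measurable (hu n).2.2 ε).integral_prod_left
      (NE_integrable hE.ind_meas (ind_abs_le E) ε).integral_prod_left fun h => hle n _) hε.le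
  linarith [mul_le_mul_of_nonneg_left h2 c0_pos.le]

end Crest.Agent.R214
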