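import Crest.Agent.R214.Defs

/-! Block T4: one-dimensional periodic sets.  `len_sh`: `Function.Periodic.intervalIntegral_add_eq`
for the indicator (or `AddCircle`-free cutting of `Ico`). -/

set_option autoImplicit false
set_option linter.unusedVariables false
open MeasureTheory Set Filter Metric
open scoped Topology ENNReal NNReal
open Crest.GeometryTopology.PeriodicPerimeter

noncomputable section
namespace Crest.Agent.R214

theorem tau_nonneg (s : ℝ) : 0 ≤ tau s := by
  exact abs_nonneg _

theorem tau_le_half (s : ℝ) : tau s ≤ 1 / 2 := by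
  exact abs_sub_round s

theorem tau_le_int (s : ℝ) (k : ℤ) : tau s ≤ |s - k| := by
  exact round_le s k

theorem tau_add_int (s : ℝ) (k : ℤ) : tau (s + k) = tau s := by
  unfold tau
  rw [round_add_intCast]
  push_cast
  congr 1
  ring

theorem tau_neg (s : ℝ) : tau (-s) = tau s := by
  have key : ∀ t : ℝ, tau (-t) ≤ tau t := by
    intro t
    refine (tau_le_int (-t) (-round t)).trans (le_of_eq ?_)
    unfold tau
    push_cast
    rw [← abs_neg]
    congr 1
    ring
  refine le_antisymm (key s) ?_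
  simpa using key (-s)

theorem tau_add_le (s t : ℝ) : tau (s + t) ≤ tau s + tau t := by
  refine (tau_le_int (s + t) (round s + round t)).trans ?_
  unfold tau
  push_cast
  calc |s + t - ((round s : ℝ) + round t)| = |(s - round s) + (t - round t)| := by
        congr 1; ring
    _ ≤ _ := abs_add_le _ _

theorem tau_lip : LipschitzWith 1 tau := by
  have key : ∀ s t : ℝ, tau s ≤ tau t + |s - t| := by
    intro s t
    have h1 := tau_add_le t (s - t)
    have h2 := tau_le_int (s - t) 0
    rw [add_sub_cancel] at h1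
    simp only [Int.cast_zero, sub_zero] at h2
    linarith
  refine LipschitzWith.of_dist_le_mul fun s t => ?_
  rw [Real.dist_eq, Real.dist_eq, NNReal.coe_one, one_mul, abs_sub_le_iff]
  have h1 := key s t
  have h2 := key t s
  rw [abs_sub_comm t s] at h2
  constructor <;> linarith

theorem tau_of_abs_le {s : ℝ} (h : |s| ≤ 1 / 2) : tau s = |s| := by
  refine le_antisymm (by simpa using tau_le_int s 0) ?_
  unfold tau
  rcases eq_or_ne (round s) 0 with h0 | h0
  · rw [h0]; simp
  · have h1 : (1 : ℝ) ≤ |(round s : ℝ)| := by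
      rw [← Int.cast_abs]
      exact_mod_cast Int.one_le_abs h0
    have h2 : |(round s : ℝ)| ≤ |s - round s| + |s| := by
      calc |(round s : ℝ)| = |s - (s - round s)| := by congr 1; ring
        _ ≤ |s| + |s - round s| := abs_sub _ _
        _ = _ := add_comm _ _
    linarith

theorem tau_eq_zero {s : ℝ} : tau s = 0 ↔ ∃ k : ℤ, s = k := by
  constructor
  · intro h
    exact ⟨round s, sub_eq_zero.mp (abs_eq_zero.mp h)⟩
  · rintro ⟨k, rfl⟩
    simp [tau]

theorem tau_lt_iff {s r : ℝ} : tau s < r ↔ ∃ k : ℤ, |s - k| < r := by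
  constructor
  · intro h
    exact ⟨round s, h⟩
  · rintro ⟨k, hk⟩
    exact (tau_le_int s k).trans_lt hk

theorem PS1.add_int {A : Set ℝ} (h : PS1 A) (s : ℝ) (k : ℤ) : s + k ∈ A ↔ s ∈ A := by
  induction k using Int.induction_on with
  | zero => simp
  | succ n ih =>
    rw [← ih, ← h.per (s + ((n : ℤ) : ℝ))]
    push_cast
    rw [add_assoc]
  | pred n ih =>
    rw [← ih, ← h.per (s + ((-(n : ℤ) - 1 : ℤ) : ℝ))]
    push_cast
    have : s + (-(n : ℝ) - 1) + 1 = s + -(n : ℝ) := by ring
    rw [this]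

theorem PS1.sh {A : Set ℝ} (h : PS1 A) (r : ℝ) : PS1 (sh r A) := by
  refine ⟨(measurable_add_const r) h.meas, fun s => ?_⟩
  change s + 1 + r ∈ A ↔ s + r ∈ A
  rw [add_right_comm, h.per]

theorem PS1.symmDiff {A B : Set ℝ} (hA : PS1 A) (hB : PS1 B) : PS1 (symmDiff A B) := by
  refine ⟨hA.meas.symmDiff hB.meas, fun s => ?_⟩
  simp only [Set.mem_symmDiff, hA.per, hB.per]

theorem arc_ps1 (c l : ℝ) : PS1 (arc c l) := by
  refine ⟨?_, fun s => ?_⟩
  · exact measurableSet_lt
      (tau_lip.continuous.measurable.comp (measurable_id.sub_const c)) measurable_const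
  · change tau (s + 1 - c) < l / 2 ↔ tau (s - c) < l / 2
    have : s + 1 - c = (s - c) + ((1 : ℤ) : ℝ) := by push_cast; ring
    rw [this, tau_add_int]

theorem len_nonneg (A : Set ℝ) : 0 ≤ len A := by
  exact ENNReal.toReal_nonneg

theorem len_le_one (A : Set ℝ) : len A ≤ 1 := by
  have h : volume (A ∩ Ico (0 : ℝ) 1) ≤ 1 := by
    refine (measure_mono inter_subset_right).trans (le_of_eq ?_)
    simp
  unfold len
  simpa using ENNReal.toReal_mono ENNReal.one_ne_top h

theorem len_mono {A B : Set ℝ} (h : A ⊆ B) : len A ≤ len B := by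
  refine ENNReal.toReal_mono ?_ (measure_mono (inter_subset_inter_left _ h))
  exact ((measure_mono inter_subset_right).trans_lt measure_Ico_lt_top).ne

theorem len_congr {A B : Set ℝ} (h : A =ᵐ[volume] B) : len A = len B := by
  unfold len
  exact congrArg ENNReal.toReal (measure_congr (h.inter (ae_eq_refl (Ico (0 : ℝ) 1))))

/-- the length may be measured on any window of length one -/
theorem len_window {A : Set ℝ} (h : PS1 A) (a : ℝ) :
    len A = (volume (A ∩ Ico a (a + 1))).toReal := by
  have h1 := (isAddFundamentalDomain_Ioc (T := 1) one_pos 0 volume).measure_set_eq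
    (isAddFundamentalDomain_Ioc (T := 1) one_pos a volume) h.meas (fun g => by
      obtain ⟨_, k, rfl⟩ := g
      ext s
      have := h.add_int s k
      simpa [AddSubgroup.mk_vadd, add_comm] using this)
  rw [zero_add] at h1
  rw [len, measure_congr (ae_eq_set_inter (ae_eq_refl A) Ico_ae_eq_Ioc), h1,
    measure_congr (ae_eq_set_inter (ae_eq_refl A) Ico_ae_eq_Ioc)]

theorem len_sh {A : Set ℝ} (h : PS1 A) (r : ℝ) : len (sh r A) = len A := by
  rw [len_window h r, len, ← measure_preimage_add_right volume r (A ∩ Ico r (r + 1))]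
  congr 2
  ext s
  simp only [sh, mem_inter_iff, mem_ofPred_eq, mem_Ico, mem_preimage]
  constructor <;> rintro ⟨h1, h2, h3⟩ <;> exact ⟨h1, by linarith, by linarith⟩

theorem len_arc (c : ℝ) {l : ℝ} (h0 : 0 ≤ l) (h1 : l ≤ 1) : len (arc c l) = l := by
  rw [len_window (arc_ps1 c l) (c - 1 / 2)]
  have : arc c l ∩ Ico (c - 1 / 2) (c - 1 / 2 + 1) = Ioo (c - l / 2) (c + l / 2) := by
    ext s
    simp only [arc, mem_inter_iff, mem_ofPred_eq, mem_Ico, mem_Ioo]
    constructor
    · rintro ⟨h2, h3, h4⟩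
      rw [tau_of_abs_le (abs_le.2 ⟨by linarith, by linarith⟩), abs_lt] at h2
      exact ⟨by linarith [h2.1], by linarith [h2.2]⟩
    · rintro ⟨h2, h3⟩
      refine ⟨?_, by linarith, by linarith⟩
      rw [tau_of_abs_le (abs_le.2 ⟨by linarith, by linarith⟩), abs_lt]
      exact ⟨by linarith, by linarith⟩
  rw [this, Real.volume_Ioo, ENNReal.toReal_ofReal (by linarith)]; ring

theorem sh_arc (r c l : ℝ) : sh r (arc c l) = arc (c - r) l := by
  ext s
  simp only [sh, arc, mem_ofPred_eq, show s + r - c = s - (c - r) by ring]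

theorem sh_sh (r t : ℝ) (A : Set ℝ) : sh r (sh t A) = sh (r + t) A := by
  ext s
  simp only [sh, mem_ofPred_eq, add_assoc]

theorem ae_empty_of_len {A : Set ℝ} (h : PS1 A) (h0 : len A = 0) : A =ᵐ[volume] (∅ : Set ℝ) := by
  rw [ae_eq_empty, ← inter_univ A, ← iUnion_Ico_intCast ℝ, inter_iUnion]
  refine measure_iUnion_null fun k => ?_
  rw [len_window h k, ENNReal.toReal_eq_zero_iff] at h0
  exact h0.resolve_right ((measure_mono inter_subset_right).trans_lt measure_Ico_lt_top).ne

theorem t4b_fin (A : Set ℝ) : volume (A ∩ Ico (0 : ℝ) 1) ≠ ⊤ :=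
  ((measure_mono inter_subset_right).trans_lt measure_Ico_lt_top).ne

theorem t4b_len_add {A B : Set ℝ} (hB : MeasurableSet B) : len (A ∩ B) + len (A \ B) = len A := by
  rw [len, len, len, ← ENNReal.toReal_add (t4b_fin _) (t4b_fin _),
    ← measure_inter_add_sdiff (A ∩ Ico 0 1) hB, inter_right_comm, diff_inter_right_comm]

theorem t4b_len_union (A B : Set ℝ) : len (A ∪ B) ≤ len A + len B := by
  rw [len, len, len, ← ENNReal.toReal_add (t4b_fin _) (t4b_fin _), union_inter_distrib_right]
  exact ENNReal.toReal_mono (ENNReal.add_ne_top.2 ⟨t4b_fin _, t4b_fin _⟩) (measure_union_le _ _)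

theorem ae_univ_of_len {A : Set ℝ} (h : PS1 A) (h0 : len A = 1) : A =ᵐ[volume] (univ : Set ℝ) := by
  have h1 : PS1 Aᶜ := ⟨h.meas.compl, fun s => not_congr (h.per s)⟩
  have h2 := t4b_len_add (A := univ) h.meas
  have h4 : len univ = 1 := by simp [len]
  rw [univ_inter, ← compl_eq_univ_sdiff, h0, h4] at h2
  have h3 : len Aᶜ = 0 := by linarith
  rw [ae_eq_univ, ← ae_eq_empty]
  exact ae_empty_of_len h1 h3

theorem d1_comm (A B : Set ℝ) : d1 A B = d1 B A := by
  rw [d1, d1, symmDiff_comm]

theorem d1_triangle {A B C : Set ℝ} : d1 A C ≤ d1 A B + d1 B C := by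
  exact (len_mono (symmDiff_triangle A B C)).trans (t4b_len_union _ _)

theorem d1_sh {A B : Set ℝ} (hA : PS1 A) (hB : PS1 B) (r : ℝ) : d1 (sh r A) (sh r B) = d1 A B := by
  rw [d1, d1, ← len_sh (hA.symmDiff hB) r]
  rfl

theorem d1_congr {A A' B B' : Set ℝ} (hA : A =ᵐ[volume] A') (hB : B =ᵐ[volume] B') :
    d1 A B = d1 A' B' := by
  exact len_congr (ae_eq_set_symmDiff hA hB)

theorem sh_congr {A B : Set ℝ} (h : A =ᵐ[volume] B) (r : ℝ) : sh r A =ᵐ[volume] sh r B := by
  exact (measurePreserving_add_right volume r).quasiMeasurePreserving.preimage_ae_eq h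

theorem abs_len_sub_le {A B : Set ℝ} (hA : PS1 A) (hB : PS1 B) : |len A - len B| ≤ d1 A B := by
  have key : ∀ A B : Set ℝ, len A ≤ len B + d1 A B := fun A B =>
    (len_mono fun s hs => by
      by_cases h : s ∈ B
      · exact Or.inl h
      · exact Or.inr (Or.inl ⟨hs, h⟩)).trans (t4b_len_union _ _)
  have h1 := key A B
  have h2 := key B A
  rw [d1_comm] at h2
  exact abs_le.2 ⟨by linarith, by linarith⟩

theorem d1_eq_integral {A B : Set ℝ} (hA : MeasurableSet A) (hB : MeasurableSet B) :
    d1 A B = ∫ s in Ico (0 : ℝ) 1,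
      |A.indicator (fun _ => (1 : ℝ)) s - B.indicator (fun _ => (1 : ℝ)) s| := by
  have e : ∀ s, |A.indicator (fun _ => (1 : ℝ)) s - B.indicator (fun _ => (1 : ℝ)) s| =
      (symmDiff A B).indicator (fun _ => (1 : ℝ)) s := fun s => by
    by_cases h1 : s ∈ A <;> by_cases h2 : s ∈ B <;> simp [h1, h2, mem_symmDiff]
  simp only [e]
  rw [integral_indicator_const _ (hA.symmDiff hB), smul_eq_mul, mul_one, measureReal_def,
    Measure.restrict_apply (hA.symmDiff hB), d1, len]

end Crest.Agent.R214
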