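import Crest.Agent.R214.T4

/-! Block T5: arcs and the one-dimensional perimeter.
`d1_arc_le`: `d1 A B = α + β - 2 |A ∩ B|` and `A ∩ B` contains the intersection of the two centred
intervals.  `d1_arc_ge`: reduce to `|c - c'| = tau (c - c') ≤ 1/2`; the parts of `A \ B` and
`B \ A` next to the two ends of `B` have length at least `min δ η` each, or `|α - β| ≥ 2 δ`.
`liminf_two`, `liminf_four`: density points (`Besicovitch.ae_tendsto_measure_inter_div_of_measurableSet`
or `IsUnifLocDoublingMeasure`): at a point of density one `|A ∩ [s, s + ρ]| / |ρ| → 1` for both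
signs of `ρ`; `∫_{s₁}^{s₂} (1_A (s + ρ) - 1_A s) ds = ∫_{s₂}^{s₂+ρ} 1_A - ∫_{s₁}^{s₁+ρ} 1_A`, so
every interval between consecutive points of densities `0` and `1` contributes `|ρ| - o(ρ)`.
If there is no alternating quadruple `s₀ < p₁ < q < p₂ < s₀ + 1` (densities `0,1,0,1`) then
`A` is a.e. the arc between the inf and the sup of the density-one points of `(s₀, s₀ + 1)`.
`ctr_arc`: `∫ exp (2πis) over an arc = exp (2πic) sin (π l) / π` with `sin (π l) > 0`. -/

set_option autoImplicit false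
set_option linter.unusedVariables false
open MeasureTheory Set Filter Metric
open scoped Topology ENNReal NNReal
open Crest.GeometryTopology.PeriodicPerimeter

noncomputable section
namespace Crest.Agent.R214

theorem t5a_d1 {A B : Set ℝ} (hA : MeasurableSet A) (hB : MeasurableSet B) :
    d1 A B + 2 * len (A ∩ B) = len A + len B := by
  have e : ∀ S : Set ℝ, len S = (volume.restrict (Ico (0 : ℝ) 1)).real S := fun S => by
    rw [len, measureReal_def, Measure.restrict_apply' measurableSet_Ico]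
  have h1 := measureReal_inter_add_sdiff (μ := volume.restrict (Ico (0 : ℝ) 1)) (s := A) hB
  have h2 := measureReal_inter_add_sdiff (μ := volume.restrict (Ico (0 : ℝ) 1)) (s := B) hA
  rw [d1, e, e, e, e, measureReal_symmDiff_eq hA hB]
  rw [inter_comm] at h2
  linarith

theorem t5a_sub {m L c l : ℝ} (h : |m - c| + L / 2 ≤ l / 2) : arc m L ⊆ arc c l := fun s hs => by
  have h1 := tau_add_le (s - m) (m - c)
  have h2 := tau_le_int (m - c) 0
  rw [sub_add_sub_cancel] at h1
  rw [Int.cast_zero, sub_zero] at h2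
  change tau (s - m) < L / 2 at hs
  change tau (s - c) < l / 2
  linarith

theorem d1_arc_le {α β : ℝ} (hα : 0 ≤ α ∧ α ≤ 1) (hβ : 0 ≤ β ∧ β ≤ 1) (r : ℝ) :
    d1 (arc 0 α) (sh r (arc 0 β)) ≤ max |α - β| (2 * |r|) := by
  have h := t5a_d1 (arc_ps1 0 α).meas (arc_ps1 (0 - r) β).meas
  rw [len_arc _ hα.1 hα.2, len_arc _ hβ.1 hβ.2] at h
  rw [sh_arc]
  have a1 := min_le_left (α / 2) (-r + β / 2)
  have a2 := min_le_right (α / 2) (-r + β / 2)
  have a3 := le_max_left (-α / 2) (-r - β / 2)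
  have a4 := le_max_right (-α / 2) (-r - β / 2)
  have h1 : min (α / 2) (-r + β / 2) - max (-α / 2) (-r - β / 2) ≤
      len (arc 0 α ∩ arc (0 - r) β) := by
    generalize min (α / 2) (-r + β / 2) = u at *
    generalize max (-α / 2) (-r - β / 2) = v at *
    rcases le_total (u - v) 0 with h0 | h0
    · exact h0.trans (len_nonneg _)
    rw [← len_arc ((u + v) / 2) h0 (by linarith)]
    refine len_mono (subset_inter (t5a_sub ?_) (t5a_sub ?_)) <;> rw [← le_sub_iff_add_le, abs_le] <;>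
      constructor <;> linarith
  have b1 := le_max_left |α - β| (2 * |r|)
  have b2 := le_max_right |α - β| (2 * |r|)
  have b3 := le_abs_self (α - β)
  have b4 := neg_abs_le (α - β)
  have b5 := le_abs_self r
  have b6 := neg_abs_le r
  rcases min_choice (α / 2) (-r + β / 2) with e | e <;>
    rcases max_choice (-α / 2) (-r - β / 2) with e' | e' <;> rw [e, e'] at h1 <;> linarith

theorem d1_arc_triv {α β : ℝ} (hα : α = 0 ∨ α = 1) (hβ : 0 ≤ β ∧ β ≤ 1) (r : ℝ) :
    d1 (arc 0 α) (sh r (arc 0 β)) = |α - β| := by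
  have h := t5a_d1 (arc_ps1 0 α).meas (arc_ps1 (0 - r) β).meas
  rw [len_arc _ hβ.1 hβ.2] at h
  rw [sh_arc]
  rcases hα with rfl | rfl
  · have := len_mono (inter_subset_left (s := arc 0 0) (t := arc (0 - r) β))
    rw [len_arc _ le_rfl zero_le_one] at h this
    rw [zero_sub β, abs_neg, abs_of_nonneg hβ.1]
    linarith [len_nonneg (arc 0 0 ∩ arc (0 - r) β)]
  · have h1 := len_arc 0 zero_le_one le_rfl
    rw [len_congr (inter_ae_eq_right_of_ae_eq_univ (ae_univ_of_len (arc_ps1 0 1) h1)),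
      len_arc _ hβ.1 hβ.2, h1] at h
    rw [abs_of_nonneg (by linarith)]
    linarith

theorem t5a_ge {α β η : ℝ} (hη : 0 < η) (hα : η ≤ α ∧ α ≤ 1 - η) (hβ : η ≤ β ∧ β ≤ 1 - η)
    (c : ℝ) {t : ℝ} (k : ℤ) (h0 : 0 ≤ t) (h1 : t ≤ 1 / 2) :
    2 * min t η ≤ d1 (arc c α) (arc (c + t + k) β) := by
  have h := t5a_d1 (arc_ps1 c α).meas (arc_ps1 (c + t + k) β).meas
  rw [len_arc _ (by linarith) (by linarith), len_arc _ (by linarith) (by linarith)] at h
  have a1 := le_max_left ((α + β) / 2 - t) 0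
  have a2 := le_max_left ((α + β) / 2 - 1 + t) 0
  have h2 : arc c α ∩ arc (c + t + k) β ⊆ arc (c + (t + (α - β) / 2) / 2) (max ((α + β) / 2 - t) 0) ∪
      arc (c + (t - 1 - (α - β) / 2) / 2) (max ((α + β) / 2 - 1 + t) 0) := by
    rintro s ⟨h3, h4⟩
    obtain ⟨i, hi⟩ := tau_lt_iff.1 h3
    obtain ⟨j, hj⟩ := tau_lt_iff.1 h4
    rw [abs_lt] at hi hj
    have b1 : ((k + j - i : ℤ) : ℝ) < (1 : ℤ) := by push_cast; linarith [hi.1, hi.2, hj.1, hj.2]
    have b2 : ((-2 : ℤ) : ℝ) < (k + j - i : ℤ) := by push_cast; linarith [hi.1, hi.2, hj.1, hj.2]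
    rw [Int.cast_lt] at b1 b2
    obtain rfl | rfl : i = k + j ∨ i = k + j + 1 := by omega
    · refine Or.inl (tau_lt_iff.2 ⟨k + j, abs_lt.2 ?_⟩)
      push_cast at *
      constructor <;> linarith [hi.1, hi.2, hj.1, hj.2]
    · refine Or.inr (tau_lt_iff.2 ⟨k + j + 1, abs_lt.2 ?_⟩)
      push_cast at *
      constructor <;> linarith [hi.1, hi.2, hj.1, hj.2]
  have h3 : ∀ A B : Set ℝ, len (A ∪ B) ≤ len A + len B := fun A B => by
    unfold len
    rw [union_inter_distrib_right]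
    exact measureReal_union_le _ _
  have h4 := (len_mono h2).trans (h3 _ _)
  rw [len_arc _ (le_max_right _ _) (max_le (by linarith) zero_le_one),
    len_arc _ (le_max_right _ _) (max_le (by linarith) zero_le_one)] at h4
  have b1 := min_le_left t η
  have b2 := min_le_right t η
  rcases max_choice ((α + β) / 2 - t) 0 with e | e <;>
    rcases max_choice ((α + β) / 2 - 1 + t) 0 with e' | e' <;> rw [e, e'] at h4 <;> linarith

theorem d1_arc_ge {α β η : ℝ} (hη : 0 < η) (hα : η ≤ α ∧ α ≤ 1 - η) (hβ : η ≤ β ∧ β ≤ 1 - η)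
    (c c' : ℝ) : 2 * min (tau (c - c')) η ≤ d1 (arc c α) (arc c' β) := by
  have h := tau_le_half (c - c')
  unfold tau at h ⊢
  rcases le_total 0 (c - c' - round (c - c')) with h0 | h0
  · rw [abs_of_nonneg h0] at h ⊢
    have := t5a_ge hη hβ hα c' (round (c - c')) h0 h
    rwa [show c' + (c - c' - round (c - c')) + round (c - c') = c by ring, d1_comm] at this
  · rw [abs_of_nonpos h0] at h ⊢
    have := t5a_ge hη hα hβ c (-round (c - c')) (neg_nonneg.2 h0) h
    rwa [show c + -(c - c' - round (c - c')) + (-round (c - c') : ℤ) = c' by push_cast; ring] at this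

/-- indicator -/
def t5b_u (A : Set ℝ) (s : ℝ) : ℝ := A.indicator (fun _ => (1 : ℝ)) s
/-- points where the primitive of the indicator has the right derivative -/
def t5b_good (A : Set ℝ) (s : ℝ) : Prop :=
  HasDerivAt (fun x => ∫ t in (0 : ℝ)..x, t5b_u A t) (t5b_u A s) s

theorem t5b_ii {A : Set ℝ} (h : MeasurableSet A) (ρ a b : ℝ) :
    IntervalIntegrable (fun s => t5b_u A (s + ρ)) volume a b := by
  rw [intervalIntegrable_iff]
  refine Measure.integrableOn_of_bounded (M := 1) (by simp [uIoc]) ?_ (Eventually.of_forall fun s => ?_)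
  · exact ((measurable_const.indicator h).comp (measurable_add_const ρ)).aestronglyMeasurable
  · unfold t5b_u indicator
    split_ifs <;> simp

theorem t5b_ii0 {A : Set ℝ} (h : MeasurableSet A) (a b : ℝ) :
    IntervalIntegrable (t5b_u A) volume a b := by
  simpa using t5b_ii h 0 a b

theorem t5b_ae {A : Set ℝ} (h : MeasurableSet A) : ∀ᵐ s : ℝ, t5b_good A s := by
  have : LocallyIntegrable (t5b_u A) volume :=
    (locallyIntegrable_const (1 : ℝ)).indicator h
  filter_upwards [_root_.LocallyIntegrable.ae_hasDerivAt_integral this] with s hs using hs 0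

theorem t5b_piece {A : Set ℝ} (h : MeasurableSet A) {a b : ℝ} (hab : a ≤ b) (ha : t5b_good A a)
    (hb : t5b_good A b) (hd : |t5b_u A b - t5b_u A a| = 1) {η : ℝ} (hη : 0 < η) :
    ∀ᶠ ρ in 𝓝 (0 : ℝ), (1 - η) * |ρ| ≤ ∫ s in a..b, |t5b_u A s - t5b_u A (s + ρ)| := by
  set F := fun x => ∫ t in (0 : ℝ)..x, t5b_u A t with hF
  have d1 : HasDerivAt (fun ρ => F (b + ρ)) (t5b_u A b) 0 :=
    HasDerivAt.comp_const_add b 0 (by rw [add_zero]; exact hb)
  have d2 : HasDerivAt (fun ρ => F (a + ρ)) (t5b_u A a) 0 :=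
    HasDerivAt.comp_const_add a 0 (by rw [add_zero]; exact ha)
  have d := (d1.sub d2).isLittleO.def hη
  filter_upwards [d] with ρ hρ
  simp only [Pi.sub_apply, add_zero, sub_zero, smul_eq_mul, Real.norm_eq_abs] at hρ
  have e1 : ∫ s in a..b, t5b_u A s = F b - F a :=
    (intervalIntegral.integral_interval_sub_left (t5b_ii0 h _ _) (t5b_ii0 h _ _)).symm
  have e2 : ∫ s in a..b, t5b_u A (s + ρ) = F (b + ρ) - F (a + ρ) := by
    rw [intervalIntegral.integral_comp_add_right (t5b_u A)]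
    exact (intervalIntegral.integral_interval_sub_left (t5b_ii0 h _ _) (t5b_ii0 h _ _)).symm
  have e3 := intervalIntegral.abs_integral_le_integral_abs (μ := volume)
    (f := fun s => t5b_u A s - t5b_u A (s + ρ)) hab
  rw [intervalIntegral.integral_sub (t5b_ii0 h _ _) (t5b_ii h _ _ _), e1, e2, abs_sub_comm] at e3
  have e4 : |ρ * (t5b_u A b - t5b_u A a)| = |ρ| := by rw [abs_mul, hd, mul_one]
  have := abs_sub_abs_le_abs_sub (ρ * (t5b_u A b - t5b_u A a)) (F (b + ρ) - F (a + ρ) - (F b - F a))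
  rw [abs_sub_comm (ρ * _), e4] at this
  linarith

theorem t5b_u_per {A : Set ℝ} (h : PS1 A) (s : ℝ) : t5b_u A (s + 1) = t5b_u A s := by
  by_cases c : s ∈ A
  · unfold t5b_u; rw [indicator_of_mem c, indicator_of_mem ((h.per s).mpr c)]
  · unfold t5b_u; rw [indicator_of_notMem c, indicator_of_notMem fun k => c ((h.per s).mp k)]

theorem t5b_d1 {A : Set ℝ} (h : PS1 A) (ρ s0 : ℝ) :
    d1 A (sh ρ A) = ∫ s in s0..s0 + 1, |t5b_u A s - t5b_u A (s + ρ)| := by
  have p : Function.Periodic (fun s => |t5b_u A s - t5b_u A (s + ρ)|) 1 := fun s => by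
    simp only [add_right_comm s 1 ρ, t5b_u_per h]
  rw [p.intervalIntegral_add_eq s0 0, zero_add, intervalIntegral.integral_of_le zero_le_one,
    integral_Ioc_eq_integral_Ioo, ← integral_Ico_eq_integral_Ioo, d1_eq_integral h.meas (h.sh ρ).meas]
  rfl

theorem t5b_iia {A : Set ℝ} (h : MeasurableSet A) (ρ a b : ℝ) :
    IntervalIntegrable (fun s => |t5b_u A s - t5b_u A (s + ρ)|) volume a b :=
  ((t5b_ii0 h a b).sub (t5b_ii h ρ a b)).abs

theorem t5b_s0 {A : Set ℝ} (h : PS1 A) (h1 : len A < 1) :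
    ∃ s0, s0 ∉ A ∧ t5b_good A s0 ∧ t5b_good A (s0 + 1) := by
  by_contra hn
  push Not at hn
  have a1 : ∀ᵐ s : ℝ, t5b_good A (s + 1) :=
    (measurePreserving_add_right volume (1 : ℝ)).quasiMeasurePreserving.ae (t5b_ae h.meas)
  have : A =ᵐ[volume] (univ : Set ℝ) := by
    rw [ae_eq_univ, measure_eq_zero_iff_ae_notMem]
    filter_upwards [t5b_ae h.meas, a1] with s g0 g1
    exact fun hs => hn s hs g0 g1
  have := len_congr this
  have e : len univ = 1 := by simp [len]
  linarith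

theorem t5b_p {A : Set ℝ} (h : PS1 A) (h0 : 0 < len A) (s0 : ℝ) :
    ∃ p ∈ Ioo s0 (s0 + 1), p ∈ A ∧ t5b_good A p := by
  by_contra hn
  push Not at hn
  have : volume (A ∩ Ico s0 (s0 + 1)) = 0 := by
    rw [measure_eq_zero_iff_ae_notMem]
    have n0 : ∀ᵐ s : ℝ, s ≠ s0 := by simp [ae_iff]
    filter_upwards [t5b_ae h.meas, n0] with s g0 g1 hs
    exact hn s ⟨lt_of_le_of_ne hs.2.1 g1.symm, hs.2.2⟩ hs.1 g0
  rw [len_window h s0, this] at h0
  simp at h0

theorem t5b_in {A : Set ℝ} {s : ℝ} (h : s ∈ A) : t5b_u A s = 1 := indicator_of_mem h _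
theorem t5b_out {A : Set ℝ} {s : ℝ} (h : s ∉ A) : t5b_u A s = 0 := indicator_of_notMem h _

theorem liminf_two {A : Set ℝ} (h : PS1 A) (h0 : 0 < len A) (h1 : len A < 1) {η : ℝ}
    (hη : 0 < η) : ∀ᶠ ρ in 𝓝 (0 : ℝ), (2 - η) * |ρ| ≤ d1 A (sh ρ A) := by
  obtain ⟨s0, n0, g0, g1⟩ := t5b_s0 h h1
  obtain ⟨p, hp, np, gp⟩ := t5b_p h h0 s0
  have n1 : s0 + 1 ∉ A := fun k => n0 ((h.per s0).mp k)
  filter_upwards [t5b_piece h.meas hp.1.le g0 gp (by simp [t5b_in np, t5b_out n0]) (half_pos hη),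
    t5b_piece h.meas hp.2.le gp g1 (by simp [t5b_in np, t5b_out n1]) (half_pos hη)] with ρ k1 k2
  rw [t5b_d1 h ρ s0, ← intervalIntegral.integral_add_adjacent_intervals (b := p)
    (t5b_iia h.meas _ _ _) (t5b_iia h.meas _ _ _)]
  linarith

theorem liminf_four {A : Set ℝ} (h : PS1 A) (h0 : 0 < len A) (h1 : len A < 1)
    (hn : ¬ ∃ c, A =ᵐ[volume] arc c (len A)) {η : ℝ} (hη : 0 < η) :
    ∀ᶠ ρ in 𝓝 (0 : ℝ), (4 - η) * |ρ| ≤ d1 A (sh ρ A) := by
  obtain ⟨s0, n0, g0, g1⟩ := t5b_s0 h h1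
  have n1 : s0 + 1 ∉ A := fun k => n0 ((h.per s0).mp k)
  set P := {p | p ∈ Ioo s0 (s0 + 1) ∧ p ∈ A ∧ t5b_good A p} with hP
  have Pne : P.Nonempty := t5b_p h h0 s0
  by_cases c : ∃ p1 ∈ P, ∃ p2 ∈ P, ∃ q, p1 < q ∧ q < p2 ∧ q ∉ A ∧ t5b_good A q
  · obtain ⟨p1, ⟨a1, b1, c1⟩, p2, ⟨a2, b2, c2⟩, q, l1, l2, nq, gq⟩ := c
    have η4 : 0 < η / 4 := by linarith
    filter_upwards [t5b_piece h.meas a1.1.le g0 c1 (by simp [t5b_in b1, t5b_out n0]) η4,
      t5b_piece h.meas l1.le c1 gq (by simp [t5b_in b1, t5b_out nq]) η4,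
      t5b_piece h.meas l2.le gq c2 (by simp [t5b_in b2, t5b_out nq]) η4,
      t5b_piece h.meas a2.2.le c2 g1 (by simp [t5b_in b2, t5b_out n1]) η4] with ρ k1 k2 k3 k4
    rw [t5b_d1 h ρ s0, ← intervalIntegral.integral_add_adjacent_intervals (b := q)
      (t5b_iia h.meas _ _ _) (t5b_iia h.meas _ _ _),
      ← intervalIntegral.integral_add_adjacent_intervals (a := s0) (b := p1)
      (t5b_iia h.meas _ _ _) (t5b_iia h.meas _ _ _),
      ← intervalIntegral.integral_add_adjacent_intervals (a := q) (b := p2)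
      (t5b_iia h.meas _ _ _) (t5b_iia h.meas _ _ _)]
    linarith
  · exfalso
    push Not at c
    have bb : BddBelow P := ⟨s0, fun p hp => hp.1.1.le⟩
    have ba : BddAbove P := ⟨s0 + 1, fun p hp => hp.1.2.le⟩
    set a := sInf P with ha
    set b := sSup P with hb
    have a0 : s0 ≤ a := le_csInf Pne fun p hp => hp.1.1.le
    have b1 : b ≤ s0 + 1 := csSup_le Pne fun p hp => hp.1.2.le
    have ab : a ≤ b := csInf_le_csSup Pne bb ba
    have harc : ∀ s ∈ Ioo s0 (s0 + 1), s ∈ arc ((a + b) / 2) (b - a) ↔ s ∈ Ioo a b := by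
      intro s hs
      unfold arc
      rw [mem_ofPred_eq, tau_lt_iff]
      constructor
      · rintro ⟨k, hk⟩
        rw [abs_lt] at hk
        have k1 : (k : ℝ) < 1 := by linarith [hs.2, hk.1]
        have k2 : (-1 : ℝ) < k := by linarith [hs.1, hk.2]
        have k3 : k < 1 := by exact_mod_cast k1
        have k4 : -1 < k := by exact_mod_cast k2
        have : k = 0 := by omega
        rw [this] at hk
        simp only [Int.cast_zero, sub_zero] at hk
        exact ⟨by linarith [hk.1], by linarith [hk.2]⟩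
      · intro hk
        refine ⟨0, ?_⟩
        rw [abs_lt]
        simp only [Int.cast_zero, sub_zero]
        exact ⟨by linarith [hk.1], by linarith [hk.2]⟩
    have hS := h.symmDiff (arc_ps1 ((a + b) / 2) (b - a))
    have z : volume (symmDiff A (arc ((a + b) / 2) (b - a)) ∩ Ico s0 (s0 + 1)) = 0 := by
      rw [measure_eq_zero_iff_ae_notMem]
      have m0 : ∀ᵐ s : ℝ, s ≠ s0 := by simp [ae_iff]
      have ma : ∀ᵐ s : ℝ, s ≠ a := by simp [ae_iff]
      have mb : ∀ᵐ s : ℝ, s ≠ b := by simp [ae_iff]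
      filter_upwards [t5b_ae h.meas, m0, ma, mb] with s g m0 ma mb hs
      have w : s ∈ Ioo s0 (s0 + 1) := ⟨lt_of_le_of_ne hs.2.1 m0.symm, hs.2.2⟩
      rcases hs.1 with ⟨k1, k2⟩ | ⟨k1, k2⟩
      · have sP : s ∈ P := ⟨w, k1, g⟩
        exact k2 ((harc s w).mpr ⟨lt_of_le_of_ne (csInf_le bb sP) ma.symm,
          lt_of_le_of_ne (le_csSup ba sP) mb⟩)
      · have := (harc s w).mp k1
        obtain ⟨p1, hp1, l1⟩ := exists_lt_of_csInf_lt Pne this.1
        obtain ⟨p2, hp2, l2⟩ := exists_lt_of_lt_csSup Pne this.2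
        exact c p1 hp1 p2 hp2 s l1 l2 k2 g
    have z' : len (symmDiff A (arc ((a + b) / 2) (b - a))) = 0 := by
      rw [len_window hS s0, z]; simp
    have e : A =ᵐ[volume] arc ((a + b) / 2) (b - a) := by
      rw [← measure_symmDiff_eq_zero_iff, ← ae_eq_empty]
      exact ae_empty_of_len hS z'
    refine hn ⟨(a + b) / 2, ?_⟩
    rwa [len_congr e, len_arc _ (by linarith) (by linarith)]

theorem ctr_arc {A : Set ℝ} {c l : ℝ} (h0 : 0 < l) (h1 : l < 1) (h : A =ᵐ[volume] arc c l) :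
    A =ᵐ[volume] arc (ctr A) l := by
  let f : ℝ → ℂ := fun s => Complex.exp (2 * Real.pi * s * Complex.I)
  have hm := (arc_ps1 c l).meas
  have hp : Function.Periodic ((arc c l).indicator f) 1 := fun s => by
    have e : f (s + 1) = f s := by
      simp only [f]
      rw [← Complex.exp_periodic (2 * Real.pi * s * Complex.I)]
      congr 1
      push_cast
      ring
    by_cases hs : s ∈ arc c l
    · rw [indicator_of_mem hs, indicator_of_mem (((arc_ps1 c l).per s).2 hs), e]
    · rw [indicator_of_notMem hs, indicator_of_notMem (mt ((arc_ps1 c l).per s).1 hs)]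
  have e1 : ∫ s in A ∩ Ico (0 : ℝ) 1, f s = ∫ s in (c - l / 2)..(c + l / 2), f s := by
    rw [setIntegral_congr_set (h.inter (ae_eq_refl _)), inter_comm, ← setIntegral_indicator hm,
      integral_Ico_eq_integral_Ioc, ← intervalIntegral.integral_of_le zero_le_one,
      show ∫ s in (0 : ℝ)..1, (arc c l).indicator f s =
        ∫ s in (c - 1 / 2)..(c - 1 / 2 + 1), (arc c l).indicator f s by
          simpa using hp.intervalIntegral_add_eq 0 (c - 1 / 2),
      intervalIntegral.integral_of_le (by linarith), setIntegral_indicator hm,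
      intervalIntegral.integral_of_le (by linarith), integral_Ioc_eq_integral_Ioo]
    congr 2
    ext s
    refine ⟨fun ⟨a, b⟩ => ?_, fun a => ⟨⟨by linarith [a.1], by linarith [a.2]⟩, ?_⟩⟩
    · change tau (s - c) < l / 2 at b
      rw [tau_of_abs_le (abs_le.2 ⟨by linarith [a.1], by linarith [a.2]⟩), abs_lt] at b
      exact ⟨by linarith [b.1], by linarith [b.2]⟩
    · exact tau_lt_iff.2 ⟨0, abs_lt.2 ⟨by push_cast; linarith [a.1], by push_cast; linarith [a.2]⟩⟩
  have hπ : (Real.pi : ℂ) ≠ 0 := by exact_mod_cast Real.pi_ne_zero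
  have e2 : ∫ s in (c - l / 2)..(c + l / 2), f s = Complex.exp ((2 * Real.pi * c : ℝ) * Complex.I) *
      (Real.sin (Real.pi * l) / Real.pi : ℝ) := by
    have e : f = fun s : ℝ => Complex.exp (2 * Real.pi * Complex.I * s) := by
      ext s; simp only [f]; congr 1; ring
    rw [e, integral_exp_mul_complex Complex.two_pi_I_ne_zero]
    push_cast
    rw [Complex.sin, show 2 * (Real.pi : ℂ) * Complex.I * (c + l / 2) =
      2 * Real.pi * c * Complex.I + Real.pi * l * Complex.I by ring,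
      show 2 * (Real.pi : ℂ) * Complex.I * (c - l / 2) =
      2 * Real.pi * c * Complex.I + -(Real.pi * l) * Complex.I by ring, Complex.exp_add,
      Complex.exp_add]
    field_simp
    rw [Complex.I_sq]
    ring
  have e3 : ctr A = c + (-toIocDiv Real.two_pi_pos (-Real.pi) (2 * Real.pi * c) : ℤ) := by
    change Complex.arg (∫ s in A ∩ Ico (0 : ℝ) 1, f s) / (2 * Real.pi) = _
    rw [e1, e2, Complex.arg_mul_real (div_pos (Real.sin_pos_of_pos_of_lt_pi (by positivity)
      (mul_lt_of_lt_one_right Real.pi_pos h1)) Real.pi_pos), Complex.arg_exp_mul_I, toIocMod,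
      zsmul_eq_mul]
    push_cast
    field_simp
    ring
  rw [e3]
  convert h using 1
  ext s
  change tau _ < _ ↔ tau _ < _
  rw [← tau_add_int _ (-toIocDiv Real.two_pi_pos (-Real.pi) (2 * Real.pi * c))]
  congr! 2
  ring

end Crest.Agent.R214
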