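import Crest.Agent.R214.T3
import Crest.Agent.R214.T5

/-! Block T6: Steiner symmetrisation, elementary properties.
`integral_Xi`: `Per.integral_fibre`, then `d1_eq_integral` and `len_sh` with the shift `x i`.
`ae_eq_of_fib`: `∫_cell |ind E - ind F| = ∫_cell d1 (fib E) (fib F) = 0`, then `Per.ae`. -/

set_option autoImplicit false
set_option linter.unusedVariables false
open MeasureTheory Set Filter Metric
open scoped Topology ENNReal NNReal
open Crest.GeometryTopology.PeriodicPerimeter

noncomputable section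
namespace Crest.Agent.R214

theorem t6a_ev (i j : Fin 3) : ev i j = if j = i then 1 else 0 := by
  simp [ev]

theorem t6a_pt (i j : Fin 3) (x : E3) (s : ℝ) :
    (x + (s - x i) • ev i) j = if j = i then s else x j := by
  simp only [PiLp.add_apply, PiLp.smul_apply, t6a_ev, smul_eq_mul]
  split_ifs with h
  · rw [h]; ring
  · ring

theorem t6a_congr (E : Set E3) (i : Fin 3) {x y : E3} (h : ∀ j, j ≠ i → y j = x j) :
    fib E i y = fib E i x := by
  ext s
  have : y + (s - y i) • ev i = x + (s - x i) • ev i := by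
    ext j
    rw [t6a_pt, t6a_pt]
    split_ifs with hj
    exacts [rfl, h j hj]
  simp only [fib, mem_ofPred_eq, this]

theorem PS.fib {E : Set E3} (h : PS E) (i : Fin 3) (x : E3) : PS1 (fib E i x) := by
  refine ⟨h.meas.preimage (f := fun s : ℝ => x + (s - x i) • ev i) (by fun_prop), fun s => ?_⟩
  have e : x + (s + 1 - x i) • ev i = x + (s - x i) • ev i + ((1 : ℤ) : ℝ) • ev i := by
    push_cast; module
  simp only [R214.fib, mem_ofPred_eq, e]
  exact h.per _ (hasInt_ev i 1) _

theorem fib_add_ev (E : Set E3) (i : Fin 3) (x : E3) (s : ℝ) :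
    fib E i (x + s • ev i) = fib E i x := by
  exact t6a_congr E i fun j hj => by simp [t6a_ev, hj]

theorem fib_congr (E : Set E3) (i : Fin 3) {x y : E3} (h : ∀ j, j ≠ i → y j = x j) :
    fib E i y = fib E i x := by
  exact t6a_congr E i h

theorem PS.fib_per {E : Set E3} (h : PS E) (i : Fin 3) : Per (R214.fib E i) := by
  intro v hv x
  obtain ⟨m, hm⟩ := hv i
  ext s
  have e : x + v + (s - (x + v) i) • ev i =
      x + (s - x i) • ev i + ((-m : ℤ) : ℝ) • ev i + v := by
    rw [PiLp.add_apply, hm]; push_cast; module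
  simp only [R214.fib, mem_ofPred_eq, e]
  rw [h.per v hv, h.per _ (hasInt_ev i _)]

theorem t6a_meas {E : Set E3} (h : PS E) (i : Fin 3) :
    MeasurableSet {q : E3 × ℝ | q.2 ∈ fib E i q.1 ∩ Ico (0 : ℝ) 1} :=
  (h.meas.preimage (f := fun q : E3 × ℝ => q.1 + (q.2 - q.1 i) • ev i) (by fun_prop)).inter
    (measurableSet_Ico.preimage measurable_snd)

theorem PS.fl_meas {E : Set E3} (h : PS E) (i : Fin 3) : Measurable (fl E i) := by
  exact (measurable_measure_prodMk_left (ν := volume) (t6a_meas h i)).ennreal_toReal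

theorem PS.ctr_meas {E : Set E3} (h : PS E) (i : Fin 3) :
    Measurable fun x => ctr (R214.fib E i x) := by
  refine (Complex.measurable_arg.comp ?_).div_const _
  have h1 : Measurable fun q : E3 × ℝ => Complex.exp (2 * Real.pi * q.2 * Complex.I) := by fun_prop
  have h2 := ((h1.indicator (t6a_meas h i)).stronglyMeasurable.integral_prod_right'
    (ν := volume)).measurable
  convert h2 using 2 with x
  rw [← integral_indicator ((h.fib i x).meas.inter measurableSet_Ico)]
  rfl

theorem PS.st {E : Set E3} (h : PS E) (i : Fin 3) : PS (St i E) := by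
  refine ⟨measurableSet_lt (tau_lip.continuous.measurable.comp (by fun_prop))
    ((h.fl_meas i).div_const 2), fun v hv x => ?_⟩
  obtain ⟨m, hm⟩ := hv i
  simp only [St, mem_ofPred_eq, fl, h.fib_per i v hv x, PiLp.add_apply, hm, tau_add_int]

theorem fib_St (E : Set E3) (i : Fin 3) (x : E3) : fib (St i E) i x = arc 0 (fl E i x) := by
  ext s
  simp only [St, arc, fl, sub_zero]
  rw [fib, mem_ofPred_eq, mem_ofPred_eq, mem_ofPred_eq, fib_add_ev, t6a_pt, if_pos rfl]

theorem fl_St (E : Set E3) (i : Fin 3) : fl (St i E) i = fl E i := by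
  ext x
  rw [fl, fib_St]
  exact len_arc 0 (len_nonneg _) (len_le_one _)

theorem periodicVolume_fl {E : Set E3} (h : PS E) (i : Fin 3) :
    periodicVolume E = ∫ x in cell, fl E i x := by
  rw [periodicVolume_eq h.meas, h.ind_per.integral_fibre h.ind_meas (ind_abs_le E) i]
  congr 1
  ext x
  have h1 := (h.fib i x).sh (x i)
  rw [fl, ← len_sh (h.fib i x) (x i), len, ← Measure.restrict_apply h1.meas, ← measureReal_def,
    ← integral_indicator_one h1.meas]
  congr 1
  ext s
  have e : s ∈ sh (x i) (fib E i x) ↔ x + s • ev i ∈ E := by simp [sh, fib]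
  by_cases h2 : x + s • ev i ∈ E <;> simp [ind, e, h2]

theorem periodicVolume_St {E : Set E3} (h : PS E) (i : Fin 3) :
    periodicVolume (St i E) = periodicVolume E := by
  rw [periodicVolume_fl (h.st i) i, periodicVolume_fl h i, fl_St]

theorem mono_St (i : Fin 3) (E : Set E3) : Mono i (St i E) := by
  intro x y h h1 hx
  simp only [St, mem_ofPred_eq, fl, fib_congr E i h] at hx ⊢
  exact h1.trans_lt hx

theorem Mono.st {i j : Fin 3} (hij : j ≠ i) {E : Set E3} (h : Mono j E) : Mono j (St i E) := by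
  intro x y h0 h1 hx
  have h2 : fl E i x ≤ fl E i y := len_mono fun s hs => h _ _ (fun k hk => by
    rw [t6a_pt, t6a_pt, h0 k hk]) (by rwa [t6a_pt, t6a_pt, if_neg hij, if_neg hij]) hs
  simp only [St, mem_ofPred_eq, h0 i hij.symm] at hx ⊢
  linarith

theorem t6b_meas {α : Type*} [MeasurableSpace α] {E F : Set E3} (hE : MeasurableSet E) (hF : MeasurableSet F)
    {f g : α × ℝ → E3} (hf : Measurable f) (hg : Measurable g) :
    Measurable fun a => d1 {s | f (a, s) ∈ E} {s | g (a, s) ∈ F} :=
  (measurable_measure_prodMk_left (((hf hE).symmDiff (hg hF)).inter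
    (measurable_snd measurableSet_Ico))).ennreal_toReal

theorem PS.Xi_meas {E : Set E3} (h : PS E) (i : Fin 3) :
    Measurable fun q : E3 × E3 => Xi E i q.1 q.2 := by
  exact t6b_meas h.meas h.meas (f := fun p : (E3 × E3) × ℝ => p.1.1 + (p.2 - p.1.1 i) • ev i)
    (g := fun p => p.1.1 + p.1.2 + (p.2 + p.1.2 i - (p.1.1 + p.1.2) i) • ev i) (by fun_prop) (by fun_prop)

theorem PS.gam_meas {E : Set E3} (h : PS E) (i : Fin 3) :
    Measurable fun q : E3 × ℝ => d1 (R214.fib E i q.1) (sh q.2 (R214.fib E i q.1)) := by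
  exact t6b_meas h.meas h.meas (f := fun p : (E3 × ℝ) × ℝ => p.1.1 + (p.2 - p.1.1 i) • ev i)
    (g := fun p => p.1.1 + (p.2 + p.1.2 - p.1.1 i) • ev i) (by fun_prop) (by fun_prop)

theorem Xi_mem (E : Set E3) (i : Fin 3) (x h : E3) : 0 ≤ Xi E i x h ∧ Xi E i x h ≤ 1 := by
  exact ⟨len_nonneg _, len_le_one _⟩

theorem PS.Xi_per {E : Set E3} (h : PS E) (i : Fin 3) (k : E3) : Per fun x => Xi E i x k := by
  intro v hv x
  simp only [Xi]
  rw [add_right_comm, h.fib_per i v hv, h.fib_per i v hv]

theorem t6b_int {E F : Set E3} (hE : PS E) (hF : PS F) (i : Fin 3) :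
    ∫ x in cell, |ind E x - ind F x| = ∫ x in cell, d1 (fib E i x) (fib F i x) := by
  rw [Per.integral_fibre (f := fun x => |ind E x - ind F x|) (M := 2)
    (fun v hv x => by simp only [hE.ind_per v hv, hF.ind_per v hv]) (hE.ind_meas.sub hF.ind_meas).abs
    (fun x => by
      rw [abs_abs]
      linarith [abs_sub (ind E x) (ind F x), ind_abs_le E x, ind_abs_le F x]) i]
  refine integral_congr_ae (ae_of_all _ fun x => ?_)
  beta_reduce
  rw [← d1_sh (hE.fib i x) (hF.fib i x) (x i), d1_eq_integral ((hE.fib i x).sh _).meas ((hF.fib i x).sh _).meas]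
  have : ∀ (G : Set E3) s, (sh (x i) (fib G i x)).indicator (fun _ => (1 : ℝ)) s = ind G (x + s • ev i) := fun G s => by
    by_cases hs : x + s • ev i ∈ G <;> simp [ind, sh, fib, hs]
  simp only [this]

theorem integral_Xi {E : Set E3} (h : PS E) (i : Fin 3) (k : E3) :
    ∫ x in cell, |ind E (x + k) - ind E x| = ∫ x in cell, Xi E i x k := by
  have hF : PS {x | x + k ∈ E} :=
    ⟨measurable_add_const k h.meas, fun v hv x => by simp only [mem_ofPred_eq, add_right_comm x v, h.per v hv]⟩
  have := t6b_int h hF i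
  simp only [abs_sub_comm (ind E _)] at this
  refine this.trans (integral_congr_ae (ae_of_all _ fun x => congrArg _ ?_))
  ext s
  simp [fib, sh, add_right_comm x k]

theorem ae_eq_of_fib {E F : Set E3} (hE : PS E) (hF : PS F) (i : Fin 3)
    (h : ∀ᵐ x : E3, fib E i x =ᵐ[volume] fib F i x) : E =ᵐ[volume] F := by
  have h1 := t6b_int hE hF i
  rw [integral_eq_zero_of_ae (f := fun x => d1 (fib E i x) (fib F i x)) (ae_restrict_of_ae (h.mono fun x hx => by
    simpa [d1, len] using d1_congr hx (ae_eq_refl (fib F i x)))),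
    integral_eq_zero_iff_of_nonneg (f := fun x => |ind E x - ind F x|) (fun x => abs_nonneg _) (integrableOn_cell (M := 2)
      (hE.ind_meas.sub hF.ind_meas).abs fun x => by
        rw [abs_abs]
        linarith [abs_sub (ind E x) (ind F x), ind_abs_le E x, ind_abs_le F x])] at h1
  refine Per.ae (p := fun x => E x = F x) (fun v hv x => ?_) (h1.mono fun x hx => ?_)
  · exact congrArg₂ _ (propext (hE.per v hv x)) (propext (hF.per v hv x))
  · change (x ∈ E) = (x ∈ F)
    by_cases h : x ∈ E <;> by_cases h' : x ∈ F <;> simp_all [ind]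

theorem fl_congr {E F : Set E3} (hE : PS E) (hF : PS F) (i : Fin 3) (h : E =ᵐ[volume] F) :
    fl E i =ᵐ[volume] fl F i := by
  have h1 := t6b_int hE hF i
  rw [integral_eq_zero_of_ae (ae_restrict_of_ae ((indicator_ae_eq_of_ae_eq_set (f := fun _ => (1 : ℝ)) h).mono
    fun x hx => by simp [ind, hx])), eq_comm,
    integral_eq_zero_iff_of_nonneg (f := fun x => d1 (fib E i x) (fib F i x)) (fun x => len_nonneg _) (integrableOn_cell (M := 1)
      (t6b_meas hE.meas hF.meas (f := fun p : E3 × ℝ => p.1 + (p.2 - p.1 i) • ev i)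
        (g := fun p => p.1 + (p.2 - p.1 i) • ev i) (by fun_prop) (by fun_prop))
      fun x => (abs_of_nonneg (len_nonneg _)).trans_le (len_le_one _))] at h1
  refine Per.ae (p := fun x => fl E i x = fl F i x) (fun v hv x => ?_) (h1.mono fun x hx => ?_)
  · simp only [fl, hE.fib_per i v hv, hF.fib_per i v hv]
  · exact sub_eq_zero.1 (abs_nonpos_iff.1 ((abs_len_sub_le (hE.fib i x) (hF.fib i x)).trans_eq hx))

end Crest.Agent.R214
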