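import Crest.Agent.R214.T6

/-! Block T7: the Steiner inequality.  Put `A = fib G i x`, `B = fib G i (x + k)` (the same for `k` and
`flip i k`), `r = k i`.  Then `Xi G x k + Xi G x (flip k) ≥ d1 A (sh (2 r) A)` (triangle inequality and
`d1_sh`), each term is at least `|len A - len B|`, and `Xi (St G) ≤ max |len A - len B| (2 |r|)` with
equality to `|len A - len B|` if `len A ∈ {0, 1}`.  Hence `Ex ≥ -bad`.  `tendsto_bad`: dominated
convergence (bound `4`, filter `𝓝[>] 0` is countably generated) with `liminf_two`.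
`integral_Ex`: `integral_Xi`, `integral_flip`. -/

set_option autoImplicit false
set_option linter.unusedVariables false
open MeasureTheory Set Filter Metric
open scoped Topology ENNReal NNReal
open Crest.GeometryTopology.PeriodicPerimeter

noncomputable section
namespace Crest.Agent.R214

/-- the error term -/
def bad (G : Set E3) (i : Fin 3) (ε : ℝ) (x h : E3) : ℝ :=
  if 0 < fl G i x ∧ fl G i x < 1 then
    max 0 (4 * |ε * h i| - d1 (fib G i x) (sh (2 * (ε * h i)) (fib G i x))) / ε
  else 0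

theorem t7a_flip (G : Set E3) (i : Fin 3) (x k : E3) :
    fib G i (x + flip i k) = fib G i (x + k) :=
  fib_congr G i fun j hj => by simp [flip_apply, hj]

theorem t7a_flip_i (i : Fin 3) (k : E3) : flip i k i = -k i := by simp [flip_apply]

theorem Xi_pair {G : Set E3} (hG : PS G) (i : Fin 3) (x k : E3) :
    d1 (fib G i x) (sh (2 * k i) (fib G i x)) ≤ Xi G i x k + Xi G i x (flip i k) := by
  refine (d1_triangle (B := sh (k i) (fib G i (x + k)))).trans (add_le_add le_rfl (le_of_eq ?_))
  rw [Xi, t7a_flip, t7a_flip_i, ← d1_sh (hG.fib i x) ((hG.fib i _).sh _) (2 * k i), sh_sh, d1_comm,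
    show 2 * k i + -k i = k i by ring]

theorem Xi_ge {G : Set E3} (hG : PS G) (i : Fin 3) (x k : E3) :
    |fl G i x - fl G i (x + k)| ≤ Xi G i x k := by
  rw [fl, fl, ← len_sh (hG.fib i (x + k)) (k i)]
  exact abs_len_sub_le (hG.fib i x) ((hG.fib i _).sh _)

theorem t7a_fl (G : Set E3) (i : Fin 3) (x : E3) : 0 ≤ fl G i x ∧ fl G i x ≤ 1 := ⟨len_nonneg _, len_le_one _⟩

theorem Xi_St_le (G : Set E3) (i : Fin 3) (x k : E3) :
    Xi (St i G) i x k ≤ max |fl G i x - fl G i (x + k)| (2 * |k i|) := by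
  rw [Xi, fib_St, fib_St]
  exact d1_arc_le (t7a_fl G i x) (t7a_fl G i _) _

theorem fl_flip (G : Set E3) (i : Fin 3) (x k : E3) :
    fib G i (x + flip i k) = fib G i (x + k) := by
  exact t7a_flip G i x k

theorem Ex_ge {G : Set E3} (hG : PS G) (i : Fin 3) {ε : ℝ} (hε : 0 < ε) (x h : E3) :
    -bad G i ε x h ≤ Ex G i ε x h := by
  have e : ε • flip i h = flip i (ε • h) := by simp [flip, smul_sub, smul_smul, mul_left_comm]
  have e2 : fl G i (x + flip i (ε • h)) = fl G i (x + ε • h) := by rw [fl, fl_flip, fl]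
  have e3 : (ε • h) i = ε * h i := rfl
  have a1 := Xi_ge hG i x (ε • h)
  have a2 := Xi_ge hG i x (flip i (ε • h))
  rw [e2] at a2
  rw [Ex, bad, e]
  split_ifs with hc
  · have a3 := Xi_pair hG i x (ε • h)
    have b1 := Xi_St_le G i x (ε • h)
    have b2 := Xi_St_le G i x (flip i (ε • h))
    rw [e2, t7a_flip_i, abs_neg] at b2
    rw [e3] at a3 b1 b2
    rw [← neg_div]
    refine div_le_div_of_nonneg_right ?_ hε.le
    have c1 := le_max_left 0 (4 * |ε * h i| - d1 (fib G i x) (sh (2 * (ε * h i)) (fib G i x)))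
    have c2 := le_max_right 0 (4 * |ε * h i| - d1 (fib G i x) (sh (2 * (ε * h i)) (fib G i x)))
    rcases max_choice |fl G i x - fl G i (x + ε • h)| (2 * |ε * h i|) with m | m <;> rw [m] at b1 b2 <;> linarith
  · have h0 : fl G i x = 0 ∨ fl G i x = 1 := by
      have := t7a_fl G i x
      by_contra hn
      exact hc ⟨this.1.lt_of_ne' fun k => hn (Or.inl k), this.2.lt_of_ne fun k => hn (Or.inr k)⟩
    have b : ∀ k, Xi (St i G) i x k = |fl G i x - fl G i (x + k)| := fun k => by
      rw [Xi, fib_St, fib_St]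
      exact d1_arc_triv h0 (t7a_fl G i _) _
    rw [b, b, e2, neg_zero]
    exact div_nonneg (by linarith) hε.le

theorem Ex_meas {G : Set E3} (hG : PS G) (i : Fin 3) (ε : ℝ) :
    Measurable fun q : E3 × E3 => Ex G i ε q.1 q.2 := by
  have m1 : Measurable fun q : E3 × E3 => (q.1, ε • q.2) := measurable_fst.prodMk (measurable_snd.const_smul ε)
  have m2 : Measurable fun q : E3 × E3 => (q.1, ε • flip i q.2) :=
    measurable_fst.prodMk (((measurable_flip i).comp measurable_snd).const_smul ε)
  exact (((((hG.Xi_meas i).comp m1).add ((hG.Xi_meas i).comp m2)).sub (((hG.st i).Xi_meas i).comp m1)).sub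
    (((hG.st i).Xi_meas i).comp m2)).div_const ε

theorem bad_meas {G : Set E3} (hG : PS G) (i : Fin 3) (ε : ℝ) :
    Measurable fun q : E3 × E3 => bad G i ε q.1 q.2 := by
  have m1 : Measurable fun q : E3 × E3 => ε * q.2 i := by fun_prop
  exact Measurable.ite (((hG.fl_meas i).comp measurable_fst) measurableSet_Ioo)
    ((measurable_const.max ((m1.abs.const_mul 4).sub
      ((hG.gam_meas i).comp (measurable_fst.prodMk (m1.const_mul 2))))).div_const ε) measurable_const

theorem t7a_bad_le {G : Set E3} (i : Fin 3) {ε c : ℝ} (hε : 0 < ε) (hc : 0 ≤ c) (x h : E3)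
    (H : 0 < fl G i x → fl G i x < 1 →
      (2 - c) * |2 * (ε * h i)| ≤ d1 (fib G i x) (sh (2 * (ε * h i)) (fib G i x))) :
    ‖bad G i ε x h‖ ≤ 2 * c * |h i| := by
  rw [bad]
  split_ifs with hc'
  · have := H hc'.1 hc'.2
    rw [abs_mul, abs_mul, abs_of_pos hε, abs_two] at this
    rw [Real.norm_of_nonneg (div_nonneg (le_max_left _ _) hε.le), div_le_iff₀ hε, abs_mul, abs_of_pos hε]
    exact max_le (by positivity) (by linarith)
  · rw [norm_zero]; positivity

theorem tendsto_bad {G : Set E3} (hG : PS G) (i : Fin 3) :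
    Tendsto (fun ε => ∫ h in ball (0 : E3) 1, ∫ x in cell, bad G i ε x h) (𝓝[>] 0) (𝓝 0) := by
  have : IsFiniteMeasure (volume.restrict cell) := ⟨by simp [volume_cell]⟩
  have : IsFiniteMeasure (volume.restrict (ball (0 : E3) 1)) := ⟨by simp⟩
  have hb : ∀ ε : ℝ, 0 < ε → ∀ x h : E3, ‖bad G i ε x h‖ ≤ 2 * 2 * |h i| := fun ε hε x h =>
    t7a_bad_le i hε two_pos.le x h fun _ _ => by rw [sub_self, zero_mul]; exact len_nonneg _
  have pt : ∀ x h : E3, Tendsto (fun ε => bad G i ε x h) (𝓝[>] 0) (𝓝 0) := fun x h => by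
    refine NormedAddGroup.tendsto_nhds_zero.2 fun η hη => ?_
    have hc : 0 < η / (2 * |h i| + 1) := by positivity
    have t : Tendsto (fun ε : ℝ => 2 * (ε * h i)) (𝓝[>] 0) (𝓝 0) := by
      simpa using ((tendsto_id.mul_const (h i)).const_mul 2).mono_left (nhdsWithin_le_nhds (a := (0 : ℝ)) (s := Ioi 0))
    have ev : ∀ᶠ ε in 𝓝[>] (0 : ℝ), 0 < fl G i x → fl G i x < 1 → (2 - η / (2 * |h i| + 1)) * |2 * (ε * h i)| ≤
        d1 (fib G i x) (sh (2 * (ε * h i)) (fib G i x)) :=
      eventually_imp_distrib_left.2 fun h0 => eventually_imp_distrib_left.2 fun h1 =>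
        t.eventually (liminf_two (hG.fib i x) h0 h1 hc)
    filter_upwards [ev, self_mem_nhdsWithin] with ε h1 hε
    refine (t7a_bad_le i hε hc.le x h h1).trans_lt ?_
    rw [mul_right_comm, mul_div_assoc', div_lt_iff₀ (by positivity)]
    linarith
  have inner : ∀ h : E3, Tendsto (fun ε => ∫ x in cell, bad G i ε x h) (𝓝[>] 0) (𝓝 0) := fun h => by
    simpa using tendsto_integral_filter_of_dominated_convergence (μ := volume.restrict cell) (l := 𝓝[>] (0 : ℝ))
      (fun _ => 2 * 2 * |h i|)
      (Eventually.of_forall fun ε => ((bad_meas hG i ε).comp measurable_prodMk_right).aestronglyMeasurable)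
      (eventually_mem_nhdsWithin.mono fun ε hε => ae_of_all _ fun x => hb ε hε x h) (integrable_const _)
      (ae_of_all _ fun x => pt x h)
  simpa using tendsto_integral_filter_of_dominated_convergence (μ := volume.restrict (ball (0 : E3) 1))
    (l := 𝓝[>] (0 : ℝ)) (fun _ => 4)
    (Eventually.of_forall fun ε => ((bad_meas hG i ε).stronglyMeasurable.integral_prod_left'
      (μ := volume.restrict cell)).aestronglyMeasurable)
    (eventually_mem_nhdsWithin.mono fun ε hε => (ae_restrict_mem measurableSet_ball).mono fun h hh => by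
      refine (norm_integral_le_of_norm_le_const (ae_of_all _ fun x => hb ε hε x h)).trans ?_
      have := (PiLp.norm_apply_le h i).trans (mem_ball_zero_iff.1 hh).le
      rw [Real.norm_eq_abs] at this
      simp only [Measure.real, Measure.restrict_apply_univ, volume_cell, ENNReal.toReal_one]
      linarith) (integrable_const _) (ae_of_all _ inner)

theorem t7b_int {F : E3 → E3 → ℝ} (hm : Measurable fun q : E3 × E3 => F q.1 q.2) {M : ℝ}
    (hb : ∀ x h, ‖h‖ < 1 → |F x h| ≤ M) :
    Integrable (fun q : E3 × E3 => F q.2 q.1)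
      ((volume.restrict (ball (0 : E3) 1)).prod (volume.restrict cell)) := by
  have i1 : IsFiniteMeasure (volume.restrict (ball (0 : E3) 1)) :=
    isFiniteMeasure_restrict.2 measure_ball_lt_top.ne
  have i2 : IsFiniteMeasure (volume.restrict cell) :=
    isFiniteMeasure_restrict.2 (by rw [volume_cell]; simp)
  refine Integrable.of_bound (hm.comp measurable_swap).aestronglyMeasurable M ?_
  rw [Measure.prod_restrict]
  filter_upwards [ae_restrict_mem (measurableSet_ball.prod measurableSet_cell)] with q hq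
  exact hb _ _ (by simpa using hq.1)

theorem t7b_Xi_int {E : Set E3} (hE : PS E) (i : Fin 3) {k : E3 → E3} (hk : Measurable k) :
    Integrable (fun q : E3 × E3 => Xi E i q.2 (k q.1))
      ((volume.restrict (ball (0 : E3) 1)).prod (volume.restrict cell)) := by
  have hp : Measurable fun q : E3 × E3 => ((q.1, k q.2) : E3 × E3) :=
    measurable_fst.prodMk (hk.comp measurable_snd)
  have hm := (hE.Xi_meas i).comp hp
  have hm' : Measurable fun q : E3 × E3 => Xi E i q.1 (k q.2) := by
    simpa only [Function.comp_def] using hm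
  refine t7b_int (F := fun x h => Xi E i x (k h)) hm' (M := 1) fun x h _ => ?_
  have := Xi_mem E i x (k h)
  exact abs_le.2 ⟨by linarith [this.1], this.2⟩

theorem t7b_Xi_eq {E : Set E3} (hE : PS E) (i : Fin 3) {ε : ℝ} (hε : 0 < ε) :
    (∫ q : E3 × E3, Xi E i q.2 (ε • q.1)
      ∂((volume.restrict (ball (0 : E3) 1)).prod (volume.restrict cell)) = ε * NE (ind E) ε) ∧
    (∫ q : E3 × E3, Xi E i q.2 (ε • flip i q.1)
      ∂((volume.restrict (ball (0 : E3) 1)).prod (volume.restrict cell)) = ε * NE (ind E) ε) := by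
  have h1 : ∫ h in ball (0 : E3) 1, ∫ x in cell, Xi E i x (ε • h) = ε * NE (ind E) ε := by
    unfold NE
    simp only [integral_Xi hE i]
    field_simp
  constructor
  · rw [integral_prod _ (t7b_Xi_int hE i (k := fun h => ε • h) (by fun_prop))]
    exact h1
  · rw [integral_prod _ (t7b_Xi_int hE i (k := fun h => ε • flip i h)
      ((measurable_flip i).const_smul ε))]
    rw [← h1]
    exact integral_flip i (fun h => ∫ x in cell, Xi E i x (ε • h))

theorem t7b_Ex_int {G : Set E3} (hG : PS G) (i : Fin 3) (ε : ℝ) :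
    Integrable (fun q : E3 × E3 => Ex G i ε q.2 q.1)
      ((volume.restrict (ball (0 : E3) 1)).prod (volume.restrict cell)) := by
  have a := t7b_Xi_int hG i (k := fun h => ε • h) (by fun_prop)
  have b := t7b_Xi_int hG i (k := fun h => ε • flip i h) ((measurable_flip i).const_smul ε)
  have c := t7b_Xi_int (hG.st i) i (k := fun h => ε • h) (by fun_prop)
  have d := t7b_Xi_int (hG.st i) i (k := fun h => ε • flip i h) ((measurable_flip i).const_smul ε)
  exact (((a.add b).sub c).sub d).div_const ε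

theorem t7b_bad_nonneg (G : Set E3) (i : Fin 3) {ε : ℝ} (hε : 0 < ε) (x h : E3) :
    0 ≤ bad G i ε x h := by
  unfold bad
  split_ifs
  · exact div_nonneg (le_max_left _ _) hε.le
  · exact le_rfl

theorem t7b_bad_int {G : Set E3} (hG : PS G) (i : Fin 3) {ε : ℝ} (hε : 0 < ε) :
    Integrable (fun q : E3 × E3 => bad G i ε q.2 q.1)
      ((volume.restrict (ball (0 : E3) 1)).prod (volume.restrict cell)) := by
  refine t7b_int (bad_meas hG i ε) (M := 4) fun x h hh => ?_
  rw [abs_of_nonneg (t7b_bad_nonneg G i hε x h)]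
  unfold bad
  split_ifs
  · rw [div_le_iff₀ hε]
    refine max_le (by positivity) ?_
    have a : 0 ≤ d1 (fib G i x) (sh (2 * (ε * h i)) (fib G i x)) := len_nonneg _
    have b : |h i| ≤ ‖h‖ := by simpa using PiLp.norm_apply_le h i
    rw [abs_mul, abs_of_pos hε]
    nlinarith
  · norm_num

theorem integral_Ex {G : Set E3} (hG : PS G) (i : Fin 3) {ε : ℝ} (hε : 0 < ε) :
    ∫ h in ball (0 : E3) 1, ∫ x in cell, Ex G i ε x h =
      2 * (NE (ind G) ε - NE (ind (St i G)) ε) := by
  have a := t7b_Xi_int hG i (k := fun h => ε • h) (by fun_prop)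
  have b := t7b_Xi_int hG i (k := fun h => ε • flip i h) ((measurable_flip i).const_smul ε)
  have c := t7b_Xi_int (hG.st i) i (k := fun h => ε • h) (by fun_prop)
  have d := t7b_Xi_int (hG.st i) i (k := fun h => ε • flip i h) ((measurable_flip i).const_smul ε)
  have ab : Integrable (fun q : E3 × E3 => Xi G i q.2 (ε • q.1) + Xi G i q.2 (ε • flip i q.1))
    ((volume.restrict (ball (0 : E3) 1)).prod (volume.restrict cell)) := a.add b
  have abc : Integrable (fun q : E3 × E3 => Xi G i q.2 (ε • q.1) + Xi G i q.2 (ε • flip i q.1) -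
      Xi (St i G) i q.2 (ε • q.1))
    ((volume.restrict (ball (0 : E3) 1)).prod (volume.restrict cell)) := ab.sub c
  have e := integral_prod _ (t7b_Ex_int hG i ε)
  simp only at e
  rw [← e]
  unfold Ex
  rw [integral_div, integral_sub abc d, integral_sub ab c, integral_add a b,
    (t7b_Xi_eq hG i hε).1, (t7b_Xi_eq hG i hε).2, (t7b_Xi_eq (hG.st i) i hε).1,
    (t7b_Xi_eq (hG.st i) i hε).2]
  field_simp
  ring

theorem t7b_sum {G : Set E3} (hG : PS G) (i : Fin 3) {ε : ℝ} (hε : 0 < ε) :
    ∫ q : E3 × E3, (Ex G i ε q.2 q.1 + bad G i ε q.2 q.1)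
      ∂((volume.restrict (ball (0 : E3) 1)).prod (volume.restrict cell)) =
      2 * (NE (ind G) ε - NE (ind (St i G)) ε) +
        ∫ h in ball (0 : E3) 1, ∫ x in cell, bad G i ε x h := by
  rw [integral_add (t7b_Ex_int hG i ε) (t7b_bad_int hG i hε), integral_prod _ (t7b_Ex_int hG i ε),
    integral_prod _ (t7b_bad_int hG i hε), ← integral_Ex hG i hε]

theorem NE_St_le {G : Set E3} (hG : PS G) (i : Fin 3) {η : ℝ} (hη : 0 < η) :
    ∀ᶠ ε in 𝓝[>] (0 : ℝ), NE (ind (St i G)) ε ≤ NE (ind G) ε + η := by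
  filter_upwards [(tendsto_bad hG i).eventually (gt_mem_nhds hη), self_mem_nhdsWithin] with ε h1 hε
  have hε : 0 < ε := hε
  have h2 := t7b_sum hG i hε
  have h3 : 0 ≤ ∫ q : E3 × E3, (Ex G i ε q.2 q.1 + bad G i ε q.2 q.1)
      ∂((volume.restrict (ball (0 : E3) 1)).prod (volume.restrict cell)) :=
    integral_nonneg fun q => by
      have := Ex_ge hG i hε q.2 q.1
      show 0 ≤ Ex G i ε q.2 q.1 + bad G i ε q.2 q.1
      linarith
  linarith

theorem PLe.st {G : Set E3} (hG : PS G) (i : Fin 3) {p : ℝ} (h : PLe G p) : PLe (St i G) p := by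
  intro φ hφ
  refine le_of_mul_le_mul_left (le_of_forall_pos_le_add fun η hη => ?_) c0_pos
  obtain ⟨ε, ⟨h1, h2⟩, hε⟩ := (((NE_lower (hG.st i) hφ (half_pos hη)).and
    (NE_St_le hG i (half_pos hη))).and self_mem_nhdsWithin).exists
  have h3 := NE_le hG h (ε := ε) hε
  linarith

/-- in the equality case the positive part of the excess tends to zero -/
theorem tendsto_Ex {G : Set E3} (hG : PS G) (i : Fin 3) {p : ℝ} (h : PLe G p)
    (h' : PGe (St i G) p) :
    Tendsto (fun ε => ∫⁻ h in ball (0 : E3) 1, ∫⁻ x in cell, ENNReal.ofReal (Ex G i ε x h))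
      (𝓝[>] 0) (𝓝 0) := by
  rw [ENNReal.tendsto_nhds_zero]
  intro η hη
  obtain ⟨r, -, hr0, hr⟩ := ENNReal.lt_iff_exists_real_btwn.1 hη
  have hr0 : 0 < r := ENNReal.ofReal_pos.1 hr0
  have hc := c0_pos
  obtain ⟨φ, hφ, hφ'⟩ := h' (r / 8 / c0) (by positivity)
  filter_upwards [(tendsto_bad hG i).eventually (gt_mem_nhds (half_pos hr0)),
    NE_lower (hG.st i) hφ (η := r / 8) (by positivity), self_mem_nhdsWithin] with ε h1 h2 hε
  have hε : 0 < ε := hε
  have h3 := NE_le hG h hε
  have h4 := t7b_sum hG i hε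
  have h5 : c0 * (p - r / 8 / c0) ≤ c0 * ∫ x in St i G ∩ cell, divergence φ x :=
    mul_le_mul_of_nonneg_left hφ'.le hc.le
  rw [mul_sub, mul_div_cancel₀ _ hc.ne'] at h5
  have hm : Measurable fun q : E3 × E3 => ENNReal.ofReal (Ex G i ε q.2 q.1) :=
    ((Ex_meas hG i ε).comp measurable_swap).ennreal_ofReal
  have e := lintegral_prod (μ := volume.restrict (ball (0 : E3) 1)) (ν := volume.restrict cell) _
    hm.aemeasurable
  simp only at e
  rw [← e]
  have hi : Integrable (fun q : E3 × E3 => Ex G i ε q.2 q.1 + bad G i ε q.2 q.1)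
      ((volume.restrict (ball (0 : E3) 1)).prod (volume.restrict cell)) :=
    (t7b_Ex_int hG i ε).add (t7b_bad_int hG i hε)
  calc _ ≤ ∫⁻ q : E3 × E3, ENNReal.ofReal (Ex G i ε q.2 q.1 + bad G i ε q.2 q.1)
        ∂((volume.restrict (ball (0 : E3) 1)).prod (volume.restrict cell)) :=
        lintegral_mono fun q => ENNReal.ofReal_le_ofReal
          (le_add_of_nonneg_right (t7b_bad_nonneg G i hε _ _))
    _ = ENNReal.ofReal (∫ q : E3 × E3, (Ex G i ε q.2 q.1 + bad G i ε q.2 q.1)
        ∂((volume.restrict (ball (0 : E3) 1)).prod (volume.restrict cell))) :=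
        (ofReal_integral_eq_lintegral_ofReal hi (Eventually.of_forall fun q => by
          have := Ex_ge hG i hε q.2 q.1
          show 0 ≤ Ex G i ε q.2 q.1 + bad G i ε q.2 q.1
          linarith)).symm
    _ ≤ ENNReal.ofReal r := ENNReal.ofReal_le_ofReal (by linarith)
    _ ≤ η := hr.le

end Crest.Agent.R214
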