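import Crest.Agent.R214.T7

/-! Block T8: rigidity of Steiner symmetrisation.
`rig_arcs`: Fatou along `ε = 1/(n+1)`: for a.e. `x ∈ cell` and a.e. `h`, `liminf Ex ≤ 0`, and
`fl G i (x + ε h) = l (x + ε h)` for all `n`.  If the fibre at such an `x` is not an arc, take `h` in the
small ball around `ev i / 2` where `Λ ‖h - h i • ev i‖ ≤ 2 |h i|` (use `inv`): `Xi_pair`, `Xi_St_le`,
`liminf_four` give `Ex ≥ (2 (4 - η) - 4) |h i|` eventually.  Extend by `Per.ae`; `ctr_arc`.
`two_arcs`: one of `tau (c - c' ± r)` is at least `min (tau (c - c')) (η/2) + |r|`; `d1_arc_ge`.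
`rig_q2`: for `b = 1 / (8 (Λ + 1))`, `‖h‖ < b`, `|s| ≤ 1/2` apply `two_arcs` with `k = ε (h + s ev i)`:
`Ex ≥ 2 q - |γ' - 2 |h i + s||` with `γ' ≤ Λ b ≤ 1/8`; on the interval
`h i + s ∈ [γ'/2, γ'/2 + min q (1/4) / 2]` this is at least `q`.  Then
`∫_{ball b} ∫_{|s| ≤ 1/2} F (h + s ev i) ≤ ∫_{ball 1} F` and `exists_lintegral_le`.
`chain`: for `T b > diam K`, `x, x + T h ∈ K`, cut the segment into `n` pieces. -/

set_option autoImplicit false
set_option linter.unusedVariables false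
open MeasureTheory Set Filter Metric
open scoped Topology ENNReal NNReal
open Crest.GeometryTopology.PeriodicPerimeter

noncomputable section
namespace Crest.Agent.R214

/-- truncated distance of the centres, divided by `ε` -/
def qq (c : E3 → ℝ) (η ε : ℝ) (x h : E3) : ℝ := min (tau (c (x + ε • h) - c x)) η / ε

theorem t8a_flip_smul (i : Fin 3) (ε : ℝ) (h : E3) : ε • flip i h = flip i (ε • h) := by
  ext j
  rw [PiLp.smul_apply, flip_apply, flip_apply, PiLp.smul_apply]
  split_ifs <;> simp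

theorem t8a_ae_comp {p : E3 → Prop} (hp : ∀ᵐ y : E3, p y) (x : E3) {ε : ℝ} (hε : ε ≠ 0) :
    ∀ᵐ h : E3, p (x + ε • h) := by
  have h1 : ∀ᵐ y : E3, p (x + y) :=
    (measurePreserving_add_left volume x).quasiMeasurePreserving.ae hp
  rw [ae_iff] at h1 ⊢
  have := Measure.addHaar_preimage_smul (volume : Measure E3) hε {y | ¬ p (x + y)}
  rw [h1, mul_zero] at this
  exact this

theorem t8a_fatou {G : Set E3} (hG : PS G) {i : Fin 3}
    (hT : Tendsto (fun ε => ∫⁻ h in ball (0 : E3) 1, ∫⁻ x in cell, ENNReal.ofReal (Ex G i ε x h))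
      (𝓝[>] 0) (𝓝 0)) :
    ∀ᵐ x ∂(volume.restrict cell), ∀ᵐ h ∂(volume.restrict (ball (0 : E3) 1)),
      liminf (fun n : ℕ => ENNReal.ofReal (Ex G i (1 / ((n : ℝ) + 1)) x h)) atTop = 0 := by
  have hm : ∀ n : ℕ, Measurable fun q : E3 × E3 =>
      ENNReal.ofReal (Ex G i (1 / ((n : ℝ) + 1)) q.1 q.2) := fun n => (Ex_meas hG i _).ennreal_ofReal
  have hε : Tendsto (fun n : ℕ => 1 / ((n : ℝ) + 1)) atTop (𝓝[>] 0) :=
    tendsto_nhdsWithin_iff.2 ⟨tendsto_one_div_add_atTop_nhds_zero_nat,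
      Eventually.of_forall fun n => by simp only [mem_Ioi]; positivity⟩
  have h1 := lintegral_liminf_le
    (μ := (volume.restrict cell).prod (volume.restrict (ball (0 : E3) 1))) (u := atTop) hm
  have h2 : Tendsto (fun n : ℕ => ∫⁻ q : E3 × E3, ENNReal.ofReal (Ex G i (1 / ((n : ℝ) + 1)) q.1 q.2)
      ∂((volume.restrict cell).prod (volume.restrict (ball (0 : E3) 1)))) atTop (𝓝 0) := by
    refine (hT.comp hε).congr fun n => ?_
    rw [lintegral_prod_symm _ (hm n).aemeasurable]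
    rfl
  rw [h2.liminf_eq, nonpos_iff_eq_zero, lintegral_eq_zero_iff (Measurable.liminf hm)] at h1
  exact Measure.ae_ae_of_ae_prod h1

theorem t8a_ev_apply (i : Fin 3) : ev i i = 1 := by simp [ev]

theorem t8a_norm_ev (i : Fin 3) : ‖ev i‖ = 1 := by simp [ev]

theorem rig_arcs {G : Set E3} (hG : PS G) {i : Fin 3} {l : E3 → ℝ} {K : ℕ → Set E3}
    (hR : RigData i l K) (hl : fl G i =ᵐ[volume] l)
    (hT : Tendsto (fun ε => ∫⁻ h in ball (0 : E3) 1, ∫⁻ x in cell, ENNReal.ofReal (Ex G i ε x h))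
      (𝓝[>] 0) (𝓝 0)) :
    ∀ᵐ x : E3, 0 < l x → l x < 1 → fib G i x =ᵐ[volume] arc (ctr (fib G i x)) (l x) := by
  refine Per.ae (p := fun x => 0 < l x → l x < 1 →
    fib G i x =ᵐ[volume] arc (ctr (fib G i x)) (l x))
    (fun v hv x => by simp only [hR.per v hv x, hG.fib_per i v hv x]) ?_
  filter_upwards [t8a_fatou hG hT, ae_restrict_of_ae hl] with x hx hlx h0 h1
  have hlen : len (fib G i x) = l x := hlx
  suffices h : ∃ c, fib G i x =ᵐ[volume] arc c (len (fib G i x)) by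
    obtain ⟨c, hc⟩ := h
    exact ctr_arc h0 h1 (hlen ▸ hc)
  by_contra hn
  have h4 := liminf_four (hG.fib i x) (hlen ▸ h0) (hlen ▸ h1) hn one_pos
  obtain ⟨n, v, hv, hxv⟩ := ((hR.cover x).resolve_right fun h => by rcases h with h | h <;> linarith)
  obtain ⟨δ, Λ, η, hδ, hΛ, -, hlip⟩ := hR.lip n
  set ρ : ℝ := min (1 / 4) (1 / (4 * Λ)) with hρ
  have hρ0 : 0 < ρ := by positivity
  have hρ1 : ρ ≤ 1 / 4 := min_le_left _ _
  have hρ2 : ρ * (4 * Λ) ≤ 1 := (le_div_iff₀ (by positivity)).1 (min_le_right _ _)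
  have hsub : ball ((1 / 2 : ℝ) • ev i) ρ ⊆ ball (0 : E3) 1 := ball_subset_ball' (by
    rw [dist_zero_right, norm_smul, t8a_norm_ev, Real.norm_eq_abs, abs_of_pos (by norm_num)]
    linarith)
  have hε0 : ∀ n : ℕ, 0 < 1 / ((n : ℝ) + 1) := fun n => by positivity
  have ha : ∀ᵐ h : E3, ∀ n : ℕ, fl G i (x + (1 / ((n : ℝ) + 1)) • h) = l (x + (1 / ((n : ℝ) + 1)) • h) :=
    ae_all_iff.2 fun n => t8a_ae_comp hl x (hε0 n).ne'
  obtain ⟨h, hh, hlim, hfl⟩ := Measure.exists_mem_of_measure_ne_zero_of_ae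
    (measure_ball_pos volume ((1 / 2 : ℝ) • ev i) hρ0).ne'
    ((ae_restrict_of_ae_restrict_of_subset hsub hx).and (ae_restrict_of_ae ha))
  rw [mem_ball, dist_eq_norm] at hh
  have hi : |h i - 1 / 2| < ρ := by
    have := PiLp.norm_apply_le (h - (1 / 2 : ℝ) • ev i) i
    rw [PiLp.sub_apply, PiLp.smul_apply, t8a_ev_apply, smul_eq_mul, mul_one, Real.norm_eq_abs] at this
    linarith
  have hi' : 1 / 4 < h i := by linarith [(abs_lt.1 hi).1]
  have hperp : ‖h - h i • ev i‖ ≤ 2 * ρ := by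
    have e : h - h i • ev i = (h - (1 / 2 : ℝ) • ev i) - (h i - 1 / 2) • ev i := by
      rw [sub_smul]; abel
    rw [e]
    refine (norm_sub_le _ _).trans ?_
    rw [norm_smul, t8a_norm_ev, Real.norm_eq_abs]
    linarith
  have hε := tendsto_one_div_add_atTop_nhds_zero_nat (𝕜 := ℝ)
  have h5 : Tendsto (fun n : ℕ => 2 * (1 / ((n : ℝ) + 1) * h i)) atTop (𝓝 0) := by
    simpa using (hε.mul_const (h i)).const_mul 2
  have hev : ∀ᶠ n : ℕ in atTop, ENNReal.ofReal (1 / 2) ≤
      ENNReal.ofReal (Ex G i (1 / ((n : ℝ) + 1)) x h) := by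
    filter_upwards [h5.eventually h4, hε.eventually (ge_mem_nhds hδ)] with n h6 h7
    refine ENNReal.ofReal_le_ofReal ?_
    have hfn := hfl n
    have hε' := hε0 n
    generalize 1 / ((n : ℝ) + 1) = ε at h6 h7 hfn hε'
    have hk : (ε • h) i = ε * h i := rfl
    have hεh : 0 < ε * h i := mul_pos hε' (by linarith)
    have hn1 : ‖x + v + ε • (h - h i • ev i) - (x + v)‖ ≤ ε * (2 * ρ) := by
      rw [add_sub_cancel_left, norm_smul, Real.norm_eq_abs, abs_of_pos hε']
      gcongr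
    have h8 := (hlip _ hxv (x + v + ε • (h - h i • ev i)) (hn1.trans (by nlinarith))).2.2
    have e1 : l (x + v + ε • (h - h i • ev i)) = l (x + ε • h) := by
      rw [← hR.inv _ (ε * h i), ← hR.per v hv (x + ε • h)]
      congr 1
      rw [smul_sub, smul_smul]; abel
    rw [e1, hR.per v hv x] at h8
    have h9 : |fl G i x - fl G i (x + ε • h)| ≤ 2 * (ε * h i) := by
      rw [hlx, hfn, abs_sub_comm]
      refine h8.trans ((mul_le_mul_of_nonneg_left hn1 hΛ.le).trans ?_)
      nlinarith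
    have a1 := Xi_pair hG i x (ε • h)
    have a2 := Xi_St_le G i x (ε • h)
    have a3 := Xi_St_le G i x (flip i (ε • h))
    have e2 : fl G i (x + flip i (ε • h)) = fl G i (x + ε • h) := by simp only [fl, fl_flip]
    rw [e2, flip_apply, if_pos rfl, abs_neg] at a3
    rw [hk, abs_of_pos hεh, max_eq_right h9] at a2 a3
    rw [hk] at a1
    rw [abs_of_pos (by linarith)] at h6
    rw [Ex, t8a_flip_smul, le_div_iff₀ hε']
    nlinarith
  have := le_liminf_of_le (h := hev)
  rw [hlim, nonpos_iff_eq_zero, ENNReal.ofReal_eq_zero] at this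
  linarith

theorem two_arcs {α β η c c' r : ℝ} (hη : 0 < η) (hα : η ≤ α ∧ α ≤ 1 - η)
    (hβ : η ≤ β ∧ β ≤ 1 - η) (hr : |r| ≤ η / 4) :
    |α - β| + 2 * (min (tau (c' - c)) (η / 2) + |r|) ≤
      d1 (arc c α) (sh r (arc c' β)) + d1 (arc c α) (sh (-r) (arc c' β)) := by
  have h1 : ∀ e, |α - β| ≤ d1 (arc c α) (arc e β) := fun e => by
    have := abs_len_sub_le (arc_ps1 c α) (arc_ps1 e β)
    rwa [len_arc c (by linarith) (by linarith), len_arc e (by linarith) (by linarith)] at this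
  have hu := abs_sub_round (c - c')
  have ht : tau (c' - c) = |c - c' - round (c - c')| := by rw [← neg_sub, tau_neg, tau]
  have hm := min_le_left (tau (c' - c)) (η / 2)
  have hm' := min_le_right (tau (c' - c)) (η / 2)
  have h2 : ∀ r' : ℝ, |c - c' - round (c - c') + r'| = |c - c' - round (c - c')| + |r| →
      2 * (min (tau (c' - c)) (η / 2) + |r|) ≤ d1 (arc c α) (arc (c' - r') β) := fun r' h => by
    refine le_trans ?_ (d1_arc_ge hη hα hβ c (c' - r'))
    refine mul_le_mul_of_nonneg_left (le_min (not_lt.1 fun h3 => ?_) (by linarith)) zero_le_two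
    obtain ⟨k, hk⟩ := tau_lt_iff.1 h3
    have e : c - (c' - r') - k = c - c' - round (c - c') + r' - ((k - round (c - c') : ℤ) : ℝ) := by
      push_cast; ring
    rw [e] at hk
    generalize k - round (c - c') = j at hk
    by_cases hj : j = 0
    · simp only [hj, Int.cast_zero, sub_zero] at hk
      linarith
    · have h4 : (1 : ℝ) ≤ |(j : ℝ)| := by exact_mod_cast Int.one_le_abs hj
      have h5 := abs_sub_abs_le_abs_sub (j : ℝ) (c - c' - round (c - c') + r')
      rw [abs_sub_comm] at h5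
      linarith [hα.1, hα.2]
  rw [sh_arc, sh_arc]
  rcases abs_cases (c - c' - round (c - c')) with a | a <;> rcases abs_cases r with b | b
  · linarith [h1 (c' - -r), h2 r (by rw [a.1, b.1, abs_of_nonneg (by linarith)])]
  · linarith [h1 (c' - r), h2 (-r) (by rw [a.1, b.1, abs_of_nonneg (by linarith)])]
  · linarith [h1 (c' - r), h2 (-r) (by rw [a.1, b.1, abs_of_nonpos (by linarith)]; ring)]
  · linarith [h1 (c' - -r), h2 r (by rw [a.1, b.1, abs_of_nonpos (by linarith)]; ring)]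

theorem t8b_pt {G : Set E3} {i : Fin 3} {x h : E3} {ε η c c' s : ℝ} (hε : 0 < ε) (hη : 0 < η)
    (hA : fib G i x =ᵐ[volume] arc c (fl G i x))
    (hB : fib G i (x + ε • h) =ᵐ[volume] arc c' (fl G i (x + ε • h)))
    (hα : η ≤ fl G i x ∧ fl G i x ≤ 1 - η)
    (hβ : η ≤ fl G i (x + ε • h) ∧ fl G i (x + ε • h) ≤ 1 - η) (hr : |ε * (h i + s)| ≤ η / 4) :
    2 * (min (tau (c' - c)) (η / 2) / ε) -
      abs (|fl G i x - fl G i (x + ε • h)| / ε - 2 * |h i + s|) ≤ Ex G i ε x (h + s • ev i) := by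
  have e0 : ε • flip i (h + s • ev i) = flip i (ε • (h + s • ev i)) := by
    simp only [flip, smul_sub, smul_smul, PiLp.smul_apply, smul_eq_mul]; congr 2; ring
  have e1 : (ε • (h + s • ev i)) i = ε * (h i + s) := by simp [ev, mul_add]
  have e2 : flip i (ε • (h + s • ev i)) i = -(ε * (h i + s)) := by rw [flip_apply, if_pos rfl, e1]
  have e3 : fib G i (x + ε • (h + s • ev i)) = fib G i (x + ε • h) := by
    rw [smul_add, smul_smul, ← add_assoc, fib_add_ev]
  have e4 := (fl_flip G i x (ε • (h + s • ev i))).trans e3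
  have a1 := Xi_St_le G i x (ε • (h + s • ev i))
  have a2 := Xi_St_le G i x (flip i (ε • (h + s • ev i)))
  rw [e1, fl, fl, e3] at a1
  rw [e2, fl, fl, e4, abs_neg] at a2
  have a3 := two_arcs (c := c) (c' := c') hη hα hβ hr
  rw [← d1_congr hA (sh_congr hB _), ← d1_congr hA (sh_congr hB _)] at a3
  rw [Ex, e0, le_div_iff₀ hε, Xi, Xi, e1, e2, e3, e4]
  have e5 : (2 * (min (tau (c' - c)) (η / 2) / ε) -
      abs (|fl G i x - fl G i (x + ε • h)| / ε - 2 * |h i + s|)) * ε =
      2 * min (tau (c' - c)) (η / 2) -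
      abs (|fl G i x - fl G i (x + ε • h)| - 2 * |ε * (h i + s)|) := by
    rw [sub_mul, ← abs_of_pos hε, ← abs_mul, abs_of_pos hε, abs_mul ε, abs_of_pos hε]
    congr 1
    · field_simp
    · congr 1; field_simp
  rw [e5]
  simp only [fl] at a3 ⊢
  rcases le_total |len (fib G i x) - len (fib G i (x + ε • h))| (2 * |ε * (h i + s)|) with b | b
  · rw [max_eq_right b] at a1 a2
    rw [abs_of_nonpos (sub_nonpos.2 b)]
    linarith
  · rw [max_eq_left b] at a1 a2
    rw [abs_of_nonneg (sub_nonneg.2 b)]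
    linarith

theorem t8b_int {q g a : ℝ} {f : ℝ → ℝ} (hq : 0 ≤ q) (hg : 0 ≤ g) (hg' : g ≤ 1 / 8)
    (ha : |a| ≤ 1 / 8)
    (hf : ∀ s ∈ Icc (-(1 / 2) : ℝ) (1 / 2), 2 * q - abs (g - 2 * |a + s|) ≤ f s) :
    ENNReal.ofReal (q * min q (1 / 4)) ≤
      2 * ∫⁻ s in Icc (-(1 / 2) : ℝ) (1 / 2), ENNReal.ofReal (f s) := by
  have m0 : 0 ≤ min q (1 / 4) := le_min hq (by norm_num)
  have m1 := min_le_left q (1 / 4)
  have m2 := min_le_right q (1 / 4)
  generalize min q (1 / 4) = m at *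
  rw [abs_le] at ha
  have hs : Icc (g / 2 - a) (g / 2 - a + m / 2) ⊆ Icc (-(1 / 2) : ℝ) (1 / 2) :=
    Icc_subset_Icc (by linarith) (by linarith)
  have h1 : ∫⁻ _ in Icc (g / 2 - a) (g / 2 - a + m / 2), ENNReal.ofReal q ≤
      ∫⁻ s in Icc (g / 2 - a) (g / 2 - a + m / 2), ENNReal.ofReal (f s) :=
    setLIntegral_mono' measurableSet_Icc fun s hs' => ENNReal.ofReal_le_ofReal <| by
      have := hf s (hs hs')
      rw [abs_of_nonneg (a := a + s) (by linarith [hs'.1]),
        abs_of_nonpos (by linarith [hs'.1])] at this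
      linarith [hs'.2]
  rw [setLIntegral_const, Real.volume_Icc, add_sub_cancel_left, ← ENNReal.ofReal_mul hq] at h1
  have e : ENNReal.ofReal (q * m) = 2 * ENNReal.ofReal (q * (m / 2)) := by
    rw [← ENNReal.ofReal_ofNat 2, ← ENNReal.ofReal_mul zero_le_two]; congr 1; ring
  rw [e]
  gcongr
  exact h1.trans (lintegral_mono_set hs)

theorem rig_q2 {G : Set E3} (hG : PS G) {i : Fin 3} {l : E3 → ℝ} {K : ℕ → Set E3}
    (hR : RigData i l K) (hl : fl G i =ᵐ[volume] l)
    (hT : Tendsto (fun ε => ∫⁻ h in ball (0 : E3) 1, ∫⁻ x in cell, ENNReal.ofReal (Ex G i ε x h))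
      (𝓝[>] 0) (𝓝 0)) (n : ℕ) :
    ∃ b η : ℝ, 0 < b ∧ 0 < η ∧ Tendsto (fun ε => ∫⁻ h in ball (0 : E3) b, ∫⁻ x in K n,
      ENNReal.ofReal (qq (fun y => ctr (fib G i y)) η ε x h *
        min (qq (fun y => ctr (fib G i y)) η ε x h) (1 / 4))) (𝓝[>] 0) (𝓝 0) := by
  obtain ⟨δ, Λ, η, hδ, hΛ, hη, hK⟩ := hR.lip n
  obtain ⟨C, hC⟩ := exists_lintegral_le (hR.cpt n).isBounded
  have hb : 1 / (8 * (Λ + 1)) ≤ 1 / 8 := by gcongr; linarith
  have hb' : Λ * (1 / (8 * (Λ + 1))) ≤ 1 / 8 := by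
    rw [mul_one_div, div_le_div_iff₀ (by positivity) (by norm_num)]; linarith
  refine ⟨1 / (8 * (Λ + 1)), η / 2, by positivity, by positivity, ?_⟩
  generalize 1 / (8 * (Λ + 1)) = b at hb hb'
  have hP : ∀ᵐ x : E3, fl G i x = l x ∧ (0 < l x → l x < 1 →
      fib G i x =ᵐ[volume] arc (ctr (fib G i x)) (l x)) := hl.and (rig_arcs hG hR hl hT)
  have lim := ENNReal.Tendsto.const_mul (a := 2 * (C : ℝ≥0∞)) hT
    (Or.inr (ENNReal.mul_ne_top (by simp) (by simp)))
  rw [mul_zero] at lim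
  refine tendsto_of_tendsto_of_tendsto_of_le_of_le' tendsto_const_nhds lim
    (Eventually.of_forall fun _ => zero_le) ?_
  filter_upwards [Ioo_mem_nhdsGT (lt_min hδ (show 0 < η / 4 by positivity))] with ε hε
  have ε0 := hε.1
  have ε1 := hε.2.trans_le (min_le_left _ _)
  have ε2 := hε.2.trans_le (min_le_right _ _)
  have hm : Measurable fun q : E3 × E3 => ENNReal.ofReal (Ex G i ε q.1 q.2) :=
    (Ex_meas hG i ε).ennreal_ofReal
  have hF : Measurable fun h : E3 => ∫⁻ x in cell, ENNReal.ofReal (Ex G i ε x h) :=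
    hm.lintegral_prod_left'
  have step : ∀ h ∈ ball (0 : E3) b, ∫⁻ x in K n,
      ENNReal.ofReal (qq (fun y => ctr (fib G i y)) (η / 2) ε x h *
        min (qq (fun y => ctr (fib G i y)) (η / 2) ε x h) (1 / 4)) ≤
      2 * C * ∫⁻ s in Icc (-(1 / 2) : ℝ) (1 / 2),
        ∫⁻ x in cell, ENNReal.ofReal (Ex G i ε x (h + s • ev i)) := fun h hh => by
    rw [mem_ball_zero_iff] at hh
    have hi : |h i| ≤ 1 / 8 := ((PiLp.norm_apply_le h i).trans hh.le).trans hb
    have hn : ∀ x : E3, ‖x + ε • h - x‖ = ε * ‖h‖ := fun x => by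
      rw [add_sub_cancel_left, norm_smul, Real.norm_of_nonneg ε0.le]
    calc _ ≤ ∫⁻ x in K n, 2 * ∫⁻ s in Icc (-(1 / 2) : ℝ) (1 / 2),
          ENNReal.ofReal (Ex G i ε x (h + s • ev i)) := by
          refine setLIntegral_mono_ae' (hR.cpt n).measurableSet ?_
          filter_upwards [hP, (measurePreserving_add_right volume (ε • h)).quasiMeasurePreserving.ae hP]
            with x p1 p2 hx
          obtain ⟨k1, k2, -⟩ := hK x hx x (by simpa using hδ.le)
          obtain ⟨k3, k4, k5⟩ := hK x hx (x + ε • h) (by rw [hn]; nlinarith [norm_nonneg h])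
          have f1 := p1.2 (by linarith) (by linarith)
          have f2 := p2.2 (by linarith) (by linarith)
          rw [← p1.1] at k1 k2 f1 k5
          rw [← p2.1] at k3 k4 f2 k5
          refine t8b_int (g := |fl G i x - fl G i (x + ε • h)| / ε) (a := h i)
            (div_nonneg (le_min (tau_nonneg _) (by positivity)) ε0.le) (by positivity) ?_ hi
            fun s hs => t8b_pt ε0 hη f1 f2 ⟨k1, k2⟩ ⟨k3, k4⟩ ?_
          · rw [div_le_iff₀ ε0, abs_sub_comm]
            rw [hn] at k5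
            nlinarith [mul_le_mul_of_nonneg_left hh.le hΛ.le]
          · rw [abs_mul, abs_of_pos ε0]
            have : |h i + s| ≤ 1 := (abs_add_le _ _).trans (by linarith [abs_le.2 hs])
            nlinarith
      _ = 2 * ∫⁻ s in Icc (-(1 / 2) : ℝ) (1 / 2), ∫⁻ x in K n,
          ENNReal.ofReal (Ex G i ε x (h + s • ev i)) := by
          rw [lintegral_const_mul' _ _ (by simp), lintegral_lintegral_swap]
          exact (hm.comp (f := fun q : E3 × ℝ => (q.1, h + q.2 • ev i)) (by fun_prop)).aemeasurable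
      _ ≤ _ := by
          rw [mul_assoc, ← lintegral_const_mul' (C : ℝ≥0∞) _ (by simp)]
          refine mul_le_mul_right (lintegral_mono fun s => hC _ fun v hv x => ?_) _
          simp only [Ex, hG.Xi_per i _ v hv x, (hG.st i).Xi_per i _ v hv x]
  refine (setLIntegral_mono' measurableSet_ball step).trans ?_
  rw [lintegral_const_mul' _ _ (ENNReal.mul_ne_top (by simp) (by simp)), lintegral_lintegral_swap]
  swap
  · exact (hF.comp (f := fun q : E3 × ℝ => q.1 + q.2 • ev i) (by fun_prop)).aemeasurable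
  refine mul_le_mul_right ?_ _
  calc _ ≤ ∫⁻ _ in Icc (-(1 / 2) : ℝ) (1 / 2), ∫⁻ h in ball (0 : E3) 1,
        ∫⁻ x in cell, ENNReal.ofReal (Ex G i ε x h) := by
        refine setLIntegral_mono' measurableSet_Icc fun s hs => ?_
        have e := (measurePreserving_add_right volume (s • ev i)).setLIntegral_comp_preimage
          (measurableSet_ball (x := (0 : E3)) (ε := 1)) hF
        rw [← e]
        refine lintegral_mono_set fun h hh => ?_
        rw [mem_ball_zero_iff] at hh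
        rw [mem_preimage, mem_ball_zero_iff]
        refine (norm_add_le _ _).trans_lt ?_
        have : ‖ev i‖ = 1 := by simp [ev]
        rw [norm_smul, this, Real.norm_eq_abs]
        linarith [abs_le.2 hs]
    _ = _ := by rw [setLIntegral_const, Real.volume_Icc]; norm_num

theorem t8c_split {q θ : ℝ} (hq : 0 ≤ q) (hθ : 0 < θ) (hθ' : θ ≤ 1 / 4) :
    ENNReal.ofReal q ≤ ENNReal.ofReal θ + ENNReal.ofReal θ⁻¹ * ENNReal.ofReal (q * min q (1 / 4)) := by
  have hm : 0 ≤ q * min q (1 / 4) := mul_nonneg hq (le_min hq (by norm_num))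
  rw [← ENNReal.ofReal_mul (by positivity), ← ENNReal.ofReal_add hθ.le (by positivity)]
  refine ENNReal.ofReal_le_ofReal ?_
  rcases le_total q θ with h | h
  · have : 0 ≤ θ⁻¹ * (q * min q (1 / 4)) := by positivity
    linarith
  · have h1 : q * θ ≤ q * min q (1 / 4) := mul_le_mul_of_nonneg_left (le_min h hθ') hq
    have h2 : q ≤ θ⁻¹ * (q * min q (1 / 4)) := by
      rw [← div_eq_inv_mul, le_div_iff₀ hθ]; exact h1
    linarith

theorem q_of_q2 {c : E3 → ℝ} (hc : Measurable c) {K : Set E3} (hK : IsCompact K) {b η : ℝ}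
    (hη : 0 < η)
    (h : Tendsto (fun ε => ∫⁻ h in ball (0 : E3) b, ∫⁻ x in K,
      ENNReal.ofReal (qq c η ε x h * min (qq c η ε x h) (1 / 4))) (𝓝[>] 0) (𝓝 0)) :
    Tendsto (fun ε => ∫⁻ h in ball (0 : E3) b, ∫⁻ x in K, ENNReal.ofReal (qq c η ε x h))
      (𝓝[>] 0) (𝓝 0) := by
  rw [ENNReal.tendsto_nhds_zero]
  intro e he
  have hV : volume K * volume (ball (0 : E3) b) ≠ ⊤ :=
    ENNReal.mul_ne_top hK.measure_lt_top.ne measure_ball_lt_top.ne
  have he2 : 0 < e / 2 := ENNReal.half_pos he.ne'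
  have t1 : Tendsto (fun θ : ℝ => ENNReal.ofReal θ * (volume K * volume (ball (0 : E3) b)))
      (𝓝[>] 0) (𝓝 0) := by
    have := ENNReal.Tendsto.mul_const (b := volume K * volume (ball (0 : E3) b))
      ((ENNReal.continuous_ofReal.tendsto 0).mono_left (nhdsWithin_le_nhds (s := Ioi (0 : ℝ))))
      (Or.inr hV)
    simpa using this
  obtain ⟨θ, hθ1, hθ⟩ := (((ENNReal.tendsto_nhds_zero.1 t1) _ he2).and
    (Ioc_mem_nhdsGT (show (0 : ℝ) < 1 / 4 by norm_num))).exists
  have t2 := ENNReal.Tendsto.const_mul (a := ENNReal.ofReal θ⁻¹) h (Or.inr ENNReal.ofReal_ne_top)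
  rw [mul_zero] at t2
  filter_upwards [(ENNReal.tendsto_nhds_zero.1 t2) _ he2, self_mem_nhdsWithin] with ε h1 hε
  have hε' : (0 : ℝ) < ε := hε
  calc _ ≤ ∫⁻ h in ball (0 : E3) b, (ENNReal.ofReal θ * volume K + ENNReal.ofReal θ⁻¹ *
        ∫⁻ x in K, ENNReal.ofReal (qq c η ε x h * min (qq c η ε x h) (1 / 4))) := by
        refine lintegral_mono fun h => ?_
        rw [← lintegral_const_mul' _ _ ENNReal.ofReal_ne_top, ← setLIntegral_const,
          ← lintegral_add_left measurable_const]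
        exact lintegral_mono fun x => t8c_split
          (div_nonneg (le_min (tau_nonneg _) hη.le) hε'.le) hθ.1 hθ.2
    _ ≤ e / 2 + e / 2 := by
        rw [lintegral_add_left measurable_const, setLIntegral_const, mul_assoc,
          lintegral_const_mul' _ _ ENNReal.ofReal_ne_top]
        exact add_le_add hθ1 h1
    _ = e := ENNReal.add_halves e

theorem t8c_sub (a : ℕ → ℝ) {η : ℝ} (hη : 0 < η) (n : ℕ) :
    min (tau (a n - a 0)) η ≤ ∑ k ∈ Finset.range n, min (tau (a (k + 1) - a k)) η := by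
  induction n with
  | zero =>
    have : tau 0 = 0 := tau_eq_zero.2 ⟨0, by simp⟩
    simp [this]
  | succ n ih =>
    rw [Finset.sum_range_succ]
    have h1 := tau_add_le (a n - a 0) (a (n + 1) - a n)
    rw [show a n - a 0 + (a (n + 1) - a n) = a (n + 1) - a 0 by ring] at h1
    have h2 := tau_nonneg (a n - a 0)
    have h3 := tau_nonneg (a (n + 1) - a n)
    have : min (tau (a (n + 1) - a 0)) η ≤
        min (tau (a n - a 0)) η + min (tau (a (n + 1) - a n)) η := by
      simp only [min_def]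
      split_ifs <;> linarith
    linarith

theorem t8c_step {c : E3 → ℝ} (hc : Measurable c) {K : Set E3} (hK : MeasurableSet K)
    (hK' : Convex ℝ K) {η T : ℝ} (hη : 0 < η) (hT : 0 < T) (n : ℕ) (h : E3) :
    ∫⁻ x, {q : E3 × E3 | q.1 ∈ K ∧ q.1 + T • q.2 ∈ K}.indicator
        (fun q => ENNReal.ofReal (min (tau (c (q.1 + T • q.2) - c q.1)) η)) (x, h) ≤
      ENNReal.ofReal T * ∫⁻ x in K, ENNReal.ofReal (qq c η (T * (1 / ((n : ℝ) + 1))) x h) := by
  set ε : ℝ := T * (1 / ((n : ℝ) + 1)) with hε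
  have hn : (0 : ℝ) < (n : ℝ) + 1 := by positivity
  have ε0 : 0 < ε := by positivity
  have hεn : ((n : ℝ) + 1) * ε = T := by rw [hε]; field_simp
  set G : E3 → ℝ≥0∞ := K.indicator
    (fun y => ENNReal.ofReal (min (tau (c (y + ε • h) - c y)) η)) with hG
  have hGm : Measurable G := by
    refine Measurable.indicator (Measurable.ennreal_ofReal (Measurable.min ?_ measurable_const)) hK
    exact tau_lip.continuous.measurable.comp ((hc.comp (by fun_prop)).sub hc)
  calc _ ≤ ∫⁻ x, ∑ k ∈ Finset.range (n + 1), G (x + ((k : ℝ) * ε) • h) := by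
        refine lintegral_mono fun x => ?_
        by_cases hx : (x, h) ∈ {q : E3 × E3 | q.1 ∈ K ∧ q.1 + T • q.2 ∈ K}
        swap
        · rw [indicator_of_notMem hx]; exact zero_le
        rw [indicator_of_mem hx]
        have h1 := t8c_sub (fun k : ℕ => c (x + ((k : ℝ) * ε) • h)) hη (n + 1)
        simp only [Nat.cast_zero, zero_mul, zero_smul, add_zero] at h1
        rw [Nat.cast_succ, hεn] at h1
        refine (ENNReal.ofReal_le_ofReal h1).trans (le_of_eq ?_)
        rw [ENNReal.ofReal_sum_of_nonneg fun k _ => le_min (tau_nonneg _) hη.le]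
        refine Finset.sum_congr rfl fun k hk => ?_
        have hk' : (k : ℝ) ≤ n + 1 := by
          have := Finset.mem_range.1 hk
          exact_mod_cast this.le
        have hmem : x + ((k : ℝ) * ε) • h ∈ K := by
          have := hK'.add_smul_mem hx.1 hx.2 (t := (k : ℝ) / ((n : ℝ) + 1))
            ⟨by positivity, (div_le_one hn).2 hk'⟩
          rwa [smul_smul, show (k : ℝ) / ((n : ℝ) + 1) * T = k * ε by rw [hε]; ring] at this
        rw [hG, indicator_of_mem hmem, Nat.cast_succ, add_mul, one_mul, add_smul, add_assoc]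
    _ = ∑ k ∈ Finset.range (n + 1), ∫⁻ x, G x := by
        rw [lintegral_finsetSum (f := fun (k : ℕ) (x : E3) => G (x + ((k : ℝ) * ε) • h)) _
          fun k _ => hGm.comp (measurable_add_const _)]
        exact Finset.sum_congr rfl fun k _ => lintegral_add_right_eq_self G _
    _ = _ := by
        rw [Finset.sum_const, Finset.card_range, nsmul_eq_mul, hG, lintegral_indicator hK,
          ← lintegral_const_mul' _ _ (ENNReal.natCast_ne_top _),
          ← lintegral_const_mul' _ _ ENNReal.ofReal_ne_top]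
        refine lintegral_congr fun x => ?_
        rw [← ENNReal.ofReal_natCast, ← ENNReal.ofReal_mul (by positivity),
          ← ENNReal.ofReal_mul hT.le, qq, ← hεn]
        congr 1
        push_cast
        field_simp

theorem chain {c : E3 → ℝ} (hc : Measurable c) {K : Set E3} (hK : IsCompact K)
    (hK' : Convex ℝ K) {b η : ℝ} (hb : 0 < b) (hη : 0 < η)
    (h : Tendsto (fun ε => ∫⁻ h in ball (0 : E3) b, ∫⁻ x in K, ENNReal.ofReal (qq c η ε x h))
      (𝓝[>] 0) (𝓝 0)) :
    ∀ᵐ x : E3, x ∈ K → ∀ᵐ y : E3, y ∈ K → tau (c y - c x) = 0 := by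
  set T : ℝ := (diam K + 1) / b with hT
  have hd : 0 ≤ diam K := diam_nonneg
  have T0 : 0 < T := by positivity
  have hKm := hK.measurableSet
  set F : E3 × E3 → ℝ≥0∞ := {q : E3 × E3 | q.1 ∈ K ∧ q.1 + T • q.2 ∈ K}.indicator
    (fun q => ENNReal.ofReal (min (tau (c (q.1 + T • q.2) - c q.1)) η)) with hF
  have hFm : Measurable F := by
    refine Measurable.indicator (Measurable.ennreal_ofReal (Measurable.min ?_ measurable_const))
      ((measurable_fst hKm).inter ((by fun_prop : Measurable fun q : E3 × E3 => q.1 + T • q.2) hKm))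
    exact tau_lip.continuous.measurable.comp
      ((hc.comp (by fun_prop)).sub (hc.comp measurable_fst))
  have hε : Tendsto (fun n : ℕ => T * (1 / ((n : ℝ) + 1))) atTop (𝓝[>] 0) :=
    tendsto_nhdsWithin_iff.2 ⟨by simpa using tendsto_one_div_add_atTop_nhds_zero_nat.const_mul T,
      Eventually.of_forall fun n => by simp only [mem_Ioi]; positivity⟩
  have lim := ENNReal.Tendsto.const_mul (a := ENNReal.ofReal T) (h.comp hε)
    (Or.inr ENNReal.ofReal_ne_top)
  rw [mul_zero] at lim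
  have h0 : ∫⁻ h in ball (0 : E3) b, ∫⁻ x, F (x, h) ≤ 0 := ge_of_tendsto' lim fun n => by
    simp only [Function.comp]
    rw [← lintegral_const_mul' _ _ ENNReal.ofReal_ne_top]
    exact lintegral_mono fun h => t8c_step hc hKm hK' hη T0 n h
  rw [← lintegral_prod_symm' F hFm, nonpos_iff_eq_zero, lintegral_eq_zero_iff hFm] at h0
  filter_upwards [Measure.ae_ae_of_ae_prod h0] with x hx hxK
  rw [ae_restrict_iff' measurableSet_ball] at hx
  filter_upwards [t8a_ae_comp hx (-(T⁻¹ • x)) (inv_ne_zero T0.ne')] with y hy hyK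
  have e : x + T • (-(T⁻¹ • x) + T⁻¹ • y) = y := by
    rw [smul_add, smul_neg, smul_inv_smul₀ T0.ne', smul_inv_smul₀ T0.ne']; abel
  have hm : -(T⁻¹ • x) + T⁻¹ • y ∈ ball (0 : E3) b := by
    rw [mem_ball_zero_iff, neg_add_eq_sub, ← smul_sub, norm_smul, Real.norm_of_nonneg (by positivity),
      ← div_eq_inv_mul, div_lt_iff₀ T0, hT, mul_div_cancel₀ _ hb.ne', ← dist_eq_norm]
    linarith [dist_le_diam_of_mem hK.isBounded hyK hxK]
  have h1 : F (x, -(T⁻¹ • x) + T⁻¹ • y) = 0 := hy hm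
  rw [hF, indicator_of_mem (show (x, -(T⁻¹ • x) + T⁻¹ • y) ∈
    {q : E3 × E3 | q.1 ∈ K ∧ q.1 + T • q.2 ∈ K} from ⟨hxK, by simpa only [e] using hyK⟩)] at h1
  simp only [e, ENNReal.ofReal_eq_zero, min_le_iff] at h1
  exact le_antisymm (h1.resolve_right (not_le.2 hη)) (tau_nonneg _)

theorem const_of_chain {c : E3 → ℝ} {K : ℕ → Set E3} (hK : Monotone K)
    (h : ∀ n, ∀ᵐ x : E3, x ∈ K n → ∀ᵐ y : E3, y ∈ K n → tau (c y - c x) = 0) :
    ∃ a : ℝ, ∀ᵐ y : E3, ∀ n, y ∈ K n → tau (c y - a) = 0 := by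
  by_cases h0 : ∀ n, volume (K n) = 0
  · refine ⟨0, ae_all_iff.2 fun n => ?_⟩
    filter_upwards [measure_eq_zero_iff_ae_notMem.1 (h0 n)] with y hy hy'
    exact absurd hy' hy
  push Not at h0
  obtain ⟨m, hm⟩ := h0
  obtain ⟨x, hx, hx'⟩ := Measure.exists_mem_of_measure_ne_zero_of_ae hm
    (ae_restrict_of_ae (ae_all_iff.2 h))
  refine ⟨c x, ae_all_iff.2 fun n => ?_⟩
  filter_upwards [hx' (max n m) (hK (le_max_right n m) hx)] with y hy hy'
  exact hy (hK (le_max_left n m) hy')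

theorem steiner_rigid {G : Set E3} (hG : PS G) {i : Fin 3} {p : ℝ} (h : PLe G p)
    (h' : PGe (St i G) p) {l : E3 → ℝ} {K : ℕ → Set E3} (hR : RigData i l K)
    (hl : fl G i =ᵐ[volume] l) :
    ∃ a : ℝ, G =ᵐ[volume] {x : E3 | tau (x i - a) < l x / 2} := by
  have hT := tendsto_Ex hG i h h'
  obtain ⟨a, ha⟩ := const_of_chain (c := fun y => ctr (fib G i y)) hR.mono fun n => by
    obtain ⟨b, η, hb, hη, hq⟩ := rig_q2 hG hR hl hT n
    exact chain (hG.ctr_meas i) (hR.cpt n) (hR.cvx n) hb hη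
      (q_of_q2 (hG.ctr_meas i) (hR.cpt n) hη hq)
  have hF : PS {x : E3 | tau (x i - a) < l x / 2} := by
    refine ⟨measurableSet_lt (tau_lip.continuous.measurable.comp (by fun_prop))
      (hR.meas.div_const 2), fun v hv x => ?_⟩
    obtain ⟨m, hm⟩ := hv i
    simp only [mem_ofPred_eq, hR.per v hv x, PiLp.add_apply, hm]
    rw [add_sub_right_comm, tau_add_int]
  have hfib : ∀ x, fib {x : E3 | tau (x i - a) < l x / 2} i x = arc a (l x) := fun x => by
    ext s
    simp only [fib, arc, mem_ofPred_eq, hR.inv, PiLp.add_apply, PiLp.smul_apply, t8a_ev_apply,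
      smul_eq_mul, mul_one, add_sub_cancel]
  have ha' : ∀ᵐ x : E3, ∀ k : Fin 3 → ℤ, ∀ n, x + WithLp.toLp 2 (fun j => (k j : ℝ)) ∈ K n →
      tau (ctr (fib G i (x + WithLp.toLp 2 fun j => (k j : ℝ))) - a) = 0 :=
    ae_all_iff.2 fun k => (measurePreserving_add_right volume _).quasiMeasurePreserving.ae ha
  refine ⟨a, ae_eq_of_fib hG hF i ?_⟩
  filter_upwards [ha', hl, rig_arcs hG hR hl hT] with x h1 h2 h3
  have h2' : len (fib G i x) = l x := h2
  rw [hfib]
  rcases hR.cover x with ⟨n, v, hv, hxv⟩ | h0 | h0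
  · obtain ⟨δ, Λ, η, hδ, -, hη, hK⟩ := hR.lip n
    obtain ⟨k1, k2, -⟩ := hK _ hxv (x + v) (by simpa using hδ.le)
    rw [hR.per v hv x] at k1 k2
    have hv' := hv
    choose k hk using hv'
    have e : v = WithLp.toLp 2 fun j => (k j : ℝ) := by ext j; exact hk j
    have h4 := h1 k n (e ▸ hxv)
    rw [← e, hG.fib_per i v hv x, tau_eq_zero] at h4
    obtain ⟨m, hm⟩ := h4
    have e2 : arc a (l x) = arc (ctr (fib G i x)) (l x) := by
      ext s
      simp only [arc, mem_ofPred_eq]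
      rw [← tau_add_int (s - ctr (fib G i x)) m, ← hm, sub_add_sub_cancel]
    rw [e2]
    exact h3 (by linarith) (by linarith)
  · refine (ae_empty_of_len (hG.fib i x) (h2'.trans h0)).trans
      (ae_empty_of_len (arc_ps1 _ _) ?_).symm
    rw [h0, len_arc a le_rfl zero_le_one]
  · refine (ae_univ_of_len (hG.fib i x) (h2'.trans h0)).trans
      (ae_univ_of_len (arc_ps1 _ _) ?_).symm
    rw [h0, len_arc a zero_le_one le_rfl]

end Crest.Agent.R214
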